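import Mathlib

/-!
# P140: the hard-sphere Boltzmann equation on `T^3 × R^3`, mild solutions

Densities are functions with values in `[0,∞]`.
-/

namespace Vale.Agent.Lib.P140

open MeasureTheory
open scoped ENNReal RealInnerProductSpace

/-- Velocity space: Euclidean three-space. -/
abbrev V : Type := EuclideanSpace ℝ (Fin 3)

/-- The torus `T^3 = R^3 / Z^3 = (R/Z)^3`, with its Haar (Lebesgue) probability measure. -/
abbrev Torus : Type := Fin 3 → UnitAddCircle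

/-- The unit sphere `S^2`. -/
abbrev Sph : Type := Metric.sphere (0 : V) 1

/-- The surface measure on `S^2`. -/
noncomputable def surf : Measure Sph := (volume : Measure V).toSphere

/-- `a = (v - v_*) · ω`. -/
noncomputable def collA (v vs ω : V) : ℝ := ⟪v - vs, ω⟫

/-- `v' = v - a ω`. -/
noncomputable def vPrime (v vs ω : V) : V := v - collA v vs ω • ω

/-- `v_*' = v_* + a ω`. -/
noncomputable def vsPrime (v vs ω : V) : V := vs + collA v vs ω • ω

/-- The gain term `Q^+(f,f)(x,v) = ∫ |a| f(x,v') f(x,v_*') dv_* dω`. -/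
noncomputable def gain (f : Torus × V → ℝ≥0∞) (z : Torus × V) : ℝ≥0∞ :=
  ∫⁻ vs : V, ∫⁻ ω : Sph, ENNReal.ofReal |collA z.2 vs ω| *
    (f (z.1, vPrime z.2 vs ω) * f (z.1, vsPrime z.2 vs ω)) ∂surf

/-- The loss term `Q^-(f,f)(x,v) = ∫ |a| f(x,v) f(x,v_*) dv_* dω`. -/
noncomputable def loss (f : Torus × V → ℝ≥0∞) (z : Torus × V) : ℝ≥0∞ :=
  ∫⁻ vs : V, ∫⁻ ω : Sph, ENNReal.ofReal |collA z.2 vs ω| * (f z * f (z.1, vs)) ∂surf

/-- The projection `R^3 → T^3`. -/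
def proj (y : V) : Torus := fun i => ((y i : ℝ) : UnitAddCircle)

/-- The free transport flow `(x,v) ↦ (x + s v, v)` on `T^3 × R^3`. -/
noncomputable def flow (s : ℝ) (z : Torus × V) : Torus × V := (z.1 + proj (s • z.2), z.2)

/-- `F` is a mild solution (in the sense of DiPerna and Lions) of the hard-sphere Boltzmann
equation on `[0,∞) × T^3 × R^3` with datum `F0`: `F` is measurable, along almost every
characteristic the gain and loss terms are locally integrable in time, and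
`F(t, x + t v, v) + ∫_0^t Q^-(s, x + s v, v) ds = F0(x,v) + ∫_0^t Q^+(s, x + s v, v) ds`. -/
structure IsMildSolution (F0 : Torus × V → ℝ≥0∞) (F : ℝ → Torus × V → ℝ≥0∞) : Prop where
  meas : Measurable (Function.uncurry F)
  gain_fin : ∀ T : ℝ, ∀ᵐ z : Torus × V, ∫⁻ s in Set.Ioc 0 T, gain (F s) (flow s z) < ∞
  loss_fin : ∀ T : ℝ, ∀ᵐ z : Torus × V, ∫⁻ s in Set.Ioc 0 T, loss (F s) (flow s z) < ∞
  eqn : ∀ t : ℝ, 0 ≤ t → ∀ᵐ z : Torus × V,
    F t (flow t z) + ∫⁻ s in Set.Ioc 0 t, loss (F s) (flow s z) =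
      F0 z + ∫⁻ s in Set.Ioc 0 t, gain (F s) (flow s z)

/-- The total mass `∫_Ω f`. -/
noncomputable def mass (f : Torus × V → ℝ≥0∞) : ℝ≥0∞ := ∫⁻ z, f z

/-- The total energy `∫_Ω |v|^2 f`. -/
noncomputable def energy (f : Torus × V → ℝ≥0∞) : ℝ≥0∞ := ∫⁻ z, ENNReal.ofReal (‖z.2‖ ^ 2) * f z

/-- The local second moment `∫ (1 + |v|^2) f(x,v) dv`. -/
noncomputable def secondMoment (f : Torus × V → ℝ≥0∞) (x : Torus) : ℝ≥0∞ :=
  ∫⁻ v : V, ENNReal.ofReal (1 + ‖v‖ ^ 2) * f (x, v)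

/-- The local third moment `∫ (1 + |v|)^3 f(x,v) dv`. -/
noncomputable def thirdMoment (f : Torus × V → ℝ≥0∞) (x : Torus) : ℝ≥0∞ :=
  ∫⁻ v : V, ENNReal.ofReal ((1 + ‖v‖) ^ 3) * f (x, v)

/-- The (unnormalised) global Maxwellian `ρ exp(-|v-u|^2/(2θ))`. -/
noncomputable def maxw (ρ θ : ℝ) (u : V) (z : Torus × V) : ℝ≥0∞ :=
  ENNReal.ofReal (ρ * Real.exp (-(‖z.2 - u‖ ^ 2) / (2 * θ)))

end Vale.Agent.Lib.P140
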