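import Mathlib
import Vale.Agent.Lib.P140.Defs

/-!
# The free transport flow on `T^3 × R^3`
-/

namespace Vale.Agent.Lib.P140

open MeasureTheory
open scoped ENNReal

lemma proj_add (y y' : V) : proj (y + y') = proj y + proj y' := by
  funext i
  simp [proj]

lemma proj_zero : proj 0 = 0 := by
  funext i
  simp [proj]

lemma continuous_proj : Continuous proj := by
  refine continuous_pi fun i => ?_
  exact (AddCircle.continuous_mk' (1 : ℝ)).comp
    ((continuous_apply i).comp (PiLp.continuous_ofLp 2 (fun _ : Fin 3 => ℝ)))

lemma flow_zero (z : Torus × V) : flow 0 z = z := by
  simp [flow, proj_zero]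

lemma flow_flow (s t : ℝ) (z : Torus × V) : flow s (flow t z) = flow (s + t) z := by
  simp only [flow]
  rw [add_smul, proj_add, add_assoc, add_comm (proj (t • z.2))]

lemma continuous_flow : Continuous (fun p : ℝ × (Torus × V) => flow p.1 p.2) := by
  unfold flow
  refine Continuous.prodMk ?_ (continuous_snd.comp continuous_snd)
  refine (continuous_fst.comp continuous_snd).add ?_
  exact continuous_proj.comp (continuous_fst.smul (continuous_snd.comp continuous_snd))

lemma measurable_flow : Measurable (fun p : ℝ × (Torus × V) => flow p.1 p.2) :=
  continuous_flow.measurable

lemma measurable_flow' (s : ℝ) : Measurable (flow s) :=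
  measurable_flow.comp (measurable_const.prodMk measurable_id)

/-- The free transport flow preserves the Liouville measure `dx dv`. -/
theorem measurePreserving_flow (s : ℝ) :
    MeasurePreserving (flow s) (volume : Measure (Torus × V)) volume := by
  have hskew : MeasurePreserving
      (fun p : V × Torus => ((id p.1 : V), (fun (v : V) (x : Torus) => x + proj (s • v)) p.1 p.2))
      ((volume : Measure V).prod (volume : Measure Torus))
      ((volume : Measure V).prod (volume : Measure Torus)) := by
    have hm : Measurable (Function.uncurry fun (v : V) (x : Torus) => x + proj (s • v)) := by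
      have : Continuous (Function.uncurry fun (v : V) (x : Torus) => x + proj (s • v)) := by
        unfold Function.uncurry
        exact continuous_snd.add (continuous_proj.comp (continuous_fst.const_smul s))
      exact this.measurable
    have hae : ∀ᵐ v ∂(volume : Measure V),
        Measure.map ((fun (v : V) (x : Torus) => x + proj (s • v)) v) (volume : Measure Torus) =
          (volume : Measure Torus) := by
      refine Filter.Eventually.of_forall fun v => ?_
      exact (measurePreserving_add_right (volume : Measure Torus) (proj (s • v))).map_eq
    exact MeasurePreserving.skew_product (μb := (volume : Measure V))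
      (μd := (volume : Measure Torus)) (MeasurePreserving.id (volume : Measure V)) hm hae
  have h1 : MeasurePreserving (Prod.swap : Torus × V → V × Torus)
      ((volume : Measure Torus).prod (volume : Measure V))
      ((volume : Measure V).prod (volume : Measure Torus)) := Measure.measurePreserving_swap
  have h2 : MeasurePreserving (Prod.swap : V × Torus → Torus × V)
      ((volume : Measure V).prod (volume : Measure Torus))
      ((volume : Measure Torus).prod (volume : Measure V)) := Measure.measurePreserving_swap
  have h3 := h2.comp (hskew.comp h1)
  have he : (Prod.swap ∘ (fun p : V × Torus =>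
      ((id p.1 : V), (fun (v : V) (x : Torus) => x + proj (s • v)) p.1 p.2)) ∘ Prod.swap) =
      flow s := by
    funext z
    simp [flow]
  rw [he] at h3
  exact h3

lemma lintegral_flow (s : ℝ) {f : Torus × V → ℝ≥0∞} (hf : Measurable f) :
    ∫⁻ z, f (flow s z) = ∫⁻ z, f z :=
  (measurePreserving_flow s).lintegral_comp hf

end Vale.Agent.Lib.P140
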