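import Mathlib
import Vale.Agent.Lib.P140.Defs

/-!
# The collision transformation
-/

namespace Vale.Agent.Lib.P140

open MeasureTheory
open scoped ENNReal RealInnerProductSpace

instance : IsFiniteMeasure surf := by
  unfold surf
  infer_instance

instance : (volume : Measure (V × V)).IsAddHaarMeasure := by
  rw [Measure.volume_eq_prod]
  infer_instance

/-! ### Algebra -/

section Algebra

variable (v vs ω : V)

lemma collA_swap : collA vs v ω = - collA v vs ω := by
  unfold collA
  rw [← neg_sub, inner_neg_left]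

lemma vPrime_swap : vPrime vs v ω = vsPrime v vs ω := by
  unfold vPrime vsPrime
  rw [collA_swap]
  simp [sub_eq_add_neg]

lemma vsPrime_swap : vsPrime vs v ω = vPrime v vs ω := by
  unfold vPrime vsPrime
  rw [collA_swap]
  simp [sub_eq_add_neg]

variable {ω}

lemma collA_prime (hω : ‖ω‖ = 1) :
    collA (vPrime v vs ω) (vsPrime v vs ω) ω = - collA v vs ω := by
  have h1 : ⟪ω, ω⟫ = 1 := by rw [real_inner_self_eq_norm_sq, hω]; norm_num
  unfold vPrime vsPrime
  set a := collA v vs ω with ha
  unfold collA at ha ⊢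
  have : v - a • ω - (vs + a • ω) = (v - vs) - (2 * a) • ω := by
    rw [two_mul, add_smul]; abel
  rw [this, inner_sub_left, inner_smul_left, h1, ← ha]
  simp
  ring

lemma vPrime_prime (hω : ‖ω‖ = 1) :
    vPrime (vPrime v vs ω) (vsPrime v vs ω) ω = v := by
  have h : vPrime (vPrime v vs ω) (vsPrime v vs ω) ω =
      vPrime v vs ω - collA (vPrime v vs ω) (vsPrime v vs ω) ω • ω := rfl
  rw [h, collA_prime v vs hω]
  unfold vPrime
  simp

lemma vsPrime_prime (hω : ‖ω‖ = 1) :
    vsPrime (vPrime v vs ω) (vsPrime v vs ω) ω = vs := by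
  have h : vsPrime (vPrime v vs ω) (vsPrime v vs ω) ω =
      vsPrime v vs ω + collA (vPrime v vs ω) (vsPrime v vs ω) ω • ω := rfl
  rw [h, collA_prime v vs hω]
  unfold vsPrime
  simp

lemma energy_prime (hω : ‖ω‖ = 1) :
    ‖vPrime v vs ω‖ ^ 2 + ‖vsPrime v vs ω‖ ^ 2 = ‖v‖ ^ 2 + ‖vs‖ ^ 2 := by
  unfold vPrime vsPrime
  set a := collA v vs ω with ha
  rw [norm_sub_sq_real, norm_add_sq_real, norm_smul, hω, inner_smul_right, inner_smul_right]
  have : a = ⟪v, ω⟫ - ⟪vs, ω⟫ := by rw [ha]; unfold collA; rw [inner_sub_left]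
  simp only [Real.norm_eq_abs, mul_one, sq_abs]
  rw [this]
  ring

lemma abs_collA_le (hω : ‖ω‖ = 1) : |collA v vs ω| ≤ (1 + ‖v‖) * (1 + ‖vs‖) := by
  unfold collA
  have h1 : |⟪v - vs, ω⟫| ≤ ‖v - vs‖ * ‖ω‖ := abs_real_inner_le_norm _ _
  rw [hω, mul_one] at h1
  have h2 : ‖v - vs‖ ≤ ‖v‖ + ‖vs‖ := norm_sub_le _ _
  nlinarith [norm_nonneg v, norm_nonneg vs]

end Algebra

/-! ### The collision map preserves Lebesgue measure -/

/-- The collision transformation `(v, v_*) ↦ (v', v_*')`. -/
noncomputable def collMap (ω : V) (p : V × V) : V × V := (vPrime p.1 p.2 ω, vsPrime p.1 p.2 ω)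

lemma collMap_collMap {ω : V} (hω : ‖ω‖ = 1) (p : V × V) : collMap ω (collMap ω p) = p := by
  unfold collMap
  simp only
  rw [vPrime_prime _ _ hω, vsPrime_prime _ _ hω]

/-- The collision transformation as a linear map. -/
noncomputable def collLin (ω : V) : (V × V) →ₗ[ℝ] (V × V) where
  toFun := collMap ω
  map_add' p q := by
    unfold collMap vPrime vsPrime collA
    ext1
    · simp only [Prod.fst_add, Prod.snd_add]
      rw [show p.1 + q.1 - (p.2 + q.2) = (p.1 - p.2) + (q.1 - q.2) by abel, inner_add_left, add_smul]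
      abel
    · simp only [Prod.fst_add, Prod.snd_add]
      rw [show p.1 + q.1 - (p.2 + q.2) = (p.1 - p.2) + (q.1 - q.2) by abel, inner_add_left, add_smul]
      abel
  map_smul' c p := by
    unfold collMap vPrime vsPrime collA
    ext1
    · simp only [Prod.smul_fst, Prod.smul_snd, RingHom.id_apply]
      rw [← smul_sub, inner_smul_left, smul_sub, smul_smul]
      simp
    · simp only [Prod.smul_fst, Prod.smul_snd, RingHom.id_apply]
      rw [← smul_sub, inner_smul_left, smul_add, smul_smul]
      simp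

lemma measurePreserving_collMap {ω : V} (hω : ‖ω‖ = 1) :
    MeasurePreserving (collMap ω) (volume : Measure (V × V)) volume := by
  have hcomp : (collLin ω).comp (collLin ω) = LinearMap.id := by
    apply LinearMap.ext
    intro p
    exact collMap_collMap hω p
  have hdet : LinearMap.det (collLin ω) * LinearMap.det (collLin ω) = 1 := by
    rw [← LinearMap.det_comp, hcomp, LinearMap.det_id]
  have hne : LinearMap.det (collLin ω) ≠ 0 := by
    intro h
    rw [h] at hdet
    simp at hdet
  have habs : |(LinearMap.det (collLin ω))⁻¹| = 1 := by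
    rw [abs_inv]
    have : |LinearMap.det (collLin ω)| * |LinearMap.det (collLin ω)| = 1 := by
      rw [← abs_mul, hdet, abs_one]
    have h1 : |LinearMap.det (collLin ω)| = 1 := by
      nlinarith [abs_nonneg (LinearMap.det (collLin ω))]
    rw [h1, inv_one]
  have hmap := Measure.map_linearMap_addHaar_eq_smul_addHaar (volume : Measure (V × V)) hne
  rw [habs, ENNReal.ofReal_one, one_smul] at hmap
  refine ⟨?_, hmap⟩
  exact (LinearMap.continuous_of_finiteDimensional (collLin ω)).measurable

end Vale.Agent.Lib.P140
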