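import Mathlib
import Vale.Agent.Lib.P140.Collision

/-!
# Weak forms of the collision integrals (velocity variable only)
-/

namespace Vale.Agent.Lib.P140

open MeasureTheory
open scoped ENNReal RealInnerProductSpace

/-- The hard-sphere kernel `|a|`. -/
noncomputable def ker (p : V × V) (ω : Sph) : ℝ≥0∞ := ENNReal.ofReal |collA p.1 p.2 ω|

/-- The bilinear gain operator on functions of the velocity. -/
noncomputable def gainV (f1 f2 : V → ℝ≥0∞) (v : V) : ℝ≥0∞ :=
  ∫⁻ vs : V, ∫⁻ ω : Sph, ker (v, vs) ω * (f1 (vPrime v vs ω) * f2 (vsPrime v vs ω)) ∂surf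

/-- The collision frequency `L(f)(v) = ∫ |a| f(v_*) dv_* dω`. -/
noncomputable def freqV (f : V → ℝ≥0∞) (v : V) : ℝ≥0∞ :=
  ∫⁻ vs : V, ∫⁻ ω : Sph, ker (v, vs) ω * f vs ∂surf

/-- The weight `1 + |v|^2`. -/
noncomputable def wm (v : V) : ℝ≥0∞ := ENNReal.ofReal (1 + ‖v‖ ^ 2)

/-- The weight `1 + |v|`. -/
noncomputable def w1 (v : V) : ℝ≥0∞ := ENNReal.ofReal (1 + ‖v‖)

/-- The weight `(1 + |v|)^3`. -/
noncomputable def w3 (v : V) : ℝ≥0∞ := ENNReal.ofReal ((1 + ‖v‖) ^ 3)

lemma sph_norm (ω : Sph) : ‖(ω : V)‖ = 1 := by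
  have := ω.2
  rwa [mem_sphere_zero_iff_norm] at this

/-! ### Measurability -/

lemma continuous_collA : Continuous (fun q : (V × V) × Sph => collA q.1.1 q.1.2 q.2) := by
  unfold collA
  fun_prop

lemma continuous_vPrime : Continuous (fun q : (V × V) × Sph => vPrime q.1.1 q.1.2 q.2) := by
  unfold vPrime
  exact (continuous_fst.fst).sub (continuous_collA.smul (continuous_subtype_val.comp continuous_snd))

lemma continuous_vsPrime : Continuous (fun q : (V × V) × Sph => vsPrime q.1.1 q.1.2 q.2) := by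
  unfold vsPrime
  exact (continuous_fst.snd).add (continuous_collA.smul (continuous_subtype_val.comp continuous_snd))

lemma measurable_ker : Measurable (fun q : (V × V) × Sph => ker q.1 q.2) := by
  unfold ker
  exact ENNReal.measurable_ofReal.comp (continuous_collA.abs).measurable

lemma measurable_collMap : Measurable (fun q : (V × V) × Sph => (collMap q.2 q.1, q.2)) := by
  unfold collMap
  exact ((continuous_vPrime.prodMk continuous_vsPrime).prodMk continuous_snd).measurable

lemma measurable_wm : Measurable wm := by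
  unfold wm
  fun_prop

lemma measurable_w1 : Measurable w1 := by
  unfold w1
  fun_prop

lemma measurable_w3 : Measurable w3 := by
  unfold w3
  fun_prop

/-! ### Changes of variables -/

lemma lintegral_collMap {G : (V × V) × Sph → ℝ≥0∞} (hG : Measurable G) :
    ∫⁻ p : V × V, ∫⁻ ω : Sph, G (collMap ω p, ω) ∂surf =
      ∫⁻ p : V × V, ∫⁻ ω : Sph, G (p, ω) ∂surf := by
  have h1 : ∫⁻ p : V × V, ∫⁻ ω : Sph, G (collMap ω p, ω) ∂surf
      = ∫⁻ ω : Sph, (∫⁻ p : V × V, G (collMap ω p, ω)) ∂surf :=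
    lintegral_lintegral_swap (f := fun (p : V × V) (ω : Sph) => G (collMap ω p, ω))
      (hG.comp measurable_collMap).aemeasurable
  have h2 : ∫⁻ ω : Sph, (∫⁻ p : V × V, G (collMap ω p, ω)) ∂surf
      = ∫⁻ ω : Sph, (∫⁻ p : V × V, G (p, ω)) ∂surf := by
    apply lintegral_congr
    intro ω
    exact (measurePreserving_collMap (sph_norm ω)).lintegral_comp
      (hG.comp (measurable_id.prodMk measurable_const))
  have h3 : ∫⁻ p : V × V, ∫⁻ ω : Sph, G (p, ω) ∂surf
      = ∫⁻ ω : Sph, (∫⁻ p : V × V, G (p, ω)) ∂surf :=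
    lintegral_lintegral_swap (f := fun (p : V × V) (ω : Sph) => G (p, ω)) hG.aemeasurable
  rw [h1, h2, h3]

lemma lintegral_swapV {G : (V × V) × Sph → ℝ≥0∞} (hG : Measurable G) :
    ∫⁻ p : V × V, ∫⁻ ω : Sph, G (p.swap, ω) ∂surf = ∫⁻ p : V × V, ∫⁻ ω : Sph, G (p, ω) ∂surf := by
  have h : Measurable (fun p : V × V => ∫⁻ ω : Sph, G (p, ω) ∂surf) := hG.lintegral_prod_right'
  exact (Measure.measurePreserving_swap (μ := (volume : Measure V))
    (ν := (volume : Measure V))).lintegral_comp h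

lemma ker_collMap (p : V × V) (ω : Sph) : ker (collMap ω p) ω = ker p ω := by
  unfold ker collMap
  simp only
  rw [collA_prime _ _ (sph_norm ω), abs_neg]

lemma ker_swap (p : V × V) (ω : Sph) : ker p.swap ω = ker p ω := by
  unfold ker
  simp only [Prod.fst_swap, Prod.snd_swap]
  rw [collA_swap, abs_neg]

end Vale.Agent.Lib.P140
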