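import Mathlib
import Vale.Agent.Lib.P140.WeakForm

/-!
# Weak-form identities and bounds for the bilinear gain operator and the collision frequency
-/

namespace Vale.Agent.Lib.P140

open MeasureTheory
open scoped ENNReal RealInnerProductSpace

/-! ### Measurability with a parameter -/

/-- The map forgetting the parameter. -/
lemma measurable_forget {P : Type*} [MeasurableSpace P] :
    Measurable (fun r : ((P × V) × V) × Sph => (((r.1.1.2, r.1.2), r.2) : (V × V) × Sph)) :=
  ((measurable_fst.fst.snd).prodMk (measurable_fst.snd)).prodMk measurable_snd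

lemma measurable_gainV {P : Type*} [MeasurableSpace P] {A B : P × V → ℝ≥0∞}
    (hA : Measurable A) (hB : Measurable B) :
    Measurable (fun q : P × V => gainV (fun u => A (q.1, u)) (fun u => B (q.1, u)) q.2) := by
  unfold gainV
  have hH : Measurable (fun r : ((P × V) × V) × Sph =>
      ker (r.1.1.2, r.1.2) r.2 * (A (r.1.1.1, vPrime r.1.1.2 r.1.2 r.2) *
        B (r.1.1.1, vsPrime r.1.1.2 r.1.2 r.2))) := by
    have h1 : Measurable (fun r : ((P × V) × V) × Sph => ker (r.1.1.2, r.1.2) r.2) := by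
      have := measurable_ker.comp (measurable_forget (P := P))
      exact this
    have h2 : Measurable (fun r : ((P × V) × V) × Sph => vPrime r.1.1.2 r.1.2 r.2) := by
      have := continuous_vPrime.measurable.comp (measurable_forget (P := P))
      exact this
    have h3 : Measurable (fun r : ((P × V) × V) × Sph => vsPrime r.1.1.2 r.1.2 r.2) := by
      have := continuous_vsPrime.measurable.comp (measurable_forget (P := P))
      exact this
    have h0 : Measurable (fun r : ((P × V) × V) × Sph => r.1.1.1) := measurable_fst.fst.fst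
    exact h1.mul ((hA.comp (h0.prodMk h2)).mul (hB.comp (h0.prodMk h3)))
  have hI := hH.lintegral_prod_right' (ν := surf)
  exact hI.lintegral_prod_right' (ν := (volume : Measure V))

lemma measurable_freqV {P : Type*} [MeasurableSpace P] {A : P × V → ℝ≥0∞}
    (hA : Measurable A) :
    Measurable (fun q : P × V => freqV (fun u => A (q.1, u)) q.2) := by
  unfold freqV
  have hH : Measurable (fun r : ((P × V) × V) × Sph =>
      ker (r.1.1.2, r.1.2) r.2 * A (r.1.1.1, r.1.2)) := by
    have h1 : Measurable (fun r : ((P × V) × V) × Sph => ker (r.1.1.2, r.1.2) r.2) := by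
      have := measurable_ker.comp (measurable_forget (P := P))
      exact this
    have h0 : Measurable (fun r : ((P × V) × V) × Sph => (r.1.1.1, r.1.2)) :=
      (measurable_fst.fst.fst).prodMk (measurable_fst.snd)
    exact h1.mul (hA.comp h0)
  have hI := hH.lintegral_prod_right' (ν := surf)
  exact hI.lintegral_prod_right' (ν := (volume : Measure V))

lemma measurable_pair_unit : Measurable (fun v : V => (((), v) : Unit × V)) :=
  measurable_const.prodMk measurable_id

lemma measurable_gainV' {a b : V → ℝ≥0∞} (ha : Measurable a) (hb : Measurable b) :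
    Measurable (gainV a b) := by
  have h := measurable_gainV (P := Unit) (A := fun q => a q.2) (B := fun q => b q.2)
    (ha.comp measurable_snd) (hb.comp measurable_snd)
  have := h.comp measurable_pair_unit
  exact this

lemma measurable_freqV' {a : V → ℝ≥0∞} (ha : Measurable a) : Measurable (freqV a) := by
  have h := measurable_freqV (P := Unit) (A := fun q => a q.2) (ha.comp measurable_snd)
  have := h.comp measurable_pair_unit
  exact this

/-! ### Relation with the gain and loss terms of `Defs` -/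

lemma gain_eq (f : Torus × V → ℝ≥0∞) (x : Torus) (v : V) :
    gain f (x, v) = gainV (fun u => f (x, u)) (fun u => f (x, u)) v := by
  simp only [gain, gainV, ker]

/-- Measurability of the kernel in `(v_*, ω)` for fixed `v`. -/
lemma measurable_ker_right (v : V) : Measurable (fun r : V × Sph => ker (v, r.1) r.2) := by
  have h : Measurable (fun r : V × Sph => (((v, r.1), r.2) : (V × V) × Sph)) :=
    (measurable_const.prodMk measurable_fst).prodMk measurable_snd
  have := measurable_ker.comp h
  exact this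

/-- Tonelli: an iterated integral over `v`, `v_*`, `ω` as an integral over pairs. -/
lemma lintegral_pair {G : (V × V) × Sph → ℝ≥0∞} (hG : Measurable G) :
    ∫⁻ v : V, ∫⁻ vs : V, ∫⁻ ω : Sph, G ((v, vs), ω) ∂surf =
      ∫⁻ p : V × V, ∫⁻ ω : Sph, G (p, ω) ∂surf := by
  have h : Measurable (fun p : V × V => ∫⁻ ω : Sph, G (p, ω) ∂surf) := hG.lintegral_prod_right'
  rw [Measure.volume_eq_prod, lintegral_prod _ h.aemeasurable]

/-- Pulling a factor depending on `v` into the two inner integrals. -/
lemma mul_lintegral_lintegral {G : (V × V) × Sph → ℝ≥0∞} (hG : Measurable G) (c : ℝ≥0∞) (v : V) :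
    c * ∫⁻ vs : V, ∫⁻ ω : Sph, G ((v, vs), ω) ∂surf =
      ∫⁻ vs : V, ∫⁻ ω : Sph, c * G ((v, vs), ω) ∂surf := by
  have hH : Measurable (fun r : V × Sph => G ((v, r.1), r.2)) := by
    have h : Measurable (fun r : V × Sph => (((v, r.1), r.2) : (V × V) × Sph)) :=
      (measurable_const.prodMk measurable_fst).prodMk measurable_snd
    exact hG.comp h
  rw [← lintegral_const_mul _ (hH.lintegral_prod_right' (ν := surf))]
  apply lintegral_congr
  intro vs
  have hH2 : Measurable (fun ω : Sph => G ((v, vs), ω)) :=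
    hH.comp (measurable_const.prodMk measurable_id : Measurable (fun ω : Sph => (vs, ω)))
  rw [← lintegral_const_mul _ hH2]

lemma loss_eq {f : Torus × V → ℝ≥0∞} (hf : Measurable f) (x : Torus) (v : V) :
    loss f (x, v) = f (x, v) * freqV (fun u => f (x, u)) v := by
  have hfx : Measurable (fun u : V => f (x, u)) := hf.comp (measurable_const.prodMk measurable_id)
  have hG0 : Measurable (fun q : (V × V) × Sph => ker q.1 q.2 * f (x, q.1.2)) :=
    measurable_ker.mul (hfx.comp (measurable_fst.snd))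
  have h := mul_lintegral_lintegral hG0 (f (x, v)) v
  simp only [freqV]
  rw [h]
  simp only [loss, ker]
  apply lintegral_congr
  intro vs
  apply lintegral_congr
  intro ω
  ring

/-! ### Weights -/

lemma wm_prime (v vs : V) (ω : Sph) :
    wm (vPrime v vs ω) + wm (vsPrime v vs ω) = wm v + wm vs := by
  unfold wm
  rw [← ENNReal.ofReal_add (by positivity) (by positivity),
    ← ENNReal.ofReal_add (by positivity) (by positivity)]
  congr 1
  have := energy_prime v vs (sph_norm ω)
  linarith

lemma wm_mul_w1_le (v : V) : w1 v * wm v ≤ w3 v := by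
  unfold w1 wm w3
  rw [← ENNReal.ofReal_mul (by positivity)]
  apply ENNReal.ofReal_le_ofReal
  nlinarith [norm_nonneg v, sq_nonneg ‖v‖]

lemma w1_le_w3 (v : V) : w1 v ≤ w3 v := by
  unfold w1 w3
  apply ENNReal.ofReal_le_ofReal
  nlinarith [norm_nonneg v, sq_nonneg ‖v‖, mul_nonneg (norm_nonneg v) (sq_nonneg ‖v‖)]

lemma wm_le_w3 (v : V) : wm v ≤ w3 v := by
  unfold wm w3
  apply ENNReal.ofReal_le_ofReal
  nlinarith [norm_nonneg v, sq_nonneg ‖v‖, mul_nonneg (norm_nonneg v) (sq_nonneg ‖v‖)]

lemma w1_le_two_wm (v : V) : w1 v ≤ 2 * wm v := by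
  unfold w1 wm
  have h2 : (2 : ℝ≥0∞) * ENNReal.ofReal (1 + ‖v‖ ^ 2) = ENNReal.ofReal (2 * (1 + ‖v‖ ^ 2)) := by
    rw [ENNReal.ofReal_mul (by norm_num)]
    simp
  rw [h2]
  apply ENNReal.ofReal_le_ofReal
  nlinarith [norm_nonneg v, sq_nonneg (‖v‖ - 1)]

lemma ker_le (p : V × V) (ω : Sph) : ker p ω ≤ w1 p.1 * w1 p.2 := by
  unfold ker w1
  rw [← ENNReal.ofReal_mul (by positivity)]
  exact ENNReal.ofReal_le_ofReal (abs_collA_le _ _ (sph_norm ω))

/-! ### The weak forms -/

/-- `∫ φ Q^+(a,b) dv = ∫∫∫ |a| φ(v') a(v) b(v_*)`. -/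
lemma lintegral_mul_gainV {φ a b : V → ℝ≥0∞} (hφ : Measurable φ) (ha : Measurable a)
    (hb : Measurable b) :
    ∫⁻ v, φ v * gainV a b v =
      ∫⁻ p : V × V, ∫⁻ ω : Sph, ker p ω * (φ (vPrime p.1 p.2 ω) * (a p.1 * b p.2)) ∂surf := by
  have hG : Measurable (fun q : (V × V) × Sph =>
      ker q.1 q.2 * (φ (vPrime q.1.1 q.1.2 q.2) * (a q.1.1 * b q.1.2))) :=
    measurable_ker.mul ((hφ.comp continuous_vPrime.measurable).mul
      ((ha.comp (measurable_fst.fst)).mul (hb.comp (measurable_fst.snd))))
  have hG0 : Measurable (fun q : (V × V) × Sph =>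
      ker q.1 q.2 * (a (vPrime q.1.1 q.1.2 q.2) * b (vsPrime q.1.1 q.1.2 q.2))) :=
    measurable_ker.mul ((ha.comp continuous_vPrime.measurable).mul
      (hb.comp continuous_vsPrime.measurable))
  have hG1 : Measurable (fun q : (V × V) × Sph =>
      φ q.1.1 * (ker q.1 q.2 * (a (vPrime q.1.1 q.1.2 q.2) * b (vsPrime q.1.1 q.1.2 q.2)))) :=
    (hφ.comp (measurable_fst.fst)).mul hG0
  rw [← lintegral_collMap hG]
  have h1 : ∀ v : V, φ v * gainV a b v = ∫⁻ vs : V, ∫⁻ ω : Sph,
      φ v * (ker (v, vs) ω * (a (vPrime v vs ω) * b (vsPrime v vs ω))) ∂surf := by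
    intro v
    exact mul_lintegral_lintegral hG0 (φ v) v
  simp_rw [h1]
  rw [lintegral_pair hG1]
  apply lintegral_congr
  intro p
  apply lintegral_congr
  intro ω
  simp only
  rw [ker_collMap]
  simp only [collMap]
  rw [vPrime_prime _ _ (sph_norm ω)]
  ring

/-- `∫ φ Q^+(b,a) dv = ∫∫∫ |a| φ(v_*') a(v) b(v_*)`. -/
lemma lintegral_mul_gainV_swap {φ a b : V → ℝ≥0∞} (hφ : Measurable φ) (ha : Measurable a)
    (hb : Measurable b) :
    ∫⁻ v, φ v * gainV b a v =
      ∫⁻ p : V × V, ∫⁻ ω : Sph, ker p ω * (φ (vsPrime p.1 p.2 ω) * (a p.1 * b p.2)) ∂surf := by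
  rw [lintegral_mul_gainV hφ hb ha]
  have hG : Measurable (fun q : (V × V) × Sph =>
      ker q.1 q.2 * (φ (vPrime q.1.1 q.1.2 q.2) * (b q.1.1 * a q.1.2))) :=
    measurable_ker.mul ((hφ.comp continuous_vPrime.measurable).mul
      ((hb.comp (measurable_fst.fst)).mul (ha.comp (measurable_fst.snd))))
  rw [← lintegral_swapV hG]
  apply lintegral_congr
  intro p
  apply lintegral_congr
  intro ω
  simp only
  rw [ker_swap]
  simp only [Prod.fst_swap, Prod.snd_swap]
  rw [vPrime_swap]
  ring

/-- `∫ φ a L(b) dv = ∫∫∫ |a| φ(v) a(v) b(v_*)`. -/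
lemma lintegral_mul_freqV {φ a b : V → ℝ≥0∞} (hφ : Measurable φ) (ha : Measurable a)
    (hb : Measurable b) :
    ∫⁻ v, φ v * (a v * freqV b v) =
      ∫⁻ p : V × V, ∫⁻ ω : Sph, ker p ω * (φ p.1 * (a p.1 * b p.2)) ∂surf := by
  have hG0 : Measurable (fun q : (V × V) × Sph => ker q.1 q.2 * b q.1.2) :=
    measurable_ker.mul (hb.comp (measurable_fst.snd))
  have hG1 : Measurable (fun q : (V × V) × Sph =>
      (φ q.1.1 * a q.1.1) * (ker q.1 q.2 * b q.1.2)) :=
    ((hφ.comp (measurable_fst.fst)).mul (ha.comp (measurable_fst.fst))).mul hG0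
  have h1 : ∀ v : V, φ v * (a v * freqV b v) = ∫⁻ vs : V, ∫⁻ ω : Sph,
      (φ v * a v) * (ker (v, vs) ω * b vs) ∂surf := by
    intro v
    rw [← mul_assoc]
    exact mul_lintegral_lintegral hG0 (φ v * a v) v
  simp_rw [h1]
  rw [lintegral_pair hG1]
  apply lintegral_congr
  intro p
  apply lintegral_congr
  intro ω
  ring

/-- `∫ φ b L(a) dv = ∫∫∫ |a| φ(v_*) a(v) b(v_*)`. -/
lemma lintegral_mul_freqV_swap {φ a b : V → ℝ≥0∞} (hφ : Measurable φ) (ha : Measurable a)
    (hb : Measurable b) :
    ∫⁻ v, φ v * (b v * freqV a v) =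
      ∫⁻ p : V × V, ∫⁻ ω : Sph, ker p ω * (φ p.2 * (a p.1 * b p.2)) ∂surf := by
  rw [lintegral_mul_freqV hφ hb ha]
  have hG : Measurable (fun q : (V × V) × Sph =>
      ker q.1 q.2 * (φ q.1.1 * (b q.1.1 * a q.1.2))) :=
    measurable_ker.mul ((hφ.comp (measurable_fst.fst)).mul
      ((hb.comp (measurable_fst.fst)).mul (ha.comp (measurable_fst.snd))))
  rw [← lintegral_swapV hG]
  apply lintegral_congr
  intro p
  apply lintegral_congr
  intro ω
  simp only
  rw [ker_swap]
  simp only [Prod.fst_swap, Prod.snd_swap]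
  ring

/-- Adding two integrals over pairs and the sphere. -/
lemma lintegral_pair_add {G : (V × V) × Sph → ℝ≥0∞} (hG : Measurable G)
    (H : (V × V) × Sph → ℝ≥0∞) :
    (∫⁻ p : V × V, ∫⁻ ω : Sph, G (p, ω) ∂surf) + ∫⁻ p : V × V, ∫⁻ ω : Sph, H (p, ω) ∂surf =
      ∫⁻ p : V × V, ∫⁻ ω : Sph, (G (p, ω) + H (p, ω)) ∂surf := by
  rw [← lintegral_add_left (hG.lintegral_prod_right' (ν := surf))]
  apply lintegral_congr
  intro p
  have hGp : Measurable (fun ω : Sph => G (p, ω)) :=
    hG.comp (measurable_const.prodMk measurable_id : Measurable (fun ω : Sph => (p, ω)))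
  rw [← lintegral_add_left hGp]

/-- Conservation of mass and energy in the symmetrised bilinear gain term. -/
theorem lintegral_wm_gain_pair {a b : V → ℝ≥0∞} (ha : Measurable a) (hb : Measurable b) :
    ∫⁻ v, wm v * (gainV a b v + gainV b a v) =
      (∫⁻ v, wm v * (a v * freqV b v)) + ∫⁻ v, wm v * (b v * freqV a v) := by
  have hw := measurable_wm
  have hsplit : ∫⁻ v, wm v * (gainV a b v + gainV b a v) =
      (∫⁻ v, wm v * gainV a b v) + ∫⁻ v, wm v * gainV b a v := by
    have hm : Measurable (fun v => wm v * gainV a b v) := hw.mul (measurable_gainV' ha hb)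
    rw [← lintegral_add_left hm]
    apply lintegral_congr
    intro v
    rw [mul_add]
  rw [hsplit, lintegral_mul_gainV hw ha hb, lintegral_mul_gainV_swap hw ha hb,
    lintegral_mul_freqV hw ha hb, lintegral_mul_freqV_swap hw ha hb]
  have hab : Measurable (fun q : (V × V) × Sph => a q.1.1 * b q.1.2) :=
    (ha.comp (measurable_fst.fst)).mul (hb.comp (measurable_fst.snd))
  have m1 : Measurable (fun q : (V × V) × Sph =>
      ker q.1 q.2 * (wm (vPrime q.1.1 q.1.2 q.2) * (a q.1.1 * b q.1.2))) :=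
    measurable_ker.mul ((hw.comp continuous_vPrime.measurable).mul hab)
  have m2 : Measurable (fun q : (V × V) × Sph =>
      ker q.1 q.2 * (wm (vsPrime q.1.1 q.1.2 q.2) * (a q.1.1 * b q.1.2))) :=
    measurable_ker.mul ((hw.comp continuous_vsPrime.measurable).mul hab)
  have m3 : Measurable (fun q : (V × V) × Sph =>
      ker q.1 q.2 * (wm q.1.1 * (a q.1.1 * b q.1.2))) :=
    measurable_ker.mul ((hw.comp (measurable_fst.fst)).mul hab)
  have m4 : Measurable (fun q : (V × V) × Sph =>
      ker q.1 q.2 * (wm q.1.2 * (a q.1.1 * b q.1.2))) :=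
    measurable_ker.mul ((hw.comp (measurable_fst.snd)).mul hab)
  have e1 := lintegral_pair_add m1 (fun q : (V × V) × Sph =>
      ker q.1 q.2 * (wm (vsPrime q.1.1 q.1.2 q.2) * (a q.1.1 * b q.1.2)))
  have e2 := lintegral_pair_add m3 (fun q : (V × V) × Sph =>
      ker q.1 q.2 * (wm q.1.2 * (a q.1.1 * b q.1.2)))
  simp only at e1 e2
  rw [e1, e2]
  apply lintegral_congr
  intro p
  apply lintegral_congr
  intro ω
  rw [← mul_add, ← mul_add, ← add_mul, ← add_mul, wm_prime]

/-- The basic bound of the loss-type trilinear integral. -/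
theorem lintegral_mul_freqV_le {φ a b : V → ℝ≥0∞} (hφ : Measurable φ) (ha : Measurable a)
    (hb : Measurable b) :
    ∫⁻ v, φ v * (a v * freqV b v) ≤
      surf Set.univ * ((∫⁻ v, w1 v * (φ v * a v)) * ∫⁻ v, w1 v * b v) := by
  have hw := measurable_w1
  have hfreq : ∀ v : V, freqV b v ≤ surf Set.univ * (w1 v * ∫⁻ vs, w1 vs * b vs) := by
    intro v
    unfold freqV
    calc ∫⁻ vs : V, ∫⁻ ω : Sph, ker (v, vs) ω * b vs ∂surf
        ≤ ∫⁻ vs : V, ∫⁻ _ω : Sph, (w1 v * w1 vs) * b vs ∂surf := by
          apply lintegral_mono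
          intro vs
          apply lintegral_mono
          intro ω
          exact mul_le_mul_left (ker_le (v, vs) ω) _
      _ = ∫⁻ vs : V, (surf Set.univ * w1 v) * (w1 vs * b vs) := by
          apply lintegral_congr
          intro vs
          rw [lintegral_const]
          ring
      _ = surf Set.univ * (w1 v * ∫⁻ vs, w1 vs * b vs) := by
          have hm : Measurable (fun vs => w1 vs * b vs) := hw.mul hb
          rw [lintegral_const_mul _ hm, mul_assoc]
  calc ∫⁻ v, φ v * (a v * freqV b v)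
      ≤ ∫⁻ v, (surf Set.univ * ∫⁻ vs, w1 vs * b vs) * (w1 v * (φ v * a v)) := by
        apply lintegral_mono
        intro v
        calc φ v * (a v * freqV b v)
            ≤ φ v * (a v * (surf Set.univ * (w1 v * ∫⁻ vs, w1 vs * b vs))) := by
              gcongr
              exact hfreq v
          _ = (surf Set.univ * ∫⁻ vs, w1 vs * b vs) * (w1 v * (φ v * a v)) := by ring
    _ = surf Set.univ * ((∫⁻ v, w1 v * (φ v * a v)) * ∫⁻ v, w1 v * b v) := by
        have hm : Measurable (fun v => w1 v * (φ v * a v)) := hw.mul (hφ.mul ha)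
        rw [lintegral_const_mul _ hm]
        ring

end Vale.Agent.Lib.P140
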