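import Mathlib
import Vale.Agent.Lib.P140.WeakId
import Vale.Agent.Lib.P140.Flow

/-!
# Joint measurability of the collision terms; Tonelli along the flow
-/

namespace Vale.Agent.Lib.P140

open MeasureTheory Set
open scoped ENNReal

/-- The bilinear gain term of two time-dependent densities, as a function of `(t,(x,v))`. -/
noncomputable def gainT (A B : ℝ → Torus × V → ℝ≥0∞) (p : ℝ × (Torus × V)) : ℝ≥0∞ :=
  gainV (fun u => A p.1 (p.2.1, u)) (fun u => B p.1 (p.2.1, u)) p.2.2

/-- The collision frequency of a time-dependent density, as a function of `(t,(x,v))`. -/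
noncomputable def freqT (A : ℝ → Torus × V → ℝ≥0∞) (p : ℝ × (Torus × V)) : ℝ≥0∞ :=
  freqV (fun u => A p.1 (p.2.1, u)) p.2.2

section

variable {A B : ℝ → Torus × V → ℝ≥0∞}

lemma measurable_reassoc (hA : Measurable (Function.uncurry A)) :
    Measurable (fun q : (ℝ × Torus) × V => A q.1.1 (q.1.2, q.2)) :=
  hA.comp ((measurable_fst.fst).prodMk ((measurable_fst.snd).prodMk measurable_snd))

lemma measurable_assoc :
    Measurable (fun p : ℝ × (Torus × V) => (((p.1, p.2.1), p.2.2) : (ℝ × Torus) × V)) :=
  (measurable_fst.prodMk measurable_snd.fst).prodMk measurable_snd.snd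

lemma measurable_gainT (hA : Measurable (Function.uncurry A))
    (hB : Measurable (Function.uncurry B)) : Measurable (gainT A B) := by
  have h := measurable_gainV (measurable_reassoc hA) (measurable_reassoc hB)
  have h2 := h.comp measurable_assoc
  have e : gainT A B = (fun q : (ℝ × Torus) × V =>
      gainV (fun u => A (q.1, u).1.1 ((q.1, u).1.2, (q.1, u).2))
        (fun u => B (q.1, u).1.1 ((q.1, u).1.2, (q.1, u).2)) q.2) ∘
      (fun p : ℝ × (Torus × V) => (((p.1, p.2.1), p.2.2) : (ℝ × Torus) × V)) := by
    funext p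
    rfl
  rw [e]
  exact h2

lemma measurable_freqT (hA : Measurable (Function.uncurry A)) : Measurable (freqT A) := by
  have h := measurable_freqV (measurable_reassoc hA)
  have h2 := h.comp measurable_assoc
  have e : freqT A = (fun q : (ℝ × Torus) × V =>
      freqV (fun u => A (q.1, u).1.1 ((q.1, u).1.2, (q.1, u).2)) q.2) ∘
      (fun p : ℝ × (Torus × V) => (((p.1, p.2.1), p.2.2) : (ℝ × Torus) × V)) := by
    funext p
    rfl
  rw [e]
  exact h2

lemma measurable_slice (hA : Measurable (Function.uncurry A)) (s : ℝ) : Measurable (A s) :=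
  hA.comp (measurable_const.prodMk measurable_id)

lemma measurable_slice2 (hA : Measurable (Function.uncurry A)) (s : ℝ) (x : Torus) :
    Measurable (fun u : V => A s (x, u)) :=
  hA.comp (measurable_const.prodMk (measurable_const.prodMk measurable_id))

lemma gain_eq_gainT (s : ℝ) (z : Torus × V) : gain (A s) z = gainT A A (s, z) :=
  gain_eq (A s) z.1 z.2

lemma loss_eq_freqT (hA : Measurable (Function.uncurry A)) (s : ℝ) (z : Torus × V) :
    loss (A s) z = A s z * freqT A (s, z) :=
  loss_eq (measurable_slice hA s) z.1 z.2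

lemma measurable_gain (hA : Measurable (Function.uncurry A)) :
    Measurable (fun p : ℝ × (Torus × V) => gain (A p.1) p.2) := by
  have : (fun p : ℝ × (Torus × V) => gain (A p.1) p.2) = gainT A A := by
    funext p
    exact gain_eq_gainT p.1 p.2
  rw [this]
  exact measurable_gainT hA hA

lemma measurable_loss (hA : Measurable (Function.uncurry A)) :
    Measurable (fun p : ℝ × (Torus × V) => loss (A p.1) p.2) := by
  have : (fun p : ℝ × (Torus × V) => loss (A p.1) p.2) =
      fun p => Function.uncurry A p * freqT A p := by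
    funext p
    exact loss_eq_freqT hA p.1 p.2
  rw [this]
  exact hA.mul (measurable_freqT hA)

end

/-- The map `(s,z) ↦ (s, flow s z)`. -/
lemma measurable_flowMap : Measurable (fun p : ℝ × (Torus × V) => (p.1, flow p.1 p.2)) :=
  measurable_fst.prodMk measurable_flow

section

variable {A : ℝ × (Torus × V) → ℝ≥0∞}

lemma measurable_along (hA : Measurable A) (z : Torus × V) :
    Measurable (fun s : ℝ => A (s, flow s z)) :=
  (hA.comp measurable_flowMap).comp (measurable_id.prodMk measurable_const)

lemma measurable_lintegral_along (hA : Measurable A) :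
    Measurable (fun p : ℝ × (Torus × V) => ∫⁻ s in Ioc 0 p.1, A (s, flow s p.2)) := by
  have hS : MeasurableSet {q : (ℝ × (Torus × V)) × ℝ | 0 < q.2 ∧ q.2 ≤ q.1.1} :=
    (measurableSet_lt measurable_const measurable_snd).inter
      (measurableSet_le measurable_snd measurable_fst.fst)
  have hf : Measurable (fun q : (ℝ × (Torus × V)) × ℝ => A (q.2, flow q.2 q.1.2)) :=
    (hA.comp measurable_flowMap).comp (measurable_snd.prodMk measurable_fst.snd)
  have key := (hf.indicator hS).lintegral_prod_right' (ν := (volume : Measure ℝ))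
  have : (fun p : ℝ × (Torus × V) => ∫⁻ s in Ioc 0 p.1, A (s, flow s p.2)) =
      fun p => ∫⁻ s, ({q : (ℝ × (Torus × V)) × ℝ | 0 < q.2 ∧ q.2 ≤ q.1.1}.indicator
        (fun q : (ℝ × (Torus × V)) × ℝ => A (q.2, flow q.2 q.1.2)) (p, s)) := by
    funext p
    rw [← lintegral_indicator measurableSet_Ioc]
    apply lintegral_congr
    intro s
    by_cases hs : s ∈ Ioc 0 p.1
    · rw [indicator_of_mem hs, indicator_of_mem]
      exact hs
    · rw [indicator_of_notMem hs, indicator_of_notMem]
      exact hs
  rw [this]
  exact key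

/-- Tonelli along the flow, with the weight `1 + |v|^2`, which is constant along the flow. -/
lemma lintegral_wm_along (hA : Measurable A) (t : ℝ) :
    ∫⁻ z : Torus × V, wm z.2 * ∫⁻ s in Ioc 0 t, A (s, flow s z) =
      ∫⁻ s in Ioc 0 t, ∫⁻ z : Torus × V, wm z.2 * A (s, z) := by
  have hwm : Measurable (fun z : Torus × V => wm z.2) := measurable_wm.comp measurable_snd
  calc ∫⁻ z : Torus × V, wm z.2 * ∫⁻ s in Ioc 0 t, A (s, flow s z)
      = ∫⁻ z : Torus × V, ∫⁻ s in Ioc 0 t, wm z.2 * A (s, flow s z) := by
        apply lintegral_congr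
        intro z
        rw [lintegral_const_mul _ (measurable_along hA z)]
    _ = ∫⁻ s in Ioc 0 t, ∫⁻ z : Torus × V, wm z.2 * A (s, flow s z) := by
        apply lintegral_lintegral_swap
        apply Measurable.aemeasurable
        exact (hwm.comp measurable_fst).mul
          ((hA.comp measurable_flowMap).comp (measurable_snd.prodMk measurable_fst))
    _ = ∫⁻ s in Ioc 0 t, ∫⁻ z : Torus × V, wm z.2 * A (s, z) := by
        apply lintegral_congr
        intro s
        exact lintegral_flow s (f := fun z => wm z.2 * A (s, z))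
          (hwm.mul (hA.comp (measurable_const.prodMk measurable_id)))

end

end Vale.Agent.Lib.P140
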