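import Mathlib
import Vale.Agent.Lib.P140.Meas

/-!
# Integrability along almost every characteristic
-/

namespace Vale.Agent.Lib.P140

open MeasureTheory Set
open scoped ENNReal

/-- Tonelli along the flow (no weight). -/
lemma lintegral_along {A : ℝ × (Torus × V) → ℝ≥0∞} (hA : Measurable A) (t : ℝ) :
    ∫⁻ z : Torus × V, ∫⁻ s in Ioc 0 t, A (s, flow s z) =
      ∫⁻ s in Ioc 0 t, ∫⁻ z : Torus × V, A (s, z) := by
  calc ∫⁻ z : Torus × V, ∫⁻ s in Ioc 0 t, A (s, flow s z)
      = ∫⁻ s in Ioc 0 t, ∫⁻ z : Torus × V, A (s, flow s z) := by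
        apply lintegral_lintegral_swap
        apply Measurable.aemeasurable
        exact (hA.comp measurable_flowMap).comp (measurable_snd.prodMk measurable_fst)
    _ = ∫⁻ s in Ioc 0 t, ∫⁻ z : Torus × V, A (s, z) := by
        apply lintegral_congr
        intro s
        exact lintegral_flow s (f := fun z => A (s, z))
          (hA.comp (measurable_const.prodMk measurable_id))

/-- A function integrable on `(0,T] × Ω` for all `T` is integrable in time along almost every
characteristic. -/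
theorem ae_along_lt_top {A : ℝ × (Torus × V) → ℝ≥0∞} (hA : Measurable A)
    (h : ∀ T : ℝ, ∫⁻ s in Ioc 0 T, ∫⁻ z : Torus × V, A (s, z) < ∞) :
    ∀ᵐ z : Torus × V, ∀ T : ℝ, ∫⁻ s in Ioc 0 T, A (s, flow s z) < ∞ := by
  have h1 : ∀ n : ℕ, ∀ᵐ z : Torus × V, ∫⁻ s in Ioc 0 (n : ℝ), A (s, flow s z) < ∞ := by
    intro n
    refine ae_lt_top ?_ ?_
    · exact (measurable_lintegral_along hA).comp (measurable_const.prodMk measurable_id)
    · rw [lintegral_along hA]
      exact (h n).ne
  filter_upwards [ae_all_iff.2 h1] with z hz T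
  obtain ⟨n, hn⟩ := exists_nat_ge T
  exact lt_of_le_of_lt (lintegral_mono_set (Ioc_subset_Ioc_right hn)) (hz n)

/-- ... and hence finite at almost every time along almost every characteristic. -/
theorem ae_along_ae_lt_top {A : ℝ × (Torus × V) → ℝ≥0∞} (hA : Measurable A)
    (h : ∀ T : ℝ, ∫⁻ s in Ioc 0 T, ∫⁻ z : Torus × V, A (s, z) < ∞) :
    ∀ᵐ z : Torus × V, ∀ᵐ s : ℝ, 0 < s → A (s, flow s z) < ∞ := by
  filter_upwards [ae_along_lt_top hA h] with z hz
  have h1 : ∀ n : ℕ, ∀ᵐ s : ℝ, s ∈ Ioc 0 (n : ℝ) → A (s, flow s z) < ∞ := by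
    intro n
    have := ae_lt_top (μ := volume.restrict (Ioc 0 (n : ℝ))) (measurable_along hA z) (hz n).ne
    exact (ae_restrict_iff' measurableSet_Ioc).1 this
  filter_upwards [ae_all_iff.2 h1] with s hs hs0
  obtain ⟨n, hn⟩ := exists_nat_ge s
  exact hs n ⟨hs0, hn⟩

end Vale.Agent.Lib.P140
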