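import Mathlib
import Vale.Agent.Lib.P140.Meas

/-!
# Time integrals along the backward characteristic
-/

namespace Vale.Agent.Lib.P140

open MeasureTheory Set
open scoped ENNReal

/-- `∫_0^t A(s, x - (t-s) v, v) ds`. -/
noncomputable def backInt (A : ℝ × (Torus × V) → ℝ≥0∞) (p : ℝ × (Torus × V)) : ℝ≥0∞ :=
  ∫⁻ s in Ioc 0 p.1, A (s, flow (s - p.1) p.2)

lemma measurable_comp_flow_neg {F0 : Torus × V → ℝ≥0∞} (hF0 : Measurable F0) :
    Measurable (fun p : ℝ × (Torus × V) => F0 (flow (-p.1) p.2)) :=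
  hF0.comp (measurable_flow.comp (measurable_fst.neg.prodMk measurable_snd))

lemma backInt_eq_along (A : ℝ × (Torus × V) → ℝ≥0∞) (p : ℝ × (Torus × V)) :
    backInt A p = ∫⁻ s in Ioc 0 p.1, A (s, flow s (flow (-p.1) p.2)) := by
  unfold backInt
  apply lintegral_congr
  intro s
  rw [flow_flow, sub_eq_add_neg]

lemma measurable_backInt {A : ℝ × (Torus × V) → ℝ≥0∞} (hA : Measurable A) :
    Measurable (backInt A) := by
  have h := measurable_lintegral_along hA
  have hm : Measurable (fun p : ℝ × (Torus × V) => (p.1, flow (-p.1) p.2)) :=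
    measurable_fst.prodMk (measurable_flow.comp (measurable_fst.neg.prodMk measurable_snd))
  have h2 := h.comp hm
  have e : backInt A = (fun p : ℝ × (Torus × V) => ∫⁻ s in Ioc 0 p.1, A (s, flow s p.2)) ∘
      (fun p : ℝ × (Torus × V) => (p.1, flow (-p.1) p.2)) := by
    funext p
    exact backInt_eq_along A p
  rw [e]
  exact h2

lemma backInt_flow (A : ℝ × (Torus × V) → ℝ≥0∞) (t : ℝ) (z : Torus × V) :
    backInt A (t, flow t z) = ∫⁻ s in Ioc 0 t, A (s, flow s z) := by
  unfold backInt
  apply lintegral_congr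
  intro s
  simp only [flow_flow, sub_add_cancel]

lemma backInt_mono {A B : ℝ × (Torus × V) → ℝ≥0∞} {p : ℝ × (Torus × V)}
    (h : ∀ s ∈ Ioc 0 p.1, ∀ y : Torus × V, A (s, y) ≤ B (s, y)) : backInt A p ≤ backInt B p := by
  unfold backInt
  apply setLIntegral_mono' measurableSet_Ioc
  intro s hs
  exact h s hs _

lemma backInt_add {A B : ℝ × (Torus × V) → ℝ≥0∞} (hA : Measurable A) (p : ℝ × (Torus × V)) :
    backInt (fun q => A q + B q) p = backInt A p + backInt B p := by
  unfold backInt
  apply lintegral_add_left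
  exact hA.comp (measurable_id.prodMk
    (measurable_flow.comp ((measurable_id.sub_const p.1).prodMk measurable_const)))

end Vale.Agent.Lib.P140
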