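import Mathlib

/-!
# A one-dimensional lemma on the positive part of an absolutely continuous function
-/

namespace Vale.Agent.Lib.P140

open MeasureTheory Set

/-- Composition of an absolutely continuous function with `max · 0`. -/
lemma ac_max_zero {f : ℝ → ℝ} {a b : ℝ} (hf : AbsolutelyContinuousOnInterval f a b) :
    AbsolutelyContinuousOnInterval (fun x => max (f x) 0) a b := by
  rw [absolutelyContinuousOnInterval_iff] at hf ⊢
  intro ε hε
  obtain ⟨δ, hδ, h⟩ := hf ε hε
  refine ⟨δ, hδ, fun E hE hsum => lt_of_le_of_lt ?_ (h E hE hsum)⟩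
  apply Finset.sum_le_sum
  intro i _
  rw [Real.dist_eq, Real.dist_eq]
  exact abs_max_sub_max_le_abs _ _ _

/-- Let `Y s = ∫_0^s q`.  If `q ≤ r` a.e. where `Y > 0` and `0 ≤ r` a.e. where `Y ≤ 0`, then
`max (Y t) 0 ≤ ∫_0^t r`. -/
lemma posPart_le {t : ℝ} (ht : 0 ≤ t) {q r : ℝ → ℝ} (hq : IntervalIntegrable q volume 0 t)
    (hr : IntervalIntegrable r volume 0 t)
    (h : ∀ᵐ s : ℝ, s ∈ Ioc 0 t →
      ((0 < ∫ u in (0 : ℝ)..s, q u) → q s ≤ r s) ∧ ((∫ u in (0 : ℝ)..s, q u) ≤ 0 → 0 ≤ r s)) :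
    max (∫ u in (0 : ℝ)..t, q u) 0 ≤ ∫ s in (0 : ℝ)..t, r s := by
  set Y : ℝ → ℝ := fun s => ∫ u in (0 : ℝ)..s, q u with hY
  have hYac : AbsolutelyContinuousOnInterval Y 0 t :=
    hq.absolutelyContinuousOnInterval_intervalIntegral (by simp)
  have hZac := ac_max_zero hYac
  have hftc := hZac.integral_deriv_eq_sub
  have hY0 : Y 0 = 0 := by simp [hY]
  simp only [hY0, max_self, sub_zero] at hftc
  rw [← hftc]
  apply intervalIntegral.integral_mono_ae_restrict ht hZac.intervalIntegrable_deriv hr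
  rw [Filter.EventuallyLE, ae_restrict_iff' measurableSet_Icc]
  have hne : ∀ᵐ s : ℝ, s ≠ 0 := by simp [ae_iff, measure_singleton]
  filter_upwards [h, hq.ae_hasDerivAt_integral, hZac.ae_differentiableAt, hne]
    with s hs hder hdiff hs0 hmem
  have hmem' : s ∈ uIcc 0 t := by rwa [uIcc_of_le ht]
  have hmemIoc : s ∈ Ioc 0 t := ⟨lt_of_le_of_ne hmem.1 (Ne.symm hs0), hmem.2⟩
  have hYder : HasDerivAt Y (q s) s := hder hmem' 0 (by simp)
  have hZdiff := hdiff hmem'
  rcases lt_trichotomy (Y s) 0 with hneg | hzero | hpos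
  · -- `Z = 0` near `s`
    have hev : (fun x => max (Y x) 0) =ᶠ[nhds s] fun _ => 0 := by
      filter_upwards [hYder.continuousAt.eventually_lt continuousAt_const hneg] with x hx
      exact max_eq_right hx.le
    rw [hev.deriv_eq, deriv_const]
    exact (hs hmemIoc).2 hneg.le
  · -- a minimum of `Z`
    have hmin : IsLocalMin (fun x => max (Y x) 0) s := by
      refine Filter.Eventually.of_forall fun x => ?_
      simp [hzero]
    rw [hmin.deriv_eq_zero]
    exact (hs hmemIoc).2 hzero.le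
  · -- `Z = Y` near `s`
    have hev : (fun x => max (Y x) 0) =ᶠ[nhds s] Y := by
      filter_upwards [continuousAt_const.eventually_lt hYder.continuousAt hpos] with x hx
      exact max_eq_left hx.le
    rw [hev.deriv_eq, hYder.deriv]
    exact (hs hmemIoc).1 hpos

end Vale.Agent.Lib.P140
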