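import Mathlib
import Vale.Agent.Lib.P140.PosPart

/-!
# The comparison lemma along one characteristic, in extended nonnegative reals
-/

namespace Vale.Agent.Lib.P140

open MeasureTheory Set
open scoped ENNReal

section Helper

variable {t : ℝ} {P : ℝ → ℝ≥0∞}

lemma lint_mono_Ioc {s : ℝ} (hs : s ≤ t) (P : ℝ → ℝ≥0∞) :
    ∫⁻ u in Ioc 0 s, P u ≤ ∫⁻ u in Ioc 0 t, P u :=
  lintegral_mono_set (Ioc_subset_Ioc_right hs)

lemma intervalIntegrable_toReal (ht : 0 ≤ t) (hP : Measurable P)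
    (hfin : ∫⁻ u in Ioc 0 t, P u < ∞) :
    IntervalIntegrable (fun s => (P s).toReal) volume 0 t := by
  rw [intervalIntegrable_iff_integrableOn_Ioc_of_le ht]
  exact integrable_toReal_of_lintegral_ne_top hP.aemeasurable hfin.ne

lemma lint_eq_ofReal {s : ℝ} (hs0 : 0 ≤ s) (hs : s ≤ t) (hP : Measurable P)
    (hfin : ∫⁻ u in Ioc 0 t, P u < ∞) :
    ∫⁻ u in Ioc 0 s, P u = ENNReal.ofReal (∫ u in (0 : ℝ)..s, (P u).toReal) := by
  have hfin' : ∫⁻ u in Ioc 0 s, P u < ∞ := lt_of_le_of_lt (lint_mono_Ioc hs P) hfin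
  rw [intervalIntegral.integral_of_le hs0,
    integral_toReal hP.aemeasurable (ae_lt_top hP hfin'.ne), ENNReal.ofReal_toReal hfin'.ne]

end Helper

/-- Comparison along one characteristic.  `φ` and `γ` solve the two integrated equations with the
same initial value `c`; where `φ < γ` the source terms satisfy the differential inequality with
gain `R` and damping `ℓ`. -/
lemma char_ineq {t : ℝ} (ht : 0 ≤ t) {PF NF Pg Ng ℓ R φ γ : ℝ → ℝ≥0∞} {c : ℝ≥0∞} (hc : c < ∞)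
    (mPF : Measurable PF) (mNF : Measurable NF) (mPg : Measurable Pg) (mNg : Measurable Ng)
    (mℓ : Measurable ℓ) (mR : Measurable R)
    (fPF : ∫⁻ u in Ioc 0 t, PF u < ∞) (fNF : ∫⁻ u in Ioc 0 t, NF u < ∞)
    (fPg : ∫⁻ u in Ioc 0 t, Pg u < ∞) (fNg : ∫⁻ u in Ioc 0 t, Ng u < ∞)
    (hφ : ∀ᵐ s : ℝ, s ∈ Ioc 0 t →
      φ s + ∫⁻ u in Ioc 0 s, NF u = c + ∫⁻ u in Ioc 0 s, PF u)
    (hφt : φ t + ∫⁻ u in Ioc 0 t, NF u = c + ∫⁻ u in Ioc 0 t, PF u)
    (hγ : ∀ᵐ s : ℝ, s ∈ Ioc 0 t →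
      γ s + ∫⁻ u in Ioc 0 s, Ng u = c + ∫⁻ u in Ioc 0 s, Pg u)
    (hγt : γ t + ∫⁻ u in Ioc 0 t, Ng u = c + ∫⁻ u in Ioc 0 t, Pg u)
    (hlt : ∀ᵐ s : ℝ, s ∈ Ioc 0 t → φ s < γ s → Pg s + NF s + ℓ s ≤ PF s + Ng s + R s)
    (hge : ∀ᵐ s : ℝ, s ∈ Ioc 0 t → γ s ≤ φ s → ℓ s = 0) :
    (γ t - φ t) + ∫⁻ s in Ioc 0 t, ℓ s ≤ ∫⁻ s in Ioc 0 t, R s := by
  by_cases fR : ∫⁻ s in Ioc 0 t, R s = ∞
  · rw [fR]; exact le_top
  replace fR : ∫⁻ s in Ioc 0 t, R s < ∞ := lt_top_iff_ne_top.mpr fR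
  -- `ℓ` is integrable
  have hℓle : ∀ᵐ s : ℝ, s ∈ Ioc 0 t → ℓ s ≤ PF s + Ng s + R s := by
    filter_upwards [hlt, hge] with s h1 h2 hs
    rcases lt_or_ge (φ s) (γ s) with h | h
    · exact le_trans le_add_self (h1 hs h)
    · rw [h2 hs h]; exact zero_le
  have fℓ : ∫⁻ s in Ioc 0 t, ℓ s < ∞ := by
    calc ∫⁻ s in Ioc 0 t, ℓ s ≤ ∫⁻ s in Ioc 0 t, (PF s + Ng s + R s) := by
          apply lintegral_mono_ae
          rwa [ae_restrict_iff' measurableSet_Ioc]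
      _ = (∫⁻ s in Ioc 0 t, PF s) + (∫⁻ s in Ioc 0 t, Ng s) + ∫⁻ s in Ioc 0 t, R s := by
          rw [lintegral_add_right _ mR, lintegral_add_right _ mNg]
      _ < ∞ := by
          exact ENNReal.add_lt_top.mpr ⟨ENNReal.add_lt_top.mpr ⟨fPF, fNg⟩, fR⟩
  -- real-valued versions
  have iPF := intervalIntegrable_toReal ht mPF fPF
  have iNF := intervalIntegrable_toReal ht mNF fNF
  have iPg := intervalIntegrable_toReal ht mPg fPg
  have iNg := intervalIntegrable_toReal ht mNg fNg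
  have iℓ := intervalIntegrable_toReal ht mℓ fℓ
  have iR := intervalIntegrable_toReal ht mR fR
  set q : ℝ → ℝ := fun s => (Pg s).toReal - (Ng s).toReal - (PF s).toReal + (NF s).toReal with hq
  set r : ℝ → ℝ := fun s => (R s).toReal - (ℓ s).toReal with hr
  have iq : IntervalIntegrable q volume 0 t := ((iPg.sub iNg).sub iPF).add iNF
  have ir : IntervalIntegrable r volume 0 t := iR.sub iℓ
  -- the solution formula in real numbers
  have key : ∀ s : ℝ, 0 ≤ s → s ≤ t →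
      φ s + ∫⁻ u in Ioc 0 s, NF u = c + ∫⁻ u in Ioc 0 s, PF u →
      γ s + ∫⁻ u in Ioc 0 s, Ng u = c + ∫⁻ u in Ioc 0 s, Pg u →
      φ s < ∞ ∧ γ s < ∞ ∧ (γ s).toReal - (φ s).toReal = ∫ u in (0 : ℝ)..s, q u := by
    intro s hs0 hst e1 e2
    have f1 : ∫⁻ u in Ioc 0 s, PF u < ∞ := lt_of_le_of_lt (lint_mono_Ioc hst PF) fPF
    have f2 : ∫⁻ u in Ioc 0 s, NF u < ∞ := lt_of_le_of_lt (lint_mono_Ioc hst NF) fNF
    have f3 : ∫⁻ u in Ioc 0 s, Pg u < ∞ := lt_of_le_of_lt (lint_mono_Ioc hst Pg) fPg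
    have f4 : ∫⁻ u in Ioc 0 s, Ng u < ∞ := lt_of_le_of_lt (lint_mono_Ioc hst Ng) fNg
    have hφfin : φ s < ∞ := by
      refine lt_of_le_of_lt le_self_add (?_ : φ s + ∫⁻ u in Ioc 0 s, NF u < ∞)
      rw [e1]; exact ENNReal.add_lt_top.mpr ⟨hc, f1⟩
    have hγfin : γ s < ∞ := by
      refine lt_of_le_of_lt le_self_add (?_ : γ s + ∫⁻ u in Ioc 0 s, Ng u < ∞)
      rw [e2]; exact ENNReal.add_lt_top.mpr ⟨hc, f3⟩
    refine ⟨hφfin, hγfin, ?_⟩
    have r1 := congrArg ENNReal.toReal e1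
    have r2 := congrArg ENNReal.toReal e2
    rw [ENNReal.toReal_add hφfin.ne f2.ne, ENNReal.toReal_add hc.ne f1.ne] at r1
    rw [ENNReal.toReal_add hγfin.ne f4.ne, ENNReal.toReal_add hc.ne f3.ne] at r2
    have sub : ∀ {a b : ℝ} , uIcc (0 : ℝ) s ⊆ uIcc 0 t := by
      intro _ _
      rw [uIcc_of_le hs0, uIcc_of_le ht]
      exact Icc_subset_Icc_right hst
    have jPF := iPF.mono_set (sub (a := 0) (b := 0))
    have jNF := iNF.mono_set (sub (a := 0) (b := 0))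
    have jPg := iPg.mono_set (sub (a := 0) (b := 0))
    have jNg := iNg.mono_set (sub (a := 0) (b := 0))
    have c1 : (∫⁻ u in Ioc 0 s, PF u).toReal = ∫ u in (0 : ℝ)..s, (PF u).toReal := by
      rw [intervalIntegral.integral_of_le hs0, integral_toReal mPF.aemeasurable (ae_lt_top mPF f1.ne)]
    have c2 : (∫⁻ u in Ioc 0 s, NF u).toReal = ∫ u in (0 : ℝ)..s, (NF u).toReal := by
      rw [intervalIntegral.integral_of_le hs0, integral_toReal mNF.aemeasurable (ae_lt_top mNF f2.ne)]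
    have c3 : (∫⁻ u in Ioc 0 s, Pg u).toReal = ∫ u in (0 : ℝ)..s, (Pg u).toReal := by
      rw [intervalIntegral.integral_of_le hs0, integral_toReal mPg.aemeasurable (ae_lt_top mPg f3.ne)]
    have c4 : (∫⁻ u in Ioc 0 s, Ng u).toReal = ∫ u in (0 : ℝ)..s, (Ng u).toReal := by
      rw [intervalIntegral.integral_of_le hs0, integral_toReal mNg.aemeasurable (ae_lt_top mNg f4.ne)]
    have hint : ∫ u in (0 : ℝ)..s, q u =
        (∫ u in (0 : ℝ)..s, (Pg u).toReal) - (∫ u in (0 : ℝ)..s, (Ng u).toReal)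
          - (∫ u in (0 : ℝ)..s, (PF u).toReal) + ∫ u in (0 : ℝ)..s, (NF u).toReal := by
      simp only [hq]
      rw [intervalIntegral.integral_add ((jPg.sub jNg).sub jPF) jNF,
        intervalIntegral.integral_sub (jPg.sub jNg) jPF, intervalIntegral.integral_sub jPg jNg]
    rw [hint, ← c1, ← c2, ← c3, ← c4]
    linarith
  -- finiteness a.e. of the integrands
  have aefin : ∀ {P : ℝ → ℝ≥0∞}, Measurable P → ∫⁻ u in Ioc 0 t, P u < ∞ →
      ∀ᵐ s : ℝ, s ∈ Ioc 0 t → P s < ∞ := by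
    intro P mP fP
    have := ae_lt_top mP fP.ne
    rwa [ae_restrict_iff' measurableSet_Ioc] at this
  have hmain : max (∫ u in (0 : ℝ)..t, q u) 0 ≤ ∫ s in (0 : ℝ)..t, r s := by
    apply posPart_le ht iq ir
    filter_upwards [hφ, hγ, hlt, hge, aefin mPF fPF, aefin mNF fNF, aefin mPg fPg, aefin mNg fNg,
      aefin mℓ fℓ, aefin mR fR] with s h1 h2 h3 h4 a1 a2 a3 a4 a5 a6 hs
    obtain ⟨hφfin, hγfin, hY⟩ := key s hs.1.le hs.2 (h1 hs) (h2 hs)
    constructor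
    · intro hpos
      rw [← hY] at hpos
      have hlt' : φ s < γ s := by
        rw [← ENNReal.toReal_lt_toReal hφfin.ne hγfin.ne]
        linarith
      have h5 := h3 hs hlt'
      have h6 := ENNReal.toReal_mono
        (ENNReal.add_lt_top.mpr ⟨ENNReal.add_lt_top.mpr ⟨a1 hs, a4 hs⟩, a6 hs⟩).ne h5
      rw [ENNReal.toReal_add (ENNReal.add_lt_top.mpr ⟨a3 hs, a2 hs⟩).ne (a5 hs).ne,
        ENNReal.toReal_add (a3 hs).ne (a2 hs).ne,
        ENNReal.toReal_add (ENNReal.add_lt_top.mpr ⟨a1 hs, a4 hs⟩).ne (a6 hs).ne,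
        ENNReal.toReal_add (a1 hs).ne (a4 hs).ne] at h6
      simp only [hq, hr]
      linarith
    · intro hnonpos
      rw [← hY] at hnonpos
      have hge' : γ s ≤ φ s := by
        rw [← ENNReal.toReal_le_toReal hγfin.ne hφfin.ne]
        linarith
      simp only [hr, h4 hs hge', ENNReal.toReal_zero, sub_zero]
      exact ENNReal.toReal_nonneg
  obtain ⟨hφfin, hγfin, hY⟩ := key t ht le_rfl hφt hγt
  have hsub : γ t - φ t = ENNReal.ofReal (max (∫ u in (0 : ℝ)..t, q u) 0) := by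
    rw [← hY, ← ENNReal.ofReal_toReal (a := γ t - φ t)
      (ne_top_of_le_ne_top hγfin.ne tsub_le_self)]
    rcases le_total (φ t) (γ t) with h | h
    · rw [ENNReal.toReal_sub_of_le h hγfin.ne, max_eq_left]
      have := (ENNReal.toReal_le_toReal hφfin.ne hγfin.ne).mpr h
      linarith
    · rw [tsub_eq_zero_of_le h, max_eq_right]
      · simp
      · have := (ENNReal.toReal_le_toReal hγfin.ne hφfin.ne).mpr h
        linarith
  have hrint : ∫ s in (0 : ℝ)..t, r s =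
      (∫ s in (0 : ℝ)..t, (R s).toReal) - ∫ s in (0 : ℝ)..t, (ℓ s).toReal := by
    simp only [hr]
    rw [intervalIntegral.integral_sub iR iℓ]
  rw [hsub, lint_eq_ofReal ht le_rfl mℓ fℓ, lint_eq_ofReal ht le_rfl mR fR,
    ← ENNReal.ofReal_add (le_max_right _ _)
      (intervalIntegral.integral_nonneg ht fun _ _ => ENNReal.toReal_nonneg)]
  apply ENNReal.ofReal_le_ofReal
  linarith

end Vale.Agent.Lib.P140
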