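import Mathlib
import Vale.Agent.Lib.P140.CharLemma

/-!
# The comparison lemma along one characteristic, started at a positive time
-/

namespace Vale.Agent.Lib.P140

open MeasureTheory Set
open scoped ENNReal

/-- Composition of a shifted absolutely continuous function with `max · 0`. -/
lemma ac_max_add {f : ℝ → ℝ} {a b : ℝ} (y0 : ℝ) (hf : AbsolutelyContinuousOnInterval f a b) :
    AbsolutelyContinuousOnInterval (fun x => max (y0 + f x) 0) a b := by
  rw [absolutelyContinuousOnInterval_iff] at hf ⊢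
  intro ε hε
  obtain ⟨δ, hδ, h⟩ := hf ε hε
  refine ⟨δ, hδ, fun E hE hsum => lt_of_le_of_lt ?_ (h E hE hsum)⟩
  apply Finset.sum_le_sum
  intro i _
  rw [Real.dist_eq, Real.dist_eq]
  refine (abs_max_sub_max_le_abs _ _ _).trans (le_of_eq ?_)
  rw [add_sub_add_left_eq_sub]

/-- `posPart_le` on `[a,b]` with an initial value: let `Y s = y0 + ∫_a^s q`.  If `q ≤ r` a.e. where
`Y > 0` and `0 ≤ r` a.e. where `Y ≤ 0`, then `max (Y b) 0 ≤ max y0 0 + ∫_a^b r`. -/
lemma posPart_le_Icc {a b : ℝ} (hab : a ≤ b) {q r : ℝ → ℝ} (y0 : ℝ)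
    (hq : IntervalIntegrable q volume a b) (hr : IntervalIntegrable r volume a b)
    (h : ∀ᵐ s : ℝ, s ∈ Ioc a b →
      ((0 < y0 + ∫ u in a..s, q u) → q s ≤ r s) ∧
        ((y0 + ∫ u in a..s, q u) ≤ 0 → 0 ≤ r s)) :
    max (y0 + ∫ u in a..b, q u) 0 ≤ max y0 0 + ∫ s in a..b, r s := by
  set I : ℝ → ℝ := fun s => ∫ u in a..s, q u with hI
  set Y : ℝ → ℝ := fun s => y0 + I s with hY
  have hIac : AbsolutelyContinuousOnInterval I a b :=
    hq.absolutelyContinuousOnInterval_intervalIntegral (by simp)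
  have hZac := ac_max_add y0 hIac
  have hftc := hZac.integral_deriv_eq_sub
  have hI0 : I a = 0 := by simp [hI]
  simp only [hI0, add_zero] at hftc
  have hgoal : max (y0 + I b) 0 = max y0 0 + ∫ x in a..b, deriv (fun x => max (y0 + I x) 0) x := by
    rw [hftc]; ring
  change max (y0 + I b) 0 ≤ _
  rw [hgoal]
  apply add_le_add le_rfl
  apply intervalIntegral.integral_mono_ae_restrict hab hZac.intervalIntegrable_deriv hr
  rw [Filter.EventuallyLE, ae_restrict_iff' measurableSet_Icc]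
  have hne : ∀ᵐ s : ℝ, s ≠ a := by simp [ae_iff, measure_singleton]
  filter_upwards [h, hq.ae_hasDerivAt_integral, hZac.ae_differentiableAt, hne]
    with s hs hder hdiff hs0 hmem
  have hmem' : s ∈ uIcc a b := by rwa [uIcc_of_le hab]
  have hmemIoc : s ∈ Ioc a b := ⟨lt_of_le_of_ne hmem.1 (Ne.symm hs0), hmem.2⟩
  have hIder : HasDerivAt I (q s) s := hder hmem' a (by simp)
  have hYder : HasDerivAt Y (q s) s := hIder.const_add y0
  rcases lt_trichotomy (Y s) 0 with hneg | hzero | hpos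
  · have hev : (fun x => max (y0 + I x) 0) =ᶠ[nhds s] fun _ => 0 := by
      filter_upwards [hYder.continuousAt.eventually_lt continuousAt_const hneg] with x hx
      exact max_eq_right hx.le
    rw [hev.deriv_eq, deriv_const]
    exact (hs hmemIoc).2 hneg.le
  · have hmin : IsLocalMin (fun x => max (y0 + I x) 0) s := by
      refine Filter.Eventually.of_forall fun x => ?_
      have : y0 + I s = 0 := hzero
      simp [this]
    rw [hmin.deriv_eq_zero]
    exact (hs hmemIoc).2 hzero.le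
  · have hev : (fun x => max (y0 + I x) 0) =ᶠ[nhds s] Y := by
      filter_upwards [continuousAt_const.eventually_lt hYder.continuousAt hpos] with x hx
      exact max_eq_left hx.le
    rw [hev.deriv_eq, hYder.deriv]
    exact (hs hmemIoc).1 hpos

lemma lintegral_Ioc_split {a s : ℝ} (ha : 0 ≤ a) (has : a ≤ s) (P : ℝ → ℝ≥0∞) :
    ∫⁻ u in Ioc 0 s, P u = (∫⁻ u in Ioc 0 a, P u) + ∫⁻ u in Ioc a s, P u := by
  rw [← Ioc_union_Ioc_eq_Ioc ha has]
  exact lintegral_union measurableSet_Ioc (Ioc_disjoint_Ioc_of_le le_rfl)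

/-- Restarting an integrated equation at time `a`. -/
lemma restart_eq {a s : ℝ} (ha : 0 ≤ a) (has : a ≤ s) {P N : ℝ → ℝ≥0∞} {c x y : ℝ≥0∞}
    (fP : ∫⁻ u in Ioc 0 s, P u < ∞) (fN : ∫⁻ u in Ioc 0 s, N u < ∞) (hc : c < ∞)
    (hs : x + ∫⁻ u in Ioc 0 s, N u = c + ∫⁻ u in Ioc 0 s, P u)
    (ha' : y + ∫⁻ u in Ioc 0 a, N u = c + ∫⁻ u in Ioc 0 a, P u) :
    x + ∫⁻ u in Ioc a s, N u = y + ∫⁻ u in Ioc a s, P u := by
  rw [lintegral_Ioc_split ha has N, lintegral_Ioc_split ha has P] at hs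
  rw [lintegral_Ioc_split ha has N] at fN
  have fN1 : ∫⁻ u in Ioc 0 a, N u ≠ ∞ := (lt_of_le_of_lt le_self_add fN).ne
  have h1 : (x + ∫⁻ u in Ioc a s, N u) + ∫⁻ u in Ioc 0 a, N u
      = (y + ∫⁻ u in Ioc a s, P u) + ∫⁻ u in Ioc 0 a, N u := by
    calc (x + ∫⁻ u in Ioc a s, N u) + ∫⁻ u in Ioc 0 a, N u
        = x + ((∫⁻ u in Ioc 0 a, N u) + ∫⁻ u in Ioc a s, N u) := by ring
      _ = c + ((∫⁻ u in Ioc 0 a, P u) + ∫⁻ u in Ioc a s, P u) := hs
      _ = (c + ∫⁻ u in Ioc 0 a, P u) + ∫⁻ u in Ioc a s, P u := by ring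
      _ = (y + ∫⁻ u in Ioc 0 a, N u) + ∫⁻ u in Ioc a s, P u := by rw [ha']
      _ = (y + ∫⁻ u in Ioc a s, P u) + ∫⁻ u in Ioc 0 a, N u := by ring
  exact (ENNReal.add_left_inj fN1).1 h1

section Helper2

variable {a t : ℝ} {P : ℝ → ℝ≥0∞}

lemma lint_mono_Ioc_from {s : ℝ} (hs : s ≤ t) (P : ℝ → ℝ≥0∞) :
    ∫⁻ u in Ioc a s, P u ≤ ∫⁻ u in Ioc a t, P u :=
  lintegral_mono_set (Ioc_subset_Ioc_right hs)

lemma intervalIntegrable_toReal_from (ht : a ≤ t) (hP : Measurable P)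
    (hfin : ∫⁻ u in Ioc a t, P u < ∞) :
    IntervalIntegrable (fun s => (P s).toReal) volume a t := by
  rw [intervalIntegrable_iff_integrableOn_Ioc_of_le ht]
  exact integrable_toReal_of_lintegral_ne_top hP.aemeasurable hfin.ne

lemma lint_eq_ofReal_from {s : ℝ} (hs0 : a ≤ s) (hs : s ≤ t) (hP : Measurable P)
    (hfin : ∫⁻ u in Ioc a t, P u < ∞) :
    ∫⁻ u in Ioc a s, P u = ENNReal.ofReal (∫ u in a..s, (P u).toReal) := by
  have hfin' : ∫⁻ u in Ioc a s, P u < ∞ := lt_of_le_of_lt (lint_mono_Ioc_from hs P) hfin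
  rw [intervalIntegral.integral_of_le hs0,
    integral_toReal hP.aemeasurable (ae_lt_top hP hfin'.ne), ENNReal.ofReal_toReal hfin'.ne]

end Helper2

lemma tsub_eq_ofReal_max {x y : ℝ≥0∞} (hx : x < ∞) (hy : y < ∞) :
    x - y = ENNReal.ofReal (max (x.toReal - y.toReal) 0) := by
  rw [← ENNReal.ofReal_toReal (a := x - y) (ne_top_of_le_ne_top hx.ne tsub_le_self)]
  rcases le_total y x with h | h
  · rw [ENNReal.toReal_sub_of_le h hx.ne, max_eq_left]
    have := (ENNReal.toReal_le_toReal hy.ne hx.ne).mpr h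
    linarith
  · rw [tsub_eq_zero_of_le h, max_eq_right]
    · simp
    · have := (ENNReal.toReal_le_toReal hx.ne hy.ne).mpr h
      linarith

/-- Comparison along one characteristic on `[a,t]`, with initial values `cφ`, `cγ` at time `a`. -/
lemma char_ineq_from {a t : ℝ} (hat : a ≤ t) {PF NF Pg Ng ℓ R φ γ : ℝ → ℝ≥0∞} {cφ cγ : ℝ≥0∞}
    (hcφ : cφ < ∞) (hcγ : cγ < ∞)
    (mPF : Measurable PF) (mNF : Measurable NF) (mPg : Measurable Pg) (mNg : Measurable Ng)
    (mℓ : Measurable ℓ) (mR : Measurable R)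
    (fPF : ∫⁻ u in Ioc a t, PF u < ∞) (fNF : ∫⁻ u in Ioc a t, NF u < ∞)
    (fPg : ∫⁻ u in Ioc a t, Pg u < ∞) (fNg : ∫⁻ u in Ioc a t, Ng u < ∞)
    (hφ : ∀ᵐ s : ℝ, s ∈ Ioc a t →
      φ s + ∫⁻ u in Ioc a s, NF u = cφ + ∫⁻ u in Ioc a s, PF u)
    (hφt : φ t + ∫⁻ u in Ioc a t, NF u = cφ + ∫⁻ u in Ioc a t, PF u)
    (hγ : ∀ᵐ s : ℝ, s ∈ Ioc a t →
      γ s + ∫⁻ u in Ioc a s, Ng u = cγ + ∫⁻ u in Ioc a s, Pg u)
    (hγt : γ t + ∫⁻ u in Ioc a t, Ng u = cγ + ∫⁻ u in Ioc a t, Pg u)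
    (hlt : ∀ᵐ s : ℝ, s ∈ Ioc a t → φ s < γ s → Pg s + NF s + ℓ s ≤ PF s + Ng s + R s)
    (hge : ∀ᵐ s : ℝ, s ∈ Ioc a t → γ s ≤ φ s → ℓ s = 0) :
    (γ t - φ t) + ∫⁻ s in Ioc a t, ℓ s ≤ (cγ - cφ) + ∫⁻ s in Ioc a t, R s := by
  by_cases fR : ∫⁻ s in Ioc a t, R s = ∞
  · rw [fR, add_top]; exact le_top
  replace fR : ∫⁻ s in Ioc a t, R s < ∞ := lt_top_iff_ne_top.mpr fR
  -- `ℓ` is integrable
  have hℓle : ∀ᵐ s : ℝ, s ∈ Ioc a t → ℓ s ≤ PF s + Ng s + R s := by
    filter_upwards [hlt, hge] with s h1 h2 hs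
    rcases lt_or_ge (φ s) (γ s) with h | h
    · exact le_trans le_add_self (h1 hs h)
    · rw [h2 hs h]; exact zero_le
  have fℓ : ∫⁻ s in Ioc a t, ℓ s < ∞ := by
    calc ∫⁻ s in Ioc a t, ℓ s ≤ ∫⁻ s in Ioc a t, (PF s + Ng s + R s) := by
          apply lintegral_mono_ae
          rwa [ae_restrict_iff' measurableSet_Ioc]
      _ = (∫⁻ s in Ioc a t, PF s) + (∫⁻ s in Ioc a t, Ng s) + ∫⁻ s in Ioc a t, R s := by
          rw [lintegral_add_right _ mR, lintegral_add_right _ mNg]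
      _ < ∞ := by
          exact ENNReal.add_lt_top.mpr ⟨ENNReal.add_lt_top.mpr ⟨fPF, fNg⟩, fR⟩
  -- real-valued versions
  have iPF := intervalIntegrable_toReal_from hat mPF fPF
  have iNF := intervalIntegrable_toReal_from hat mNF fNF
  have iPg := intervalIntegrable_toReal_from hat mPg fPg
  have iNg := intervalIntegrable_toReal_from hat mNg fNg
  have iℓ := intervalIntegrable_toReal_from hat mℓ fℓ
  have iR := intervalIntegrable_toReal_from hat mR fR
  set q : ℝ → ℝ := fun s => (Pg s).toReal - (Ng s).toReal - (PF s).toReal + (NF s).toReal with hq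
  set r : ℝ → ℝ := fun s => (R s).toReal - (ℓ s).toReal with hr
  set y0 : ℝ := cγ.toReal - cφ.toReal with hy0
  have iq : IntervalIntegrable q volume a t := ((iPg.sub iNg).sub iPF).add iNF
  have ir : IntervalIntegrable r volume a t := iR.sub iℓ
  -- the solution formula in real numbers
  have key : ∀ s : ℝ, a ≤ s → s ≤ t →
      φ s + ∫⁻ u in Ioc a s, NF u = cφ + ∫⁻ u in Ioc a s, PF u →
      γ s + ∫⁻ u in Ioc a s, Ng u = cγ + ∫⁻ u in Ioc a s, Pg u →
      φ s < ∞ ∧ γ s < ∞ ∧ (γ s).toReal - (φ s).toReal = y0 + ∫ u in a..s, q u := by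
    intro s hs0 hst e1 e2
    have f1 : ∫⁻ u in Ioc a s, PF u < ∞ := lt_of_le_of_lt (lint_mono_Ioc_from hst PF) fPF
    have f2 : ∫⁻ u in Ioc a s, NF u < ∞ := lt_of_le_of_lt (lint_mono_Ioc_from hst NF) fNF
    have f3 : ∫⁻ u in Ioc a s, Pg u < ∞ := lt_of_le_of_lt (lint_mono_Ioc_from hst Pg) fPg
    have f4 : ∫⁻ u in Ioc a s, Ng u < ∞ := lt_of_le_of_lt (lint_mono_Ioc_from hst Ng) fNg
    have hφfin : φ s < ∞ := by
      refine lt_of_le_of_lt le_self_add (?_ : φ s + ∫⁻ u in Ioc a s, NF u < ∞)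
      rw [e1]; exact ENNReal.add_lt_top.mpr ⟨hcφ, f1⟩
    have hγfin : γ s < ∞ := by
      refine lt_of_le_of_lt le_self_add (?_ : γ s + ∫⁻ u in Ioc a s, Ng u < ∞)
      rw [e2]; exact ENNReal.add_lt_top.mpr ⟨hcγ, f3⟩
    refine ⟨hφfin, hγfin, ?_⟩
    have r1 := congrArg ENNReal.toReal e1
    have r2 := congrArg ENNReal.toReal e2
    rw [ENNReal.toReal_add hφfin.ne f2.ne, ENNReal.toReal_add hcφ.ne f1.ne] at r1
    rw [ENNReal.toReal_add hγfin.ne f4.ne, ENNReal.toReal_add hcγ.ne f3.ne] at r2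
    have sub : uIcc a s ⊆ uIcc a t := by
      rw [uIcc_of_le hs0, uIcc_of_le hat]
      exact Icc_subset_Icc_right hst
    have jPF := iPF.mono_set sub
    have jNF := iNF.mono_set sub
    have jPg := iPg.mono_set sub
    have jNg := iNg.mono_set sub
    have c1 : (∫⁻ u in Ioc a s, PF u).toReal = ∫ u in a..s, (PF u).toReal := by
      rw [intervalIntegral.integral_of_le hs0, integral_toReal mPF.aemeasurable (ae_lt_top mPF f1.ne)]
    have c2 : (∫⁻ u in Ioc a s, NF u).toReal = ∫ u in a..s, (NF u).toReal := by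
      rw [intervalIntegral.integral_of_le hs0, integral_toReal mNF.aemeasurable (ae_lt_top mNF f2.ne)]
    have c3 : (∫⁻ u in Ioc a s, Pg u).toReal = ∫ u in a..s, (Pg u).toReal := by
      rw [intervalIntegral.integral_of_le hs0, integral_toReal mPg.aemeasurable (ae_lt_top mPg f3.ne)]
    have c4 : (∫⁻ u in Ioc a s, Ng u).toReal = ∫ u in a..s, (Ng u).toReal := by
      rw [intervalIntegral.integral_of_le hs0, integral_toReal mNg.aemeasurable (ae_lt_top mNg f4.ne)]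
    have hint : ∫ u in a..s, q u =
        (∫ u in a..s, (Pg u).toReal) - (∫ u in a..s, (Ng u).toReal)
          - (∫ u in a..s, (PF u).toReal) + ∫ u in a..s, (NF u).toReal := by
      simp only [hq]
      rw [intervalIntegral.integral_add ((jPg.sub jNg).sub jPF) jNF,
        intervalIntegral.integral_sub (jPg.sub jNg) jPF, intervalIntegral.integral_sub jPg jNg]
    rw [hint, ← c1, ← c2, ← c3, ← c4, hy0]
    linarith
  -- finiteness a.e. of the integrands
  have aefin : ∀ {P : ℝ → ℝ≥0∞}, Measurable P → ∫⁻ u in Ioc a t, P u < ∞ →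
      ∀ᵐ s : ℝ, s ∈ Ioc a t → P s < ∞ := by
    intro P mP fP
    have := ae_lt_top mP fP.ne
    rwa [ae_restrict_iff' measurableSet_Ioc] at this
  have hmain : max (y0 + ∫ u in a..t, q u) 0 ≤ max y0 0 + ∫ s in a..t, r s := by
    apply posPart_le_Icc hat y0 iq ir
    filter_upwards [hφ, hγ, hlt, hge, aefin mPF fPF, aefin mNF fNF, aefin mPg fPg, aefin mNg fNg,
      aefin mℓ fℓ, aefin mR fR] with s h1 h2 h3 h4 a1 a2 a3 a4 a5 a6 hs
    obtain ⟨hφfin, hγfin, hY⟩ := key s hs.1.le hs.2 (h1 hs) (h2 hs)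
    constructor
    · intro hpos
      rw [← hY] at hpos
      have hlt' : φ s < γ s := by
        rw [← ENNReal.toReal_lt_toReal hφfin.ne hγfin.ne]
        linarith
      have h5 := h3 hs hlt'
      have h6 := ENNReal.toReal_mono
        (ENNReal.add_lt_top.mpr ⟨ENNReal.add_lt_top.mpr ⟨a1 hs, a4 hs⟩, a6 hs⟩).ne h5
      rw [ENNReal.toReal_add (ENNReal.add_lt_top.mpr ⟨a3 hs, a2 hs⟩).ne (a5 hs).ne,
        ENNReal.toReal_add (a3 hs).ne (a2 hs).ne,
        ENNReal.toReal_add (ENNReal.add_lt_top.mpr ⟨a1 hs, a4 hs⟩).ne (a6 hs).ne,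
        ENNReal.toReal_add (a1 hs).ne (a4 hs).ne] at h6
      simp only [hq, hr]
      linarith
    · intro hnonpos
      rw [← hY] at hnonpos
      have hge' : γ s ≤ φ s := by
        rw [← ENNReal.toReal_le_toReal hγfin.ne hφfin.ne]
        linarith
      simp only [hr, h4 hs hge', ENNReal.toReal_zero, sub_zero]
      exact ENNReal.toReal_nonneg
  obtain ⟨hφfin, hγfin, hY⟩ := key t hat le_rfl hφt hγt
  have hsub : γ t - φ t = ENNReal.ofReal (max (y0 + ∫ u in a..t, q u) 0) := by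
    rw [← hY]; exact tsub_eq_ofReal_max hγfin hφfin
  have hsub0 : cγ - cφ = ENNReal.ofReal (max y0 0) := tsub_eq_ofReal_max hcγ hcφ
  have hrint : ∫ s in a..t, r s =
      (∫ s in a..t, (R s).toReal) - ∫ s in a..t, (ℓ s).toReal := by
    simp only [hr]
    rw [intervalIntegral.integral_sub iR iℓ]
  rw [hsub, hsub0, lint_eq_ofReal_from hat le_rfl mℓ fℓ, lint_eq_ofReal_from hat le_rfl mR fR,
    ← ENNReal.ofReal_add (le_max_right _ _)
      (intervalIntegral.integral_nonneg hat fun _ _ => ENNReal.toReal_nonneg),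
    ← ENNReal.ofReal_add (le_max_right _ _)
      (intervalIntegral.integral_nonneg hat fun _ _ => ENNReal.toReal_nonneg)]
  apply ENNReal.ofReal_le_ofReal
  linarith

end Vale.Agent.Lib.P140
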