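import Mathlib

/-!
# A Gronwall lemma in `[0,∞]`
-/

namespace Vale.Agent.Lib.P140

open MeasureTheory Set
open scoped ENNReal

/-- If `W ≤ E < ∞` and `W(t) ≤ c ∫_0^t W` for almost every `t ∈ (0,T]`, then `∫_0^T W = 0`. -/
theorem gronwall_zero {W : ℝ → ℝ≥0∞} {c E : ℝ≥0∞} (hc : c ≠ ∞) (hE : E ≠ ∞) (T : ℝ)
    (hbd : ∀ᵐ t : ℝ, t ∈ Ioc 0 T → W t ≤ E)
    (hineq : ∀ᵐ t : ℝ, t ∈ Ioc 0 T → W t ≤ c * ∫⁻ s in Ioc 0 t, W s) :
    ∫⁻ s in Ioc 0 T, W s = 0 := by
  set Φ : ℝ → ℝ≥0∞ := fun t => ∫⁻ s in Ioc 0 t, W s with hΦ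
  have hmono : Monotone Φ := fun a b hab => lintegral_mono_set (Ioc_subset_Ioc_right hab)
  have hfin : ∀ t ≤ T, Φ t ≠ ∞ := by
    intro t ht
    have h1 : Φ t ≤ ∫⁻ _ in Ioc 0 t, E := by
      apply lintegral_mono_ae
      rw [ae_restrict_iff' measurableSet_Ioc]
      filter_upwards [hbd] with s hs hst
      exact hs ⟨hst.1, hst.2.trans ht⟩
    have h2 : ∫⁻ _ in Ioc 0 t, E = E * ENNReal.ofReal (t - 0) := by
      rw [lintegral_const, Measure.restrict_apply MeasurableSet.univ, univ_inter, Real.volume_Ioc]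
    rw [h2] at h1
    exact ne_top_of_le_ne_top (ENNReal.mul_ne_top hE ENNReal.ofReal_ne_top) h1
  have step : ∀ a b, 0 ≤ a → a ≤ b → b ≤ T → c * ENNReal.ofReal (b - a) ≤ 1 / 2 →
      Φ a = 0 → Φ b = 0 := by
    intro a b ha hab hbT hcb hPa
    have h1 : Φ b ≤ Φ a + ∫⁻ s in Ioc a b, W s := by
      have : Ioc 0 b = Ioc 0 a ∪ Ioc a b := (Ioc_union_Ioc_eq_Ioc ha hab).symm
      simp only [hΦ]
      rw [this]
      exact lintegral_union_le _ _ _
    have h2 : ∫⁻ s in Ioc a b, W s ≤ ∫⁻ _ in Ioc a b, c * Φ b := by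
      apply lintegral_mono_ae
      rw [ae_restrict_iff' measurableSet_Ioc]
      filter_upwards [hineq] with s hs hst
      refine (hs ⟨lt_of_le_of_lt ha hst.1, hst.2.trans hbT⟩).trans ?_
      gcongr
      exact hmono hst.2
    have h3 : ∫⁻ _ in Ioc a b, c * Φ b = c * Φ b * ENNReal.ofReal (b - a) := by
      rw [lintegral_const, Measure.restrict_apply MeasurableSet.univ, univ_inter, Real.volume_Ioc]
    have h4 : Φ b ≤ 1 / 2 * Φ b := by
      calc Φ b ≤ Φ a + ∫⁻ s in Ioc a b, W s := h1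
        _ ≤ 0 + c * Φ b * ENNReal.ofReal (b - a) := by rw [hPa, ← h3]; gcongr
        _ = c * ENNReal.ofReal (b - a) * Φ b := by ring
        _ ≤ 1 / 2 * Φ b := by gcongr
    by_contra hne
    have hfb := hfin b hbT
    have h5 : 1 / 2 * Φ b < 1 * Φ b := by
      rw [ENNReal.mul_lt_mul_iff_left hne hfb]
      rw [one_div]
      exact ENNReal.one_half_lt_one
    rw [one_mul] at h5
    exact absurd h4 (not_le.mpr h5)
  rcases le_or_gt T 0 with hT | hT
  · simp [Ioc_eq_empty (not_lt.mpr hT)]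
  set h : ℝ := 1 / (2 * c.toReal + 1) with hh
  have hcpos : 0 ≤ c.toReal := ENNReal.toReal_nonneg
  have hhpos : 0 < h := by positivity
  have hch : c * ENNReal.ofReal h ≤ 1 / 2 := by
    have : c = ENNReal.ofReal c.toReal := (ENNReal.ofReal_toReal hc).symm
    rw [this, ← ENNReal.ofReal_mul hcpos]
    have h6 : c.toReal * h ≤ 1 / 2 := by
      rw [hh, mul_one_div, div_le_iff₀ (by positivity)]
      linarith
    calc ENNReal.ofReal (c.toReal * h) ≤ ENNReal.ofReal (1 / 2) := ENNReal.ofReal_le_ofReal h6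
      _ = 1 / 2 := by
        rw [ENNReal.ofReal_div_of_pos (by norm_num)]
        simp
  have ind : ∀ n : ℕ, Φ (min T (n * h)) = 0 := by
    intro n
    induction n with
    | zero =>
      simp only [hΦ]
      simp
    | succ n ih =>
      refine step (min T (n * h)) (min T ((n + 1 : ℕ) * h)) ?_ ?_ (min_le_left _ _) ?_ ih
      · exact le_min hT.le (by positivity)
      · apply min_le_min_left
        push_cast
        nlinarith
      · refine le_trans ?_ hch
        gcongr
        push_cast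
        rcases le_total T (n * h) with h7 | h7
        · rw [min_eq_left h7, min_eq_left (by nlinarith)]
          linarith
        · rw [min_eq_right h7]
          have := min_le_right T ((n + 1 : ℝ) * h)
          linarith
  obtain ⟨n, hn⟩ := exists_nat_ge (T / h)
  have h8 : T ≤ n * h := by rwa [div_le_iff₀ hhpos] at hn
  have := ind n
  rwa [min_eq_left h8] at this

end Vale.Agent.Lib.P140
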