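import Mathlib
import Vale.Agent.Lib.P140.WeakForm

/-!
# Pointwise comparison of the collision terms of two densities
-/

namespace Vale.Agent.Lib.P140

open MeasureTheory
open scoped ENNReal RealInnerProductSpace

/-- `a b ≤ a' b' + a (b - b') + (a - a') b` in `[0,∞]` (truncated subtraction). -/
lemma mul_le_mul_add_tsub (a b a' b' : ℝ≥0∞) :
    a * b ≤ a' * b' + a * (b - b') + (a - a') * b := by
  have ha : a ≤ a' + (a - a') := le_add_tsub
  rcases le_total b b' with h | h
  · calc a * b ≤ (a' + (a - a')) * b := by gcongr
      _ = a' * b + (a - a') * b := add_mul _ _ _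
      _ ≤ a' * b' + (a - a') * b := by gcongr
      _ ≤ a' * b' + a * (b - b') + (a - a') * b := by
        gcongr
        exact le_self_add
  · calc a * b = a * (b' + (b - b')) := by rw [add_tsub_cancel_of_le h]
      _ = a * b' + a * (b - b') := mul_add _ _ _
      _ ≤ (a' + (a - a')) * b' + a * (b - b') := by gcongr
      _ = a' * b' + (a - a') * b' + a * (b - b') := by rw [add_mul]
      _ ≤ a' * b' + (a - a') * b + a * (b - b') := by gcongr
      _ = a' * b' + a * (b - b') + (a - a') * b := by
        rw [add_assoc, add_assoc, add_comm ((a - a') * b)]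

/-- joint measurability of the integrand of the gain operator -/
lemma measurable_gain_integrand {f1 f2 : V → ℝ≥0∞} (h1 : Measurable f1) (h2 : Measurable f2)
    (v : V) : Measurable (fun q : V × Sph =>
      ker (v, q.1) q.2 * (f1 (vPrime v q.1 q.2) * f2 (vsPrime v q.1 q.2))) := by
  have hm : Measurable (fun q : V × Sph => (((v, q.1), q.2) : (V × V) × Sph)) :=
    (measurable_const.prodMk measurable_fst).prodMk measurable_snd
  exact (measurable_ker.comp hm).mul
    ((h1.comp (continuous_vPrime.measurable.comp hm)).mul
      (h2.comp (continuous_vsPrime.measurable.comp hm)))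

/-- joint measurability of the integrand of the collision frequency -/
lemma measurable_freq_integrand {f : V → ℝ≥0∞} (h : Measurable f)
    (v : V) : Measurable (fun q : V × Sph => ker (v, q.1) q.2 * f q.1) := by
  have hm : Measurable (fun q : V × Sph => (((v, q.1), q.2) : (V × V) × Sph)) :=
    (measurable_const.prodMk measurable_fst).prodMk measurable_snd
  exact (measurable_ker.comp hm).mul (h.comp measurable_fst)

/-- additivity of the iterated integral -/
lemma lintegral_lintegral_add {A B : V × Sph → ℝ≥0∞} (hA : Measurable A) (_hB : Measurable B) :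
    ∫⁻ vs : V, ∫⁻ ω : Sph, (A (vs, ω) + B (vs, ω)) ∂surf =
      (∫⁻ vs : V, ∫⁻ ω : Sph, A (vs, ω) ∂surf) + ∫⁻ vs : V, ∫⁻ ω : Sph, B (vs, ω) ∂surf := by
  have h1 : ∀ vs : V, ∫⁻ ω : Sph, (A (vs, ω) + B (vs, ω)) ∂surf =
      (∫⁻ ω : Sph, A (vs, ω) ∂surf) + ∫⁻ ω : Sph, B (vs, ω) ∂surf := fun vs =>
    lintegral_add_left (hA.comp (measurable_const.prodMk measurable_id)) _
  simp_rw [h1]
  exact lintegral_add_left hA.lintegral_prod_right' _

/-- `Q^+(g,g) ≤ Q^+(F,F) + Q^+(g,(g-F)_+) + Q^+((g-F)_+,g)`. -/
theorem gainV_le_add {F g : V → ℝ≥0∞} (hF : Measurable F) (hg : Measurable g) (v : V) :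
    gainV g g v ≤ gainV F F v + gainV g (fun u => g u - F u) v + gainV (fun u => g u - F u) g v := by
  have hd : Measurable (fun u => g u - F u) := hg.sub hF
  have hA := measurable_gain_integrand hF hF v
  have hB := measurable_gain_integrand hg hd v
  have hC := measurable_gain_integrand hd hg v
  have e1 := lintegral_lintegral_add hA hB
  have e2 := lintegral_lintegral_add (hA.add hB) hC
  have e3 : gainV F F v + gainV g (fun u => g u - F u) v + gainV (fun u => g u - F u) g v = _ :=
    (e2.trans (congrArg (· + _) e1)).symm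
  rw [e3]
  unfold gainV
  apply lintegral_mono
  intro vs
  apply lintegral_mono
  intro ω
  simp only [Pi.add_apply]
  rw [← mul_add, ← mul_add]
  gcongr
  exact mul_le_mul_add_tsub _ _ _ _

/-- `L(F) ≤ L(g) + L((F-g)_+)`. -/
lemma freqV_le_add {F g : V → ℝ≥0∞} (hF : Measurable F) (hg : Measurable g) (v : V) :
    freqV F v ≤ freqV g v + freqV (fun u => F u - g u) v := by
  have hd : Measurable (fun u => F u - g u) := hF.sub hg
  have hA := measurable_freq_integrand hg v
  have hB := measurable_freq_integrand hd v
  have e1 : freqV g v + freqV (fun u => F u - g u) v = _ := (lintegral_lintegral_add hA hB).symm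
  rw [e1]
  unfold freqV
  apply lintegral_mono
  intro vs
  apply lintegral_mono
  intro ω
  simp only
  rw [← mul_add]
  gcongr
  exact le_add_tsub

/-- Where `F ≤ g`: `F L(F) + (g-F) L(g) ≤ g L(g) + g L((F-g)_+)`. -/
theorem loss_le_add {F g : V → ℝ≥0∞} (hF : Measurable F) (hg : Measurable g) (v : V)
    (h : F v ≤ g v) :
    F v * freqV F v + (g v - F v) * freqV g v ≤
      g v * freqV g v + g v * freqV (fun u => F u - g u) v := by
  calc F v * freqV F v + (g v - F v) * freqV g v
      ≤ F v * (freqV g v + freqV (fun u => F u - g u) v) + (g v - F v) * freqV g v := by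
        gcongr
        exact freqV_le_add hF hg v
    _ = (F v + (g v - F v)) * freqV g v + F v * freqV (fun u => F u - g u) v := by
        rw [mul_add, add_mul, add_assoc, add_assoc, add_comm (F v * freqV (fun u => F u - g u) v)]
    _ = g v * freqV g v + F v * freqV (fun u => F u - g u) v := by
        rw [add_tsub_cancel_of_le h]
    _ ≤ g v * freqV g v + g v * freqV (fun u => F u - g u) v := by gcongr

end Vale.Agent.Lib.P140
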