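import Mathlib
import Vale.Agent.Lib.P140.Meas

/-!
# The weighted estimate of the collision terms at a fixed time
-/

namespace Vale.Agent.Lib.P140

open MeasureTheory Set
open scoped ENNReal

/-! ### Fixed `(t,x)` -/

section Velocity

variable {a b h : V → ℝ≥0∞} {K : ℝ≥0∞}

lemma lintegral_w1_wm_le (hK : ∫⁻ v, w3 v * a v ≤ K) : ∫⁻ v, w1 v * (wm v * a v) ≤ K := by
  refine le_trans (lintegral_mono fun v => ?_) hK
  rw [← mul_assoc]
  exact mul_le_mul_left (wm_mul_w1_le v) _

lemma lintegral_w1_le (hK : ∫⁻ v, w3 v * a v ≤ K) : ∫⁻ v, w1 v * a v ≤ K := by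
  refine le_trans (lintegral_mono fun v => ?_) hK
  exact mul_le_mul_left (w1_le_w3 v) _

lemma lintegral_wm_le (hK : ∫⁻ v, w3 v * a v ≤ K) : ∫⁻ v, wm v * a v ≤ K := by
  refine le_trans (lintegral_mono fun v => ?_) hK
  exact mul_le_mul_left (wm_le_w3 v) _

lemma lintegral_w1_le_two (hb : Measurable b) : ∫⁻ v, w1 v * b v ≤ 2 * ∫⁻ v, wm v * b v := by
  have hm : Measurable (fun v => wm v * b v) := measurable_wm.mul hb
  rw [← lintegral_const_mul _ hm]
  refine lintegral_mono fun v => ?_
  rw [← mul_assoc]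
  exact mul_le_mul_left (w1_le_two_wm v) _

lemma slice_cross_le (ha : Measurable a) (hb : Measurable b) (hK : ∫⁻ v, w3 v * a v ≤ K) :
    ∫⁻ v, wm v * (a v * freqV b v) ≤ 2 * (surf univ * K) * ∫⁻ v, wm v * b v := by
  refine le_trans (lintegral_mul_freqV_le measurable_wm ha hb) ?_
  calc surf univ * ((∫⁻ v, w1 v * (wm v * a v)) * ∫⁻ v, w1 v * b v)
      ≤ surf univ * (K * (2 * ∫⁻ v, wm v * b v)) := by
        gcongr
        · exact lintegral_w1_wm_le hK
        · exact lintegral_w1_le_two hb
    _ = 2 * (surf univ * K) * ∫⁻ v, wm v * b v := by ring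

lemma slice_R_le (ha : Measurable a) (hb : Measurable b) (hh : Measurable h)
    (hK : ∫⁻ v, w3 v * a v ≤ K) :
    ∫⁻ v, wm v * (gainV a b v + gainV b a v + a v * freqV h v) ≤
      (∫⁻ v, wm v * (b v * freqV a v)) +
        2 * (surf univ * K) * ((∫⁻ v, wm v * b v) + ∫⁻ v, wm v * h v) := by
  have hm : Measurable (fun v => wm v * (gainV a b v + gainV b a v)) :=
    measurable_wm.mul ((measurable_gainV' ha hb).add (measurable_gainV' hb ha))
  have e1 : ∫⁻ v, wm v * (gainV a b v + gainV b a v + a v * freqV h v) =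
      (∫⁻ v, wm v * (gainV a b v + gainV b a v)) + ∫⁻ v, wm v * (a v * freqV h v) := by
    rw [← lintegral_add_left hm]
    apply lintegral_congr
    intro v
    rw [mul_add]
  rw [e1, lintegral_wm_gain_pair ha hb]
  have h1 := slice_cross_le ha hb hK
  have h2 := slice_cross_le ha hh hK
  calc (∫⁻ v, wm v * (a v * freqV b v)) + (∫⁻ v, wm v * (b v * freqV a v)) +
        ∫⁻ v, wm v * (a v * freqV h v)
      ≤ (2 * (surf univ * K) * ∫⁻ v, wm v * b v) + (∫⁻ v, wm v * (b v * freqV a v)) +
        2 * (surf univ * K) * ∫⁻ v, wm v * h v := by gcongr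
    _ = (∫⁻ v, wm v * (b v * freqV a v)) +
        2 * (surf univ * K) * ((∫⁻ v, wm v * b v) + ∫⁻ v, wm v * h v) := by ring

lemma slice_ell_le (ha : Measurable a) (hb : Measurable b) (hba : ∀ v, b v ≤ a v)
    (hK : ∫⁻ v, w3 v * a v ≤ K) :
    ∫⁻ v, wm v * (b v * freqV a v) ≤ surf univ * (K * K) := by
  refine le_trans (lintegral_mul_freqV_le measurable_wm hb ha) ?_
  gcongr
  · refine le_trans (lintegral_mono fun v => ?_) (lintegral_w1_wm_le hK)
    gcongr
    exact hba v
  · exact lintegral_w1_le hK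

end Velocity

/-! ### Fixed `t`, integrated over the torus -/

lemma volume_torus_univ : (volume : Measure Torus) Set.univ = 1 := by
  rw [volume_pi, Measure.pi_univ]
  simp

lemma lintegral_torus_prod {f : Torus × V → ℝ≥0∞} (hf : Measurable f) :
    ∫⁻ z, f z = ∫⁻ x : Torus, ∫⁻ v : V, f (x, v) := by
  rw [Measure.volume_eq_prod, lintegral_prod _ hf.aemeasurable]

/-- `(g - F)_+`. -/
noncomputable def wT (F g : ℝ → Torus × V → ℝ≥0∞) : ℝ → Torus × V → ℝ≥0∞ :=
  fun s z => g s z - F s z

/-- The damping term `(g-F)_+ L(g)`. -/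
noncomputable def ellT (F g : ℝ → Torus × V → ℝ≥0∞) (p : ℝ × (Torus × V)) : ℝ≥0∞ :=
  wT F g p.1 p.2 * freqT g p

/-- The source term `Q^+(g,w) + Q^+(w,g) + g L(h)`, `w = (g-F)_+`, `h = (F-g)_+`. -/
noncomputable def RT (F g : ℝ → Torus × V → ℝ≥0∞) (p : ℝ × (Torus × V)) : ℝ≥0∞ :=
  gainT g (wT F g) p + gainT (wT F g) g p + g p.1 p.2 * freqT (wT g F) p

/-- `W(s) = ∫ (1+|v|^2) (g-F)_+ dx dv`. -/
noncomputable def Wint (F g : ℝ → Torus × V → ℝ≥0∞) (s : ℝ) : ℝ≥0∞ :=
  ∫⁻ z : Torus × V, wm z.2 * wT F g s z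

section Time

variable {F g : ℝ → Torus × V → ℝ≥0∞}

lemma measurable_wT (hF : Measurable (Function.uncurry F)) (hg : Measurable (Function.uncurry g)) :
    Measurable (Function.uncurry (wT F g)) :=
  hg.sub hF

lemma measurable_ellT (hF : Measurable (Function.uncurry F))
    (hg : Measurable (Function.uncurry g)) : Measurable (ellT F g) :=
  (measurable_wT hF hg).mul (measurable_freqT hg)

lemma measurable_RT (hF : Measurable (Function.uncurry F))
    (hg : Measurable (Function.uncurry g)) : Measurable (RT F g) :=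
  ((measurable_gainT hg (measurable_wT hF hg)).add (measurable_gainT (measurable_wT hF hg) hg)).add
    (hg.mul (measurable_freqT (measurable_wT hg hF)))

lemma measurable_wm_snd : Measurable (fun z : Torus × V => wm z.2) :=
  measurable_wm.comp measurable_snd

lemma thirdMoment_eq (f : Torus × V → ℝ≥0∞) (x : Torus) :
    thirdMoment f x = ∫⁻ v, w3 v * f (x, v) := rfl

lemma RT_apply (s : ℝ) (x : Torus) (v : V) : RT F g (s, (x, v)) =
    gainV (fun u => g s (x, u)) (fun u => wT F g s (x, u)) v +
      gainV (fun u => wT F g s (x, u)) (fun u => g s (x, u)) v +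
      g s (x, v) * freqV (fun u => wT g F s (x, u)) v := rfl

lemma ellT_apply (s : ℝ) (x : Torus) (v : V) : ellT F g (s, (x, v)) =
    wT F g s (x, v) * freqV (fun u => g s (x, u)) v := rfl

lemma int_R_le (hF : Measurable (Function.uncurry F)) (hg : Measurable (Function.uncurry g))
    (s : ℝ) {K : ℝ≥0∞} (hK : ∀ᵐ x : Torus, thirdMoment (g s) x ≤ K) :
    ∫⁻ z : Torus × V, wm z.2 * RT F g (s, z) ≤
      (∫⁻ z : Torus × V, wm z.2 * ellT F g (s, z)) +
        2 * (surf univ * K) * (Wint F g s + Wint g F s) := by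
  have mc : Measurable (fun z : Torus × V => (s, z)) := measurable_const.prodMk measurable_id
  have m1 : Measurable (fun z : Torus × V => wm z.2 * RT F g (s, z)) :=
    measurable_wm_snd.mul ((measurable_RT hF hg).comp mc)
  have m2 : Measurable (fun z : Torus × V => wm z.2 * ellT F g (s, z)) :=
    measurable_wm_snd.mul ((measurable_ellT hF hg).comp mc)
  have m3 : Measurable (fun z : Torus × V => wm z.2 * wT F g s z) :=
    measurable_wm_snd.mul (measurable_slice (measurable_wT hF hg) s)
  have m4 : Measurable (fun z : Torus × V => wm z.2 * wT g F s z) :=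
    measurable_wm_snd.mul (measurable_slice (measurable_wT hg hF) s)
  have n2 := m2.lintegral_prod_right' (ν := (volume : Measure V))
  have n3 := m3.lintegral_prod_right' (ν := (volume : Measure V))
  have n4 := m4.lintegral_prod_right' (ν := (volume : Measure V))
  have n34 : Measurable (fun x : Torus => (∫⁻ v : V, wm v * wT F g s (x, v)) +
      ∫⁻ v : V, wm v * wT g F s (x, v)) := n3.add n4
  have e : (∫⁻ z : Torus × V, wm z.2 * ellT F g (s, z)) +
        2 * (surf univ * K) * (Wint F g s + Wint g F s) =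
      ∫⁻ x : Torus, ((∫⁻ v : V, wm v * ellT F g (s, (x, v))) +
        2 * (surf univ * K) * ((∫⁻ v : V, wm v * wT F g s (x, v)) +
          ∫⁻ v : V, wm v * wT g F s (x, v))) := by
    unfold Wint
    rw [lintegral_torus_prod m2, lintegral_torus_prod m3, lintegral_torus_prod m4,
      lintegral_add_left n2, lintegral_const_mul _ n34, lintegral_add_left n3]
  rw [e, lintegral_torus_prod m1]
  apply lintegral_mono_ae
  filter_upwards [hK] with x hx
  have key := slice_R_le (measurable_slice2 hg s x) (measurable_slice2 (measurable_wT hF hg) s x)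
    (measurable_slice2 (measurable_wT hg hF) s x) hx
  simp only [RT_apply, ellT_apply]
  exact key

lemma int_ell_le (hF : Measurable (Function.uncurry F)) (hg : Measurable (Function.uncurry g))
    (s : ℝ) {K : ℝ≥0∞} (hK : ∀ᵐ x : Torus, thirdMoment (g s) x ≤ K) :
    ∫⁻ z : Torus × V, wm z.2 * ellT F g (s, z) ≤ surf univ * (K * K) := by
  have mc : Measurable (fun z : Torus × V => (s, z)) := measurable_const.prodMk measurable_id
  have m2 : Measurable (fun z : Torus × V => wm z.2 * ellT F g (s, z)) :=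
    measurable_wm_snd.mul ((measurable_ellT hF hg).comp mc)
  rw [lintegral_torus_prod m2]
  calc ∫⁻ x : Torus, ∫⁻ v : V, wm v * ellT F g (s, (x, v))
      ≤ ∫⁻ _x : Torus, surf univ * (K * K) := by
        apply lintegral_mono_ae
        filter_upwards [hK] with x hx
        have key := slice_ell_le (measurable_slice2 hg s x)
          (measurable_slice2 (measurable_wT hF hg) s x) (fun v => tsub_le_self) hx
        simp only [ellT_apply]
        exact key
    _ = surf univ * (K * K) := by
        rw [lintegral_const, volume_torus_univ, mul_one]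

lemma int_wm_le (hg : Measurable (Function.uncurry g))
    (s : ℝ) {K : ℝ≥0∞} (hK : ∀ᵐ x : Torus, thirdMoment (g s) x ≤ K) :
    ∫⁻ z : Torus × V, wm z.2 * g s z ≤ K := by
  have m2 : Measurable (fun z : Torus × V => wm z.2 * g s z) :=
    measurable_wm_snd.mul (measurable_slice hg s)
  rw [lintegral_torus_prod m2]
  calc ∫⁻ x : Torus, ∫⁻ v : V, wm v * g s (x, v)
      ≤ ∫⁻ _x : Torus, K := by
        apply lintegral_mono_ae
        filter_upwards [hK] with x hx
        exact lintegral_wm_le hx
    _ = K := by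
        rw [lintegral_const, volume_torus_univ, mul_one]

end Time

end Vale.Agent.Lib.P140
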