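import Mathlib
import Vale.Agent.Lib.P140.Slice
import Vale.Agent.Lib.P140.Pointwise
import Vale.Agent.Lib.P140.CharLemma
import Vale.Agent.Lib.P140.Gronwall

/-!
# Weak-strong uniqueness for mild solutions: the core argument
-/

namespace Vale.Agent.Lib.P140

open MeasureTheory Set
open scoped ENNReal

/-- The mild equation at time `t` along the characteristic through `z`. -/
def mildEq (F0 : Torus × V → ℝ≥0∞) (F : ℝ → Torus × V → ℝ≥0∞) (t : ℝ) (z : Torus × V) : Prop :=
  F t (flow t z) + ∫⁻ s in Ioc 0 t, loss (F s) (flow s z) =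
    F0 z + ∫⁻ s in Ioc 0 t, gain (F s) (flow s z)

/-- Mild solutions, the equation being required for almost every time only. -/
structure IsMildAE (F0 : Torus × V → ℝ≥0∞) (F : ℝ → Torus × V → ℝ≥0∞) : Prop where
  meas : Measurable (Function.uncurry F)
  gain_fin : ∀ T : ℝ, ∀ᵐ z : Torus × V, ∫⁻ s in Ioc 0 T, gain (F s) (flow s z) < ∞
  loss_fin : ∀ T : ℝ, ∀ᵐ z : Torus × V, ∫⁻ s in Ioc 0 T, loss (F s) (flow s z) < ∞
  eqn : ∀ᵐ t : ℝ, 0 < t → ∀ᵐ z : Torus × V, mildEq F0 F t z

/-- Mild solutions on the time interval `(0,T]`, the equation being required for almost every time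
only. -/
structure IsMildOn (T : ℝ) (F0 : Torus × V → ℝ≥0∞) (F : ℝ → Torus × V → ℝ≥0∞) : Prop where
  meas : Measurable (Function.uncurry F)
  gain_fin : ∀ᵐ z : Torus × V, ∫⁻ s in Ioc 0 T, gain (F s) (flow s z) < ∞
  loss_fin : ∀ᵐ z : Torus × V, ∫⁻ s in Ioc 0 T, loss (F s) (flow s z) < ∞
  eqn : ∀ᵐ t : ℝ, t ∈ Ioc 0 T → ∀ᵐ z : Torus × V, mildEq F0 F t z

variable {F0 : Torus × V → ℝ≥0∞} {F g : ℝ → Torus × V → ℝ≥0∞}

lemma IsMildAE.on (h : IsMildAE F0 F) (T : ℝ) : IsMildOn T F0 F where
  meas := h.meas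
  gain_fin := h.gain_fin T
  loss_fin := h.loss_fin T
  eqn := h.eqn.mono fun _ ht hmem => ht hmem.1

lemma IsMildOn.mono {T T' : ℝ} (h : IsMildOn T F0 F) (hT : T' ≤ T) : IsMildOn T' F0 F where
  meas := h.meas
  gain_fin := h.gain_fin.mono fun _ hz => lt_of_le_of_lt (lint_mono_Ioc hT _) hz
  loss_fin := h.loss_fin.mono fun _ hz => lt_of_le_of_lt (lint_mono_Ioc hT _) hz
  eqn := h.eqn.mono fun _ ht hmem => ht ⟨hmem.1, hmem.2.trans hT⟩

lemma IsMildSolution.isMildAE (h : IsMildSolution F0 F) : IsMildAE F0 F where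
  meas := h.meas
  gain_fin := h.gain_fin
  loss_fin := h.loss_fin
  eqn := Filter.Eventually.of_forall fun t ht => h.eqn t ht.le

lemma measurableSet_mildEq (hF0 : Measurable F0) (hF : Measurable (Function.uncurry F)) :
    MeasurableSet {p : ℝ × (Torus × V) | 0 < p.1 → mildEq F0 F p.1 p.2} := by
  have hl : Measurable (fun p : ℝ × (Torus × V) =>
      F p.1 (flow p.1 p.2) + ∫⁻ s in Ioc 0 p.1, loss (F s) (flow s p.2)) :=
    (hF.comp measurable_flowMap).add (measurable_lintegral_along (measurable_loss hF))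
  have hr : Measurable (fun p : ℝ × (Torus × V) =>
      F0 p.2 + ∫⁻ s in Ioc 0 p.1, gain (F s) (flow s p.2)) :=
    (hF0.comp measurable_snd).add (measurable_lintegral_along (measurable_gain hF))
  have e : {p : ℝ × (Torus × V) | 0 < p.1 → mildEq F0 F p.1 p.2} =
      {p : ℝ × (Torus × V) | 0 < p.1}ᶜ ∪ {p | F p.1 (flow p.1 p.2) +
        ∫⁻ s in Ioc 0 p.1, loss (F s) (flow s p.2) =
          F0 p.2 + ∫⁻ s in Ioc 0 p.1, gain (F s) (flow s p.2)} := by
    ext p
    simp only [mem_ofPred_eq, mem_union, mem_compl_iff, mildEq]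
    exact imp_iff_not_or
  rw [e]
  exact (measurableSet_lt measurable_const measurable_fst).compl.union (measurableSet_eq_fun hl hr)

lemma IsMildOn.eqn_swap {T : ℝ} (hF0 : Measurable F0) (h : IsMildOn T F0 F) :
    ∀ᵐ z : Torus × V, ∀ᵐ t : ℝ, t ∈ Ioc 0 T → mildEq F0 F t z := by
  have hS : MeasurableSet {p : ℝ × (Torus × V) | p.1 ∈ Ioc 0 T → mildEq F0 F p.1 p.2} := by
    have e : {p : ℝ × (Torus × V) | p.1 ∈ Ioc 0 T → mildEq F0 F p.1 p.2} =
        {p : ℝ × (Torus × V) | p.1 ≤ T}ᶜ ∪ {p | 0 < p.1 → mildEq F0 F p.1 p.2} := by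
      ext p
      simp only [mem_ofPred_eq, mem_union, mem_compl_iff, mem_Ioc]
      constructor
      · intro hp
        by_cases h1 : p.1 ≤ T
        · exact Or.inr fun h0 => hp ⟨h0, h1⟩
        · exact Or.inl h1
      · rintro (hp | hp) hmem
        · exact absurd hmem.2 hp
        · exact hp hmem.1
    rw [e]
    exact (measurableSet_le measurable_fst measurable_const).compl.union
      (measurableSet_mildEq hF0 h.meas)
  have h1 : ∀ᵐ t : ℝ, ∀ᵐ z : Torus × V, t ∈ Ioc 0 T → mildEq F0 F t z := by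
    filter_upwards [h.eqn] with t ht
    by_cases h0 : t ∈ Ioc 0 T
    · filter_upwards [ht h0] with z hz _
      exact hz
    · exact Filter.Eventually.of_forall fun z h' => absurd h' h0
  exact (Measure.ae_ae_comm (p := fun (t : ℝ) (z : Torus × V) => t ∈ Ioc 0 T → mildEq F0 F t z)
    hS).1 h1

/-- The pointwise inequality between the collision terms where `F ≤ g`. -/
lemma pointwise_le (hF : Measurable (Function.uncurry F)) (hg : Measurable (Function.uncurry g))
    (s : ℝ) (y : Torus × V) (h : F s y ≤ g s y) :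
    gain (g s) y + loss (F s) y + ellT F g (s, y) ≤
      gain (F s) y + loss (g s) y + RT F g (s, y) := by
  obtain ⟨x, v⟩ := y
  have mF := measurable_slice2 hF s x
  have mg := measurable_slice2 hg s x
  have p1 := gainV_le_add mF mg v
  have p2 := loss_le_add mF mg v h
  rw [gain_eq, gain_eq, loss_eq (measurable_slice hF s), loss_eq (measurable_slice hg s),
    RT_apply, ellT_apply]
  calc gainV (fun u => g s (x, u)) (fun u => g s (x, u)) v +
        F s (x, v) * freqV (fun u => F s (x, u)) v +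
        wT F g s (x, v) * freqV (fun u => g s (x, u)) v
      = gainV (fun u => g s (x, u)) (fun u => g s (x, u)) v +
        (F s (x, v) * freqV (fun u => F s (x, u)) v +
        (g s (x, v) - F s (x, v)) * freqV (fun u => g s (x, u)) v) := by
          rw [add_assoc]; rfl
    _ ≤ (gainV (fun u => F s (x, u)) (fun u => F s (x, u)) v +
          gainV (fun u => g s (x, u)) (fun u => g s (x, u) - F s (x, u)) v +
          gainV (fun u => g s (x, u) - F s (x, u)) (fun u => g s (x, u)) v) +
        (g s (x, v) * freqV (fun u => g s (x, u)) v +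
          g s (x, v) * freqV (fun u => F s (x, u) - g s (x, u)) v) := add_le_add p1 p2
    _ = gainV (fun u => F s (x, u)) (fun u => F s (x, u)) v +
        g s (x, v) * freqV (fun u => g s (x, u)) v +
        (gainV (fun u => g s (x, u)) (fun u => wT F g s (x, u)) v +
          gainV (fun u => wT F g s (x, u)) (fun u => g s (x, u)) v +
          g s (x, v) * freqV (fun u => wT g F s (x, u)) v) := by
          simp only [wT]
          ring

/-- The comparison along almost every characteristic. -/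
lemma char_step (hF0m : Measurable F0) (hF0 : ∀ᵐ z, F0 z < ∞) {t : ℝ} (hF : IsMildOn t F0 F)
    (hg : IsMildOn t F0 g) (ht : 0 ≤ t) (hFt : ∀ᵐ z, mildEq F0 F t z)
    (hgt : ∀ᵐ z, mildEq F0 g t z) :
    ∀ᵐ z : Torus × V, wT F g t (flow t z) + ∫⁻ s in Ioc 0 t, ellT F g (s, flow s z) ≤
      ∫⁻ s in Ioc 0 t, RT F g (s, flow s z) := by
  filter_upwards [hF0, hF.gain_fin, hF.loss_fin, hg.gain_fin, hg.loss_fin,
    hF.eqn_swap hF0m, hg.eqn_swap hF0m, hFt, hgt] with z h0 f1 f2 f3 f4 e1 e2 e3 e4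
  refine char_ineq (PF := fun s => gain (F s) (flow s z)) (NF := fun s => loss (F s) (flow s z))
    (Pg := fun s => gain (g s) (flow s z)) (Ng := fun s => loss (g s) (flow s z))
    (ℓ := fun s => ellT F g (s, flow s z)) (R := fun s => RT F g (s, flow s z))
    (φ := fun s => F s (flow s z)) (γ := fun s => g s (flow s z)) (c := F0 z) ht h0
    (measurable_along (measurable_gain hF.meas) z) (measurable_along (measurable_loss hF.meas) z)
    (measurable_along (measurable_gain hg.meas) z) (measurable_along (measurable_loss hg.meas) z)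
    (measurable_along (measurable_ellT hF.meas hg.meas) z)
    (measurable_along (measurable_RT hF.meas hg.meas) z) f1 f2 f3 f4 ?_ e3 ?_ e4 ?_ ?_
  · exact e1
  · exact e2
  · refine Filter.Eventually.of_forall fun s _ hlt => ?_
    exact pointwise_le hF.meas hg.meas s (flow s z) hlt.le
  · refine Filter.Eventually.of_forall fun s _ hge => ?_
    have : wT F g s (flow s z) = 0 := tsub_eq_zero_of_le hge
    simp only [ellT, this, zero_mul]

/-- The weighted integral `∫ (1+|v|^2) f dx dv`. -/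
noncomputable def mInt (f : Torus × V → ℝ≥0∞) : ℝ≥0∞ := ∫⁻ z : Torus × V, wm z.2 * f z

lemma measurable_int_wm {A : ℝ × (Torus × V) → ℝ≥0∞} (hA : Measurable A) :
    Measurable (fun s : ℝ => ∫⁻ z : Torus × V, wm z.2 * A (s, z)) :=
  Measurable.lintegral_prod_right' (f := fun q : ℝ × (Torus × V) => wm q.2.2 * A q)
    ((measurable_wm.comp measurable_snd.snd).mul hA)

/-- The integrated inequality. -/
lemma W_le (hF0m : Measurable F0) (hF0 : ∀ᵐ z, F0 z < ∞) {t : ℝ} (hF : IsMildOn t F0 F)
    (hg : IsMildOn t F0 g) (ht : 0 ≤ t) (hFt : ∀ᵐ z, mildEq F0 F t z)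
    (hgt : ∀ᵐ z, mildEq F0 g t z) {K : ℝ≥0∞} (hKfin : K < ∞)
    (hK : ∀ᵐ s : ℝ, s ∈ Ioc 0 t → ∀ᵐ x : Torus, thirdMoment (g s) x ≤ K) :
    Wint F g t ≤ 2 * (surf univ * K) * ∫⁻ s in Ioc 0 t, (Wint F g s + Wint g F s) := by
  have mE := measurable_ellT hF.meas hg.meas
  have mR := measurable_RT hF.meas hg.meas
  have mw : Measurable (fun z : Torus × V => wm z.2 * wT F g t z) :=
    measurable_wm_snd.mul (measurable_slice (measurable_wT hF.meas hg.meas) t)
  have hσ : surf univ < ∞ := measure_lt_top _ _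
  have hC : 2 * (surf univ * K) ≠ ∞ :=
    ENNReal.mul_ne_top (by simp) (ENNReal.mul_ne_top hσ.ne hKfin.ne)
  have hK' : ∀ᵐ s : ℝ ∂(volume.restrict (Ioc 0 t)), ∀ᵐ x : Torus, thirdMoment (g s) x ≤ K := by
    rwa [ae_restrict_iff' measurableSet_Ioc]
  set L : ℝ≥0∞ := ∫⁻ s in Ioc 0 t, ∫⁻ z : Torus × V, wm z.2 * ellT F g (s, z) with hL
  -- `L` is finite
  have hLfin : L ≠ ∞ := by
    have : L ≤ ∫⁻ _s in Ioc 0 t, surf univ * (K * K) := by
      apply lintegral_mono_ae
      filter_upwards [hK'] with s hs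
      exact int_ell_le hF.meas hg.meas s hs
    refine ne_top_of_le_ne_top ?_ this
    rw [lintegral_const, Measure.restrict_apply MeasurableSet.univ, univ_inter, Real.volume_Ioc]
    exact ENNReal.mul_ne_top (ENNReal.mul_ne_top hσ.ne (ENNReal.mul_ne_top hKfin.ne hKfin.ne))
      ENNReal.ofReal_ne_top
  -- integrate the inequality along characteristics
  have h1 := char_step hF0m hF0 hF hg ht hFt hgt
  have h2 : ∫⁻ z : Torus × V, wm z.2 * (wT F g t (flow t z) +
      ∫⁻ s in Ioc 0 t, ellT F g (s, flow s z)) ≤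
      ∫⁻ z : Torus × V, wm z.2 * ∫⁻ s in Ioc 0 t, RT F g (s, flow s z) := by
    apply lintegral_mono_ae
    filter_upwards [h1] with z hz
    gcongr
  have h3 : ∫⁻ z : Torus × V, wm z.2 * (wT F g t (flow t z) +
      ∫⁻ s in Ioc 0 t, ellT F g (s, flow s z)) = Wint F g t + L := by
    have e : ∀ z : Torus × V, wm z.2 * (wT F g t (flow t z) +
        ∫⁻ s in Ioc 0 t, ellT F g (s, flow s z)) =
        wm z.2 * wT F g t (flow t z) + wm z.2 * ∫⁻ s in Ioc 0 t, ellT F g (s, flow s z) :=
      fun z => mul_add _ _ _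
    have mw' : Measurable (fun z : Torus × V => wm z.2 * wT F g t (flow t z)) :=
      mw.comp (measurable_flow' t)
    simp only [e]
    rw [lintegral_add_left mw', lintegral_wm_along mE t]
    congr 1
    exact lintegral_flow t mw
  have h4 : ∫⁻ z : Torus × V, wm z.2 * ∫⁻ s in Ioc 0 t, RT F g (s, flow s z) ≤
      L + 2 * (surf univ * K) * ∫⁻ s in Ioc 0 t, (Wint F g s + Wint g F s) := by
    rw [lintegral_wm_along mR t, ← lintegral_const_mul' _ _ hC, hL,
      ← lintegral_add_left (measurable_int_wm mE)]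
    apply lintegral_mono_ae
    filter_upwards [hK'] with s hs
    exact int_R_le hF.meas hg.meas s hs
  rw [h3] at h2
  have h5 := h2.trans h4
  rw [add_comm] at h5
  exact (ENNReal.add_le_add_iff_left hLfin).1 h5

/-- `∫ m (F-g)_+ ≤ ∫ m (g-F)_+` when `∫ m F ≤ ∫ m g < ∞`. -/
lemma H_le_W (hF : Measurable (Function.uncurry F)) (hg : Measurable (Function.uncurry g)) (s : ℝ)
    (hle : mInt (F s) ≤ mInt (g s)) (hfin : mInt (g s) < ∞) : Wint g F s ≤ Wint F g s := by
  have m1 : Measurable (fun z : Torus × V => wm z.2 * wT F g s z) :=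
    measurable_wm_snd.mul (measurable_slice (measurable_wT hF hg) s)
  have m2 : Measurable (fun z : Torus × V => wm z.2 * wT g F s z) :=
    measurable_wm_snd.mul (measurable_slice (measurable_wT hg hF) s)
  have e : Wint g F s + mInt (g s) = Wint F g s + mInt (F s) := by
    unfold Wint mInt
    rw [← lintegral_add_left m2, ← lintegral_add_left m1]
    apply lintegral_congr
    intro z
    rw [← mul_add, ← mul_add]
    congr 1
    simp only [wT]
    rw [tsub_add_eq_max, tsub_add_eq_max, max_comm]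
  have h : Wint g F s + mInt (g s) ≤ Wint F g s + mInt (g s) := by
    rw [e]
    gcongr
  exact (ENNReal.add_le_add_iff_right hfin.ne).1 h

lemma wm_ne_zero (v : V) : wm v ≠ 0 := by
  unfold wm
  rw [Ne, ENNReal.ofReal_eq_zero, not_le]
  positivity

lemma wm_ne_top (v : V) : wm v ≠ ∞ := ENNReal.ofReal_ne_top

lemma Wint_le_mInt (s : ℝ) : Wint F g s ≤ mInt (g s) := by
  unfold Wint mInt wT
  refine lintegral_mono fun z => ?_
  gcongr
  exact tsub_le_self

/-- **Weak-strong uniqueness, core form.**  `F` and `g` solve the mild equation for almost every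
time, with the same finite datum; on `(0,t]` the third-moment density of `g` is bounded and the
weighted integral of `F` is at most that of `g` at almost every time.  Then `F t = g t` a.e.
provided both mild equations and the inequality of the weighted integrals hold at time `t`. -/
theorem weakStrong_core (hF0m : Measurable F0) (hF0 : ∀ᵐ z, F0 z < ∞) {t : ℝ}
    (hF : IsMildOn t F0 F) (hg : IsMildOn t F0 g) (ht : 0 ≤ t) {K : ℝ≥0∞} (hKfin : K < ∞)
    (hKt : ∀ᵐ s : ℝ, s ∈ Ioc 0 t → ∀ᵐ x : Torus, thirdMoment (g s) x ≤ K)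
    (hm : ∀ᵐ s : ℝ, s ∈ Ioc 0 t → mInt (F s) ≤ mInt (g s))
    (hFt : ∀ᵐ z, mildEq F0 F t z) (hgt : ∀ᵐ z, mildEq F0 g t z)
    (hmt : mInt (F t) ≤ mInt (g t)) (hfin : mInt (g t) < ∞) :
    F t =ᵐ[volume] g t := by
  have hσ : surf univ < ∞ := measure_lt_top _ _
  have hC : 2 * (surf univ * K) ≠ ∞ :=
    ENNReal.mul_ne_top (by simp) (ENNReal.mul_ne_top hσ.ne hKfin.ne)
  have hc : 2 * (surf univ * K) * 2 ≠ ∞ := ENNReal.mul_ne_top hC (by simp)
  -- for almost every `s ≤ t`, `H ≤ W`
  have hHW : ∀ᵐ s : ℝ, s ∈ Ioc 0 t → Wint g F s ≤ Wint F g s := by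
    filter_upwards [hm, hKt] with s h1 h2 hs
    exact H_le_W hF.meas hg.meas s (h1 hs) (lt_of_le_of_lt (int_wm_le hg.meas s (h2 hs)) hKfin)
  -- the closed inequality at a good time
  have closed : ∀ s : ℝ, 0 ≤ s → s ≤ t → (∀ᵐ z, mildEq F0 F s z) → (∀ᵐ z, mildEq F0 g s z) →
      Wint F g s ≤ 2 * (surf univ * K) * 2 * ∫⁻ u in Ioc 0 s, Wint F g u := by
    intro s hs0 hst e1 e2
    have hKs : ∀ᵐ u : ℝ, u ∈ Ioc 0 s → ∀ᵐ x : Torus, thirdMoment (g u) x ≤ K := by
      filter_upwards [hKt] with u hu hmem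
      exact hu ⟨hmem.1, hmem.2.trans hst⟩
    refine (W_le hF0m hF0 (hF.mono hst) (hg.mono hst) hs0 e1 e2 hKfin hKs).trans ?_
    rw [mul_assoc (2 * (surf univ * K)) 2]
    refine mul_le_mul_right ?_ _
    rw [← lintegral_const_mul' 2 _ (by simp)]
    apply lintegral_mono_ae
    rw [ae_restrict_iff' measurableSet_Ioc]
    filter_upwards [hHW] with u hu hmem
    rw [two_mul]
    gcongr
    exact hu ⟨hmem.1, hmem.2.trans hst⟩
  -- Gronwall
  have hzero : ∫⁻ s in Ioc 0 t, Wint F g s = 0 := by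
    apply gronwall_zero hc hKfin.ne t
    · filter_upwards [hKt] with s h2 hs
      exact (Wint_le_mInt s).trans (int_wm_le hg.meas s (h2 hs))
    · filter_upwards [hF.eqn, hg.eqn] with s e1 e2 hs
      exact closed s hs.1.le hs.2 (e1 hs) (e2 hs)
  have hWt : Wint F g t = 0 := by
    have := closed t ht le_rfl hFt hgt
    rw [hzero, mul_zero] at this
    exact le_antisymm this bot_le
  -- conclusion
  have mw : Measurable (fun z : Torus × V => wm z.2 * wT F g t z) :=
    measurable_wm_snd.mul (measurable_slice (measurable_wT hF.meas hg.meas) t)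
  have hle : ∀ᵐ z : Torus × V, g t z ≤ F t z := by
    have := (lintegral_eq_zero_iff mw).1 hWt
    filter_upwards [this] with z hz
    have h0 : wT F g t z = 0 := by
      rcases mul_eq_zero.1 hz with h | h
      · exact absurd h (wm_ne_zero _)
      · exact h
    exact tsub_eq_zero_iff_le.1 h0
  have hae : (fun z : Torus × V => wm z.2 * g t z) =ᵐ[volume] fun z => wm z.2 * F t z := by
    apply ae_eq_of_ae_le_of_lintegral_le
    · filter_upwards [hle] with z hz
      gcongr
    · exact hfin.ne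
    · exact (measurable_wm_snd.mul (measurable_slice hF.meas t)).aemeasurable
    · exact hmt
  filter_upwards [hae] with z hz
  exact ((ENNReal.mul_right_inj (wm_ne_zero _) (wm_ne_top _)).1 hz).symm

end Vale.Agent.Lib.P140
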