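import Mathlib
import Vale.Agent.Lib.P140.Core

/-!
# A mild solution with bounded third-moment density conserves mass plus energy
-/

namespace Vale.Agent.Lib.P140

open MeasureTheory Set
open scoped ENNReal

variable {F0 : Torus × V → ℝ≥0∞} {g : ℝ → Torus × V → ℝ≥0∞}

lemma slice_gain_eq_loss {a : V → ℝ≥0∞} (ha : Measurable a) :
    ∫⁻ v, wm v * gainV a a v = ∫⁻ v, wm v * (a v * freqV a v) := by
  have h := lintegral_wm_gain_pair ha ha
  have hm : Measurable (fun v => wm v * gainV a a v) := measurable_wm.mul (measurable_gainV' ha ha)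
  have e : ∫⁻ v, wm v * (gainV a a v + gainV a a v) =
      (∫⁻ v, wm v * gainV a a v) + ∫⁻ v, wm v * gainV a a v := by
    rw [← lintegral_add_left hm]
    apply lintegral_congr
    intro v
    rw [mul_add]
  rw [e, ← two_mul, ← two_mul] at h
  exact (ENNReal.mul_right_inj (by simp) (by simp)).1 h

lemma measurable_gain_slice (hg : Measurable (Function.uncurry g)) (s : ℝ) :
    Measurable (gain (g s)) := by
  have mc : Measurable (fun z : Torus × V => (s, z)) := measurable_const.prodMk measurable_id
  have h := (measurable_gain hg).comp mc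
  simp only [Function.comp_def] at h
  exact h

lemma measurable_loss_slice (hg : Measurable (Function.uncurry g)) (s : ℝ) :
    Measurable (loss (g s)) := by
  have mc : Measurable (fun z : Torus × V => (s, z)) := measurable_const.prodMk measurable_id
  have h := (measurable_loss hg).comp mc
  simp only [Function.comp_def] at h
  exact h

lemma int_gain_eq_loss (hg : Measurable (Function.uncurry g)) (s : ℝ) :
    ∫⁻ z : Torus × V, wm z.2 * gain (g s) z = ∫⁻ z : Torus × V, wm z.2 * loss (g s) z := by
  have m1 : Measurable (fun z : Torus × V => wm z.2 * gain (g s) z) :=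
    measurable_wm_snd.mul (measurable_gain_slice hg s)
  have m2 : Measurable (fun z : Torus × V => wm z.2 * loss (g s) z) :=
    measurable_wm_snd.mul (measurable_loss_slice hg s)
  rw [lintegral_torus_prod m1, lintegral_torus_prod m2]
  apply lintegral_congr
  intro x
  have key := slice_gain_eq_loss (measurable_slice2 hg s x)
  simp only [gain_eq, loss_eq (measurable_slice hg s)]
  exact key

lemma int_loss_le (hg : Measurable (Function.uncurry g))
    (s : ℝ) {K : ℝ≥0∞} (hK : ∀ᵐ x : Torus, thirdMoment (g s) x ≤ K) :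
    ∫⁻ z : Torus × V, wm z.2 * loss (g s) z ≤ surf univ * (K * K) := by
  have m2 : Measurable (fun z : Torus × V => wm z.2 * loss (g s) z) :=
    measurable_wm_snd.mul (measurable_loss_slice hg s)
  rw [lintegral_torus_prod m2]
  calc ∫⁻ x : Torus, ∫⁻ v : V, wm v * loss (g s) (x, v)
      ≤ ∫⁻ _x : Torus, surf univ * (K * K) := by
        apply lintegral_mono_ae
        filter_upwards [hK] with x hx
        have key := slice_ell_le (measurable_slice2 hg s x)
          (measurable_slice2 hg s x) (fun v => le_rfl) hx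
        simp only [loss_eq (measurable_slice hg s)]
        exact key
    _ = surf univ * (K * K) := by
        rw [lintegral_const, volume_torus_univ, mul_one]

/-- Conservation of `∫ (1+|v|^2) g`. -/
theorem mInt_conserved (hF0m : Measurable F0) (hg : Measurable (Function.uncurry g)) {t : ℝ}
    (hgt : ∀ᵐ z, mildEq F0 g t z) {K : ℝ≥0∞} (hKfin : K < ∞)
    (hK : ∀ᵐ s : ℝ, s ∈ Ioc 0 t → ∀ᵐ x : Torus, thirdMoment (g s) x ≤ K) :
    mInt (g t) = mInt F0 := by
  have hσ : surf univ < ∞ := measure_lt_top _ _
  have hK' : ∀ᵐ s : ℝ ∂(volume.restrict (Ioc 0 t)), ∀ᵐ x : Torus, thirdMoment (g s) x ≤ K := by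
    rwa [ae_restrict_iff' measurableSet_Ioc]
  have mG := measurable_gain hg
  have mL := measurable_loss hg
  have mw : Measurable (fun z : Torus × V => wm z.2 * g t z) :=
    measurable_wm_snd.mul (measurable_slice hg t)
  have mw' : Measurable (fun z : Torus × V => wm z.2 * g t (flow t z)) :=
    mw.comp (measurable_flow' t)
  have m0 : Measurable (fun z : Torus × V => wm z.2 * F0 z) := measurable_wm_snd.mul hF0m
  set A : ℝ≥0∞ := ∫⁻ s in Ioc 0 t, ∫⁻ z : Torus × V, wm z.2 * loss (g s) z with hA
  have hAfin : A ≠ ∞ := by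
    have : A ≤ ∫⁻ _s in Ioc 0 t, surf univ * (K * K) := by
      apply lintegral_mono_ae
      filter_upwards [hK'] with s hs
      exact int_loss_le hg s hs
    refine ne_top_of_le_ne_top ?_ this
    rw [lintegral_const, Measure.restrict_apply MeasurableSet.univ, univ_inter, Real.volume_Ioc]
    exact ENNReal.mul_ne_top (ENNReal.mul_ne_top hσ.ne (ENNReal.mul_ne_top hKfin.ne hKfin.ne))
      ENNReal.ofReal_ne_top
  have hB : ∫⁻ s in Ioc 0 t, ∫⁻ z : Torus × V, wm z.2 * gain (g s) z = A := by
    rw [hA]
    apply lintegral_congr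
    intro s
    exact int_gain_eq_loss hg s
  have h1 : ∫⁻ z : Torus × V, wm z.2 * (g t (flow t z) +
      ∫⁻ s in Ioc 0 t, loss (g s) (flow s z)) =
      ∫⁻ z : Torus × V, wm z.2 * (F0 z + ∫⁻ s in Ioc 0 t, gain (g s) (flow s z)) := by
    apply lintegral_congr_ae
    filter_upwards [hgt] with z hz
    unfold mildEq at hz
    rw [hz]
  have h2 : ∫⁻ z : Torus × V, wm z.2 * (g t (flow t z) +
      ∫⁻ s in Ioc 0 t, loss (g s) (flow s z)) = mInt (g t) + A := by
    simp only [mul_add]
    rw [lintegral_add_left mw', lintegral_wm_along (A := fun p => loss (g p.1) p.2) mL t]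
    congr 1
    exact lintegral_flow t mw
  have h3 : ∫⁻ z : Torus × V, wm z.2 * (F0 z + ∫⁻ s in Ioc 0 t, gain (g s) (flow s z)) =
      mInt F0 + A := by
    simp only [mul_add]
    rw [lintegral_add_left m0, lintegral_wm_along (A := fun p => gain (g p.1) p.2) mG t, hB]
    rfl
  rw [h2, h3] at h1
  exact (ENNReal.add_left_inj hAfin).1 h1

/-- `∫ (1+|v|^2) f = mass + energy`. -/
lemma mInt_eq {f : Torus × V → ℝ≥0∞} (hf : Measurable f) : mInt f = mass f + energy f := by
  unfold mInt mass energy
  rw [← lintegral_add_left hf]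
  apply lintegral_congr
  intro z
  unfold wm
  rw [ENNReal.ofReal_add zero_le_one (by positivity), ENNReal.ofReal_one, add_mul, one_mul]

end Vale.Agent.Lib.P140
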