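import Mathlib
import Vale.Agent.Lib.P140.Slice

/-!
# Estimates of the collision terms at a fixed time: weight one, and a refined bound for `1+|v|^2`
-/

namespace Vale.Agent.Lib.P140

open MeasureTheory Set
open scoped ENNReal

/-! ### Fixed `(t,x)` -/

section Velocity

variable {a b h : V → ℝ≥0∞} {K2 K3 : ℝ≥0∞}

/-- Conservation of mass in the symmetrised bilinear gain term. -/
theorem lintegral_gain_pair (ha : Measurable a) (hb : Measurable b) :
    ∫⁻ v, (gainV a b v + gainV b a v) =
      (∫⁻ v, a v * freqV b v) + ∫⁻ v, b v * freqV a v := by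
  have h1 := lintegral_mul_gainV (φ := fun _ => 1) measurable_const ha hb
  have h2 := lintegral_mul_gainV_swap (φ := fun _ => 1) measurable_const ha hb
  have h3 := lintegral_mul_freqV (φ := fun _ => 1) measurable_const ha hb
  have h4 := lintegral_mul_freqV_swap (φ := fun _ => 1) measurable_const ha hb
  simp only [one_mul] at h1 h2 h3 h4
  rw [lintegral_add_left (measurable_gainV' ha hb), h1, h2, h3, h4]

lemma ker_le_add (p : V × V) (ω : Sph) :
    ker p ω ≤ ENNReal.ofReal ‖p.1‖ + ENNReal.ofReal ‖p.2‖ := by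
  unfold ker
  rw [← ENNReal.ofReal_add (norm_nonneg _) (norm_nonneg _)]
  apply ENNReal.ofReal_le_ofReal
  unfold collA
  have h1 : |inner ℝ (p.1 - p.2) (ω : V)| ≤ ‖p.1 - p.2‖ * ‖(ω : V)‖ := abs_real_inner_le_norm _ _
  rw [sph_norm ω, mul_one] at h1
  exact h1.trans (norm_sub_le _ _)

/-- `∫ a L(b) ≤ |S^2| (∫ (1+|v|) a)(∫ (1+|v|) b)`. -/
lemma lintegral_freqV_le (ha : Measurable a) (hb : Measurable b) :
    ∫⁻ v, a v * freqV b v ≤ surf univ * ((∫⁻ v, w1 v * a v) * ∫⁻ v, w1 v * b v) := by
  have h1 := lintegral_mul_freqV_le (φ := fun _ => 1) measurable_const ha hb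
  simp only [one_mul] at h1
  exact h1

lemma ofReal_norm_le_wm (v : V) : ENNReal.ofReal ‖v‖ ≤ wm v := by
  unfold wm
  apply ENNReal.ofReal_le_ofReal
  nlinarith [norm_nonneg v, sq_nonneg (‖v‖ - 1)]

lemma wm_mul_ofReal_norm_le (v : V) : wm v * ENNReal.ofReal ‖v‖ ≤ w3 v := by
  unfold wm w3
  rw [← ENNReal.ofReal_mul (by positivity)]
  apply ENNReal.ofReal_le_ofReal
  nlinarith [norm_nonneg v, sq_nonneg ‖v‖]

lemma freqV_le_add_norm (hb : Measurable b) (v : V) :
    freqV b v ≤ surf univ * (ENNReal.ofReal ‖v‖ * (∫⁻ vs, b vs) + ∫⁻ vs, wm vs * b vs) := by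
  unfold freqV
  calc ∫⁻ vs : V, ∫⁻ ω : Sph, ker (v, vs) ω * b vs ∂surf
      ≤ ∫⁻ vs : V, ∫⁻ _ω : Sph, (ENNReal.ofReal ‖v‖ + wm vs) * b vs ∂surf := by
        apply lintegral_mono
        intro vs
        apply lintegral_mono
        intro ω
        refine mul_le_mul_left ((ker_le_add (v, vs) ω).trans ?_) _
        gcongr
        exact ofReal_norm_le_wm vs
    _ = ∫⁻ vs : V, surf univ * (ENNReal.ofReal ‖v‖ * b vs + wm vs * b vs) := by
        apply lintegral_congr
        intro vs
        rw [lintegral_const]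
        ring
    _ = surf univ * (ENNReal.ofReal ‖v‖ * (∫⁻ vs, b vs) + ∫⁻ vs, wm vs * b vs) := by
        have hm1 : Measurable (fun vs => ENNReal.ofReal ‖v‖ * b vs) := measurable_const.mul hb
        have hm2 : Measurable (fun vs => wm vs * b vs) := measurable_wm.mul hb
        have hm12 : Measurable (fun vs => ENNReal.ofReal ‖v‖ * b vs + wm vs * b vs) := hm1.add hm2
        rw [lintegral_const_mul _ hm12, lintegral_add_left hm1, lintegral_const_mul _ hb]

/-- `∫ m a L(b) ≤ |S^2| ((∫ (1+|v|)^3 a)(∫ b) + (∫ m a)(∫ m b))`, `m = 1+|v|^2`. -/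
theorem lintegral_wm_freqV_le (ha : Measurable a) (hb : Measurable b) :
    ∫⁻ v, wm v * (a v * freqV b v) ≤
      surf univ * ((∫⁻ v, w3 v * a v) * (∫⁻ v, b v) + (∫⁻ v, wm v * a v) * ∫⁻ v, wm v * b v) := by
  have hm1 : Measurable (fun v => w3 v * a v) := measurable_w3.mul ha
  have hm2 : Measurable (fun v => wm v * a v) := measurable_wm.mul ha
  calc ∫⁻ v, wm v * (a v * freqV b v)
      ≤ ∫⁻ v, ((surf univ * ∫⁻ vs, b vs) * (w3 v * a v) +
          (surf univ * ∫⁻ vs, wm vs * b vs) * (wm v * a v)) := by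
        apply lintegral_mono
        intro v
        calc wm v * (a v * freqV b v)
            ≤ wm v * (a v * (surf univ *
                (ENNReal.ofReal ‖v‖ * (∫⁻ vs, b vs) + ∫⁻ vs, wm vs * b vs))) := by
              gcongr
              exact freqV_le_add_norm hb v
          _ = (surf univ * ∫⁻ vs, b vs) * ((wm v * ENNReal.ofReal ‖v‖) * a v) +
                (surf univ * ∫⁻ vs, wm vs * b vs) * (wm v * a v) := by ring
          _ ≤ (surf univ * ∫⁻ vs, b vs) * (w3 v * a v) +
                (surf univ * ∫⁻ vs, wm vs * b vs) * (wm v * a v) := by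
              gcongr
              exact wm_mul_ofReal_norm_le v
    _ = surf univ * ((∫⁻ v, w3 v * a v) * (∫⁻ v, b v) +
          (∫⁻ v, wm v * a v) * ∫⁻ v, wm v * b v) := by
        rw [lintegral_add_left (hm1.const_mul _), lintegral_const_mul _ hm1,
          lintegral_const_mul _ hm2]
        ring

lemma slice1_cross_le (ha : Measurable a) (hb : Measurable b) (hK : ∫⁻ v, wm v * a v ≤ K2) :
    ∫⁻ v, a v * freqV b v ≤ 4 * (surf univ * K2) * ∫⁻ v, wm v * b v := by
  refine le_trans (lintegral_freqV_le ha hb) ?_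
  calc surf univ * ((∫⁻ v, w1 v * a v) * ∫⁻ v, w1 v * b v)
      ≤ surf univ * ((2 * K2) * (2 * ∫⁻ v, wm v * b v)) := by
        gcongr
        · exact (lintegral_w1_le_two ha).trans (by gcongr)
        · exact lintegral_w1_le_two hb
    _ = 4 * (surf univ * K2) * ∫⁻ v, wm v * b v := by ring

/-- weight one -/
lemma slice1_R_le (ha : Measurable a) (hb : Measurable b) (hh : Measurable h)
    (hK : ∫⁻ v, wm v * a v ≤ K2) :
    ∫⁻ v, (gainV a b v + gainV b a v + a v * freqV h v) ≤
      (∫⁻ v, b v * freqV a v) +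
        4 * (surf univ * K2) * ((∫⁻ v, wm v * b v) + ∫⁻ v, wm v * h v) := by
  have hm : Measurable (fun v => gainV a b v + gainV b a v) :=
    (measurable_gainV' ha hb).add (measurable_gainV' hb ha)
  rw [lintegral_add_left hm, lintegral_gain_pair ha hb]
  have h1 := slice1_cross_le ha hb hK
  have h2 := slice1_cross_le ha hh hK
  calc (∫⁻ v, a v * freqV b v) + (∫⁻ v, b v * freqV a v) + ∫⁻ v, a v * freqV h v
      ≤ (4 * (surf univ * K2) * ∫⁻ v, wm v * b v) + (∫⁻ v, b v * freqV a v) +
        4 * (surf univ * K2) * ∫⁻ v, wm v * h v := by gcongr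
    _ = (∫⁻ v, b v * freqV a v) +
        4 * (surf univ * K2) * ((∫⁻ v, wm v * b v) + ∫⁻ v, wm v * h v) := by ring

lemma slice1_ell_le (ha : Measurable a) (hb : Measurable b) (hba : ∀ v, b v ≤ a v)
    (hK : ∫⁻ v, wm v * a v ≤ K2) :
    ∫⁻ v, b v * freqV a v ≤ 4 * (surf univ * (K2 * K2)) := by
  have hKb : ∫⁻ v, wm v * b v ≤ K2 := by
    refine le_trans (lintegral_mono fun v => ?_) hK
    gcongr
    exact hba v
  refine le_trans (slice1_cross_le hb ha hKb) ?_
  calc 4 * (surf univ * K2) * ∫⁻ v, wm v * a v ≤ 4 * (surf univ * K2) * K2 := by gcongr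
    _ = 4 * (surf univ * (K2 * K2)) := by ring

lemma slice2_cross_le (ha : Measurable a) (hb : Measurable b)
    (hK2 : ∫⁻ v, wm v * a v ≤ K2) (hK3 : ∫⁻ v, w3 v * a v ≤ K3) :
    ∫⁻ v, wm v * (a v * freqV b v) ≤
      surf univ * (K3 * (∫⁻ v, b v) + K2 * ∫⁻ v, wm v * b v) := by
  refine le_trans (lintegral_wm_freqV_le ha hb) ?_
  gcongr

/-- weight `1+|v|^2`, refined -/
lemma slice2_R_le (ha : Measurable a) (hb : Measurable b) (hh : Measurable h)
    (hK2 : ∫⁻ v, wm v * a v ≤ K2) (hK3 : ∫⁻ v, w3 v * a v ≤ K3) :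
    ∫⁻ v, wm v * (gainV a b v + gainV b a v + a v * freqV h v) ≤
      (∫⁻ v, wm v * (b v * freqV a v)) +
        surf univ * (K3 * ((∫⁻ v, b v) + ∫⁻ v, h v) +
          K2 * ((∫⁻ v, wm v * b v) + ∫⁻ v, wm v * h v)) := by
  have hm : Measurable (fun v => wm v * (gainV a b v + gainV b a v)) :=
    measurable_wm.mul ((measurable_gainV' ha hb).add (measurable_gainV' hb ha))
  have e1 : ∫⁻ v, wm v * (gainV a b v + gainV b a v + a v * freqV h v) =
      (∫⁻ v, wm v * (gainV a b v + gainV b a v)) + ∫⁻ v, wm v * (a v * freqV h v) := by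
    rw [← lintegral_add_left hm]
    apply lintegral_congr
    intro v
    rw [mul_add]
  rw [e1, lintegral_wm_gain_pair ha hb]
  have h1 := slice2_cross_le ha hb hK2 hK3
  have h2 := slice2_cross_le ha hh hK2 hK3
  calc (∫⁻ v, wm v * (a v * freqV b v)) + (∫⁻ v, wm v * (b v * freqV a v)) +
        ∫⁻ v, wm v * (a v * freqV h v)
      ≤ surf univ * (K3 * (∫⁻ v, b v) + K2 * ∫⁻ v, wm v * b v) +
        (∫⁻ v, wm v * (b v * freqV a v)) +
        surf univ * (K3 * (∫⁻ v, h v) + K2 * ∫⁻ v, wm v * h v) := by gcongr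
    _ = (∫⁻ v, wm v * (b v * freqV a v)) +
        surf univ * (K3 * ((∫⁻ v, b v) + ∫⁻ v, h v) +
          K2 * ((∫⁻ v, wm v * b v) + ∫⁻ v, wm v * h v)) := by ring

end Velocity

/-! ### Fixed `t`, integrated over the torus -/

/-- `X(s) = ∫ (g-F)_+ dx dv`. -/
noncomputable def Xint (F g : ℝ → Torus × V → ℝ≥0∞) (s : ℝ) : ℝ≥0∞ :=
  ∫⁻ z : Torus × V, wT F g s z

section Time

variable {F g : ℝ → Torus × V → ℝ≥0∞} {K2 K3 : ℝ≥0∞}

lemma secondMoment_eq (f : Torus × V → ℝ≥0∞) (x : Torus) :
    secondMoment f x = ∫⁻ v, wm v * f (x, v) := rfl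

lemma int1_R_le (hF : Measurable (Function.uncurry F)) (hg : Measurable (Function.uncurry g))
    (s : ℝ) (hK : ∀ᵐ x : Torus, secondMoment (g s) x ≤ K2) :
    ∫⁻ z : Torus × V, RT F g (s, z) ≤
      (∫⁻ z : Torus × V, ellT F g (s, z)) +
        4 * (surf univ * K2) * (Wint F g s + Wint g F s) := by
  have mc : Measurable (fun z : Torus × V => (s, z)) := measurable_const.prodMk measurable_id
  have m1 : Measurable (fun z : Torus × V => RT F g (s, z)) := (measurable_RT hF hg).comp mc
  have m2 : Measurable (fun z : Torus × V => ellT F g (s, z)) := (measurable_ellT hF hg).comp mc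
  have m3 : Measurable (fun z : Torus × V => wm z.2 * wT F g s z) :=
    measurable_wm_snd.mul (measurable_slice (measurable_wT hF hg) s)
  have m4 : Measurable (fun z : Torus × V => wm z.2 * wT g F s z) :=
    measurable_wm_snd.mul (measurable_slice (measurable_wT hg hF) s)
  have n2 := m2.lintegral_prod_right' (ν := (volume : Measure V))
  have n3 := m3.lintegral_prod_right' (ν := (volume : Measure V))
  have n4 := m4.lintegral_prod_right' (ν := (volume : Measure V))
  have n34 : Measurable (fun x : Torus => (∫⁻ v : V, wm v * wT F g s (x, v)) +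
      ∫⁻ v : V, wm v * wT g F s (x, v)) := n3.add n4
  have e : (∫⁻ z : Torus × V, ellT F g (s, z)) +
        4 * (surf univ * K2) * (Wint F g s + Wint g F s) =
      ∫⁻ x : Torus, ((∫⁻ v : V, ellT F g (s, (x, v))) +
        4 * (surf univ * K2) * ((∫⁻ v : V, wm v * wT F g s (x, v)) +
          ∫⁻ v : V, wm v * wT g F s (x, v))) := by
    unfold Wint
    rw [lintegral_torus_prod m2, lintegral_torus_prod m3, lintegral_torus_prod m4,
      lintegral_add_left n2, lintegral_const_mul _ n34, lintegral_add_left n3]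
  rw [e, lintegral_torus_prod m1]
  apply lintegral_mono_ae
  filter_upwards [hK] with x hx
  have key := slice1_R_le (measurable_slice2 hg s x) (measurable_slice2 (measurable_wT hF hg) s x)
    (measurable_slice2 (measurable_wT hg hF) s x) hx
  simp only [RT_apply, ellT_apply]
  exact key

lemma int1_ell_le (hF : Measurable (Function.uncurry F)) (hg : Measurable (Function.uncurry g))
    (s : ℝ) (hK : ∀ᵐ x : Torus, secondMoment (g s) x ≤ K2) :
    ∫⁻ z : Torus × V, ellT F g (s, z) ≤ 4 * (surf univ * (K2 * K2)) := by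
  have mc : Measurable (fun z : Torus × V => (s, z)) := measurable_const.prodMk measurable_id
  have m2 : Measurable (fun z : Torus × V => ellT F g (s, z)) := (measurable_ellT hF hg).comp mc
  rw [lintegral_torus_prod m2]
  calc ∫⁻ x : Torus, ∫⁻ v : V, ellT F g (s, (x, v))
      ≤ ∫⁻ _x : Torus, 4 * (surf univ * (K2 * K2)) := by
        apply lintegral_mono_ae
        filter_upwards [hK] with x hx
        have key := slice1_ell_le (measurable_slice2 hg s x)
          (measurable_slice2 (measurable_wT hF hg) s x) (fun v => tsub_le_self) hx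
        simp only [ellT_apply]
        exact key
    _ = 4 * (surf univ * (K2 * K2)) := by
        rw [lintegral_const, volume_torus_univ, mul_one]

lemma int2_R_le (hF : Measurable (Function.uncurry F)) (hg : Measurable (Function.uncurry g))
    (s : ℝ) (hK2 : ∀ᵐ x : Torus, secondMoment (g s) x ≤ K2)
    (hK3 : ∀ᵐ x : Torus, thirdMoment (g s) x ≤ K3) :
    ∫⁻ z : Torus × V, wm z.2 * RT F g (s, z) ≤
      (∫⁻ z : Torus × V, wm z.2 * ellT F g (s, z)) +
        surf univ * (K3 * (Xint F g s + Xint g F s) + K2 * (Wint F g s + Wint g F s)) := by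
  have mc : Measurable (fun z : Torus × V => (s, z)) := measurable_const.prodMk measurable_id
  have m1 : Measurable (fun z : Torus × V => wm z.2 * RT F g (s, z)) :=
    measurable_wm_snd.mul ((measurable_RT hF hg).comp mc)
  have m2 : Measurable (fun z : Torus × V => wm z.2 * ellT F g (s, z)) :=
    measurable_wm_snd.mul ((measurable_ellT hF hg).comp mc)
  have m3 : Measurable (fun z : Torus × V => wm z.2 * wT F g s z) :=
    measurable_wm_snd.mul (measurable_slice (measurable_wT hF hg) s)
  have m4 : Measurable (fun z : Torus × V => wm z.2 * wT g F s z) :=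
    measurable_wm_snd.mul (measurable_slice (measurable_wT hg hF) s)
  have m5 : Measurable (fun z : Torus × V => wT F g s z) :=
    measurable_slice (measurable_wT hF hg) s
  have m6 : Measurable (fun z : Torus × V => wT g F s z) :=
    measurable_slice (measurable_wT hg hF) s
  have n2 := m2.lintegral_prod_right' (ν := (volume : Measure V))
  have n3 := m3.lintegral_prod_right' (ν := (volume : Measure V))
  have n4 := m4.lintegral_prod_right' (ν := (volume : Measure V))
  have n5 := m5.lintegral_prod_right' (ν := (volume : Measure V))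
  have n6 := m6.lintegral_prod_right' (ν := (volume : Measure V))
  have n34 : Measurable (fun x : Torus => (∫⁻ v : V, wm v * wT F g s (x, v)) +
      ∫⁻ v : V, wm v * wT g F s (x, v)) := n3.add n4
  have n56 : Measurable (fun x : Torus => (∫⁻ v : V, wT F g s (x, v)) +
      ∫⁻ v : V, wT g F s (x, v)) := n5.add n6
  have n7 : Measurable (fun x : Torus =>
      K3 * ((∫⁻ v : V, wT F g s (x, v)) + ∫⁻ v : V, wT g F s (x, v))) := n56.const_mul K3
  have n8 : Measurable (fun x : Torus =>
      K3 * ((∫⁻ v : V, wT F g s (x, v)) + ∫⁻ v : V, wT g F s (x, v)) +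
        K2 * ((∫⁻ v : V, wm v * wT F g s (x, v)) + ∫⁻ v : V, wm v * wT g F s (x, v))) :=
    n7.add (n34.const_mul K2)
  have e : (∫⁻ z : Torus × V, wm z.2 * ellT F g (s, z)) +
        surf univ * (K3 * (Xint F g s + Xint g F s) + K2 * (Wint F g s + Wint g F s)) =
      ∫⁻ x : Torus, ((∫⁻ v : V, wm v * ellT F g (s, (x, v))) +
        surf univ * (K3 * ((∫⁻ v : V, wT F g s (x, v)) + ∫⁻ v : V, wT g F s (x, v)) +
          K2 * ((∫⁻ v : V, wm v * wT F g s (x, v)) +
          ∫⁻ v : V, wm v * wT g F s (x, v)))) := by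
    unfold Wint Xint
    rw [lintegral_torus_prod m2, lintegral_torus_prod m3, lintegral_torus_prod m4,
      lintegral_torus_prod m5, lintegral_torus_prod m6,
      lintegral_add_left n2, lintegral_const_mul _ n8,
      lintegral_add_left n7, lintegral_const_mul _ n56,
      lintegral_const_mul _ n34, lintegral_add_left n3, lintegral_add_left n5]
  rw [e, lintegral_torus_prod m1]
  apply lintegral_mono_ae
  filter_upwards [hK2, hK3] with x hx2 hx3
  have key := slice2_R_le (measurable_slice2 hg s x) (measurable_slice2 (measurable_wT hF hg) s x)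
    (measurable_slice2 (measurable_wT hg hF) s x) hx2 hx3
  simp only [RT_apply, ellT_apply]
  exact key

lemma int_wm_le2 (hg : Measurable (Function.uncurry g))
    (s : ℝ) (hK : ∀ᵐ x : Torus, secondMoment (g s) x ≤ K2) :
    ∫⁻ z : Torus × V, wm z.2 * g s z ≤ K2 := by
  have m2 : Measurable (fun z : Torus × V => wm z.2 * g s z) :=
    measurable_wm_snd.mul (measurable_slice hg s)
  rw [lintegral_torus_prod m2]
  calc ∫⁻ x : Torus, ∫⁻ v : V, wm v * g s (x, v)
      ≤ ∫⁻ _x : Torus, K2 := by
        apply lintegral_mono_ae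
        filter_upwards [hK] with x hx
        exact hx
    _ = K2 := by
        rw [lintegral_const, volume_torus_univ, mul_one]

end Time

end Vale.Agent.Lib.P140
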