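import Mathlib
import Vale.Agent.Lib.P140.Core
import Vale.Agent.Lib.P140.CharLemma2
import Vale.Agent.Lib.P140.Slice2
import Vale.Agent.Lib.P140.Along

/-!
# The integrated inequalities for `X = ∫ (g-F)_+` and, from a positive time, `Y = ∫ (1+|v|^2)(g-F)_+`
-/

namespace Vale.Agent.Lib.P140

open MeasureTheory Set
open scoped ENNReal

variable {F0 : Torus × V → ℝ≥0∞} {F g : ℝ → Torus × V → ℝ≥0∞}

/-- Tonelli along the flow on `(a,t]`, with the weight `1 + |v|^2`. -/
lemma lintegral_wm_along_Ioc {A : ℝ × (Torus × V) → ℝ≥0∞} (hA : Measurable A) (a t : ℝ) :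
    ∫⁻ z : Torus × V, wm z.2 * ∫⁻ s in Ioc a t, A (s, flow s z) =
      ∫⁻ s in Ioc a t, ∫⁻ z : Torus × V, wm z.2 * A (s, z) := by
  have hwm : Measurable (fun z : Torus × V => wm z.2) := measurable_wm.comp measurable_snd
  calc ∫⁻ z : Torus × V, wm z.2 * ∫⁻ s in Ioc a t, A (s, flow s z)
      = ∫⁻ z : Torus × V, ∫⁻ s in Ioc a t, wm z.2 * A (s, flow s z) := by
        apply lintegral_congr
        intro z
        rw [lintegral_const_mul _ (measurable_along hA z)]
    _ = ∫⁻ s in Ioc a t, ∫⁻ z : Torus × V, wm z.2 * A (s, flow s z) := by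
        apply lintegral_lintegral_swap
        apply Measurable.aemeasurable
        exact (hwm.comp measurable_fst).mul
          ((hA.comp measurable_flowMap).comp (measurable_snd.prodMk measurable_fst))
    _ = ∫⁻ s in Ioc a t, ∫⁻ z : Torus × V, wm z.2 * A (s, z) := by
        apply lintegral_congr
        intro s
        exact lintegral_flow s (f := fun z => wm z.2 * A (s, z))
          (hwm.mul (hA.comp (measurable_const.prodMk measurable_id)))

/-- finiteness of the value at time `a` from the mild equation -/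
lemma lt_top_of_mildEq {G : ℝ → Torus × V → ℝ≥0∞} {a t : ℝ} (hat : a ≤ t) {z : Torus × V}
    (h0 : F0 z < ∞) (f1 : ∫⁻ s in Ioc 0 t, gain (G s) (flow s z) < ∞) (e : mildEq F0 G a z) :
    G a (flow a z) < ∞ := by
  have h1 : G a (flow a z) ≤ F0 z + ∫⁻ s in Ioc 0 a, gain (G s) (flow s z) := by
    unfold mildEq at e
    rw [← e]
    exact le_self_add
  exact lt_of_le_of_lt h1 (ENNReal.add_lt_top.2 ⟨h0, lt_of_le_of_lt (lint_mono_Ioc hat _) f1⟩)

lemma lint_Ioc_le {a t : ℝ} (ha : 0 ≤ a) (P : ℝ → ℝ≥0∞) :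
    ∫⁻ u in Ioc a t, P u ≤ ∫⁻ u in Ioc 0 t, P u :=
  lintegral_mono_set (Ioc_subset_Ioc_left ha)

/-- The comparison along almost every characteristic, from time `a`. -/
lemma char_step_from (hF0m : Measurable F0) (hF0 : ∀ᵐ z, F0 z < ∞) {a t : ℝ} (ha : 0 ≤ a)
    (hat : a ≤ t) (hF : IsMildOn t F0 F) (hg : IsMildOn t F0 g)
    (hFt : ∀ᵐ z, mildEq F0 F t z) (hgt : ∀ᵐ z, mildEq F0 g t z)
    (hFa : ∀ᵐ z, mildEq F0 F a z) (hga : ∀ᵐ z, mildEq F0 g a z) :
    ∀ᵐ z : Torus × V, wT F g t (flow t z) + ∫⁻ s in Ioc a t, ellT F g (s, flow s z) ≤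
      wT F g a (flow a z) + ∫⁻ s in Ioc a t, RT F g (s, flow s z) := by
  filter_upwards [hF0, hF.gain_fin, hF.loss_fin, hg.gain_fin, hg.loss_fin,
    hF.eqn_swap hF0m, hg.eqn_swap hF0m, hFt, hgt, hFa, hga] with z h0 f1 f2 f3 f4 e1 e2 e3 e4 e5 e6
  refine char_ineq_from (PF := fun s => gain (F s) (flow s z))
    (NF := fun s => loss (F s) (flow s z))
    (Pg := fun s => gain (g s) (flow s z)) (Ng := fun s => loss (g s) (flow s z))
    (ℓ := fun s => ellT F g (s, flow s z)) (R := fun s => RT F g (s, flow s z))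
    (φ := fun s => F s (flow s z)) (γ := fun s => g s (flow s z))
    (cφ := F a (flow a z)) (cγ := g a (flow a z)) hat
    (lt_top_of_mildEq hat h0 f1 e5) (lt_top_of_mildEq hat h0 f3 e6)
    (measurable_along (measurable_gain hF.meas) z) (measurable_along (measurable_loss hF.meas) z)
    (measurable_along (measurable_gain hg.meas) z) (measurable_along (measurable_loss hg.meas) z)
    (measurable_along (measurable_ellT hF.meas hg.meas) z)
    (measurable_along (measurable_RT hF.meas hg.meas) z)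
    (lt_of_le_of_lt (lint_Ioc_le ha _) f1) (lt_of_le_of_lt (lint_Ioc_le ha _) f2)
    (lt_of_le_of_lt (lint_Ioc_le ha _) f3) (lt_of_le_of_lt (lint_Ioc_le ha _) f4)
    ?_ ?_ ?_ ?_ ?_ ?_
  · filter_upwards [e1] with s hs hmem
    exact restart_eq ha hmem.1.le (lt_of_le_of_lt (lint_mono_Ioc hmem.2 _) f1)
      (lt_of_le_of_lt (lint_mono_Ioc hmem.2 _) f2) h0
      (hs ⟨lt_of_le_of_lt ha hmem.1, hmem.2⟩) e5
  · exact restart_eq ha hat f1 f2 h0 e3 e5
  · filter_upwards [e2] with s hs hmem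
    exact restart_eq ha hmem.1.le (lt_of_le_of_lt (lint_mono_Ioc hmem.2 _) f3)
      (lt_of_le_of_lt (lint_mono_Ioc hmem.2 _) f4) h0
      (hs ⟨lt_of_le_of_lt ha hmem.1, hmem.2⟩) e6
  · exact restart_eq ha hat f3 f4 h0 e4 e6
  · refine Filter.Eventually.of_forall fun s _ hlt => ?_
    exact pointwise_le hF.meas hg.meas s (flow s z) hlt.le
  · refine Filter.Eventually.of_forall fun s _ hge => ?_
    have : wT F g s (flow s z) = 0 := tsub_eq_zero_of_le hge
    simp only [ellT, this, zero_mul]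

lemma measurable_int_one {A : ℝ × (Torus × V) → ℝ≥0∞} (hA : Measurable A) :
    Measurable (fun s : ℝ => ∫⁻ z : Torus × V, A (s, z)) :=
  Measurable.lintegral_prod_right' (f := fun q : ℝ × (Torus × V) => A q) hA

/-- The inequality for `X`, which only needs the second-moment density of `g`. -/
lemma X_le (hF0m : Measurable F0) (hF0 : ∀ᵐ z, F0 z < ∞) {t : ℝ} (hF : IsMildOn t F0 F)
    (hg : IsMildOn t F0 g) (ht : 0 ≤ t) (hFt : ∀ᵐ z, mildEq F0 F t z)
    (hgt : ∀ᵐ z, mildEq F0 g t z) {K : ℝ≥0∞} (hKfin : K < ∞)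
    (hK2 : ∀ᵐ s : ℝ, s ∈ Ioc 0 t → ∀ᵐ x : Torus, secondMoment (g s) x ≤ K) :
    Xint F g t ≤ 4 * (surf univ * K) * ∫⁻ s in Ioc 0 t, (Wint F g s + Wint g F s) := by
  have mE := measurable_ellT hF.meas hg.meas
  have mR := measurable_RT hF.meas hg.meas
  have mw : Measurable (fun z : Torus × V => wT F g t z) :=
    measurable_slice (measurable_wT hF.meas hg.meas) t
  have hσ : surf univ < ∞ := measure_lt_top _ _
  have hC : 4 * (surf univ * K) ≠ ∞ :=
    ENNReal.mul_ne_top (by simp) (ENNReal.mul_ne_top hσ.ne hKfin.ne)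
  have hK' : ∀ᵐ s : ℝ ∂(volume.restrict (Ioc 0 t)), ∀ᵐ x : Torus, secondMoment (g s) x ≤ K := by
    rwa [ae_restrict_iff' measurableSet_Ioc]
  set L : ℝ≥0∞ := ∫⁻ s in Ioc 0 t, ∫⁻ z : Torus × V, ellT F g (s, z) with hL
  have hLfin : L ≠ ∞ := by
    have : L ≤ ∫⁻ _s in Ioc 0 t, 4 * (surf univ * (K * K)) := by
      apply lintegral_mono_ae
      filter_upwards [hK'] with s hs
      exact int1_ell_le hF.meas hg.meas s hs
    refine ne_top_of_le_ne_top ?_ this
    rw [lintegral_const, Measure.restrict_apply MeasurableSet.univ, univ_inter, Real.volume_Ioc]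
    exact ENNReal.mul_ne_top (ENNReal.mul_ne_top (by simp)
      (ENNReal.mul_ne_top hσ.ne (ENNReal.mul_ne_top hKfin.ne hKfin.ne))) ENNReal.ofReal_ne_top
  have h1 := char_step hF0m hF0 hF hg ht hFt hgt
  have h2 : ∫⁻ z : Torus × V, (wT F g t (flow t z) +
      ∫⁻ s in Ioc 0 t, ellT F g (s, flow s z)) ≤
      ∫⁻ z : Torus × V, ∫⁻ s in Ioc 0 t, RT F g (s, flow s z) := lintegral_mono_ae h1
  have h3 : ∫⁻ z : Torus × V, (wT F g t (flow t z) +
      ∫⁻ s in Ioc 0 t, ellT F g (s, flow s z)) = Xint F g t + L := by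
    have mw' : Measurable (fun z : Torus × V => wT F g t (flow t z)) :=
      mw.comp (measurable_flow' t)
    rw [lintegral_add_left mw', lintegral_along mE t]
    congr 1
    exact lintegral_flow t mw
  have h4 : ∫⁻ z : Torus × V, ∫⁻ s in Ioc 0 t, RT F g (s, flow s z) ≤
      L + 4 * (surf univ * K) * ∫⁻ s in Ioc 0 t, (Wint F g s + Wint g F s) := by
    rw [lintegral_along mR t, ← lintegral_const_mul' _ _ hC, hL,
      ← lintegral_add_left (measurable_int_one mE)]
    apply lintegral_mono_ae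
    filter_upwards [hK'] with s hs
    exact int1_R_le hF.meas hg.meas s hs
  rw [h3] at h2
  have h5 := h2.trans h4
  rw [add_comm] at h5
  exact (ENNReal.add_le_add_iff_left hLfin).1 h5

/-- The inequality for `Y = Wint` from a positive time `a`; the third-moment density of `g` may
blow up like `K/s` at `s = 0`. -/
lemma Y_le_from (hF0m : Measurable F0) (hF0 : ∀ᵐ z, F0 z < ∞) {a t : ℝ} (ha : 0 < a)
    (hat : a ≤ t) (hF : IsMildOn t F0 F) (hg : IsMildOn t F0 g)
    (hFt : ∀ᵐ z, mildEq F0 F t z) (hgt : ∀ᵐ z, mildEq F0 g t z)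
    (hFa : ∀ᵐ z, mildEq F0 F a z) (hga : ∀ᵐ z, mildEq F0 g a z) {K : ℝ≥0∞} (hKfin : K < ∞)
    (hK2 : ∀ᵐ s : ℝ, s ∈ Ioc 0 t → ∀ᵐ x : Torus, secondMoment (g s) x ≤ K)
    (hK3 : ∀ᵐ s : ℝ, s ∈ Ioc 0 t → ∀ᵐ x : Torus, ENNReal.ofReal s * thirdMoment (g s) x ≤ K) :
    Wint F g t ≤ Wint F g a + surf univ * ∫⁻ s in Ioc a t,
      (K / ENNReal.ofReal s * (Xint F g s + Xint g F s) + K * (Wint F g s + Wint g F s)) := by
  have mE := measurable_ellT hF.meas hg.meas
  have mR := measurable_RT hF.meas hg.meas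
  have mw : ∀ u : ℝ, Measurable (fun z : Torus × V => wm z.2 * wT F g u z) := fun u =>
    measurable_wm_snd.mul (measurable_slice (measurable_wT hF.meas hg.meas) u)
  have hσ : surf univ < ∞ := measure_lt_top _ _
  have hsub : ∀ s, s ∈ Ioc a t → s ∈ Ioc 0 t := fun s hs => ⟨ha.trans hs.1, hs.2⟩
  have hK2' : ∀ᵐ s : ℝ ∂(volume.restrict (Ioc a t)), ∀ᵐ x : Torus, secondMoment (g s) x ≤ K := by
    rw [ae_restrict_iff' measurableSet_Ioc]
    filter_upwards [hK2] with s hs hmem
    exact hs (hsub s hmem)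
  have hK3' : ∀ᵐ s : ℝ ∂(volume.restrict (Ioc a t)),
      ∀ᵐ x : Torus, thirdMoment (g s) x ≤ K / ENNReal.ofReal s := by
    rw [ae_restrict_iff' measurableSet_Ioc]
    filter_upwards [hK3] with s hs hmem
    filter_upwards [hs (hsub s hmem)] with x hx
    have hs0 : ENNReal.ofReal s ≠ 0 := by
      rw [Ne, ENNReal.ofReal_eq_zero, not_le]
      exact ha.trans hmem.1
    rw [ENNReal.le_div_iff_mul_le (Or.inl hs0) (Or.inl ENNReal.ofReal_ne_top), mul_comm]
    exact hx
  have ha0 : ENNReal.ofReal a ≠ 0 := by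
    rw [Ne, ENNReal.ofReal_eq_zero, not_le]
    exact ha
  set K' : ℝ≥0∞ := K / ENNReal.ofReal a with hK'def
  have hK'fin : K' ≠ ∞ := ENNReal.div_ne_top hKfin.ne ha0
  have hK3'' : ∀ᵐ s : ℝ ∂(volume.restrict (Ioc a t)),
      ∀ᵐ x : Torus, thirdMoment (g s) x ≤ K' := by
    have hmemae : ∀ᵐ s : ℝ ∂(volume.restrict (Ioc a t)), s ∈ Ioc a t :=
      ae_restrict_mem measurableSet_Ioc
    filter_upwards [hK3', hmemae] with s hs hmem
    filter_upwards [hs] with x hx
    refine hx.trans ?_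
    exact ENNReal.div_le_div_left (ENNReal.ofReal_le_ofReal hmem.1.le) _
  set L : ℝ≥0∞ := ∫⁻ s in Ioc a t, ∫⁻ z : Torus × V, wm z.2 * ellT F g (s, z) with hL
  have hLfin : L ≠ ∞ := by
    have : L ≤ ∫⁻ _s in Ioc a t, surf univ * (K' * K') := by
      apply lintegral_mono_ae
      filter_upwards [hK3''] with s hs
      exact int_ell_le hF.meas hg.meas s hs
    refine ne_top_of_le_ne_top ?_ this
    rw [lintegral_const, Measure.restrict_apply MeasurableSet.univ, univ_inter, Real.volume_Ioc]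
    exact ENNReal.mul_ne_top (ENNReal.mul_ne_top hσ.ne (ENNReal.mul_ne_top hK'fin hK'fin))
      ENNReal.ofReal_ne_top
  have h1 := char_step_from hF0m hF0 ha.le hat hF hg hFt hgt hFa hga
  have h2 : ∫⁻ z : Torus × V, wm z.2 * (wT F g t (flow t z) +
      ∫⁻ s in Ioc a t, ellT F g (s, flow s z)) ≤
      ∫⁻ z : Torus × V, wm z.2 * (wT F g a (flow a z) +
        ∫⁻ s in Ioc a t, RT F g (s, flow s z)) := by
    apply lintegral_mono_ae
    filter_upwards [h1] with z hz
    gcongr
  have hsplit : ∀ (u : ℝ) (B : ℝ × (Torus × V) → ℝ≥0∞), Measurable B →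
      ∫⁻ z : Torus × V, wm z.2 * (wT F g u (flow u z) + ∫⁻ s in Ioc a t, B (s, flow s z)) =
        Wint F g u + ∫⁻ s in Ioc a t, ∫⁻ z : Torus × V, wm z.2 * B (s, z) := by
    intro u B mB
    have e : ∀ z : Torus × V, wm z.2 * (wT F g u (flow u z) +
        ∫⁻ s in Ioc a t, B (s, flow s z)) =
        wm z.2 * wT F g u (flow u z) + wm z.2 * ∫⁻ s in Ioc a t, B (s, flow s z) :=
      fun z => mul_add _ _ _
    have mw' : Measurable (fun z : Torus × V => wm z.2 * wT F g u (flow u z)) :=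
      (mw u).comp (measurable_flow' u)
    simp only [e]
    rw [lintegral_add_left mw', lintegral_wm_along_Ioc mB a t]
    congr 1
    exact lintegral_flow u (mw u)
  rw [hsplit t _ mE, hsplit a _ mR] at h2
  have h4 : ∫⁻ s in Ioc a t, ∫⁻ z : Torus × V, wm z.2 * RT F g (s, z) ≤
      L + surf univ * ∫⁻ s in Ioc a t,
        (K / ENNReal.ofReal s * (Xint F g s + Xint g F s) + K * (Wint F g s + Wint g F s)) := by
    rw [← lintegral_const_mul' _ _ hσ.ne, hL, ← lintegral_add_left (measurable_int_wm mE)]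
    apply lintegral_mono_ae
    filter_upwards [hK2', hK3'] with s hs2 hs3
    exact int2_R_le hF.meas hg.meas s hs2 hs3
  set J : ℝ≥0∞ := ∫⁻ s in Ioc a t,
    (K / ENNReal.ofReal s * (Xint F g s + Xint g F s) + K * (Wint F g s + Wint g F s)) with hJ
  have h5 : Wint F g t + L ≤ (Wint F g a + surf univ * J) + L := by
    refine h2.trans ?_
    calc Wint F g a + ∫⁻ s in Ioc a t, ∫⁻ z : Torus × V, wm z.2 * RT F g (s, z)
        ≤ Wint F g a + (L + surf univ * J) := by gcongr
      _ = (Wint F g a + surf univ * J) + L := by ring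
  exact (ENNReal.add_le_add_iff_right hLfin).1 h5

/-- `∫ (F-g)_+ = ∫ (g-F)_+` when the masses are equal and finite. -/
lemma Xint_symm (hF : Measurable (Function.uncurry F)) (hg : Measurable (Function.uncurry g))
    (s : ℝ) (h : mass (F s) = mass (g s)) (hfin : mass (g s) < ∞) :
    Xint g F s = Xint F g s := by
  have m1 : Measurable (fun z : Torus × V => wT F g s z) :=
    measurable_slice (measurable_wT hF hg) s
  have m2 : Measurable (fun z : Torus × V => wT g F s z) :=
    measurable_slice (measurable_wT hg hF) s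
  have e : Xint g F s + mass (g s) = Xint F g s + mass (F s) := by
    unfold Xint mass
    rw [← lintegral_add_left m2, ← lintegral_add_left m1]
    apply lintegral_congr
    intro z
    simp only [wT]
    rw [tsub_add_eq_max, tsub_add_eq_max, max_comm]
  rw [h] at e
  exact (ENNReal.add_left_inj hfin.ne).1 e

end Vale.Agent.Lib.P140
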