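import Mathlib
import Vale.Agent.Lib.P140.Gronwall

/-!
# A Gronwall lemma with a Nagumo-type singular term
-/

namespace Vale.Agent.Lib.P140

open MeasureTheory Set
open scoped ENNReal

/-- If `Y ≤ E < ∞` and `Y(t) ≤ c ∫_0^t (Y(s) + (1/s) ∫_0^s Y) ds` for almost every `t ∈ (0,T]`, then
`∫_0^T Y = 0`. -/
theorem gronwall2_zero {Y : ℝ → ℝ≥0∞} {c E : ℝ≥0∞} (hc : c ≠ ∞) (hE : E ≠ ∞) (T : ℝ)
    (hbd : ∀ᵐ t : ℝ, t ∈ Ioc 0 T → Y t ≤ E)
    (hineq : ∀ᵐ t : ℝ, t ∈ Ioc 0 T →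
      Y t ≤ c * ∫⁻ s in Ioc 0 t, (Y s + (∫⁻ τ in Ioc 0 s, Y τ) / ENNReal.ofReal s)) :
    ∫⁻ s in Ioc 0 T, Y s = 0 := by
  set Φ : ℝ → ℝ≥0∞ := fun s => ∫⁻ τ in Ioc 0 s, Y τ with hΦ
  set Θ : ℝ → ℝ≥0∞ := fun t => ∫⁻ s in Ioc 0 t, (Y s + Φ s / ENNReal.ofReal s) with hΘ
  have hΘmono : Monotone Θ := fun a b hab => lintegral_mono_set (Ioc_subset_Ioc_right hab)
  have hY : ∀ᵐ t : ℝ, t ∈ Ioc 0 T → Y t ≤ c * Θ t := hineq
  have hconst : ∀ (s : ℝ) (C : ℝ≥0∞), ∫⁻ _ in Ioc 0 s, C = C * ENNReal.ofReal s := by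
    intro s C
    rw [lintegral_const, Measure.restrict_apply MeasurableSet.univ, univ_inter, Real.volume_Ioc,
      sub_zero]
  -- the singular term is controlled by `c Θ` and by `E`
  have hΨle : ∀ s ∈ Ioc 0 T, Φ s / ENNReal.ofReal s ≤ c * Θ s := by
    intro s hs
    apply ENNReal.div_le_of_le_mul
    calc Φ s ≤ ∫⁻ _ in Ioc 0 s, c * Θ s := by
          apply lintegral_mono_ae
          rw [ae_restrict_iff' measurableSet_Ioc]
          filter_upwards [hY] with τ hτ hτs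
          refine (hτ ⟨hτs.1, hτs.2.trans hs.2⟩).trans ?_
          gcongr
          exact hΘmono hτs.2
      _ = c * Θ s * ENNReal.ofReal s := hconst s _
  have hΨE : ∀ s ∈ Ioc 0 T, Φ s / ENNReal.ofReal s ≤ E := by
    intro s hs
    apply ENNReal.div_le_of_le_mul
    calc Φ s ≤ ∫⁻ _ in Ioc 0 s, E := by
          apply lintegral_mono_ae
          rw [ae_restrict_iff' measurableSet_Ioc]
          filter_upwards [hbd] with τ hτ hτs
          exact hτ ⟨hτs.1, hτs.2.trans hs.2⟩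
      _ = E * ENNReal.ofReal s := hconst s _
  have h2c : 2 * c ≠ ∞ := ENNReal.mul_ne_top (by norm_num) hc
  have hΘineq : ∀ t ∈ Ioc 0 T, Θ t ≤ 2 * c * ∫⁻ s in Ioc 0 t, Θ s := by
    intro t ht
    calc Θ t ≤ ∫⁻ s in Ioc 0 t, 2 * c * Θ s := by
          apply lintegral_mono_ae
          rw [ae_restrict_iff' measurableSet_Ioc]
          filter_upwards [hY] with s hs hst
          have hsT : s ∈ Ioc 0 T := ⟨hst.1, hst.2.trans ht.2⟩
          calc Y s + Φ s / ENNReal.ofReal s ≤ c * Θ s + c * Θ s := add_le_add (hs hsT) (hΨle s hsT)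
            _ = 2 * c * Θ s := by ring
      _ = 2 * c * ∫⁻ s in Ioc 0 t, Θ s := lintegral_const_mul' _ _ h2c
  have hΘbd : ∀ t ∈ Ioc 0 T, Θ t ≤ 2 * E * ENNReal.ofReal T := by
    intro t ht
    calc Θ t ≤ ∫⁻ _ in Ioc 0 t, 2 * E := by
          apply lintegral_mono_ae
          rw [ae_restrict_iff' measurableSet_Ioc]
          filter_upwards [hbd] with s hs hst
          have hsT : s ∈ Ioc 0 T := ⟨hst.1, hst.2.trans ht.2⟩
          calc Y s + Φ s / ENNReal.ofReal s ≤ E + E := add_le_add (hs hsT) (hΨE s hsT)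
            _ = 2 * E := by ring
      _ = 2 * E * ENNReal.ofReal t := hconst t _
      _ ≤ 2 * E * ENNReal.ofReal T := by
          gcongr
          exact ht.2
  have hE' : 2 * E * ENNReal.ofReal T ≠ ∞ :=
    ENNReal.mul_ne_top (ENNReal.mul_ne_top (by norm_num) hE) ENNReal.ofReal_ne_top
  have hzero : ∫⁻ s in Ioc 0 T, Θ s = 0 :=
    gronwall_zero h2c hE' T (Filter.Eventually.of_forall hΘbd) (Filter.Eventually.of_forall hΘineq)
  have hfinal : ∫⁻ s in Ioc 0 T, Y s ≤ ∫⁻ s in Ioc 0 T, c * Θ s := by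
    apply lintegral_mono_ae
    rw [ae_restrict_iff' measurableSet_Ioc]
    exact hY
  rw [lintegral_const_mul' _ _ hc, hzero, mul_zero] at hfinal
  exact le_antisymm hfinal zero_le

end Vale.Agent.Lib.P140
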