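import Mathlib
import Vale.Agent.Lib.P140.Core

/-!
# `∫ (1+|v|^2) (g-F)_+ (ε) → 0` along good times `ε → 0`
-/

namespace Vale.Agent.Lib.P140

open MeasureTheory Set Filter Topology
open scoped ENNReal

variable {F0 : Torus × V → ℝ≥0∞} {F g : ℝ → Torus × V → ℝ≥0∞}

/-- The integral over `(0, ε_n]` of a function integrable on `(0,T]` tends to `0`. -/
lemma tendsto_lint_Ioc_zero {T : ℝ} {f : ℝ → ℝ≥0∞} (hf : ∫⁻ s in Ioc 0 T, f s < ∞)
    (ε : ℕ → ℝ) (hε : ∀ n, ε n ∈ Ioc 0 T) (hlim : Tendsto ε atTop (𝓝 0)) :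
    Tendsto (fun n => ∫⁻ s in Ioc 0 (ε n), f s) atTop (𝓝 0) := by
  have h1 : Tendsto ((volume.restrict (Ioc 0 T)) ∘ fun n => Ioc 0 (ε n)) atTop (𝓝 0) := by
    have e : ((volume.restrict (Ioc 0 T)) ∘ fun n => Ioc 0 (ε n)) =
        fun n => ENNReal.ofReal (ε n) := by
      funext n
      simp only [Function.comp]
      rw [Measure.restrict_apply measurableSet_Ioc,
        inter_eq_left.2 (Ioc_subset_Ioc_right (hε n).2), Real.volume_Ioc, sub_zero]
    rw [e]
    have := (ENNReal.continuous_ofReal.tendsto 0).comp hlim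
    rw [ENNReal.ofReal_zero] at this
    exact this
  have h2 := tendsto_setLIntegral_zero (μ := volume.restrict (Ioc 0 T)) hf.ne h1
  refine h2.congr fun n => ?_
  rw [Measure.restrict_restrict measurableSet_Ioc,
    inter_eq_left.2 (Ioc_subset_Ioc_right (hε n).2)]

/-- Along almost every characteristic a mild solution tends to its datum along good times. -/
lemma tendsto_along_datum (hF0 : ∀ᵐ z, F0 z < ∞) {T : ℝ} (hF : IsMildOn T F0 F)
    (ε : ℕ → ℝ) (hε : ∀ n, ε n ∈ Ioc 0 T) (hlim : Tendsto ε atTop (𝓝 0))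
    (hFε : ∀ n, ∀ᵐ z, mildEq F0 F (ε n) z) :
    ∀ᵐ z : Torus × V, Tendsto (fun n => F (ε n) (flow (ε n) z)) atTop (𝓝 (F0 z)) := by
  filter_upwards [hF0, hF.gain_fin, hF.loss_fin, ae_all_iff.2 hFε] with z h0 hG hL hE
  have tG := tendsto_lint_Ioc_zero hG ε hε hlim
  have tL := tendsto_lint_Ioc_zero hL ε hε hlim
  have e : ∀ n, F (ε n) (flow (ε n) z) =
      (F0 z + ∫⁻ s in Ioc 0 (ε n), gain (F s) (flow s z)) -
        ∫⁻ s in Ioc 0 (ε n), loss (F s) (flow s z) := by
    intro n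
    apply ENNReal.eq_sub_of_add_eq
    · exact (lt_of_le_of_lt (lint_mono_Ioc (hε n).2 _) hL).ne
    · exact hE n
  simp only [e]
  have t1 : Tendsto (fun n => F0 z + ∫⁻ s in Ioc 0 (ε n), gain (F s) (flow s z)) atTop
      (𝓝 (F0 z + 0)) := tendsto_const_nhds.add tG
  have t2 := ENNReal.Tendsto.sub t1 tL (Or.inr (by simp))
  simpa using t2

/-- Fatou: `min(g,F)(ε_n)` along the flow tends to `F0` a.e., `∫ m min(g,F) + W = ∫ m g ≤ ∫ m F0`. -/
theorem tendsto_Wint_zero (hF0m : Measurable F0) (hF0 : mInt F0 < ∞) {T : ℝ}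
    (hF : IsMildOn T F0 F) (hg : IsMildOn T F0 g)
    (ε : ℕ → ℝ) (hε : ∀ n, ε n ∈ Ioc 0 T) (hlim : Tendsto ε atTop (𝓝 0))
    (hFε : ∀ n, ∀ᵐ z, mildEq F0 F (ε n) z) (hgε : ∀ n, ∀ᵐ z, mildEq F0 g (ε n) z)
    (hcons : ∀ n, mInt (g (ε n)) ≤ mInt F0) :
    Tendsto (fun n => Wint F g (ε n)) atTop (𝓝 0) := by
  -- the datum is finite almost everywhere
  have hfin : ∀ᵐ z, F0 z < ∞ := by
    have h1 : ∀ᵐ z : Torus × V, wm z.2 * F0 z < ∞ :=
      ae_lt_top (measurable_wm_snd.mul hF0m) hF0.ne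
    filter_upwards [h1] with z hz
    by_contra hcon
    have htop : F0 z = ∞ := by simpa using hcon
    rw [htop, ENNReal.mul_top (wm_ne_zero _)] at hz
    exact lt_irrefl _ hz
  have tF := tendsto_along_datum hfin hF ε hε hlim hFε
  have tg := tendsto_along_datum hfin hg ε hε hlim hgε
  -- the integrals of the minimum
  set A : ℕ → ℝ≥0∞ := fun n => ∫⁻ z : Torus × V, wm z.2 * min (g (ε n) z) (F (ε n) z) with hA
  have mmin : ∀ n, Measurable (fun z : Torus × V => wm z.2 * min (g (ε n) z) (F (ε n) z)) :=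
    fun n => measurable_wm_snd.mul
      ((measurable_slice hg.meas (ε n)).min (measurable_slice hF.meas (ε n)))
  have hsum : ∀ n, A n + Wint F g (ε n) = mInt (g (ε n)) := by
    intro n
    simp only [hA]
    unfold Wint mInt
    rw [← lintegral_add_left (mmin n)]
    apply lintegral_congr
    intro z
    rw [← mul_add]
    congr 1
    simp only [wT]
    rcases le_total (g (ε n) z) (F (ε n) z) with h | h
    · rw [min_eq_left h, tsub_eq_zero_of_le h, add_zero]
    · rw [min_eq_right h, add_tsub_cancel_of_le h]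
  have hAle : ∀ n, A n ≤ mInt F0 := fun n =>
    le_trans (le_trans le_self_add (hsum n).le) (hcons n)
  -- Fatou
  have hfatou : mInt F0 ≤ liminf A atTop := by
    have h1 := lintegral_liminf_le (μ := (volume : Measure (Torus × V))) (u := atTop)
      (f := fun (n : ℕ) z => wm z.2 * min (g (ε n) (flow (ε n) z)) (F (ε n) (flow (ε n) z)))
      (fun n => (mmin n).comp (measurable_flow' (ε n)))
    have h2 : ∫⁻ z : Torus × V, liminf (fun n => wm z.2 *
        min (g (ε n) (flow (ε n) z)) (F (ε n) (flow (ε n) z))) atTop = mInt F0 := by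
      unfold mInt
      apply lintegral_congr_ae
      filter_upwards [tF, tg] with z h3 h4
      have h5 : Tendsto (fun n => min (g (ε n) (flow (ε n) z)) (F (ε n) (flow (ε n) z))) atTop
          (𝓝 (min (F0 z) (F0 z))) := h4.min h3
      rw [min_self] at h5
      exact (ENNReal.Tendsto.const_mul h5 (Or.inr (wm_ne_top _))).liminf_eq
    have h3 : ∀ n, ∫⁻ z : Torus × V, wm z.2 *
        min (g (ε n) (flow (ε n) z)) (F (ε n) (flow (ε n) z)) = A n := by
      intro n
      exact lintegral_flow (ε n) (mmin n)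
    rw [h2] at h1
    simp only [h3] at h1
    exact h1
  have tA : Tendsto A atTop (𝓝 (mInt F0)) := by
    apply tendsto_of_le_liminf_of_limsup_le hfatou
    exact limsup_le_of_le (h := Eventually.of_forall hAle)
  have tS : Tendsto (fun n => mInt F0 - A n) atTop (𝓝 (mInt F0 - mInt F0)) :=
    ENNReal.Tendsto.sub tendsto_const_nhds tA (Or.inl hF0.ne)
  rw [tsub_self] at tS
  refine tendsto_of_tendsto_of_tendsto_of_le_of_le tendsto_const_nhds tS (fun _ => bot_le) ?_
  intro n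
  apply ENNReal.le_sub_of_add_le_left (lt_of_le_of_lt (hAle n) hF0).ne
  rw [hsum n]
  exact hcons n

/-- A property that holds at almost every time of `(0,T]` holds along a sequence tending to `0`. -/
lemma exists_seq_good {T : ℝ} (hT : 0 < T) {p : ℝ → Prop} (h : ∀ᵐ t : ℝ, t ∈ Ioc 0 T → p t) :
    ∃ ε : ℕ → ℝ, (∀ n, ε n ∈ Ioc 0 T) ∧ Tendsto ε atTop (𝓝 0) ∧ ∀ n, p (ε n) := by
  have key : ∀ n : ℕ, ∃ t, t ∈ Ioc 0 (T / ((n : ℝ) + 1)) ∧ p t := by
    intro n
    have hpos : 0 < T / ((n : ℝ) + 1) := by positivity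
    have hle : T / ((n : ℝ) + 1) ≤ T :=
      div_le_self hT.le (by linarith [(Nat.cast_nonneg n : (0 : ℝ) ≤ n)])
    by_contra hcon
    push Not at hcon
    have h0 : volume (Ioc 0 (T / ((n : ℝ) + 1))) = 0 := by
      refine measure_mono_null ?_ (ae_iff.1 h)
      intro t ht hp
      exact hcon t ht (hp ⟨ht.1, ht.2.trans hle⟩)
    rw [Real.volume_Ioc, sub_zero, ENNReal.ofReal_eq_zero] at h0
    linarith
  choose ε hε using key
  refine ⟨ε, ?_, ?_, fun n => (hε n).2⟩
  · intro n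
    have hle : T / ((n : ℝ) + 1) ≤ T :=
      div_le_self hT.le (by linarith [(Nat.cast_nonneg n : (0 : ℝ) ≤ n)])
    exact ⟨(hε n).1.1, (hε n).1.2.trans hle⟩
  · have t1 : Tendsto (fun n : ℕ => T / ((n : ℝ) + 1)) atTop (𝓝 0) := by
      have := tendsto_one_div_add_atTop_nhds_zero_nat (𝕜 := ℝ)
      have h2 := this.const_mul T
      simp only [mul_zero] at h2
      refine h2.congr fun n => ?_
      rw [mul_one_div]
    exact tendsto_of_tendsto_of_tendsto_of_le_of_le tendsto_const_nhds t1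
      (fun n => (hε n).1.1.le) (fun n => (hε n).1.2)

end Vale.Agent.Lib.P140
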