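import Mathlib
import Vale.Agent.Lib.P140.Core2
import Vale.Agent.Lib.P140.InitLimit
import Vale.Agent.Lib.P140.Gronwall2
import Vale.Agent.Lib.P140.Conserve

/-!
# Weak-strong uniqueness when the third-moment density may blow up like `K/t`
-/

namespace Vale.Agent.Lib.P140

open MeasureTheory Set Filter Topology
open scoped ENNReal

variable {F0 : Torus × V → ℝ≥0∞} {F g : ℝ → Torus × V → ℝ≥0∞}

/-- The conclusion from `∫ (1+|v|^2)(g-F)_+ = 0`. -/
lemma ae_eq_of_Wint_eq_zero (hF : Measurable (Function.uncurry F))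
    (hg : Measurable (Function.uncurry g)) {t : ℝ} (hWt : Wint F g t = 0)
    (hmt : mInt (F t) ≤ mInt (g t)) (hfin : mInt (g t) < ∞) : F t =ᵐ[volume] g t := by
  have mw : Measurable (fun z : Torus × V => wm z.2 * wT F g t z) :=
    measurable_wm_snd.mul (measurable_slice (measurable_wT hF hg) t)
  have hle : ∀ᵐ z : Torus × V, g t z ≤ F t z := by
    have := (lintegral_eq_zero_iff mw).1 hWt
    filter_upwards [this] with z hz
    have h0 : wT F g t z = 0 := by
      rcases mul_eq_zero.1 hz with h | h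
      · exact absurd h (wm_ne_zero _)
      · exact h
    exact tsub_eq_zero_iff_le.1 h0
  have hae : (fun z : Torus × V => wm z.2 * g t z) =ᵐ[volume] fun z => wm z.2 * F t z := by
    apply ae_eq_of_ae_le_of_lintegral_le
    · filter_upwards [hle] with z hz
      gcongr
    · exact hfin.ne
    · exact (measurable_wm_snd.mul (measurable_slice hF t)).aemeasurable
    · exact hmt
  filter_upwards [hae] with z hz
  exact ((ENNReal.mul_right_inj (wm_ne_zero _) (wm_ne_top _)).1 hz).symm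

lemma mass_le_mInt {f : Torus × V → ℝ≥0∞} (hf : Measurable f) : mass f ≤ mInt f := by
  rw [mInt_eq hf]
  exact le_self_add

/-- **Weak-strong uniqueness, second core form.**  On `(0,T]` the second-moment density of `g` is
bounded by `K` and its third-moment density by `K/t`. -/
theorem weakStrong_core2 (hF0m : Measurable F0) (hF0 : mInt F0 < ∞) {T : ℝ} (hT : 0 < T)
    (hF : IsMildOn T F0 F) (hg : IsMildOn T F0 g) {K : ℝ≥0∞} (hKfin : K < ∞)
    (hK2 : ∀ᵐ s : ℝ, s ∈ Ioc 0 T → ∀ᵐ x : Torus, secondMoment (g s) x ≤ K)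
    (hK3 : ∀ᵐ s : ℝ, s ∈ Ioc 0 T → ∀ᵐ x : Torus, ENNReal.ofReal s * thirdMoment (g s) x ≤ K)
    (hmass : ∀ᵐ s : ℝ, s ∈ Ioc 0 T → mass (F s) = mass (g s))
    (hm : ∀ᵐ s : ℝ, s ∈ Ioc 0 T → mInt (F s) ≤ mInt (g s))
    (hcons : ∀ᵐ s : ℝ, s ∈ Ioc 0 T → mInt (g s) ≤ mInt F0) :
    ∀ᵐ t : ℝ, t ∈ Ioc 0 T → F t =ᵐ[volume] g t := by
  have hσ : surf univ < ∞ := measure_lt_top _ _
  have hF0ae : ∀ᵐ z, F0 z < ∞ := by
    have := ae_lt_top (measurable_wm_snd.mul hF0m) hF0.ne
    filter_upwards [this] with z hz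
    by_contra hcon
    have htop : F0 z = ∞ := not_lt_top_iff.1 hcon
    simp only [Pi.mul_apply, htop, ENNReal.mul_top (wm_ne_zero z.2)] at hz
    exact absurd hz (lt_irrefl _)
  set σ := surf univ with hσdef
  set c : ℝ≥0∞ := σ * (K * (16 * (σ * K) + 2)) with hc
  have hcfin : c ≠ ∞ := by
    rw [hc]
    exact ENNReal.mul_ne_top hσ.ne (ENNReal.mul_ne_top hKfin.ne (ENNReal.add_ne_top.2
      ⟨ENNReal.mul_ne_top (by simp) (ENNReal.mul_ne_top hσ.ne hKfin.ne), by simp⟩))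
  -- restriction of the a.e. hypotheses to `(0,t]`
  have sub : ∀ {p : ℝ → Prop} {t : ℝ}, t ≤ T → (∀ᵐ s : ℝ, s ∈ Ioc 0 T → p s) →
      ∀ᵐ s : ℝ, s ∈ Ioc 0 t → p s := by
    intro p t ht h
    filter_upwards [h] with s hs hmem
    exact hs ⟨hmem.1, hmem.2.trans ht⟩
  -- symmetric parts
  have hHW : ∀ᵐ s : ℝ, s ∈ Ioc 0 T → Wint g F s ≤ Wint F g s := by
    filter_upwards [hm, hcons] with s h1 h2 hs
    exact H_le_W hF.meas hg.meas s (h1 hs) (lt_of_le_of_lt (h2 hs) hF0)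
  have hXX : ∀ᵐ s : ℝ, s ∈ Ioc 0 T → Xint g F s = Xint F g s := by
    filter_upwards [hmass, hcons] with s h1 h2 hs
    exact Xint_symm hF.meas hg.meas s (h1 hs)
      (lt_of_le_of_lt ((mass_le_mInt (measurable_slice hg.meas s)).trans (h2 hs)) hF0)
  -- the inequality for `X`
  have hX : ∀ᵐ t : ℝ, t ∈ Ioc 0 T →
      Xint F g t ≤ 8 * (σ * K) * ∫⁻ s in Ioc 0 t, Wint F g s := by
    filter_upwards [hF.eqn, hg.eqn] with t e1 e2 ht
    refine (X_le hF0m hF0ae (hF.mono ht.2) (hg.mono ht.2) ht.1.le (e1 ht) (e2 ht) hKfin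
      (sub ht.2 hK2)).trans ?_
    have h2 : ∫⁻ s in Ioc 0 t, (Wint F g s + Wint g F s) ≤ 2 * ∫⁻ s in Ioc 0 t, Wint F g s := by
      rw [← lintegral_const_mul' 2 _ (by simp)]
      apply lintegral_mono_ae
      rw [ae_restrict_iff' measurableSet_Ioc]
      filter_upwards [sub ht.2 hHW] with u hu hmem
      rw [two_mul]
      gcongr
      exact hu hmem
    calc 4 * (σ * K) * ∫⁻ s in Ioc 0 t, (Wint F g s + Wint g F s)
        ≤ 4 * (σ * K) * (2 * ∫⁻ s in Ioc 0 t, Wint F g s) := by gcongr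
      _ = 8 * (σ * K) * ∫⁻ s in Ioc 0 t, Wint F g s := by ring
  -- a sequence of good times tending to zero
  have hgood : ∀ᵐ t : ℝ, t ∈ Ioc 0 T →
      (∀ᵐ z, mildEq F0 F t z) ∧ (∀ᵐ z, mildEq F0 g t z) ∧ mInt (g t) ≤ mInt F0 := by
    filter_upwards [hF.eqn, hg.eqn, hcons] with t e1 e2 e3 ht
    exact ⟨e1 ht, e2 ht, e3 ht⟩
  obtain ⟨ε, hε, hεlim, hεgood⟩ := exists_seq_good hT hgood
  have hW0 : Tendsto (fun n => Wint F g (ε n)) atTop (𝓝 0) :=
    tendsto_Wint_zero hF0m hF0 hF hg ε hε hεlim (fun n => (hεgood n).1) (fun n => (hεgood n).2.1)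
      (fun n => (hεgood n).2.2)
  -- the closed inequality for `Y`
  have hY : ∀ᵐ t : ℝ, t ∈ Ioc 0 T → Wint F g t ≤ c * ∫⁻ s in Ioc 0 t,
      (Wint F g s + (∫⁻ τ in Ioc 0 s, Wint F g τ) / ENNReal.ofReal s) := by
    filter_upwards [hF.eqn, hg.eqn] with t e1 e2 ht
    -- the bound of the integrand
    have hint : ∀ a : ℝ, 0 ≤ a → σ * ∫⁻ s in Ioc a t,
        (K / ENNReal.ofReal s * (Xint F g s + Xint g F s) + K * (Wint F g s + Wint g F s)) ≤
        c * ∫⁻ s in Ioc 0 t,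
          (Wint F g s + (∫⁻ τ in Ioc 0 s, Wint F g τ) / ENNReal.ofReal s) := by
      intro a ha
      rw [hc, mul_assoc σ]
      refine mul_le_mul_right ?_ _
      have hKc : K * (16 * (σ * K) + 2) ≠ ∞ := ENNReal.mul_ne_top hKfin.ne (ENNReal.add_ne_top.2
        ⟨ENNReal.mul_ne_top (by simp) (ENNReal.mul_ne_top hσ.ne hKfin.ne), by simp⟩)
      rw [← lintegral_const_mul' _ _ hKc]
      refine (lintegral_mono_set (Ioc_subset_Ioc_left ha)).trans ?_
      apply lintegral_mono_ae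
      rw [ae_restrict_iff' measurableSet_Ioc]
      filter_upwards [sub ht.2 hHW, sub ht.2 hXX, sub ht.2 hX] with s h1 h2 h3 hs
      set Φ := ∫⁻ τ in Ioc 0 s, Wint F g τ with hΦ
      have hX2 : Xint F g s + Xint g F s ≤ 16 * (σ * K) * Φ := by
        rw [h2 hs, ← two_mul]
        calc 2 * Xint F g s ≤ 2 * (8 * (σ * K) * Φ) := by gcongr; exact h3 hs
          _ = 16 * (σ * K) * Φ := by ring
      have hW2 : Wint F g s + Wint g F s ≤ 2 * Wint F g s := by
        rw [two_mul]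
        gcongr
        exact h1 hs
      calc K / ENNReal.ofReal s * (Xint F g s + Xint g F s) + K * (Wint F g s + Wint g F s)
          ≤ K / ENNReal.ofReal s * (16 * (σ * K) * Φ) + K * (2 * Wint F g s) := by gcongr
        _ = K * (16 * (σ * K)) * (Φ / ENNReal.ofReal s) + K * 2 * Wint F g s := by
            simp only [div_eq_mul_inv]
            ring
        _ ≤ K * (16 * (σ * K) + 2) * (Φ / ENNReal.ofReal s) +
            K * (16 * (σ * K) + 2) * Wint F g s := by
            gcongr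
            · exact le_self_add
            · exact le_add_self
        _ = K * (16 * (σ * K) + 2) * (Wint F g s + Φ / ENNReal.ofReal s) := by ring
    -- pass to the limit along the good sequence
    have hev : ∀ᶠ n in atTop, Wint F g t ≤ Wint F g (ε n) + c * ∫⁻ s in Ioc 0 t,
        (Wint F g s + (∫⁻ τ in Ioc 0 s, Wint F g τ) / ENNReal.ofReal s) := by
      have hlt : ∀ᶠ n in atTop, ε n < t := hεlim.eventually (gt_mem_nhds ht.1)
      filter_upwards [hlt] with n hn
      refine (Y_le_from hF0m hF0ae (hε n).1 hn.le (hF.mono ht.2) (hg.mono ht.2) (e1 ht) (e2 ht)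
        (hεgood n).1 (hεgood n).2.1 hKfin (sub ht.2 hK2) (sub ht.2 hK3)).trans ?_
      exact add_le_add le_rfl (hint (ε n) (hε n).1.le)
    have hlim : Tendsto (fun n => Wint F g (ε n) + c * ∫⁻ s in Ioc 0 t,
        (Wint F g s + (∫⁻ τ in Ioc 0 s, Wint F g τ) / ENNReal.ofReal s)) atTop
        (𝓝 (0 + c * ∫⁻ s in Ioc 0 t,
        (Wint F g s + (∫⁻ τ in Ioc 0 s, Wint F g τ) / ENNReal.ofReal s))) :=
      hW0.add tendsto_const_nhds
    rw [zero_add] at hlim
    exact ge_of_tendsto hlim hev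
  -- Gronwall
  have hzero : ∫⁻ s in Ioc 0 T, Wint F g s = 0 := by
    apply gronwall2_zero hcfin hKfin.ne T _ hY
    filter_upwards [hK2] with s h2 hs
    exact (Wint_le_mInt s).trans (int_wm_le2 hg.meas s (h2 hs))
  -- conclusion
  filter_upwards [hY, hm, hcons] with t h1 h2 h3 ht
  have hΦ : ∀ s ∈ Ioc 0 t, ∫⁻ τ in Ioc 0 s, Wint F g τ = 0 := by
    intro s hs
    exact le_antisymm ((lint_mono_Ioc (hs.2.trans ht.2) _).trans hzero.le) bot_le
  have hWae : ∀ᵐ s : ℝ ∂(volume.restrict (Ioc 0 t)), Wint F g s = 0 := by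
    have hmW : Measurable (Wint F g) :=
      measurable_int_wm (A := Function.uncurry (wT F g)) (measurable_wT hF.meas hg.meas)
    have h0 : ∫⁻ s in Ioc 0 t, Wint F g s = 0 :=
      le_antisymm ((lint_mono_Ioc ht.2 _).trans hzero.le) bot_le
    exact (lintegral_eq_zero_iff hmW).1 h0
  have hI : ∫⁻ s in Ioc 0 t,
      (Wint F g s + (∫⁻ τ in Ioc 0 s, Wint F g τ) / ENNReal.ofReal s) = 0 := by
    rw [lintegral_eq_zero_iff' ?_]
    · have hmem : ∀ᵐ s : ℝ ∂(volume.restrict (Ioc 0 t)), s ∈ Ioc 0 t :=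
        ae_restrict_mem measurableSet_Ioc
      filter_upwards [hWae, hmem] with s hs hs'
      simp [hs, hΦ s hs']
    · have hmem : ∀ᵐ s : ℝ ∂(volume.restrict (Ioc 0 t)), s ∈ Ioc 0 t :=
        ae_restrict_mem measurableSet_Ioc
      refine (aemeasurable_const (b := (0 : ℝ≥0∞))).congr ?_
      filter_upwards [hWae, hmem] with s hs hs'
      simp [hs, hΦ s hs']
  have hWt : Wint F g t = 0 := by
    have := h1 ht
    rw [hI, mul_zero] at this
    exact le_antisymm this bot_le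
  exact ae_eq_of_Wint_eq_zero hF.meas hg.meas hWt (h2 ht) (lt_of_le_of_lt (h3 ht) hF0)

end Vale.Agent.Lib.P140
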