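import Mathlib
import Vale.Agent.Lib.P140.Core2
import Vale.Agent.Lib.P140.Conserve

/-!
# The inequality for `Y` and the conservation of `∫ (1+|v|^2) g` from a time `a`, when the
third-moment density of `g` is bounded by a function `k(s)` integrable on `(a,t]`
-/

namespace Vale.Agent.Lib.P140

open MeasureTheory Set
open scoped ENNReal

variable {F0 : Torus × V → ℝ≥0∞} {F g : ℝ → Torus × V → ℝ≥0∞}

lemma one_le_wm4 (v : V) : 1 ≤ wm v := by
  unfold wm
  rw [← ENNReal.ofReal_one]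
  apply ENNReal.ofReal_le_ofReal
  have : 0 ≤ ‖v‖ ^ 2 := by positivity
  linarith

lemma slice2_ell_le {a b : V → ℝ≥0∞} {K2 K3 : ℝ≥0∞} (ha : Measurable a) (hb : Measurable b)
    (hba : ∀ v, b v ≤ a v) (hK2 : ∫⁻ v, wm v * a v ≤ K2) (hK3 : ∫⁻ v, w3 v * a v ≤ K3) :
    ∫⁻ v, wm v * (b v * freqV a v) ≤ surf univ * (K3 * K2 + K2 * K2) := by
  refine le_trans (lintegral_wm_freqV_le hb ha) ?_
  have h1 : ∫⁻ v, w3 v * b v ≤ K3 := by
    refine le_trans (lintegral_mono fun v => ?_) hK3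
    gcongr
    exact hba v
  have h2 : ∫⁻ v, a v ≤ K2 := by
    refine le_trans (lintegral_mono fun v => ?_) hK2
    calc a v = 1 * a v := (one_mul _).symm
      _ ≤ wm v * a v := by
        gcongr
        exact one_le_wm4 v
  have h3 : ∫⁻ v, wm v * b v ≤ K2 := by
    refine le_trans (lintegral_mono fun v => ?_) hK2
    gcongr
    exact hba v
  gcongr

lemma int2_ell_le (hF : Measurable (Function.uncurry F)) (hg : Measurable (Function.uncurry g))
    (s : ℝ) {K2 K3 : ℝ≥0∞} (hK2 : ∀ᵐ x : Torus, secondMoment (g s) x ≤ K2)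
    (hK3 : ∀ᵐ x : Torus, thirdMoment (g s) x ≤ K3) :
    ∫⁻ z : Torus × V, wm z.2 * ellT F g (s, z) ≤ surf univ * (K3 * K2 + K2 * K2) := by
  have mc : Measurable (fun z : Torus × V => (s, z)) := measurable_const.prodMk measurable_id
  have m2 : Measurable (fun z : Torus × V => wm z.2 * ellT F g (s, z)) :=
    measurable_wm_snd.mul ((measurable_ellT hF hg).comp mc)
  rw [lintegral_torus_prod m2]
  calc ∫⁻ x : Torus, ∫⁻ v : V, wm v * ellT F g (s, (x, v))
      ≤ ∫⁻ _x : Torus, surf univ * (K3 * K2 + K2 * K2) := by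
        apply lintegral_mono_ae
        filter_upwards [hK2, hK3] with x hx2 hx3
        have key := slice2_ell_le (measurable_slice2 hg s x)
          (measurable_slice2 (measurable_wT hF hg) s x) (fun v => tsub_le_self) hx2 hx3
        simp only [ellT_apply]
        exact key
    _ = surf univ * (K3 * K2 + K2 * K2) := by
        rw [lintegral_const, volume_torus_univ, mul_one]

lemma int2_loss_le (hg : Measurable (Function.uncurry g))
    (s : ℝ) {K2 K3 : ℝ≥0∞} (hK2 : ∀ᵐ x : Torus, secondMoment (g s) x ≤ K2)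
    (hK3 : ∀ᵐ x : Torus, thirdMoment (g s) x ≤ K3) :
    ∫⁻ z : Torus × V, wm z.2 * loss (g s) z ≤ surf univ * (K3 * K2 + K2 * K2) := by
  have m2 : Measurable (fun z : Torus × V => wm z.2 * loss (g s) z) :=
    measurable_wm_snd.mul (measurable_loss_slice hg s)
  rw [lintegral_torus_prod m2]
  calc ∫⁻ x : Torus, ∫⁻ v : V, wm v * loss (g s) (x, v)
      ≤ ∫⁻ _x : Torus, surf univ * (K3 * K2 + K2 * K2) := by
        apply lintegral_mono_ae
        filter_upwards [hK2, hK3] with x hx2 hx3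
        have key := slice2_ell_le (measurable_slice2 hg s x)
          (measurable_slice2 hg s x) (fun v => le_rfl) hx2 hx3
        simp only [loss_eq (measurable_slice hg s)]
        exact key
    _ = surf univ * (K3 * K2 + K2 * K2) := by
        rw [lintegral_const, volume_torus_univ, mul_one]

/-- finiteness of `∫_a^t σ (k K + K K)` -/
lemma lintegral_bound_ne_top {a t : ℝ} {K : ℝ≥0∞} (hKfin : K < ∞)
    {k : ℝ → ℝ≥0∞} (hk : Measurable k) (hkfin : ∫⁻ s in Ioc a t, k s < ∞) :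
    ∫⁻ s in Ioc a t, surf univ * (k s * K + K * K) ≠ ∞ := by
  have hσ : surf univ < ∞ := measure_lt_top _ _
  have m1 : Measurable (fun s => k s * K) := hk.mul_const K
  have m2 : Measurable (fun s => k s * K + K * K) := m1.add_const _
  rw [lintegral_const_mul _ m2, lintegral_add_left m1, lintegral_mul_const _ hk, lintegral_const,
    Measure.restrict_apply MeasurableSet.univ, univ_inter, Real.volume_Ioc]
  exact ENNReal.mul_ne_top hσ.ne (ENNReal.add_ne_top.2
    ⟨ENNReal.mul_ne_top hkfin.ne hKfin.ne,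
      ENNReal.mul_ne_top (ENNReal.mul_ne_top hKfin.ne hKfin.ne) ENNReal.ofReal_ne_top⟩)

/-- The inequality for `Y = Wint` from a time `a`; the third-moment density of `g` is bounded by
`k(s)`, integrable on `(a,t]`. -/
lemma Y_le_from_k (hF0m : Measurable F0) (hF0 : ∀ᵐ z, F0 z < ∞) {a t : ℝ} (ha : 0 ≤ a)
    (hat : a ≤ t) (hF : IsMildOn t F0 F) (hg : IsMildOn t F0 g)
    (hFt : ∀ᵐ z, mildEq F0 F t z) (hgt : ∀ᵐ z, mildEq F0 g t z)
    (hFa : ∀ᵐ z, mildEq F0 F a z) (hga : ∀ᵐ z, mildEq F0 g a z) {K : ℝ≥0∞} (hKfin : K < ∞)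
    {k : ℝ → ℝ≥0∞} (hk : Measurable k) (hkfin : ∫⁻ s in Ioc a t, k s < ∞)
    (hK2 : ∀ᵐ s : ℝ, s ∈ Ioc a t → ∀ᵐ x : Torus, secondMoment (g s) x ≤ K)
    (hK3 : ∀ᵐ s : ℝ, s ∈ Ioc a t → ∀ᵐ x : Torus, thirdMoment (g s) x ≤ k s) :
    Wint F g t ≤ Wint F g a + surf univ * ∫⁻ s in Ioc a t,
      (k s * (Xint F g s + Xint g F s) + K * (Wint F g s + Wint g F s)) := by
  have mE := measurable_ellT hF.meas hg.meas
  have mR := measurable_RT hF.meas hg.meas
  have mw : ∀ u : ℝ, Measurable (fun z : Torus × V => wm z.2 * wT F g u z) := fun u =>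
    measurable_wm_snd.mul (measurable_slice (measurable_wT hF.meas hg.meas) u)
  have hσ : surf univ < ∞ := measure_lt_top _ _
  have hK2' : ∀ᵐ s : ℝ ∂(volume.restrict (Ioc a t)), ∀ᵐ x : Torus, secondMoment (g s) x ≤ K := by
    rwa [ae_restrict_iff' measurableSet_Ioc]
  have hK3' : ∀ᵐ s : ℝ ∂(volume.restrict (Ioc a t)),
      ∀ᵐ x : Torus, thirdMoment (g s) x ≤ k s := by
    rwa [ae_restrict_iff' measurableSet_Ioc]
  set L : ℝ≥0∞ := ∫⁻ s in Ioc a t, ∫⁻ z : Torus × V, wm z.2 * ellT F g (s, z) with hL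
  have hLfin : L ≠ ∞ := by
    have : L ≤ ∫⁻ s in Ioc a t, surf univ * (k s * K + K * K) := by
      apply lintegral_mono_ae
      filter_upwards [hK2', hK3'] with s hs2 hs3
      exact int2_ell_le hF.meas hg.meas s hs2 hs3
    exact ne_top_of_le_ne_top (lintegral_bound_ne_top hKfin hk hkfin) this
  have h1 := char_step_from hF0m hF0 ha hat hF hg hFt hgt hFa hga
  have h2 : ∫⁻ z : Torus × V, wm z.2 * (wT F g t (flow t z) +
      ∫⁻ s in Ioc a t, ellT F g (s, flow s z)) ≤
      ∫⁻ z : Torus × V, wm z.2 * (wT F g a (flow a z) +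
        ∫⁻ s in Ioc a t, RT F g (s, flow s z)) := by
    apply lintegral_mono_ae
    filter_upwards [h1] with z hz
    gcongr
  have hsplit : ∀ (u : ℝ) (B : ℝ × (Torus × V) → ℝ≥0∞), Measurable B →
      ∫⁻ z : Torus × V, wm z.2 * (wT F g u (flow u z) + ∫⁻ s in Ioc a t, B (s, flow s z)) =
        Wint F g u + ∫⁻ s in Ioc a t, ∫⁻ z : Torus × V, wm z.2 * B (s, z) := by
    intro u B mB
    have e : ∀ z : Torus × V, wm z.2 * (wT F g u (flow u z) +
        ∫⁻ s in Ioc a t, B (s, flow s z)) =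
        wm z.2 * wT F g u (flow u z) + wm z.2 * ∫⁻ s in Ioc a t, B (s, flow s z) :=
      fun z => mul_add _ _ _
    have mw' : Measurable (fun z : Torus × V => wm z.2 * wT F g u (flow u z)) :=
      (mw u).comp (measurable_flow' u)
    simp only [e]
    rw [lintegral_add_left mw', lintegral_wm_along_Ioc mB a t]
    congr 1
    exact lintegral_flow u (mw u)
  rw [hsplit t _ mE, hsplit a _ mR] at h2
  have h4 : ∫⁻ s in Ioc a t, ∫⁻ z : Torus × V, wm z.2 * RT F g (s, z) ≤
      L + surf univ * ∫⁻ s in Ioc a t,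
        (k s * (Xint F g s + Xint g F s) + K * (Wint F g s + Wint g F s)) := by
    rw [← lintegral_const_mul' _ _ hσ.ne, hL, ← lintegral_add_left (measurable_int_wm mE)]
    apply lintegral_mono_ae
    filter_upwards [hK2', hK3'] with s hs2 hs3
    exact int2_R_le hF.meas hg.meas s hs2 hs3
  set J : ℝ≥0∞ := ∫⁻ s in Ioc a t,
    (k s * (Xint F g s + Xint g F s) + K * (Wint F g s + Wint g F s)) with hJ
  have h5 : Wint F g t + L ≤ (Wint F g a + surf univ * J) + L := by
    refine h2.trans ?_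
    calc Wint F g a + ∫⁻ s in Ioc a t, ∫⁻ z : Torus × V, wm z.2 * RT F g (s, z)
        ≤ Wint F g a + (L + surf univ * J) := by gcongr
      _ = (Wint F g a + surf univ * J) + L := by ring
  exact (ENNReal.add_le_add_iff_right hLfin).1 h5

/-- Conservation of `∫ (1+|v|^2) g` between the times `a ≤ t`. -/
theorem mInt_conserved_from (hF0m : Measurable F0) (hF0 : ∀ᵐ z, F0 z < ∞) {a t : ℝ} (ha : 0 ≤ a)
    (hat : a ≤ t) (hg : IsMildOn t F0 g)
    (hgt : ∀ᵐ z, mildEq F0 g t z) (hga : ∀ᵐ z, mildEq F0 g a z) {K : ℝ≥0∞} (hKfin : K < ∞)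
    {k : ℝ → ℝ≥0∞} (hk : Measurable k) (hkfin : ∫⁻ s in Ioc a t, k s < ∞)
    (hK2 : ∀ᵐ s : ℝ, s ∈ Ioc a t → ∀ᵐ x : Torus, secondMoment (g s) x ≤ K)
    (hK3 : ∀ᵐ s : ℝ, s ∈ Ioc a t → ∀ᵐ x : Torus, thirdMoment (g s) x ≤ k s) :
    mInt (g t) = mInt (g a) := by
  have hgm := hg.meas
  have hK2' : ∀ᵐ s : ℝ ∂(volume.restrict (Ioc a t)), ∀ᵐ x : Torus, secondMoment (g s) x ≤ K := by
    rwa [ae_restrict_iff' measurableSet_Ioc]
  have hK3' : ∀ᵐ s : ℝ ∂(volume.restrict (Ioc a t)),
      ∀ᵐ x : Torus, thirdMoment (g s) x ≤ k s := by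
    rwa [ae_restrict_iff' measurableSet_Ioc]
  have mG := measurable_gain hgm
  have mL := measurable_loss hgm
  have mw : ∀ u : ℝ, Measurable (fun z : Torus × V => wm z.2 * g u z) := fun u =>
    measurable_wm_snd.mul (measurable_slice hgm u)
  have mw' : ∀ u : ℝ, Measurable (fun z : Torus × V => wm z.2 * g u (flow u z)) := fun u =>
    (mw u).comp (measurable_flow' u)
  set A : ℝ≥0∞ := ∫⁻ s in Ioc a t, ∫⁻ z : Torus × V, wm z.2 * loss (g s) z with hA
  have hAfin : A ≠ ∞ := by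
    have : A ≤ ∫⁻ s in Ioc a t, surf univ * (k s * K + K * K) := by
      apply lintegral_mono_ae
      filter_upwards [hK2', hK3'] with s hs2 hs3
      exact int2_loss_le hgm s hs2 hs3
    exact ne_top_of_le_ne_top (lintegral_bound_ne_top hKfin hk hkfin) this
  have hB : ∫⁻ s in Ioc a t, ∫⁻ z : Torus × V, wm z.2 * gain (g s) z = A := by
    rw [hA]
    apply lintegral_congr
    intro s
    exact int_gain_eq_loss hgm s
  have h1 : ∫⁻ z : Torus × V, wm z.2 * (g t (flow t z) +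
      ∫⁻ s in Ioc a t, loss (g s) (flow s z)) =
      ∫⁻ z : Torus × V, wm z.2 * (g a (flow a z) +
        ∫⁻ s in Ioc a t, gain (g s) (flow s z)) := by
    apply lintegral_congr_ae
    filter_upwards [hF0, hg.gain_fin, hg.loss_fin, hgt, hga] with z h0 f1 f2 e1 e2
    have := restart_eq (P := fun s => gain (g s) (flow s z))
      (N := fun s => loss (g s) (flow s z)) ha hat f1 f2 h0 e1 e2
    rw [this]
  have h2 : ∀ u : ℝ, ∫⁻ z : Torus × V, wm z.2 * (g u (flow u z) +
      ∫⁻ s in Ioc a t, loss (g s) (flow s z)) = mInt (g u) + A := by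
    intro u
    simp only [mul_add]
    rw [lintegral_add_left (mw' u),
      lintegral_wm_along_Ioc (A := fun p => loss (g p.1) p.2) mL a t]
    congr 1
    exact lintegral_flow u (mw u)
  have h3 : ∫⁻ z : Torus × V, wm z.2 * (g a (flow a z) +
      ∫⁻ s in Ioc a t, gain (g s) (flow s z)) = mInt (g a) + A := by
    simp only [mul_add]
    rw [lintegral_add_left (mw' a),
      lintegral_wm_along_Ioc (A := fun p => gain (g p.1) p.2) mG a t, hB]
    congr 1
    exact lintegral_flow a (mw a)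
  rw [h2 t, h3] at h1
  exact (ENNReal.add_left_inj hAfin).1 h1

end Vale.Agent.Lib.P140
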