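import Mathlib
import Vale.Agent.Lib.P140.Gronwall

/-!
# Gronwall lemmas with an integrable kernel, and with a singular kernel `k`, `∫ s k(s) ds < ∞`
-/

namespace Vale.Agent.Lib.P140

open MeasureTheory Set
open scoped ENNReal

/-- If `Z` is monotone, finite at `T`, and `Z(t) ≤ ∫_0^t κ Z` on `(0,T]` with `∫_0^T κ < ∞`, then
`Z = 0` on `(0,T]`. -/
theorem gronwall_kernel_zero {Z κ : ℝ → ℝ≥0∞} (T : ℝ) (hZ : Monotone Z) (hZT : Z T ≠ ∞)
    (hκm : Measurable κ) (hκ : ∫⁻ s in Ioc 0 T, κ s < ∞)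
    (hineq : ∀ t ∈ Ioc 0 T, Z t ≤ ∫⁻ s in Ioc 0 t, κ s * Z s) :
    ∀ t ∈ Ioc 0 T, Z t = 0 := by
  set Ψ : ℝ → ℝ≥0∞ := fun t => ∫⁻ s in Ioc 0 t, κ s * Z s with hΨ
  have hmono : Monotone Ψ := fun a b hab => lintegral_mono_set (Ioc_subset_Ioc_right hab)
  obtain ⟨δ, hδ, hδs⟩ := exists_pos_setLIntegral_lt_of_measure_lt (μ := volume.restrict (Ioc 0 T))
    (f := κ) hκ.ne (ε := 1 / 2) (by simp)
  obtain ⟨h, -, hh0, hhδ⟩ := ENNReal.lt_iff_exists_real_btwn.1 hδ
  have hhpos : 0 < h := ENNReal.ofReal_pos.1 hh0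
  have hsmall : ∀ a b, 0 ≤ a → b ≤ T → b - a ≤ h → ∫⁻ s in Ioc a b, κ s ≤ 1 / 2 := by
    intro a b ha hbT hba
    have hsub : Ioc a b ⊆ Ioc 0 T := Ioc_subset_Ioc ha hbT
    have h1 : (volume.restrict (Ioc 0 T)) (Ioc a b) < δ := by
      rw [Measure.restrict_apply measurableSet_Ioc, inter_eq_left.2 hsub, Real.volume_Ioc]
      exact lt_of_le_of_lt (ENNReal.ofReal_le_ofReal hba) hhδ
    have h2 := hδs (Ioc a b) h1
    rw [Measure.restrict_restrict measurableSet_Ioc, inter_eq_left.2 hsub] at h2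
    exact h2.le
  have step : ∀ a b, 0 ≤ a → a ≤ b → b ≤ T → b - a ≤ h → Ψ a = 0 → Ψ b = 0 := by
    intro a b ha hab hbT hba hPa
    rcases (ha.trans hab).eq_or_lt with hb0 | hb0
    · simp only [hΨ]
      rw [← hb0]
      simp
    have h1 : Ψ b ≤ Ψ a + ∫⁻ s in Ioc a b, κ s * Z s := by
      have : Ioc 0 b = Ioc 0 a ∪ Ioc a b := (Ioc_union_Ioc_eq_Ioc ha hab).symm
      simp only [hΨ]
      rw [this]
      exact lintegral_union_le _ _ _
    have h2 : ∫⁻ s in Ioc a b, κ s * Z s ≤ ∫⁻ s in Ioc a b, κ s * Z b := by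
      apply lintegral_mono_ae
      rw [ae_restrict_iff' measurableSet_Ioc]
      refine Filter.Eventually.of_forall fun s hs => ?_
      gcongr
      exact hZ hs.2
    have h3 : ∫⁻ s in Ioc a b, κ s * Z b = (∫⁻ s in Ioc a b, κ s) * Z b :=
      lintegral_mul_const _ hκm
    have h4 : Z b ≤ 1 / 2 * Z b := by
      calc Z b ≤ Ψ b := hineq b ⟨hb0, hbT⟩
        _ ≤ Ψ a + ∫⁻ s in Ioc a b, κ s * Z s := h1
        _ ≤ 0 + (∫⁻ s in Ioc a b, κ s) * Z b := by rw [hPa, ← h3]; gcongr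
        _ = (∫⁻ s in Ioc a b, κ s) * Z b := zero_add _
        _ ≤ 1 / 2 * Z b := by
            gcongr
            exact hsmall a b ha hbT hba
    have hZb : Z b = 0 := by
      by_contra hne
      have hfb : Z b ≠ ∞ := ne_top_of_le_ne_top hZT (hZ hbT)
      have h5 : 1 / 2 * Z b < 1 * Z b := by
        rw [ENNReal.mul_lt_mul_iff_left hne hfb]
        rw [one_div]
        exact ENNReal.one_half_lt_one
      rw [one_mul] at h5
      exact absurd h4 (not_le.mpr h5)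
    have h6 : Ψ b ≤ ∫⁻ _ in Ioc 0 b, (0 : ℝ≥0∞) := by
      apply lintegral_mono_ae
      rw [ae_restrict_iff' measurableSet_Ioc]
      refine Filter.Eventually.of_forall fun s hs => ?_
      have : Z s = 0 := le_antisymm ((hZ hs.2).trans hZb.le) zero_le
      rw [this, mul_zero]
    rw [lintegral_zero] at h6
    exact le_antisymm h6 zero_le
  intro t ht
  have hT : 0 < T := lt_of_lt_of_le ht.1 ht.2
  have ind : ∀ n : ℕ, Ψ (min T (n * h)) = 0 := by
    intro n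
    induction n with
    | zero =>
      simp only [hΨ]
      simp
    | succ n ih =>
      refine step (min T (n * h)) (min T ((n + 1 : ℕ) * h)) ?_ ?_ (min_le_left _ _) ?_ ih
      · exact le_min hT.le (by positivity)
      · apply min_le_min_left
        push_cast
        nlinarith
      · push_cast
        rcases le_total T (n * h) with h7 | h7
        · rw [min_eq_left h7, min_eq_left (by nlinarith)]
          linarith
        · rw [min_eq_right h7]
          have := min_le_right T ((n + 1 : ℝ) * h)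
          linarith
  obtain ⟨n, hn⟩ := exists_nat_ge (T / h)
  have h8 : T ≤ n * h := by rwa [div_le_iff₀ hhpos] at hn
  have hΨT := ind n
  rw [min_eq_left h8] at hΨT
  exact le_antisymm (((hineq t ht).trans (hmono ht.2)).trans hΨT.le) zero_le

/-- If `Y ≤ E < ∞` and `Y(t) ≤ c ∫_0^t (Y(s) + k(s) ∫_0^s Y) ds` for almost every `t ∈ (0,T]`, where
`∫_0^T s k(s) ds < ∞`, then the right-hand side vanishes for all `t ∈ (0,T]`. -/
theorem gronwall3_zero {Y k : ℝ → ℝ≥0∞} {c E : ℝ≥0∞} (hc : c ≠ ∞) (hE : E ≠ ∞) (T : ℝ)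
    (hk : Measurable k) (hkfin : ∫⁻ s in Ioc 0 T, ENNReal.ofReal s * k s < ∞)
    (hbd : ∀ᵐ t : ℝ, t ∈ Ioc 0 T → Y t ≤ E)
    (hineq : ∀ᵐ t : ℝ, t ∈ Ioc 0 T →
      Y t ≤ c * ∫⁻ s in Ioc 0 t, (Y s + k s * ∫⁻ τ in Ioc 0 s, Y τ)) :
    ∀ t ∈ Ioc 0 T, ∫⁻ s in Ioc 0 t, (Y s + k s * ∫⁻ τ in Ioc 0 s, Y τ) = 0 := by
  set Φ : ℝ → ℝ≥0∞ := fun s => ∫⁻ τ in Ioc 0 s, Y τ with hΦ
  set Θ : ℝ → ℝ≥0∞ := fun t => ∫⁻ s in Ioc 0 t, (Y s + k s * Φ s) with hΘ
  have hΘmono : Monotone Θ := fun a b hab => lintegral_mono_set (Ioc_subset_Ioc_right hab)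
  have hY : ∀ᵐ t : ℝ, t ∈ Ioc 0 T → Y t ≤ c * Θ t := hineq
  have hconst : ∀ (s : ℝ) (C : ℝ≥0∞), ∫⁻ _ in Ioc 0 s, C = C * ENNReal.ofReal s := by
    intro s C
    rw [lintegral_const, Measure.restrict_apply MeasurableSet.univ, univ_inter, Real.volume_Ioc,
      sub_zero]
  have hΦle : ∀ s ∈ Ioc 0 T, Φ s ≤ c * Θ s * ENNReal.ofReal s := by
    intro s hs
    calc Φ s ≤ ∫⁻ _ in Ioc 0 s, c * Θ s := by
          apply lintegral_mono_ae
          rw [ae_restrict_iff' measurableSet_Ioc]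
          filter_upwards [hY] with τ hτ hτs
          refine (hτ ⟨hτs.1, hτs.2.trans hs.2⟩).trans ?_
          gcongr
          exact hΘmono hτs.2
      _ = c * Θ s * ENNReal.ofReal s := hconst s _
  have hΦE : ∀ s ∈ Ioc 0 T, Φ s ≤ E * ENNReal.ofReal s := by
    intro s hs
    calc Φ s ≤ ∫⁻ _ in Ioc 0 s, E := by
          apply lintegral_mono_ae
          rw [ae_restrict_iff' measurableSet_Ioc]
          filter_upwards [hbd] with τ hτ hτs
          exact hτ ⟨hτs.1, hτs.2.trans hs.2⟩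
      _ = E * ENNReal.ofReal s := hconst s _
  have hmk : Measurable (fun s : ℝ => ENNReal.ofReal s * k s) :=
    ENNReal.measurable_ofReal.mul hk
  set κ : ℝ → ℝ≥0∞ := fun s => c * (1 + ENNReal.ofReal s * k s) with hκdef
  have hκm : Measurable κ := (measurable_const.add hmk).const_mul c
  have hsum : ∫⁻ s in Ioc 0 T, (1 + ENNReal.ofReal s * k s) < ∞ := by
    rw [lintegral_add_left measurable_const, hconst]
    exact ENNReal.add_lt_top.2 ⟨ENNReal.mul_lt_top ENNReal.one_lt_top ENNReal.ofReal_lt_top, hkfin⟩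
  have hκ : ∫⁻ s in Ioc 0 T, κ s < ∞ := by
    simp only [hκdef]
    rw [lintegral_const_mul' _ _ hc]
    exact ENNReal.mul_lt_top hc.lt_top hsum
  have hΘineq : ∀ t ∈ Ioc 0 T, Θ t ≤ ∫⁻ s in Ioc 0 t, κ s * Θ s := by
    intro t ht
    apply lintegral_mono_ae
    rw [ae_restrict_iff' measurableSet_Ioc]
    filter_upwards [hY] with s hs hst
    have hsT : s ∈ Ioc 0 T := ⟨hst.1, hst.2.trans ht.2⟩
    calc Y s + k s * Φ s ≤ c * Θ s + k s * (c * Θ s * ENNReal.ofReal s) :=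
          add_le_add (hs hsT) (mul_le_mul_right (hΦle s hsT) _)
      _ = κ s * Θ s := by
          simp only [hκdef]
          ring
  have hΘT : Θ T ≠ ∞ := by
    have h1 : Θ T ≤ ∫⁻ s in Ioc 0 T, E * (1 + ENNReal.ofReal s * k s) := by
      apply lintegral_mono_ae
      rw [ae_restrict_iff' measurableSet_Ioc]
      filter_upwards [hbd] with s hs hsT
      calc Y s + k s * Φ s ≤ E + k s * (E * ENNReal.ofReal s) :=
            add_le_add (hs hsT) (mul_le_mul_right (hΦE s hsT) _)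
        _ = E * (1 + ENNReal.ofReal s * k s) := by ring
    rw [lintegral_const_mul' _ _ hE] at h1
    exact ne_top_of_le_ne_top (ENNReal.mul_lt_top hE.lt_top hsum).ne h1
  exact gronwall_kernel_zero T hΘmono hΘT hκm hκ hΘineq

end Vale.Agent.Lib.P140
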