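import Mathlib
import Vale.Agent.Lib.P140.InitLimit
import Vale.Agent.Lib.P140.Core4

/-!
# Conservation of `∫ (1+|v|^2) g` when the third-moment density may be singular at `t = 0`
-/

namespace Vale.Agent.Lib.P140

open MeasureTheory Set Filter Topology
open scoped ENNReal

variable {F0 : Torus × V → ℝ≥0∞} {g : ℝ → Torus × V → ℝ≥0∞}

/-- `∫_0^T s k(s) ds < ∞` implies `∫_a^t k < ∞` for `0 < a`, `t ≤ T`. -/
lemma lintegral_Ioc_lt_top_of_weighted {k : ℝ → ℝ≥0∞} {T a t : ℝ} (ha : 0 < a) (ht : t ≤ T)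
    (hkfin : ∫⁻ s in Ioc 0 T, ENNReal.ofReal s * k s < ∞) : ∫⁻ s in Ioc a t, k s < ∞ := by
  have ha0 : ENNReal.ofReal a ≠ 0 := by
    rw [Ne, ENNReal.ofReal_eq_zero, not_le]
    exact ha
  have hinv : (ENNReal.ofReal a)⁻¹ ≠ ∞ := ENNReal.inv_ne_top.2 ha0
  have h1 : ∫⁻ s in Ioc a t, k s ≤
      ∫⁻ s in Ioc a t, (ENNReal.ofReal a)⁻¹ * (ENNReal.ofReal s * k s) := by
    apply setLIntegral_mono' measurableSet_Ioc
    intro s hs
    have h2 : 1 ≤ (ENNReal.ofReal a)⁻¹ * ENNReal.ofReal s := by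
      rw [← ENNReal.inv_mul_cancel ha0 ENNReal.ofReal_ne_top]
      gcongr
      exact hs.1.le
    calc k s = 1 * k s := (one_mul _).symm
      _ ≤ ((ENNReal.ofReal a)⁻¹ * ENNReal.ofReal s) * k s := by gcongr
      _ = (ENNReal.ofReal a)⁻¹ * (ENNReal.ofReal s * k s) := by ring
  have h3 : ∫⁻ s in Ioc a t, (ENNReal.ofReal a)⁻¹ * (ENNReal.ofReal s * k s) ≤
      ∫⁻ s in Ioc 0 T, (ENNReal.ofReal a)⁻¹ * (ENNReal.ofReal s * k s) :=
    lintegral_mono_set (Ioc_subset_Ioc ha.le ht)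
  refine lt_of_le_of_lt (h1.trans h3) ?_
  rw [lintegral_const_mul' _ _ hinv]
  exact ENNReal.mul_lt_top (lt_top_iff_ne_top.2 hinv) hkfin

/-- Fatou at the initial time. -/
theorem mInt_le_liminf (hF0m : Measurable F0) (hF0 : ∀ᵐ z, F0 z < ∞) {T : ℝ}
    (hg : IsMildOn T F0 g) (ε : ℕ → ℝ) (hε : ∀ n, ε n ∈ Ioc 0 T) (hlim : Tendsto ε atTop (𝓝 0))
    (hgε : ∀ n, ∀ᵐ z, mildEq F0 g (ε n) z) :
    mInt F0 ≤ liminf (fun n => mInt (g (ε n))) atTop := by
  have tg := tendsto_along_datum hF0 hg ε hε hlim hgε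
  have mw : ∀ n, Measurable (fun z : Torus × V => wm z.2 * g (ε n) z) := fun n =>
    measurable_wm_snd.mul (measurable_slice hg.meas (ε n))
  have h1 := lintegral_liminf_le (μ := (volume : Measure (Torus × V))) (u := atTop)
    (f := fun (n : ℕ) z => wm z.2 * g (ε n) (flow (ε n) z))
    (fun n => (mw n).comp (measurable_flow' (ε n)))
  have h2 : ∫⁻ z : Torus × V, liminf (fun n => wm z.2 * g (ε n) (flow (ε n) z)) atTop =
      mInt F0 := by
    unfold mInt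
    apply lintegral_congr_ae
    filter_upwards [tg] with z h4
    exact (ENNReal.Tendsto.const_mul h4 (Or.inr (wm_ne_top _))).liminf_eq
  have h3 : ∀ n, ∫⁻ z : Torus × V, wm z.2 * g (ε n) (flow (ε n) z) = mInt (g (ε n)) := by
    intro n
    exact lintegral_flow (ε n) (mw n)
  rw [h2] at h1
  simp only [h3] at h1
  exact h1

/-- A mild solution whose second-moment density is bounded and whose third-moment density is
bounded by `k(t)`, `∫_0^T t k(t) dt < ∞`, does not lose energy. -/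
theorem mInt_ge_of_moments (hF0m : Measurable F0) (hF0 : ∀ᵐ z, F0 z < ∞) {T : ℝ} (hT : 0 < T)
    (hg : IsMildOn T F0 g) {K : ℝ≥0∞} (hKfin : K < ∞)
    {k : ℝ → ℝ≥0∞} (hk : Measurable k) (hkfin : ∫⁻ s in Ioc 0 T, ENNReal.ofReal s * k s < ∞)
    (hK2 : ∀ᵐ s : ℝ, s ∈ Ioc 0 T → ∀ᵐ x : Torus, secondMoment (g s) x ≤ K)
    (hK3 : ∀ᵐ s : ℝ, s ∈ Ioc 0 T → ∀ᵐ x : Torus, thirdMoment (g s) x ≤ k s) :
    ∀ᵐ t : ℝ, t ∈ Ioc 0 T → mInt F0 ≤ mInt (g t) := by
  obtain ⟨ε, hε, hlim, hgε⟩ := exists_seq_good hT hg.eqn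
  have hfatou := mInt_le_liminf hF0m hF0 hg ε hε hlim hgε
  filter_upwards [hg.eqn] with t ht hmem
  have hgt := ht hmem
  have hev : ∀ᶠ n in atTop, ε n ≤ t := by
    have : ∀ᶠ n in atTop, ε n < t := hlim.eventually (gt_mem_nhds hmem.1)
    exact this.mono fun n hn => hn.le
  have hconst : ∀ᶠ n in atTop, mInt (g t) = mInt (g (ε n)) := by
    filter_upwards [hev] with n hn
    have hsub : ∀ s, s ∈ Ioc (ε n) t → s ∈ Ioc 0 T := fun s hs =>
      ⟨(hε n).1.trans hs.1, hs.2.trans hmem.2⟩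
    exact mInt_conserved_from hF0m hF0 (hε n).1.le hn (hg.mono hmem.2) hgt (hgε n) hKfin hk
      (lintegral_Ioc_lt_top_of_weighted (hε n).1 hmem.2 hkfin)
      (hK2.mono fun s hs h => hs (hsub s h)) (hK3.mono fun s hs h => hs (hsub s h))
  have hl : Tendsto (fun n => mInt (g (ε n))) atTop (𝓝 (mInt (g t))) :=
    tendsto_const_nhds.congr' hconst
  rw [hl.liminf_eq] at hfatou
  exact hfatou

end Vale.Agent.Lib.P140
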