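import Mathlib
import Vale.Agent.Lib.P140.Core3
import Vale.Agent.Lib.P140.Core4
import Vale.Agent.Lib.P140.Gronwall3
import Vale.Agent.Lib.P140.InitLimit2

/-!
# Weak-strong uniqueness when the third-moment density is bounded by `k(t)`, `∫ t k(t) dt < ∞`
-/

namespace Vale.Agent.Lib.P140

open MeasureTheory Set Filter Topology
open scoped ENNReal

variable {F0 : Torus × V → ℝ≥0∞} {F g : ℝ → Torus × V → ℝ≥0∞}

/-- **Weak-strong uniqueness, third core form.**  On `(0,T]` the second-moment density of `g` is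
bounded by `K` and its third-moment density by `k(t)` with `∫_0^T t k(t) dt < ∞`. -/
theorem weakStrong_core3 (hF0m : Measurable F0) (hF0 : mInt F0 < ∞) {T : ℝ} (hT : 0 < T)
    (hF : IsMildOn T F0 F) (hg : IsMildOn T F0 g) {K : ℝ≥0∞} (hKfin : K < ∞)
    {k : ℝ → ℝ≥0∞} (hk : Measurable k) (hkfin : ∫⁻ s in Ioc 0 T, ENNReal.ofReal s * k s < ∞)
    (hK2 : ∀ᵐ s : ℝ, s ∈ Ioc 0 T → ∀ᵐ x : Torus, secondMoment (g s) x ≤ K)
    (hK3 : ∀ᵐ s : ℝ, s ∈ Ioc 0 T → ∀ᵐ x : Torus, thirdMoment (g s) x ≤ k s)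
    (hmass : ∀ᵐ s : ℝ, s ∈ Ioc 0 T → mass (F s) = mass (g s))
    (hm : ∀ᵐ s : ℝ, s ∈ Ioc 0 T → mInt (F s) ≤ mInt (g s))
    (hcons : ∀ᵐ s : ℝ, s ∈ Ioc 0 T → mInt (g s) ≤ mInt F0) :
    ∀ᵐ t : ℝ, t ∈ Ioc 0 T → F t =ᵐ[volume] g t := by
  have hσ : surf univ < ∞ := measure_lt_top _ _
  have hF0ae : ∀ᵐ z, F0 z < ∞ := by
    have := ae_lt_top (measurable_wm_snd.mul hF0m) hF0.ne
    filter_upwards [this] with z hz
    by_contra hcon
    have htop : F0 z = ∞ := not_lt_top_iff.1 hcon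
    simp only [Pi.mul_apply, htop, ENNReal.mul_top (wm_ne_zero z.2)] at hz
    exact absurd hz (lt_irrefl _)
  set σ := surf univ with hσdef
  set c : ℝ≥0∞ := σ * (16 * (σ * K) + 2 * K) with hc
  have hKc : 16 * (σ * K) + 2 * K ≠ ∞ := ENNReal.add_ne_top.2
    ⟨ENNReal.mul_ne_top (by simp) (ENNReal.mul_ne_top hσ.ne hKfin.ne),
      ENNReal.mul_ne_top (by simp) hKfin.ne⟩
  have hcfin : c ≠ ∞ := by
    rw [hc]
    exact ENNReal.mul_ne_top hσ.ne hKc
  -- restriction of the a.e. hypotheses to `(a,t]`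
  have sub' : ∀ {p : ℝ → Prop} {a t : ℝ}, 0 ≤ a → t ≤ T → (∀ᵐ s : ℝ, s ∈ Ioc 0 T → p s) →
      ∀ᵐ s : ℝ, s ∈ Ioc a t → p s := by
    intro p a t ha ht h
    filter_upwards [h] with s hs hmem
    exact hs ⟨lt_of_le_of_lt ha hmem.1, hmem.2.trans ht⟩
  have sub : ∀ {p : ℝ → Prop} {t : ℝ}, t ≤ T → (∀ᵐ s : ℝ, s ∈ Ioc 0 T → p s) →
      ∀ᵐ s : ℝ, s ∈ Ioc 0 t → p s := fun ht h => sub' le_rfl ht h
  -- symmetric parts
  have hHW : ∀ᵐ s : ℝ, s ∈ Ioc 0 T → Wint g F s ≤ Wint F g s := by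
    filter_upwards [hm, hcons] with s h1 h2 hs
    exact H_le_W hF.meas hg.meas s (h1 hs) (lt_of_le_of_lt (h2 hs) hF0)
  have hXX : ∀ᵐ s : ℝ, s ∈ Ioc 0 T → Xint g F s = Xint F g s := by
    filter_upwards [hmass, hcons] with s h1 h2 hs
    exact Xint_symm hF.meas hg.meas s (h1 hs)
      (lt_of_le_of_lt ((mass_le_mInt (measurable_slice hg.meas s)).trans (h2 hs)) hF0)
  -- the inequality for `X`
  have hX : ∀ᵐ t : ℝ, t ∈ Ioc 0 T →
      Xint F g t ≤ 8 * (σ * K) * ∫⁻ s in Ioc 0 t, Wint F g s := by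
    filter_upwards [hF.eqn, hg.eqn] with t e1 e2 ht
    refine (X_le hF0m hF0ae (hF.mono ht.2) (hg.mono ht.2) ht.1.le (e1 ht) (e2 ht) hKfin
      (sub ht.2 hK2)).trans ?_
    have h2 : ∫⁻ s in Ioc 0 t, (Wint F g s + Wint g F s) ≤ 2 * ∫⁻ s in Ioc 0 t, Wint F g s := by
      rw [← lintegral_const_mul' 2 _ (by simp)]
      apply lintegral_mono_ae
      rw [ae_restrict_iff' measurableSet_Ioc]
      filter_upwards [sub ht.2 hHW] with u hu hmem
      rw [two_mul]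
      gcongr
      exact hu hmem
    calc 4 * (σ * K) * ∫⁻ s in Ioc 0 t, (Wint F g s + Wint g F s)
        ≤ 4 * (σ * K) * (2 * ∫⁻ s in Ioc 0 t, Wint F g s) := by gcongr
      _ = 8 * (σ * K) * ∫⁻ s in Ioc 0 t, Wint F g s := by ring
  -- a sequence of good times tending to zero
  have hgood : ∀ᵐ t : ℝ, t ∈ Ioc 0 T →
      (∀ᵐ z, mildEq F0 F t z) ∧ (∀ᵐ z, mildEq F0 g t z) ∧ mInt (g t) ≤ mInt F0 := by
    filter_upwards [hF.eqn, hg.eqn, hcons] with t e1 e2 e3 ht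
    exact ⟨e1 ht, e2 ht, e3 ht⟩
  obtain ⟨ε, hε, hεlim, hεgood⟩ := exists_seq_good hT hgood
  have hW0 : Tendsto (fun n => Wint F g (ε n)) atTop (𝓝 0) :=
    tendsto_Wint_zero hF0m hF0 hF hg ε hε hεlim (fun n => (hεgood n).1) (fun n => (hεgood n).2.1)
      (fun n => (hεgood n).2.2)
  -- the closed inequality for `Y`
  have hY : ∀ᵐ t : ℝ, t ∈ Ioc 0 T → Wint F g t ≤ c * ∫⁻ s in Ioc 0 t,
      (Wint F g s + k s * ∫⁻ τ in Ioc 0 s, Wint F g τ) := by
    filter_upwards [hF.eqn, hg.eqn] with t e1 e2 ht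
    -- the bound of the integrand
    have hint : ∀ a : ℝ, 0 ≤ a → σ * ∫⁻ s in Ioc a t,
        (k s * (Xint F g s + Xint g F s) + K * (Wint F g s + Wint g F s)) ≤
        c * ∫⁻ s in Ioc 0 t, (Wint F g s + k s * ∫⁻ τ in Ioc 0 s, Wint F g τ) := by
      intro a ha
      rw [hc, mul_assoc σ]
      refine mul_le_mul_right ?_ _
      rw [← lintegral_const_mul' _ _ hKc]
      refine (lintegral_mono_set (Ioc_subset_Ioc_left ha)).trans ?_
      apply lintegral_mono_ae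
      rw [ae_restrict_iff' measurableSet_Ioc]
      filter_upwards [sub ht.2 hHW, sub ht.2 hXX, sub ht.2 hX] with s h1 h2 h3 hs
      set Φ := ∫⁻ τ in Ioc 0 s, Wint F g τ with hΦ
      have hX2 : Xint F g s + Xint g F s ≤ 16 * (σ * K) * Φ := by
        rw [h2 hs, ← two_mul]
        calc 2 * Xint F g s ≤ 2 * (8 * (σ * K) * Φ) := by gcongr; exact h3 hs
          _ = 16 * (σ * K) * Φ := by ring
      have hW2 : Wint F g s + Wint g F s ≤ 2 * Wint F g s := by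
        rw [two_mul]
        gcongr
        exact h1 hs
      calc k s * (Xint F g s + Xint g F s) + K * (Wint F g s + Wint g F s)
          ≤ k s * (16 * (σ * K) * Φ) + K * (2 * Wint F g s) := by gcongr
        _ = 16 * (σ * K) * (k s * Φ) + 2 * K * Wint F g s := by ring
        _ ≤ (16 * (σ * K) + 2 * K) * (k s * Φ) + (16 * (σ * K) + 2 * K) * Wint F g s := by
            gcongr
            · exact le_self_add
            · exact le_add_self
        _ = (16 * (σ * K) + 2 * K) * (Wint F g s + k s * Φ) := by ring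
    -- pass to the limit along the good sequence
    have hev : ∀ᶠ n in atTop, Wint F g t ≤ Wint F g (ε n) + c * ∫⁻ s in Ioc 0 t,
        (Wint F g s + k s * ∫⁻ τ in Ioc 0 s, Wint F g τ) := by
      have hlt : ∀ᶠ n in atTop, ε n < t := hεlim.eventually (gt_mem_nhds ht.1)
      filter_upwards [hlt] with n hn
      refine (Y_le_from_k hF0m hF0ae (hε n).1.le hn.le (hF.mono ht.2) (hg.mono ht.2) (e1 ht) (e2 ht)
        (hεgood n).1 (hεgood n).2.1 hKfin hk
        (lintegral_Ioc_lt_top_of_weighted (hε n).1 ht.2 hkfin)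
        (sub' (hε n).1.le ht.2 hK2) (sub' (hε n).1.le ht.2 hK3)).trans ?_
      exact add_le_add le_rfl (hint (ε n) (hε n).1.le)
    have hlim : Tendsto (fun n => Wint F g (ε n) + c * ∫⁻ s in Ioc 0 t,
        (Wint F g s + k s * ∫⁻ τ in Ioc 0 s, Wint F g τ)) atTop
        (𝓝 (0 + c * ∫⁻ s in Ioc 0 t, (Wint F g s + k s * ∫⁻ τ in Ioc 0 s, Wint F g τ))) :=
      hW0.add tendsto_const_nhds
    rw [zero_add] at hlim
    exact ge_of_tendsto hlim hev
  -- Gronwall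
  have hzero : ∀ t ∈ Ioc 0 T,
      ∫⁻ s in Ioc 0 t, (Wint F g s + k s * ∫⁻ τ in Ioc 0 s, Wint F g τ) = 0 := by
    apply gronwall3_zero hcfin hKfin.ne T hk hkfin _ hY
    filter_upwards [hK2] with s h2 hs
    exact (Wint_le_mInt s).trans (int_wm_le2 hg.meas s (h2 hs))
  -- conclusion
  filter_upwards [hY, hm, hcons] with t h1 h2 h3 ht
  have hWt : Wint F g t = 0 := by
    have := h1 ht
    rw [hzero t ht, mul_zero] at this
    exact le_antisymm this bot_le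
  exact ae_eq_of_Wint_eq_zero hF.meas hg.meas hWt (h2 ht) (lt_of_le_of_lt (h3 ht) hF0)

end Vale.Agent.Lib.P140
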