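import Mathlib

/-!
# One-dimensional lemmas: du Bois-Reymond with an initial value; vanishing of primitives
-/

namespace Vale.Agent.Lib.P140

open MeasureTheory Set Filter Topology

/-- key identity: testing against a smooth `b` supported in `(0, T]`. -/
theorem dubois_key {U R : ℝ → ℝ} {U0 : ℝ}
    (hU : ∀ T : ℝ, IntegrableOn U (Ioc 0 T)) (hR : ∀ T : ℝ, IntegrableOn R (Ioc 0 T))
    (h : ∀ a : ℝ → ℝ, ContDiff ℝ ((⊤ : ℕ∞) : WithTop ℕ∞) a → HasCompactSupport a →
      (∫ t in Ioi (0 : ℝ), U t * deriv a t) + U0 * a 0 + (∫ t in Ioi (0 : ℝ), R t * a t) = 0)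
    (b : ℝ → ℝ) (hb : ContDiff ℝ ((⊤ : ℕ∞) : WithTop ℕ∞) b) (T : ℝ) (hT : 0 < T)
    (hb0 : ∀ x, x ≤ 0 → b x = 0) (hbT : ∀ x, T ≤ x → b x = 0) :
    ∫ x, b x • (U x - (U0 + ∫ s in (0 : ℝ)..x, R s)) = 0 := by
  have hbc : Continuous b := hb.continuous
  set B : ℝ → ℝ := fun t => ∫ s in (0 : ℝ)..t, b s with hB
  set c : ℝ := B T with hc
  have hBd : ∀ t, HasDerivAt B (b t) t := fun t =>
    intervalIntegral.integral_hasDerivAt_right (hbc.intervalIntegrable _ _)
      (hbc.stronglyMeasurableAtFilter _ _) hbc.continuousAt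
  have hBsmooth : ContDiff ℝ ((⊤ : ℕ∞) : WithTop ℕ∞) B := by
    rw [contDiff_infty_iff_deriv]
    refine ⟨fun t => (hBd t).differentiableAt, ?_⟩
    have : deriv B = b := funext fun t => (hBd t).deriv
    rw [this]; exact hb
  have hBT : ∀ x, T ≤ x → B x = c := by
    intro x hx
    have h1 : B x - B T = ∫ s in T..x, b s := by
      simp only [hB]
      rw [intervalIntegral.integral_interval_sub_left (hbc.intervalIntegrable _ _)
        (hbc.intervalIntegrable _ _)]
    have h2 : ∫ s in T..x, b s = 0 := by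
      rw [intervalIntegral.integral_of_le hx]
      refine setIntegral_eq_zero_of_forall_eq_zero ?_
      intro y hy
      exact hbT y hy.1.le
    rw [h2] at h1
    linarith
  set a : ℝ → ℝ := fun t => Real.smoothTransition (t + 2) * (B t - c) with ha
  have hasmooth : ContDiff ℝ ((⊤ : ℕ∞) : WithTop ℕ∞) a :=
    (Real.smoothTransition.contDiff.comp (contDiff_id.add contDiff_const)).mul
      (hBsmooth.sub contDiff_const)
  have hasupp : HasCompactSupport a := by
    refine HasCompactSupport.intro (isCompact_Icc : IsCompact (Icc (-2 : ℝ) T)) ?_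
    intro x hx
    by_cases h1 : x < -2
    · simp only [ha]
      rw [Real.smoothTransition.zero_of_nonpos (by linarith), zero_mul]
    · have h2 : T < x := by
        by_contra h3
        exact hx ⟨by linarith, by linarith⟩
      simp only [ha]
      rw [hBT x h2.le, sub_self, mul_zero]
  have haeq : ∀ t, -1 ≤ t → a t = B t - c := by
    intro t ht
    simp only [ha]
    rw [Real.smoothTransition.one_of_one_le (by linarith), one_mul]
  have hader : ∀ t, 0 < t → deriv a t = b t := by
    intro t ht
    have : a =ᶠ[𝓝 t] fun t => B t - c := by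
      filter_upwards [Ioi_mem_nhds (show (-1 : ℝ) < t by linarith)] with y hy
      exact haeq y (le_of_lt hy)
    rw [this.deriv_eq]
    exact ((hBd t).sub_const c).deriv
  have ha0 : a 0 = -c := by
    rw [haeq 0 (by norm_num)]
    simp [hB]
  have key := h a hasmooth hasupp
  -- rewrite the three terms as interval integrals over `0..T`
  have e1 : ∫ t in Ioi (0 : ℝ), U t * deriv a t = ∫ t in (0 : ℝ)..T, U t * b t := by
    rw [intervalIntegral.integral_of_le hT.le]
    have : ∫ t in Ioi (0 : ℝ), U t * deriv a t = ∫ t in Ioi (0 : ℝ), U t * b t :=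
      setIntegral_congr_fun measurableSet_Ioi (fun t ht => by
        show U t * deriv a t = U t * b t
        rw [hader t ht])
    rw [this]
    refine setIntegral_eq_of_subset_of_forall_sdiff_eq_zero measurableSet_Ioi
      (fun x hx => hx.1) ?_
    intro x hx
    have : T < x := by
      by_contra h3
      exact hx.2 ⟨hx.1, by linarith⟩
    rw [hbT x this.le, mul_zero]
  have e2 : ∫ t in Ioi (0 : ℝ), R t * a t = ∫ t in (0 : ℝ)..T, R t * (B t - c) := by
    rw [intervalIntegral.integral_of_le hT.le]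
    have : ∫ t in Ioi (0 : ℝ), R t * a t = ∫ t in Ioi (0 : ℝ), R t * (B t - c) :=
      setIntegral_congr_fun measurableSet_Ioi (fun t ht => by
        show R t * a t = R t * (B t - c)
        rw [haeq t (by linarith [show (0 : ℝ) < t from ht])])
    rw [this]
    refine setIntegral_eq_of_subset_of_forall_sdiff_eq_zero measurableSet_Ioi
      (fun x hx => hx.1) ?_
    intro x hx
    have : T < x := by
      by_contra h3
      exact hx.2 ⟨hx.1, by linarith⟩
    rw [hBT x this.le, sub_self, mul_zero]
  rw [e1, e2, ha0] at key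
  -- integration by parts
  have hRi : IntervalIntegrable R volume 0 T :=
    (intervalIntegrable_iff_integrableOn_Ioc_of_le hT.le).2 (hR T)
  have hUi : IntervalIntegrable U volume 0 T :=
    (intervalIntegrable_iff_integrableOn_Ioc_of_le hT.le).2 (hU T)
  set f : ℝ → ℝ := fun x => ∫ s in (0 : ℝ)..x, R s with hf
  have hfac : AbsolutelyContinuousOnInterval f 0 T :=
    hRi.absolutelyContinuousOnInterval_intervalIntegral (by simp)
  have hgac : AbsolutelyContinuousOnInterval (fun t => B t - c) 0 T :=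
    ((hBsmooth.sub contDiff_const).of_le (by simp : (1 : WithTop ℕ∞) ≤ _)).contDiffOn.absolutelyContinuousOnInterval
  have ibp := hfac.integral_mul_deriv_eq_deriv_mul hgac
  have hd1 : ∫ x in (0 : ℝ)..T, f x * deriv (fun t => B t - c) x = ∫ x in (0 : ℝ)..T, f x * b x := by
    refine intervalIntegral.integral_congr ?_
    intro x _
    show f x * deriv (fun t => B t - c) x = f x * b x
    rw [((hBd x).sub_const c).deriv]
  have hd2 : ∫ x in (0 : ℝ)..T, deriv f x * (B x - c) = ∫ x in (0 : ℝ)..T, R x * (B x - c) := by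
    refine intervalIntegral.integral_congr_ae ?_
    filter_upwards [hRi.ae_hasDerivAt_integral] with x hx hx2
    have := hx (uIoc_subset_uIcc hx2) 0 (by simp)
    rw [this.deriv]
  rw [hd1, hd2] at ibp
  have hf0 : f 0 = 0 := by simp [hf]
  rw [hf0, hBT T le_rfl] at ibp
  -- the final computation
  have e3 : ∫ x, b x • (U x - (U0 + f x)) = ∫ x in (0 : ℝ)..T, b x • (U x - (U0 + f x)) := by
    rw [intervalIntegral.integral_of_le hT.le]
    symm
    refine setIntegral_eq_integral_of_forall_compl_eq_zero ?_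
    intro x hx
    by_cases h1 : x ≤ 0
    · rw [hb0 x h1, zero_smul]
    · have : T < x := by
        by_contra h3
        exact hx ⟨by linarith, by linarith⟩
      rw [hbT x this.le, zero_smul]
  rw [e3]
  have i1 : IntervalIntegrable (fun x => U x * b x) volume 0 T :=
    hUi.mul_continuousOn hbc.continuousOn
  have i2 : IntervalIntegrable (fun x => U0 * b x) volume 0 T :=
    (hbc.intervalIntegrable _ _).const_mul _
  have i3 : IntervalIntegrable (fun x => f x * b x) volume 0 T :=
    (hfac.continuousOn.mul hbc.continuousOn).intervalIntegrable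
  have e4 : ∫ x in (0 : ℝ)..T, b x • (U x - (U0 + f x))
      = (∫ x in (0 : ℝ)..T, U x * b x) - (∫ x in (0 : ℝ)..T, U0 * b x)
        - ∫ x in (0 : ℝ)..T, f x * b x := by
    rw [← intervalIntegral.integral_sub i1 i2, ← intervalIntegral.integral_sub (i1.sub i2) i3]
    refine intervalIntegral.integral_congr ?_
    intro x _
    simp only [smul_eq_mul]
    ring
  rw [e4, intervalIntegral.integral_const_mul, ibp]
  have : ∫ x in (0 : ℝ)..T, b x = c := rfl
  rw [this]
  linarith

/-- If `U' = R` in distributions on `[0,∞)` with initial value `U0`, then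
`U(t) = U0 + ∫_0^t R` for almost every `t > 0`. -/
theorem dubois_reymond {U R : ℝ → ℝ} {U0 : ℝ}
    (hU : ∀ T : ℝ, IntegrableOn U (Ioc 0 T)) (hR : ∀ T : ℝ, IntegrableOn R (Ioc 0 T))
    (h : ∀ a : ℝ → ℝ, ContDiff ℝ ((⊤ : ℕ∞) : WithTop ℕ∞) a → HasCompactSupport a →
      (∫ t in Ioi (0 : ℝ), U t * deriv a t) + U0 * a 0 + (∫ t in Ioi (0 : ℝ), R t * a t) = 0) :
    ∀ᵐ t : ℝ, 0 < t → U t = U0 + ∫ s in (0 : ℝ)..t, R s := by
  have hloc : LocallyIntegrableOn (fun x => U x - (U0 + ∫ s in (0 : ℝ)..x, R s)) (Ioi 0)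
      volume := by
    intro x hx
    have hx0 : (0 : ℝ) < x := hx
    refine ⟨Ioc 0 (x + 1), mem_nhdsWithin_of_mem_nhds (Ioc_mem_nhds hx0 (by linarith)), ?_⟩
    refine (hU (x + 1)).sub ?_
    have hRi : IntervalIntegrable R volume 0 (x + 1) :=
      (intervalIntegrable_iff_integrableOn_Ioc_of_le (by linarith)).2 (hR (x + 1))
    have hfac : AbsolutelyContinuousOnInterval (fun y => ∫ s in (0 : ℝ)..y, R s) 0 (x + 1) :=
      hRi.absolutelyContinuousOnInterval_intervalIntegral (by simp)
    have hc : ContinuousOn (fun y => U0 + ∫ s in (0 : ℝ)..y, R s) (Icc 0 (x + 1)) := by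
      have := hfac.continuousOn
      rw [uIcc_of_le (by linarith : (0 : ℝ) ≤ x + 1)] at this
      exact continuousOn_const.add this
    exact hc.integrableOn_Icc.mono_set Ioc_subset_Icc_self
  have main := isOpen_Ioi.ae_eq_zero_of_integral_contDiff_smul_eq_zero hloc (by
    intro g hg hgs hgU
    obtain ⟨M, hM⟩ := hgs.isCompact.isBounded.subset_closedBall (0 : ℝ)
    have hout : ∀ x, x ∉ tsupport g → g x = 0 := fun x hx => image_eq_zero_of_notMem_tsupport hx
    refine dubois_key hU hR h g hg (max M 0 + 1) (by positivity) ?_ ?_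
    · intro x hx
      refine hout x (fun hmem => ?_)
      have : (0 : ℝ) < x := hgU hmem
      linarith
    · intro x hx
      refine hout x (fun hmem => ?_)
      have := hM hmem
      rw [Real.closedBall_eq_Icc] at this
      have h2 := this.2
      have h3 := le_max_left M 0
      linarith)
  filter_upwards [main] with t ht h0
  have := ht h0
  linarith

theorem locallyIntegrable_indicator_Ioi {D : ℝ → ℝ} (hD : ∀ T : ℝ, IntegrableOn D (Ioc 0 T)) :
    LocallyIntegrable ((Ioi (0 : ℝ)).indicator D) volume := by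
  rw [locallyIntegrable_iff]
  intro K hK
  obtain ⟨M, hM⟩ := hK.isBounded.subset_closedBall (0 : ℝ)
  have h1 : IntegrableOn D (Ioi 0 ∩ K) := by
    refine (hD M).mono_set ?_
    intro x hx
    have := hM hx.2
    rw [Real.closedBall_eq_Icc] at this
    exact ⟨hx.1, by linarith [this.2]⟩
  unfold IntegrableOn
  rw [integrable_indicator_iff measurableSet_Ioi]
  unfold IntegrableOn
  rw [Measure.restrict_restrict measurableSet_Ioi]
  exact h1

/-- A locally integrable function on `(0,∞)` all of whose integrals over `(0,q]`, `q` rational,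
vanish is zero almost everywhere. -/
theorem ae_eq_zero_of_forall_rat {D : ℝ → ℝ} (hD : ∀ T : ℝ, IntegrableOn D (Ioc 0 T))
    (h : ∀ q : ℚ, 0 < q → ∫ t in (0 : ℝ)..(q : ℝ), D t = 0) :
    ∀ᵐ t : ℝ, 0 < t → D t = 0 := by
  set D' : ℝ → ℝ := (Ioi (0 : ℝ)).indicator D with hD'
  have hloc : LocallyIntegrable D' volume := locallyIntegrable_indicator_Ioi hD
  have hint : ∀ a b : ℝ, IntervalIntegrable D' volume a b := fun a b =>
    intervalIntegrable_iff.mpr
      ((hloc.integrableOn_isCompact isCompact_uIcc).mono_set uIoc_subset_uIcc)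
  have hcont : Continuous (fun x => ∫ t in (0 : ℝ)..x, D' t) :=
    intervalIntegral.continuous_primitive hint 0
  have hq : ∀ q : ℚ, 0 < q → ∫ t in (0 : ℝ)..(q : ℝ), D' t = 0 := by
    intro q hq
    have hq' : (0 : ℝ) ≤ q := by exact_mod_cast hq.le
    refine Eq.trans ?_ (h q hq)
    rw [intervalIntegral.integral_of_le hq', intervalIntegral.integral_of_le hq']
    refine setIntegral_congr_fun measurableSet_Ioc ?_
    intro x hx
    simp [hD', indicator_of_mem (show x ∈ Ioi (0 : ℝ) from hx.1)]
  have hzero : ∀ x : ℝ, 0 < x → ∫ t in (0 : ℝ)..x, D' t = 0 := by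
    have hclosed : IsClosed {x : ℝ | ∫ t in (0 : ℝ)..x, D' t = 0} :=
      isClosed_eq hcont continuous_const
    have hsub : Ioi (0 : ℝ) ∩ range ((↑) : ℚ → ℝ) ⊆ {x : ℝ | ∫ t in (0 : ℝ)..x, D' t = 0} := by
      rintro x ⟨hx, q, rfl⟩
      exact hq q (by exact_mod_cast (show (0 : ℝ) < (q : ℝ) from hx))
    have hdense : Ioi (0 : ℝ) ⊆ closure (Ioi (0 : ℝ) ∩ range ((↑) : ℚ → ℝ)) :=
      Rat.denseRange_cast.open_subset_closure_inter isOpen_Ioi
    intro x hx
    exact (closure_minimal hsub hclosed) (hdense hx)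
  filter_upwards [LocallyIntegrable.ae_hasDerivAt_integral hloc] with x hx hx0
  have h1 := hx 0
  have h2 : HasDerivAt (fun x => ∫ t in (0 : ℝ)..x, D' t) 0 x := by
    have : (fun x => ∫ t in (0 : ℝ)..x, D' t) =ᶠ[𝓝 x] fun _ => (0 : ℝ) := by
      filter_upwards [Ioi_mem_nhds hx0] with y hy
      exact hzero y hy
    exact (hasDerivAt_const x (0 : ℝ)).congr_of_eventuallyEq this
  have h3 := h1.unique h2
  simpa [hD', indicator_of_mem (show x ∈ Ioi (0 : ℝ) from hx0)] using h3

end Vale.Agent.Lib.P140
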