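import Mathlib

/-!
# Scalar lemmas: Duhamel's formula in `[0,∞]`
-/

namespace Vale.Agent.Lib.P140

open MeasureTheory Set
open scoped ENNReal

/-- the fundamental theorem of calculus for a nonnegative continuous integrand, in `[0,∞]` -/
lemma lintegral_ofReal_eq_sub {f F : ℝ → ℝ} {a t : ℝ} (hat : a ≤ t) (hf : Continuous f)
    (hf0 : ∀ s, 0 ≤ f s) (hF : ∀ s, HasDerivAt F (f s) s) :
    ∫⁻ s in Ioc a t, ENNReal.ofReal (f s) = ENNReal.ofReal (F t - F a) := by
  have h1 : ∫ s in a..t, f s = F t - F a :=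
    intervalIntegral.integral_eq_sub_of_hasDerivAt (fun s _ => hF s) (hf.intervalIntegrable a t)
  rw [← h1, intervalIntegral.integral_of_le hat]
  rw [ofReal_integral_eq_lintegral_ofReal]
  · exact (hf.intervalIntegrable a t).1
  · exact Filter.Eventually.of_forall hf0

theorem lintegral_exp_decay_from {ν a t : ℝ} (hν : 0 ≤ ν) (hat : a ≤ t) :
    ENNReal.ofReal ν * ∫⁻ s in Ioc a t, ENNReal.ofReal (Real.exp (-(ν * (s - a)))) =
      ENNReal.ofReal (1 - Real.exp (-(ν * (t - a)))) := by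
  rcases hν.eq_or_lt with h0 | hpos
  · rw [← h0]
    simp
  · have hF : ∀ s, HasDerivAt (fun s => -(Real.exp (-(ν * (s - a))) / ν))
        (Real.exp (-(ν * (s - a)))) s := by
      intro s
      have h1 : HasDerivAt (fun s : ℝ => -(ν * (s - a))) (-(ν * 1)) s :=
        (((hasDerivAt_id s).sub_const a).const_mul ν).neg
      have h2 := ((h1.exp).div_const ν).neg
      have h3 : -(Real.exp (-(ν * (s - a))) * -(ν * 1) / ν) = Real.exp (-(ν * (s - a))) := by
        field_simp
      rw [h3] at h2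
      exact h2
    rw [lintegral_ofReal_eq_sub hat (by fun_prop) (fun s => (Real.exp_pos _).le) hF,
      ← ENNReal.ofReal_mul hν]
    congr 1
    simp only [sub_self, mul_zero, neg_zero, Real.exp_zero]
    field_simp
    ring

theorem lintegral_exp_decay {ν t : ℝ} (hν : 0 ≤ ν) (ht : 0 ≤ t) :
    ENNReal.ofReal ν * ∫⁻ s in Ioc 0 t, ENNReal.ofReal (Real.exp (-(ν * s))) =
      ENNReal.ofReal (1 - Real.exp (-(ν * t))) := by
  have h := lintegral_exp_decay_from hν ht
  simpa using h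

theorem lintegral_exp_growth {l t : ℝ} (hl : 0 ≤ l) (ht : 0 ≤ t) :
    1 + ENNReal.ofReal l * ∫⁻ s in Ioc 0 t, ENNReal.ofReal (Real.exp (l * s)) =
      ENNReal.ofReal (Real.exp (l * t)) := by
  rcases hl.eq_or_lt with h0 | hpos
  · rw [← h0]
    simp
  · have hF : ∀ s, HasDerivAt (fun s => Real.exp (l * s) / l) (Real.exp (l * s)) s := by
      intro s
      have h1 : HasDerivAt (fun s : ℝ => l * s) (l * 1) s := (hasDerivAt_id s).const_mul l
      have h2 := (h1.exp).div_const l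
      have h3 : Real.exp (l * s) * (l * 1) / l = Real.exp (l * s) := by
        field_simp
      rw [h3] at h2
      exact h2
    rw [lintegral_ofReal_eq_sub ht (by fun_prop) (fun s => (Real.exp_pos _).le) hF,
      ← ENNReal.ofReal_mul hl, ← ENNReal.ofReal_one]
    have hge : 1 ≤ Real.exp (l * t) := Real.one_le_exp (by positivity)
    have hval : l * (Real.exp (l * t) / l - Real.exp (l * 0) / l) = Real.exp (l * t) - 1 := by
      simp only [mul_zero, Real.exp_zero]
      field_simp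
    rw [hval, ← ENNReal.ofReal_add zero_le_one (by linarith)]
    congr 1
    ring

/-- `e^{-x} + (1 - e^{-x}) = 1` in `[0,∞]` -/
lemma ofReal_exp_add_one_sub {x : ℝ} (hx : 0 ≤ x) :
    ENNReal.ofReal (Real.exp (-x)) + ENNReal.ofReal (1 - Real.exp (-x)) = 1 := by
  have h1 : Real.exp (-x) ≤ 1 := Real.exp_le_one_iff.mpr (by linarith)
  rw [← ENNReal.ofReal_add (Real.exp_pos _).le (by linarith), ← ENNReal.ofReal_one]
  congr 1
  ring

/-- the kernel on the triangle -/
private noncomputable def ker (ν : ℝ) (P : ℝ → ℝ≥0∞) (r s : ℝ) : ℝ≥0∞ :=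
  (if s ≤ r then ENNReal.ofReal (Real.exp (-(ν * (r - s)))) else 0) * P s

private lemma measurable_ker (ν : ℝ) {P : ℝ → ℝ≥0∞} (hP : Measurable P) :
    Measurable (Function.uncurry (ker ν P)) := by
  unfold ker Function.uncurry
  refine Measurable.mul ?_ (hP.comp measurable_snd)
  refine Measurable.ite (measurableSet_le measurable_snd measurable_fst) ?_ measurable_const
  exact ENNReal.measurable_ofReal.comp (by fun_prop)

private lemma ker_inner (ν : ℝ) (P : ℝ → ℝ≥0∞) {r t : ℝ} (hr : r ≤ t) :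
    ∫⁻ s in Ioc 0 t, ker ν P r s =
      ∫⁻ s in Ioc 0 r, ENNReal.ofReal (Real.exp (-(ν * (r - s)))) * P s := by
  have h1 : (fun s => ker ν P r s) =
      (Iic r).indicator (fun s => ENNReal.ofReal (Real.exp (-(ν * (r - s)))) * P s) := by
    funext s
    unfold ker
    by_cases hs : s ≤ r
    · rw [if_pos hs, indicator_of_mem (show s ∈ Iic r from hs)]
    · rw [if_neg hs, indicator_of_notMem (show s ∉ Iic r from hs), zero_mul]
  rw [h1, lintegral_indicator measurableSet_Iic, Measure.restrict_restrict measurableSet_Iic]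
  congr 2
  ext s
  simp only [mem_inter_iff, mem_Iic, mem_Ioc]
  constructor
  · rintro ⟨h2, h3, -⟩
    exact ⟨h3, h2⟩
  · rintro ⟨h2, h3⟩
    exact ⟨h3, h2, h3.trans hr⟩

private lemma ker_outer (ν : ℝ) (P : ℝ → ℝ≥0∞) {s t : ℝ} (hs : 0 < s) :
    ∫⁻ r in Ioc 0 t, ker ν P r s =
      (∫⁻ r in Ioc s t, ENNReal.ofReal (Real.exp (-(ν * (r - s))))) * P s := by
  have h1 : (fun r => ker ν P r s) = fun r =>
      (Ici s).indicator (fun r => ENNReal.ofReal (Real.exp (-(ν * (r - s))))) r * P s := by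
    funext r
    unfold ker
    by_cases hr : s ≤ r
    · rw [if_pos hr, indicator_of_mem (show r ∈ Ici s from hr)]
    · rw [if_neg hr, indicator_of_notMem (show r ∉ Ici s from hr)]
  have hm : Measurable fun r : ℝ => ENNReal.ofReal (Real.exp (-(ν * (r - s)))) :=
    ENNReal.measurable_ofReal.comp (by fun_prop)
  rw [h1, lintegral_mul_const _ (hm.indicator measurableSet_Ici),
    lintegral_indicator measurableSet_Ici, Measure.restrict_restrict measurableSet_Ici]
  congr 1
  have h2 : Ici s ∩ Ioc 0 t = Icc s t := by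
    ext r
    simp only [mem_inter_iff, mem_Ici, mem_Ioc, mem_Icc]
    constructor
    · rintro ⟨h2, -, h3⟩
      exact ⟨h2, h3⟩
    · rintro ⟨h2, h3⟩
      exact ⟨h2, hs.trans_le h2, h3⟩
  rw [h2]
  exact setLIntegral_congr Ioc_ae_eq_Icc.symm

/-- If `w(t) = e^{-νt} c + ∫_0^t e^{-ν(t-s)} P(s) ds` then `w(t) + ν ∫_0^t w = c + ∫_0^t P`. -/
theorem duhamel_add {ν : ℝ} (hν : 0 ≤ ν) (c : ℝ≥0∞) {P : ℝ → ℝ≥0∞} (hP : Measurable P) {t : ℝ}
    (ht : 0 ≤ t) :
    (ENNReal.ofReal (Real.exp (-(ν * t))) * c +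
        ∫⁻ s in Ioc 0 t, ENNReal.ofReal (Real.exp (-(ν * (t - s)))) * P s) +
      ENNReal.ofReal ν * ∫⁻ r in Ioc 0 t, (ENNReal.ofReal (Real.exp (-(ν * r))) * c +
        ∫⁻ s in Ioc 0 r, ENNReal.ofReal (Real.exp (-(ν * (r - s)))) * P s) =
      c + ∫⁻ s in Ioc 0 t, P s := by
  have hmE : Measurable fun r : ℝ => ENNReal.ofReal (Real.exp (-(ν * r))) :=
    ENNReal.measurable_ofReal.comp (by fun_prop)
  -- replace the inner integral by the kernel
  have h1 : ∫⁻ r in Ioc 0 t, (ENNReal.ofReal (Real.exp (-(ν * r))) * c +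
        ∫⁻ s in Ioc 0 r, ENNReal.ofReal (Real.exp (-(ν * (r - s)))) * P s) =
      ∫⁻ r in Ioc 0 t, (ENNReal.ofReal (Real.exp (-(ν * r))) * c +
        ∫⁻ s in Ioc 0 t, ker ν P r s) := by
    refine setLIntegral_congr_fun measurableSet_Ioc fun r hr => ?_
    rw [ker_inner ν P hr.2]
  rw [h1, lintegral_add_left (hmE.mul_const c), lintegral_mul_const _ hmE,
    lintegral_lintegral_swap (measurable_ker ν hP).aemeasurable]
  have h2 : ∫⁻ s in Ioc 0 t, ∫⁻ r in Ioc 0 t, ker ν P r s =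
      ∫⁻ s in Ioc 0 t, (∫⁻ r in Ioc s t, ENNReal.ofReal (Real.exp (-(ν * (r - s))))) * P s := by
    refine setLIntegral_congr_fun measurableSet_Ioc fun s hs => ?_
    exact ker_outer ν P hs.1
  rw [h2, mul_add, ← mul_assoc, lintegral_exp_decay hν ht]
  have h3 : ENNReal.ofReal ν *
      ∫⁻ s in Ioc 0 t, (∫⁻ r in Ioc s t, ENNReal.ofReal (Real.exp (-(ν * (r - s))))) * P s =
      ∫⁻ s in Ioc 0 t, ENNReal.ofReal (1 - Real.exp (-(ν * (t - s)))) * P s := by
    rw [← lintegral_const_mul' _ _ ENNReal.ofReal_ne_top]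
    refine setLIntegral_congr_fun measurableSet_Ioc fun s hs => ?_
    rw [← mul_assoc, lintegral_exp_decay_from hν hs.2]
  rw [h3]
  have hm1 : Measurable fun s : ℝ => ENNReal.ofReal (Real.exp (-(ν * (t - s)))) * P s :=
    (ENNReal.measurable_ofReal.comp (by fun_prop)).mul hP
  have h4 : (∫⁻ s in Ioc 0 t, ENNReal.ofReal (Real.exp (-(ν * (t - s)))) * P s) +
      ∫⁻ s in Ioc 0 t, ENNReal.ofReal (1 - Real.exp (-(ν * (t - s)))) * P s =
      ∫⁻ s in Ioc 0 t, P s := by
    rw [← lintegral_add_left hm1]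
    refine setLIntegral_congr_fun measurableSet_Ioc fun s hs => ?_
    rw [← add_mul, ofReal_exp_add_one_sub (mul_nonneg hν (sub_nonneg.mpr hs.2)), one_mul]
  have h5 : ENNReal.ofReal (Real.exp (-(ν * t))) * c + ENNReal.ofReal (1 - Real.exp (-(ν * t))) * c
      = c := by
    rw [← add_mul, ofReal_exp_add_one_sub (mul_nonneg hν ht), one_mul]
  calc ENNReal.ofReal (Real.exp (-(ν * t))) * c +
        (∫⁻ s in Ioc 0 t, ENNReal.ofReal (Real.exp (-(ν * (t - s)))) * P s) +
      (ENNReal.ofReal (1 - Real.exp (-(ν * t))) * c +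
        ∫⁻ s in Ioc 0 t, ENNReal.ofReal (1 - Real.exp (-(ν * (t - s)))) * P s)
      = (ENNReal.ofReal (Real.exp (-(ν * t))) * c + ENNReal.ofReal (1 - Real.exp (-(ν * t))) * c) +
        ((∫⁻ s in Ioc 0 t, ENNReal.ofReal (Real.exp (-(ν * (t - s)))) * P s) +
          ∫⁻ s in Ioc 0 t, ENNReal.ofReal (1 - Real.exp (-(ν * (t - s)))) * P s) := by ring
    _ = c + ∫⁻ s in Ioc 0 t, P s := by rw [h4, h5]

end Vale.Agent.Lib.P140
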