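import Mathlib
import Vale.Agent.Lib.P140.Defs

/-!
# The embedding of `T^3 × R^3` into `C^3 × R^3`; smooth functions of it determine `L^1` functions
-/

namespace Vale.Agent.Lib.P140

open MeasureTheory

/-- The embedding of `T^3 × R^3` into `C^3 × R^3`. -/
noncomputable def emb (z : Torus × V) : (Fin 3 → ℂ) × V :=
  (fun i => ((AddCircle.toCircle (z.1 i) : Circle) : ℂ), z.2)

lemma continuous_emb : Continuous emb := by
  unfold emb
  refine Continuous.prodMk (continuous_pi fun i => ?_) continuous_snd
  exact continuous_subtype_val.comp
    (AddCircle.continuous_toCircle.comp ((continuous_apply i).comp continuous_fst))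

lemma injective_emb : Function.Injective emb := by
  intro z w h
  unfold emb at h
  rw [Prod.mk.injEq] at h
  obtain ⟨h1, h2⟩ := h
  refine Prod.ext (funext fun i => ?_) h2
  have h3 := congrFun h1 i
  exact AddCircle.injective_toCircle one_ne_zero (Subtype.ext h3)

lemma measurableEmbedding_emb : MeasurableEmbedding emb :=
  continuous_emb.measurableEmbedding injective_emb

/-- Integrable functions on `T^3 × R^3` are determined by the test functions `H ∘ emb`. -/
theorem ae_eq_zero_of_forall_emb {f : Torus × V → ℝ} (hf : Integrable f)
    (h : ∀ H : (Fin 3 → ℂ) × V → ℝ, ContDiff ℝ ((⊤ : ℕ∞) : WithTop ℕ∞) H → HasCompactSupport H →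
      ∫ z, H (emb z) * f z = 0) :
    ∀ᵐ z, f z = 0 := by
  have hext : ∀ z, Function.extend emb f 0 (emb z) = f z := fun z =>
    injective_emb.extend_apply f 0 z
  have hint : Integrable (Function.extend emb f 0) (Measure.map emb volume) := by
    rw [measurableEmbedding_emb.integrable_map_iff]
    have : Function.extend emb f 0 ∘ emb = f := funext hext
    rw [this]
    exact hf
  have key : ∀ᵐ x ∂(Measure.map emb volume), Function.extend emb f 0 x = 0 := by
    refine ae_eq_zero_of_integral_contDiff_smul_eq_zero hint.locallyIntegrable ?_
    intro g hg hgs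
    rw [measurableEmbedding_emb.integral_map]
    simp only [hext, smul_eq_mul]
    exact h g hg hgs
  rw [measurableEmbedding_emb.ae_map_iff] at key
  filter_upwards [key] with z hz
  rw [← hext z]
  exact hz

end Vale.Agent.Lib.P140
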