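import Mathlib
import Vale.Agent.Lib.P140.CharLemma

/-!
# Positivity along a characteristic: a truncated difference that is exact
-/

namespace Vale.Agent.Lib.P140

open MeasureTheory Set
open scoped ENNReal

/-- Adding a constant preserves absolute continuity. -/
lemma ac_const_add {f : ℝ → ℝ} {a b : ℝ} (y0 : ℝ) (hf : AbsolutelyContinuousOnInterval f a b) :
    AbsolutelyContinuousOnInterval (fun x => y0 + f x) a b := by
  rw [absolutelyContinuousOnInterval_iff] at hf ⊢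
  intro ε hε
  obtain ⟨δ, hδ, h⟩ := hf ε hε
  refine ⟨δ, hδ, fun E hE hsum => lt_of_le_of_lt ?_ (h E hE hsum)⟩
  apply Finset.sum_le_sum
  intro i _
  rw [Real.dist_eq, Real.dist_eq]
  apply le_of_eq
  ring_nf

/-- `posPart_le` with an initial value: let `Y s = y0 + ∫_0^s q`.  If `q ≤ r` a.e. where `Y > 0` and
`0 ≤ r` a.e. where `Y ≤ 0`, then `max (Y t) 0 ≤ max y0 0 + ∫_0^t r`. -/
lemma posPart_le_init {t : ℝ} (ht : 0 ≤ t) {q r : ℝ → ℝ} (y0 : ℝ)
    (hq : IntervalIntegrable q volume 0 t) (hr : IntervalIntegrable r volume 0 t)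
    (h : ∀ᵐ s : ℝ, s ∈ Ioc 0 t →
      ((0 < y0 + ∫ u in (0 : ℝ)..s, q u) → q s ≤ r s) ∧
        ((y0 + ∫ u in (0 : ℝ)..s, q u) ≤ 0 → 0 ≤ r s)) :
    max (y0 + ∫ u in (0 : ℝ)..t, q u) 0 ≤ max y0 0 + ∫ s in (0 : ℝ)..t, r s := by
  set Y : ℝ → ℝ := fun s => y0 + ∫ u in (0 : ℝ)..s, q u with hY
  have hYac : AbsolutelyContinuousOnInterval Y 0 t :=
    ac_const_add y0 (hq.absolutelyContinuousOnInterval_intervalIntegral (by simp))
  have hZac := ac_max_zero hYac
  have hftc := hZac.integral_deriv_eq_sub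
  have hY0 : Y 0 = y0 := by simp [hY]
  simp only [hY0] at hftc
  have hgoal : (∫ x in (0 : ℝ)..t, deriv (fun x => max (Y x) 0) x) ≤ ∫ s in (0 : ℝ)..t, r s := by
    apply intervalIntegral.integral_mono_ae_restrict ht hZac.intervalIntegrable_deriv hr
    rw [Filter.EventuallyLE, ae_restrict_iff' measurableSet_Icc]
    have hne : ∀ᵐ s : ℝ, s ≠ 0 := by simp [ae_iff, measure_singleton]
    filter_upwards [h, hq.ae_hasDerivAt_integral, hZac.ae_differentiableAt, hne]
      with s hs hder hdiff hs0 hmem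
    have hmem' : s ∈ uIcc 0 t := by rwa [uIcc_of_le ht]
    have hmemIoc : s ∈ Ioc 0 t := ⟨lt_of_le_of_ne hmem.1 (Ne.symm hs0), hmem.2⟩
    have hYder : HasDerivAt Y (q s) s := (hder hmem' 0 (by simp)).const_add y0
    rcases lt_trichotomy (Y s) 0 with hneg | hzero | hpos
    · -- `Z = 0` near `s`
      have hev : (fun x => max (Y x) 0) =ᶠ[nhds s] fun _ => 0 := by
        filter_upwards [hYder.continuousAt.eventually_lt continuousAt_const hneg] with x hx
        exact max_eq_right hx.le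
      rw [hev.deriv_eq, deriv_const]
      exact (hs hmemIoc).2 hneg.le
    · -- a minimum of `Z`
      have hmin : IsLocalMin (fun x => max (Y x) 0) s := by
        refine Filter.Eventually.of_forall fun x => ?_
        simp [hzero]
      rw [hmin.deriv_eq_zero]
      exact (hs hmemIoc).2 hzero.le
    · -- `Z = Y` near `s`
      have hev : (fun x => max (Y x) 0) =ᶠ[nhds s] Y := by
        filter_upwards [continuousAt_const.eventually_lt hYder.continuousAt hpos] with x hx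
        exact max_eq_left hx.le
      rw [hev.deriv_eq, hYder.deriv]
      exact (hs hmemIoc).1 hpos
  linarith

/-- If `φ = (c + ∫_0^t P - ∫_0^t N)_+` on `[0,T]` and the loss `N` vanishes where `φ` does, then the
truncation is never active: `φ + ∫_0^t N = c + ∫_0^t P`. -/
theorem tsub_exact {T : ℝ} {φ P N : ℝ → ℝ≥0∞} {c : ℝ≥0∞} (hc : c < ∞)
    (mP : Measurable P) (mN : Measurable N)
    (fP : ∫⁻ s in Ioc 0 T, P s < ∞) (fN : ∫⁻ s in Ioc 0 T, N s < ∞)
    (h : ∀ t ∈ Icc (0 : ℝ) T, φ t = c + (∫⁻ s in Ioc 0 t, P s) - ∫⁻ s in Ioc 0 t, N s)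
    (hN : ∀ s ∈ Icc (0 : ℝ) T, φ s = 0 → N s = 0) :
    ∀ t ∈ Icc (0 : ℝ) T, φ t + ∫⁻ s in Ioc 0 t, N s = c + ∫⁻ s in Ioc 0 t, P s := by
  intro t ht
  have ht0 : 0 ≤ t := ht.1
  have fPt : ∫⁻ s in Ioc 0 t, P s < ∞ := lt_of_le_of_lt (lint_mono_Ioc ht.2 P) fP
  have fNt : ∫⁻ s in Ioc 0 t, N s < ∞ := lt_of_le_of_lt (lint_mono_Ioc ht.2 N) fN
  have iP := intervalIntegrable_toReal ht0 mP fPt
  have iN := intervalIntegrable_toReal ht0 mN fNt
  set q : ℝ → ℝ := fun s => (N s).toReal - (P s).toReal with hq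
  have iq : IntervalIntegrable q volume 0 t := iN.sub iP
  -- the real-valued formula
  have hint : ∀ s : ℝ, 0 ≤ s → s ≤ t → ∫ u in (0 : ℝ)..s, q u =
      (∫ u in (0 : ℝ)..s, (N u).toReal) - ∫ u in (0 : ℝ)..s, (P u).toReal := by
    intro s hs0 hst
    have sub : uIcc (0 : ℝ) s ⊆ uIcc 0 t := by
      rw [uIcc_of_le hs0, uIcc_of_le ht0]
      exact Icc_subset_Icc_right hst
    simp only [hq]
    rw [intervalIntegral.integral_sub (iN.mono_set sub) (iP.mono_set sub)]
  have hle : ∀ s : ℝ, 0 ≤ s → s ≤ t →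
      (-c.toReal + ∫ u in (0 : ℝ)..s, q u ≤ 0 ↔
        ∫⁻ u in Ioc 0 s, N u ≤ c + ∫⁻ u in Ioc 0 s, P u) := by
    intro s hs0 hst
    have nP : 0 ≤ ∫ u in (0 : ℝ)..s, (P u).toReal :=
      intervalIntegral.integral_nonneg hs0 fun _ _ => ENNReal.toReal_nonneg
    rw [hint s hs0 hst, lint_eq_ofReal hs0 hst mN fNt, lint_eq_ofReal hs0 hst mP fPt,
      ← ENNReal.ofReal_toReal hc.ne, ENNReal.toReal_ofReal ENNReal.toReal_nonneg,
      ← ENNReal.ofReal_add ENNReal.toReal_nonneg nP,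
      ENNReal.ofReal_le_ofReal_iff (add_nonneg ENNReal.toReal_nonneg nP)]
    constructor <;> intro h' <;> linarith
  have hmain : max (-c.toReal + ∫ u in (0 : ℝ)..t, q u) 0
      ≤ max (-c.toReal) 0 + ∫ s in (0 : ℝ)..t, (fun _ => (0 : ℝ)) s := by
    apply posPart_le_init ht0 (-c.toReal) iq (by simp)
    refine Filter.Eventually.of_forall fun s hs => ⟨fun hpos => ?_, fun _ => le_rfl⟩
    have hsT : s ∈ Icc (0 : ℝ) T := ⟨hs.1.le, hs.2.trans ht.2⟩
    have hlt : ¬ (∫⁻ u in Ioc 0 s, N u ≤ c + ∫⁻ u in Ioc 0 s, P u) := by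
      rw [← hle s hs.1.le hs.2]
      exact not_le.mpr hpos
    have hφ0 : φ s = 0 := by
      rw [h s hsT]
      exact tsub_eq_zero_of_le (not_le.mp hlt).le
    simp only [hq, hN s hsT hφ0, ENNReal.toReal_zero, zero_sub]
    exact neg_nonpos.mpr ENNReal.toReal_nonneg
  have hfin : -c.toReal + ∫ u in (0 : ℝ)..t, q u ≤ 0 := by
    have h1 : max (-c.toReal) 0 = 0 := max_eq_right (neg_nonpos.mpr ENNReal.toReal_nonneg)
    rw [h1] at hmain
    simp only [intervalIntegral.integral_zero, add_zero] at hmain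
    exact le_trans (le_max_left _ _) hmain
  rw [h t ht]
  exact tsub_add_cancel_of_le ((hle t ht0 le_rfl).mp hfin)

end Vale.Agent.Lib.P140
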