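import Mathlib

/-!
# A fixed point theorem for mixed-monotone operators on `[0,∞]`-valued functions (Kaniel-Shinbrot)
-/

namespace Vale.Agent.Lib.P140

open scoped ENNReal

/-- The Kaniel-Shinbrot iteration: pairs `(u_n, l_n)`. -/
noncomputable def ksIter {ι : Type*} (W : ι → ℝ≥0∞) (A : ℝ≥0∞)
    (Φ : (ι → ℝ≥0∞) → (ι → ℝ≥0∞) → ι → ℝ≥0∞) : ℕ → (ι → ℝ≥0∞) × (ι → ℝ≥0∞)
  | 0 => (fun p => A * W p, fun _ => 0)
  | n + 1 => (Φ (ksIter W A Φ n).1 (ksIter W A Φ n).2, Φ (ksIter W A Φ n).2 (ksIter W A Φ n).1)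

theorem le_of_forall_le_add_geom (x y A w : ℝ≥0∞) (hA : A ≠ ∞) (hw : w ≠ ∞)
    (h : ∀ n : ℕ, x ≤ y + A * (2⁻¹ : ℝ≥0∞) ^ n * w) : x ≤ y := by
  have h1 : Filter.Tendsto (fun n : ℕ => (2⁻¹ : ℝ≥0∞) ^ n) Filter.atTop (nhds 0) :=
    ENNReal.tendsto_pow_atTop_nhds_zero_of_lt_one (by
      rw [ENNReal.inv_lt_one]; exact ENNReal.one_lt_two)
  have h2 : Filter.Tendsto (fun n : ℕ => A * (2⁻¹ : ℝ≥0∞) ^ n) Filter.atTop (nhds (A * 0)) :=
    ENNReal.Tendsto.const_mul h1 (Or.inr hA)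
  have h3 : Filter.Tendsto (fun n : ℕ => A * (2⁻¹ : ℝ≥0∞) ^ n * w) Filter.atTop
      (nhds (A * 0 * w)) :=
    ENNReal.Tendsto.mul_const h2 (Or.inr hw)
  have h4 : Filter.Tendsto (fun n : ℕ => y + A * (2⁻¹ : ℝ≥0∞) ^ n * w) Filter.atTop
      (nhds (y + A * 0 * w)) := tendsto_const_nhds.add h3
  have h5 := ge_of_tendsto' h4 h
  simpa using h5

/-- `Φ a b` is increasing in `a`, decreasing in `b` (on the set `S`), maps `{a ≤ A W}` into itself
and halves the weighted gap between an upper and a lower function.  Then the Kaniel-Shinbrot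
iteration `u_{n+1} = Φ u_n l_n`, `l_{n+1} = Φ l_n u_n`, `u_0 = A W`, `l_0 = 0` converges to a fixed
point `f = Φ f f` on `S`.  `P` is a property (measurability) preserved by all operations. -/
theorem mixed_monotone_fixed_point {ι : Type*} (S : Set ι) (W : ι → ℝ≥0∞)
    (hW : ∀ p ∈ S, W p ≠ ∞) (A : ℝ≥0∞) (hA : A ≠ ∞)
    (Φ : (ι → ℝ≥0∞) → (ι → ℝ≥0∞) → ι → ℝ≥0∞) (P : (ι → ℝ≥0∞) → Prop)
    (P0 : P fun _ => 0) (PW : P fun p => A * W p)
    (PΦ : ∀ a b, P a → P b → P (Φ a b))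
    (Pinf : ∀ u : ℕ → ι → ℝ≥0∞, (∀ n, P (u n)) → P fun p => ⨅ n, u n p)
    (mono : ∀ a a' b b', P a → P a' → P b → P b' → (∀ p ∈ S, a p ≤ a' p) →
      (∀ p ∈ S, b' p ≤ b p) → ∀ p ∈ S, Φ a b p ≤ Φ a' b' p)
    (bound : ∀ a b, P a → P b → (∀ p ∈ S, a p ≤ A * W p) → ∀ p ∈ S, Φ a b p ≤ A * W p)
    (contr : ∀ (u l : ι → ℝ≥0∞) (δ : ℝ≥0∞), P u → P l → (∀ p ∈ S, l p ≤ u p) →
      (∀ p ∈ S, u p ≤ A * W p) → (∀ p ∈ S, u p ≤ l p + δ * W p) →
      ∀ p ∈ S, Φ u l p ≤ Φ l u p + δ / 2 * W p) :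
    ∃ f : ι → ℝ≥0∞, P f ∧ (∀ p ∈ S, f p ≤ A * W p) ∧ ∀ p ∈ S, Φ f f p = f p := by
  set u : ℕ → ι → ℝ≥0∞ := fun n => (ksIter W A Φ n).1 with hu
  set l : ℕ → ι → ℝ≥0∞ := fun n => (ksIter W A Φ n).2 with hl
  have u0 : u 0 = fun p => A * W p := rfl
  have l0 : l 0 = fun _ => 0 := rfl
  have us : ∀ n, u (n + 1) = Φ (u n) (l n) := fun n => rfl
  have ls : ∀ n, l (n + 1) = Φ (l n) (u n) := fun n => rfl
  clear_value u l
  -- the property `P`
  have hP : ∀ n, P (u n) ∧ P (l n) := by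
    intro n
    induction n with
    | zero => rw [u0, l0]; exact ⟨PW, P0⟩
    | succ n ih => rw [us, ls]; exact ⟨PΦ _ _ ih.1 ih.2, PΦ _ _ ih.2 ih.1⟩
  have Pu : ∀ n, P (u n) := fun n => (hP n).1
  have Pl : ∀ n, P (l n) := fun n => (hP n).2
  -- the chain of inequalities
  have chain : ∀ n, (∀ p ∈ S, l n p ≤ l (n + 1) p) ∧ (∀ p ∈ S, l (n + 1) p ≤ u (n + 1) p) ∧
      (∀ p ∈ S, u (n + 1) p ≤ u n p) := by
    intro n
    induction n with
    | zero =>
      have h00 : ∀ p ∈ S, l 0 p ≤ u 0 p := by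
        intro p _; rw [l0]; exact zero_le
      refine ⟨?_, ?_, ?_⟩
      · intro p _; rw [l0]; exact zero_le
      · rw [us, ls]
        exact mono _ _ _ _ (Pl 0) (Pu 0) (Pu 0) (Pl 0) h00 h00
      · intro p hp
        rw [us]
        have := bound (u 0) (l 0) (Pu 0) (Pl 0) (by intro q _; rw [u0]) p hp
        rw [u0]; rw [u0] at this; exact this
    | succ n ih =>
      obtain ⟨h1, h2, h3⟩ := ih
      refine ⟨?_, ?_, ?_⟩
      · intro p hp
        have := mono _ _ _ _ (Pl n) (Pl (n + 1)) (Pu n) (Pu (n + 1)) h1 h3 p hp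
        rw [← ls n, ← ls (n + 1)] at this
        exact this
      · rw [us (n + 1), ls (n + 1)]
        exact mono _ _ _ _ (Pl (n + 1)) (Pu (n + 1)) (Pu (n + 1)) (Pl (n + 1)) h2 h2
      · intro p hp
        have := mono _ _ _ _ (Pu (n + 1)) (Pu n) (Pl (n + 1)) (Pl n) h3 h1 p hp
        rw [← us n, ← us (n + 1)] at this
        exact this
  have lu : ∀ n, ∀ p ∈ S, l n p ≤ u n p := by
    intro n
    cases n with
    | zero => intro p _; rw [l0]; exact zero_le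
    | succ n => exact (chain n).2.1
  have uanti : ∀ p ∈ S, Antitone fun n => u n p := fun p hp =>
    antitone_nat_of_succ_le fun n => (chain n).2.2 p hp
  have lmono : ∀ p ∈ S, Monotone fun n => l n p := fun p hp =>
    monotone_nat_of_le_succ fun n => (chain n).1 p hp
  have uA : ∀ n, ∀ p ∈ S, u n p ≤ A * W p := by
    intro n p hp
    have := uanti p hp (Nat.zero_le n)
    simp only at this
    rw [u0] at this
    exact this
  -- the gap
  have gap : ∀ n, ∀ p ∈ S, u n p ≤ l n p + A * (2⁻¹ : ℝ≥0∞) ^ n * W p := by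
    intro n
    induction n with
    | zero => intro p _; rw [u0, l0]; simp
    | succ n ih =>
      intro p hp
      have := contr (u n) (l n) _ (Pu n) (Pl n) (lu n) (uA n) ih p hp
      rw [us, ls]
      rw [div_eq_mul_inv, mul_assoc A, ← pow_succ] at this
      exact this
  -- the fixed point
  refine ⟨fun p => ⨅ n, u n p, Pinf u Pu, ?_, ?_⟩
  · intro p hp
    exact (iInf_le _ 0).trans (uA 0 p hp)
  · set f : ι → ℝ≥0∞ := fun p => ⨅ n, u n p with hf
    have Pf : P f := Pinf u Pu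
    have fu : ∀ n, ∀ p ∈ S, f p ≤ u n p := fun n p _ => iInf_le _ n
    have lf : ∀ n, ∀ p ∈ S, l n p ≤ f p := by
      intro n p hp
      refine le_iInf fun m => ?_
      calc l n p ≤ l (max n m) p := lmono p hp (le_max_left _ _)
        _ ≤ u (max n m) p := lu _ p hp
        _ ≤ u m p := uanti p hp (le_max_right _ _)
    have up : ∀ n, ∀ p ∈ S, Φ f f p ≤ u (n + 1) p := by
      intro n
      rw [us]
      exact mono _ _ _ _ Pf (Pu n) Pf (Pl n) (fu n) (lf n)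
    have low : ∀ n, ∀ p ∈ S, l (n + 1) p ≤ Φ f f p := by
      intro n
      rw [ls]
      exact mono _ _ _ _ (Pl n) Pf (Pu n) Pf (lf n) (fu n)
    intro p hp
    apply le_antisymm
    · refine le_iInf fun m => ?_
      exact (up m p hp).trans (uanti p hp (Nat.le_succ m))
    · apply le_of_forall_le_add_geom (f p) (Φ f f p) A (W p) hA (hW p hp)
      intro n
      cases n with
      | zero =>
        calc f p ≤ u 0 p := fu 0 p hp
          _ ≤ A * W p := uA 0 p hp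
          _ ≤ Φ f f p + A * (2⁻¹ : ℝ≥0∞) ^ 0 * W p := by simp
      | succ n =>
        calc f p ≤ u (n + 1) p := fu _ p hp
          _ ≤ l (n + 1) p + A * (2⁻¹ : ℝ≥0∞) ^ (n + 1) * W p := gap _ p hp
          _ ≤ Φ f f p + A * (2⁻¹ : ℝ≥0∞) ^ (n + 1) * W p := by
            gcongr
            exact low n p hp

end Vale.Agent.Lib.P140
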