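import Mathlib
import Vale.Agent.Lib.P140.Defs
import Vale.Agent.Lib.P140.Collision

/-!
# Global Maxwellians are stationary mild solutions with bounded third moment
-/

namespace Vale.Agent.Lib.P140

open MeasureTheory
open scoped ENNReal RealInnerProductSpace

/-! ### Gaussian moments -/

lemma integrable_gauss (b : ℝ) (hb : 0 < b) (u : V) :
    Integrable (fun v : V => Real.exp (-(b * ‖v - u‖ ^ 2))) := by
  have h := GaussianFourier.integrable_cexp_neg_mul_sq_norm_add (V := V) (b := (b : ℂ))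
    (by simpa using hb) 0 0
  have h2 : Integrable (fun v : V => Real.exp (-(b * ‖v‖ ^ 2))) := by
    have h3 := h.norm
    refine h3.congr (Filter.Eventually.of_forall fun v => ?_)
    simp only [Complex.norm_exp]
    congr 1
    simp [← Complex.ofReal_pow, ← Complex.ofReal_mul]
  exact h2.comp_sub_right u

lemma cube_le_exp (c θ r : ℝ) (hc : 0 ≤ c) (hθ : 0 < θ) (hr : 0 ≤ r) :
    (c + r) ^ 3 ≤ (c + 1) ^ 3 * (1 + 32 * θ ^ 2) * Real.exp (r ^ 2 / (4 * θ)) := by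
  set t := r ^ 2 / (4 * θ) with ht
  have ht0 : 0 ≤ t := by positivity
  have h1 : 1 + t + t ^ 2 / 2 ≤ Real.exp t := Real.quadratic_le_exp_of_nonneg ht0
  have h2 : r ^ 4 = 16 * θ ^ 2 * t ^ 2 := by
    rw [ht]
    field_simp
    ring
  have h3 : 1 + r ^ 4 ≤ (1 + 32 * θ ^ 2) * Real.exp t := by
    have h4 : 1 ≤ Real.exp t := by linarith [sq_nonneg t]
    have h5 : t ^ 2 / 2 ≤ Real.exp t := by linarith
    have h6 : 0 ≤ θ ^ 2 := sq_nonneg θ
    nlinarith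
  have h7 : (c + r) ^ 3 ≤ (c + 1) ^ 3 * (1 + r ^ 4) := by
    rcases le_total r 1 with h | h
    · have e1 : (c + r) ^ 3 ≤ (c + 1) ^ 3 := by gcongr
      have e2 : (0 : ℝ) ≤ (c + 1) ^ 3 := by positivity
      have e3 : (0 : ℝ) ≤ r ^ 4 := by positivity
      nlinarith
    · have e1 : c + r ≤ (c + 1) * r := by nlinarith
      have e2 : (c + r) ^ 3 ≤ ((c + 1) * r) ^ 3 := by gcongr
      have e3 : r ^ 3 ≤ r ^ 4 := by
        have : (0 : ℝ) ≤ r ^ 3 := by positivity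
        nlinarith
      have e4 : (0 : ℝ) ≤ (c + 1) ^ 3 := by positivity
      rw [mul_pow] at e2
      nlinarith
  have h8 : (0 : ℝ) ≤ (c + 1) ^ 3 := by positivity
  calc (c + r) ^ 3 ≤ (c + 1) ^ 3 * (1 + r ^ 4) := h7
    _ ≤ (c + 1) ^ 3 * ((1 + 32 * θ ^ 2) * Real.exp t) := by gcongr
    _ = (c + 1) ^ 3 * (1 + 32 * θ ^ 2) * Real.exp t := by ring

lemma integrable_moment (ρ θ : ℝ) (u : V) (hρ : 0 ≤ ρ) (hθ : 0 < θ) :
    Integrable (fun v : V => (1 + ‖v‖) ^ 3 * (ρ * Real.exp (-(‖v - u‖ ^ 2) / (2 * θ)))) := by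
  have hb : 0 < 1 / (4 * θ) := by positivity
  have h1 := (integrable_gauss (1 / (4 * θ)) hb u).const_mul
    ((1 + ‖u‖ + 1) ^ 3 * (1 + 32 * θ ^ 2) * ρ)
  refine h1.mono' ?_ (Filter.Eventually.of_forall fun v => ?_)
  · apply Continuous.aestronglyMeasurable
    fun_prop
  · have hn : 0 ≤ (1 + ‖v‖) ^ 3 * (ρ * Real.exp (-(‖v - u‖ ^ 2) / (2 * θ))) := by positivity
    rw [Real.norm_of_nonneg hn]
    set r := ‖v - u‖ with hr
    have hr0 : 0 ≤ r := norm_nonneg _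
    have h2 : 1 + ‖v‖ ≤ 1 + ‖u‖ + r := by
      have : ‖v‖ ≤ ‖v - u‖ + ‖u‖ := by
        have := norm_add_le (v - u) u
        simpa using this
      linarith
    have h3 : (1 + ‖v‖) ^ 3 ≤ (1 + ‖u‖ + r) ^ 3 := by gcongr
    have h4 := cube_le_exp (1 + ‖u‖) θ r (by positivity) hθ hr0
    have h5 : Real.exp (-(r ^ 2) / (2 * θ))
        = (Real.exp (r ^ 2 / (4 * θ)))⁻¹ * Real.exp (-(1 / (4 * θ) * r ^ 2)) := by
      rw [← Real.exp_neg, ← Real.exp_add]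
      congr 1
      field_simp
      ring
    have h6 : 0 < Real.exp (r ^ 2 / (4 * θ)) := Real.exp_pos _
    have h7 : 0 ≤ Real.exp (-(1 / (4 * θ) * r ^ 2)) := (Real.exp_pos _).le
    rw [h5]
    calc (1 + ‖v‖) ^ 3 * (ρ * ((Real.exp (r ^ 2 / (4 * θ)))⁻¹ * Real.exp (-(1 / (4 * θ) * r ^ 2))))
        ≤ ((1 + ‖u‖ + 1) ^ 3 * (1 + 32 * θ ^ 2) * Real.exp (r ^ 2 / (4 * θ)))
          * (ρ * ((Real.exp (r ^ 2 / (4 * θ)))⁻¹ * Real.exp (-(1 / (4 * θ) * r ^ 2)))) := by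
          gcongr
          exact h3.trans h4
      _ = (1 + ‖u‖ + 1) ^ 3 * (1 + 32 * θ ^ 2) * ρ * Real.exp (-(1 / (4 * θ) * r ^ 2)) := by
          field_simp

lemma thirdMoment_maxw_lt_top (ρ θ : ℝ) (u : V) (hρ : 0 ≤ ρ) (hθ : 0 < θ) (x : Torus) :
    thirdMoment (maxw ρ θ u) x < ∞ := by
  have h := (integrable_moment ρ θ u hρ hθ).lintegral_lt_top
  have e : thirdMoment (maxw ρ θ u) x
      = ∫⁻ v : V, ENNReal.ofReal ((1 + ‖v‖) ^ 3 * (ρ * Real.exp (-(‖v - u‖ ^ 2) / (2 * θ)))) := by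
    unfold thirdMoment maxw
    refine lintegral_congr fun v => ?_
    exact (ENNReal.ofReal_mul (by positivity)).symm
  rw [e]
  exact h

theorem maxw_thirdMoment (ρ θ : ℝ) (u : V) (hρ : 0 ≤ ρ) (hθ : 0 < θ) :
    ∃ K : ℝ≥0∞, K < ∞ ∧ ∀ x : Torus, thirdMoment (maxw ρ θ u) x ≤ K :=
  ⟨thirdMoment (maxw ρ θ u) 0, thirdMoment_maxw_lt_top ρ θ u hρ hθ 0, fun _ => le_rfl⟩

/-! ### Gain equals loss -/

lemma vPrime_sub (v vs ω u : V) : vPrime v vs ω - u = vPrime (v - u) (vs - u) ω := by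
  unfold vPrime collA
  rw [sub_sub_sub_cancel_right]
  abel

lemma vsPrime_sub (v vs ω u : V) : vsPrime v vs ω - u = vsPrime (v - u) (vs - u) ω := by
  unfold vsPrime collA
  rw [sub_sub_sub_cancel_right]
  abel

lemma maxw_prime (ρ θ : ℝ) (u : V) (hρ : 0 ≤ ρ) (x : Torus) (v vs : V) {ω : V} (hω : ‖ω‖ = 1) :
    maxw ρ θ u (x, vPrime v vs ω) * maxw ρ θ u (x, vsPrime v vs ω)
      = maxw ρ θ u (x, v) * maxw ρ θ u (x, vs) := by
  unfold maxw
  simp only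
  rw [← ENNReal.ofReal_mul (mul_nonneg hρ (Real.exp_pos _).le),
    ← ENNReal.ofReal_mul (mul_nonneg hρ (Real.exp_pos _).le)]
  congr 1
  have h := energy_prime (v - u) (vs - u) hω
  rw [← vPrime_sub, ← vsPrime_sub] at h
  have e : ∀ a b : ℝ, ρ * Real.exp (-a / (2 * θ)) * (ρ * Real.exp (-b / (2 * θ)))
      = ρ * ρ * Real.exp (-(a + b) / (2 * θ)) := by
    intro a b
    have : -(a + b) / (2 * θ) = -a / (2 * θ) + -b / (2 * θ) := by ring
    rw [this, Real.exp_add]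
    ring
  rw [e, e, h]

lemma sph_norm' (ω : Sph) : ‖(ω : V)‖ = 1 := by
  simp

lemma gain_maxw (ρ θ : ℝ) (u : V) (hρ : 0 ≤ ρ) (z : Torus × V) :
    gain (maxw ρ θ u) z = loss (maxw ρ θ u) z := by
  unfold gain loss
  refine lintegral_congr fun vs => lintegral_congr fun ω => ?_
  rw [maxw_prime ρ θ u hρ z.1 z.2 vs (sph_norm' ω)]

lemma loss_maxw_lt_top (ρ θ : ℝ) (u : V) (hρ : 0 ≤ ρ) (hθ : 0 < θ) (z : Torus × V) :
    loss (maxw ρ θ u) z < ∞ := by
  set f := maxw ρ θ u with hf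
  set C : ℝ≥0∞ := ENNReal.ofReal (1 + ‖z.2‖) * f z * surf Set.univ with hC
  have hfz : f z ≠ ∞ := by
    rw [hf]
    unfold maxw
    exact ENNReal.ofReal_ne_top
  have hCtop : C ≠ ∞ :=
    ENNReal.mul_ne_top (ENNReal.mul_ne_top ENNReal.ofReal_ne_top hfz) (measure_ne_top _ _)
  have h1 : loss f z ≤ ∫⁻ vs : V, C * (ENNReal.ofReal ((1 + ‖vs‖) ^ 3) * f (z.1, vs)) := by
    unfold loss
    refine lintegral_mono fun vs => ?_
    calc ∫⁻ ω : Sph, ENNReal.ofReal |collA z.2 vs ω| * (f z * f (z.1, vs)) ∂surf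
        ≤ ∫⁻ _ω : Sph, (ENNReal.ofReal (1 + ‖z.2‖) * ENNReal.ofReal ((1 + ‖vs‖) ^ 3))
            * (f z * f (z.1, vs)) ∂surf := by
          refine lintegral_mono fun ω => ?_
          refine mul_le_mul' ?_ le_rfl
          rw [← ENNReal.ofReal_mul (by positivity)]
          apply ENNReal.ofReal_le_ofReal
          refine (abs_collA_le z.2 vs (sph_norm' ω)).trans ?_
          have h2 : 1 + ‖vs‖ ≤ (1 + ‖vs‖) ^ 3 := by
            have h3 : 1 ≤ 1 + ‖vs‖ := by linarith [norm_nonneg vs]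
            calc 1 + ‖vs‖ = (1 + ‖vs‖) ^ 1 := (pow_one _).symm
              _ ≤ (1 + ‖vs‖) ^ 3 := pow_le_pow_right₀ h3 (by norm_num)
          gcongr
      _ = (ENNReal.ofReal (1 + ‖z.2‖) * ENNReal.ofReal ((1 + ‖vs‖) ^ 3))
            * (f z * f (z.1, vs)) * surf Set.univ := lintegral_const _
      _ = C * (ENNReal.ofReal ((1 + ‖vs‖) ^ 3) * f (z.1, vs)) := by
          rw [hC]
          ring
  rw [lintegral_const_mul' _ _ hCtop] at h1
  refine h1.trans_lt ?_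
  exact ENNReal.mul_lt_top hCtop.lt_top (thirdMoment_maxw_lt_top ρ θ u hρ hθ z.1)

lemma loss_maxw_flow (ρ θ : ℝ) (u : V) (s : ℝ) (z : Torus × V) :
    loss (maxw ρ θ u) (flow s z) = loss (maxw ρ θ u) z := rfl

lemma measurable_maxw (ρ θ : ℝ) (u : V) : Measurable (maxw ρ θ u) := by
  unfold maxw
  apply ENNReal.measurable_ofReal.comp
  apply Continuous.measurable
  fun_prop

lemma lintegral_loss_maxw_lt_top (ρ θ : ℝ) (u : V) (hρ : 0 ≤ ρ) (hθ : 0 < θ) (T : ℝ)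
    (z : Torus × V) : ∫⁻ s in Set.Ioc 0 T, loss (maxw ρ θ u) (flow s z) < ∞ := by
  simp only [loss_maxw_flow]
  rw [setLIntegral_const]
  exact ENNReal.mul_lt_top (loss_maxw_lt_top ρ θ u hρ hθ z) (by simp)

theorem maxw_isMildSolution (ρ θ : ℝ) (u : V) (hρ : 0 ≤ ρ) (hθ : 0 < θ) :
    IsMildSolution (maxw ρ θ u) (fun _ => maxw ρ θ u) where
  meas := (measurable_maxw ρ θ u).comp measurable_snd
  gain_fin T := Filter.Eventually.of_forall fun z => by
    simp only [gain_maxw ρ θ u hρ]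
    exact lintegral_loss_maxw_lt_top ρ θ u hρ hθ T z
  loss_fin T := Filter.Eventually.of_forall fun z => lintegral_loss_maxw_lt_top ρ θ u hρ hθ T z
  eqn t _ := Filter.Eventually.of_forall fun z => by
    simp only [gain_maxw ρ θ u hρ]
    rfl

end Vale.Agent.Lib.P140
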