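import Mathlib
import Vale.Agent.Lib.P140.WeakId
import Vale.Agent.Lib.P140.Maxwellian

/-!
# Gaussian weights: bounds of the collision terms, time integral of the moving weight
-/

namespace Vale.Agent.Lib.P140

open MeasureTheory Set
open scoped ENNReal

/-- The Gaussian weight `exp(-b |v|^2)`. -/
noncomputable def gaussW (b : ℝ) (v : V) : ℝ≥0∞ := ENNReal.ofReal (Real.exp (-(b * ‖v‖ ^ 2)))

/-- The constant `|S^2| ∫ (1+|v|) exp(-b|v|^2) dv`. -/
noncomputable def cK (b : ℝ) : ℝ≥0∞ := surf Set.univ * ∫⁻ v, w1 v * gaussW b v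

lemma measurable_gaussW (b : ℝ) : Measurable (gaussW b) := by
  unfold gaussW
  apply ENNReal.measurable_ofReal.comp
  apply Continuous.measurable
  fun_prop

/-- joint measurability in `(b, v)`. -/
lemma measurable_gaussW2 : Measurable (fun q : ℝ × V => gaussW q.1 q.2) := by
  unfold gaussW
  apply ENNReal.measurable_ofReal.comp
  apply Continuous.measurable
  fun_prop

lemma gaussW_ne_top (b : ℝ) (v : V) : gaussW b v ≠ ∞ := ENNReal.ofReal_ne_top

lemma gaussW_anti {b b' : ℝ} (h : b ≤ b') (v : V) : gaussW b' v ≤ gaussW b v := by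
  unfold gaussW
  apply ENNReal.ofReal_le_ofReal
  apply Real.exp_le_exp.2
  have : 0 ≤ ‖v‖ ^ 2 := sq_nonneg _
  nlinarith

lemma gaussW_prime (b : ℝ) (v vs : V) (ω : Sph) :
    gaussW b (vPrime v vs ω) * gaussW b (vsPrime v vs ω) = gaussW b v * gaussW b vs := by
  unfold gaussW
  rw [← ENNReal.ofReal_mul (Real.exp_pos _).le, ← ENNReal.ofReal_mul (Real.exp_pos _).le,
    ← Real.exp_add, ← Real.exp_add]
  have h := energy_prime v vs (sph_norm ω)
  congr 2
  have e1 : -(b * ‖vPrime v vs ω‖ ^ 2) + -(b * ‖vsPrime v vs ω‖ ^ 2)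
      = -(b * (‖vPrime v vs ω‖ ^ 2 + ‖vsPrime v vs ω‖ ^ 2)) := by ring
  rw [e1, h]
  ring

lemma lintegral_w3_gaussW_lt_top {b : ℝ} (hb : 0 < b) : ∫⁻ v, w3 v * gaussW b v < ∞ := by
  have hθ : 0 < 1 / (2 * b) := by positivity
  have h := (integrable_moment 1 (1 / (2 * b)) 0 zero_le_one hθ).lintegral_lt_top
  have e : ∫⁻ v, w3 v * gaussW b v = ∫⁻ v : V, ENNReal.ofReal
      ((1 + ‖v‖) ^ 3 * (1 * Real.exp (-(‖v - 0‖ ^ 2) / (2 * (1 / (2 * b)))))) := by
    refine lintegral_congr fun v => ?_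
    unfold w3 gaussW
    rw [← ENNReal.ofReal_mul (by positivity)]
    congr 2
    rw [one_mul, sub_zero]
    congr 1
    field_simp
  rw [e]
  exact h

lemma cK_lt_top {b : ℝ} (hb : 0 < b) : cK b < ∞ := by
  unfold cK
  refine ENNReal.mul_lt_top (measure_lt_top _ _) ?_
  refine lt_of_le_of_lt ?_ (lintegral_w3_gaussW_lt_top hb)
  exact lintegral_mono fun v => mul_le_mul' (w1_le_w3 v) le_rfl

/-- integral of the majorant -/
lemma lintegral_majorant (c : ℝ≥0∞) (β1 : ℝ) :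
    ∫⁻ vs : V, ∫⁻ _ω : Sph, c * (w1 vs * gaussW β1 vs) ∂surf = c * cK β1 := by
  have h1 : ∀ vs : V, ∫⁻ _ω : Sph, c * (w1 vs * gaussW β1 vs) ∂surf
      = (c * surf Set.univ) * (w1 vs * gaussW β1 vs) := by
    intro vs
    rw [lintegral_const]
    ring
  simp only [h1]
  have hm : Measurable (fun vs : V => w1 vs * gaussW β1 vs) :=
    measurable_w1.mul (measurable_gaussW β1)
  rw [lintegral_const_mul _ hm]
  unfold cK
  ring

/-- `Q^+(a,b) ≤ A B c (1+|v|) exp(-β|v|^2)` if `a ≤ A exp(-β|v|^2)`, `b ≤ B exp(-β|v|^2)`. -/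
theorem gainV_le_gauss {a b : V → ℝ≥0∞} {A B : ℝ≥0∞} {β β1 : ℝ} (hβ : β1 ≤ β)
    (ha : ∀ v, a v ≤ A * gaussW β v) (hb : ∀ v, b v ≤ B * gaussW β v) (v : V) :
    gainV a b v ≤ A * B * cK β1 * (w1 v * gaussW β v) := by
  have h1 : gainV a b v ≤ ∫⁻ vs : V, ∫⁻ _ω : Sph,
      (A * B * (w1 v * gaussW β v)) * (w1 vs * gaussW β1 vs) ∂surf := by
    unfold gainV
    refine lintegral_mono fun vs => lintegral_mono fun ω => ?_
    calc ker (v, vs) ω * (a (vPrime v vs ω) * b (vsPrime v vs ω))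
        ≤ (w1 v * w1 vs) * ((A * gaussW β (vPrime v vs ω)) * (B * gaussW β (vsPrime v vs ω))) :=
          mul_le_mul' (ker_le (v, vs) ω) (mul_le_mul' (ha _) (hb _))
      _ = (w1 v * w1 vs) * (A * B * (gaussW β (vPrime v vs ω) * gaussW β (vsPrime v vs ω))) := by
          ring
      _ = (A * B * (w1 v * gaussW β v)) * (w1 vs * gaussW β vs) := by
          rw [gaussW_prime]; ring
      _ ≤ (A * B * (w1 v * gaussW β v)) * (w1 vs * gaussW β1 vs) :=
          mul_le_mul' le_rfl (mul_le_mul' le_rfl (gaussW_anti hβ vs))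
  refine h1.trans (le_of_eq ?_)
  rw [lintegral_majorant]
  ring

/-- `a L(b) ≤ A B c (1+|v|) exp(-β|v|^2)` under the same hypotheses. -/
theorem mul_freqV_le_gauss {a b : V → ℝ≥0∞} {A B : ℝ≥0∞} {β β1 : ℝ} (hβ : β1 ≤ β)
    (ha : ∀ v, a v ≤ A * gaussW β v) (hb : ∀ v, b v ≤ B * gaussW β v) (v : V) :
    a v * freqV b v ≤ A * B * cK β1 * (w1 v * gaussW β v) := by
  have h1 : freqV b v ≤ ∫⁻ vs : V, ∫⁻ _ω : Sph, (B * w1 v) * (w1 vs * gaussW β1 vs) ∂surf := by
    unfold freqV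
    refine lintegral_mono fun vs => lintegral_mono fun ω => ?_
    calc ker (v, vs) ω * b vs ≤ (w1 v * w1 vs) * (B * gaussW β vs) :=
          mul_le_mul' (ker_le (v, vs) ω) (hb _)
      _ = (B * w1 v) * (w1 vs * gaussW β vs) := by ring
      _ ≤ (B * w1 v) * (w1 vs * gaussW β1 vs) :=
          mul_le_mul' le_rfl (mul_le_mul' le_rfl (gaussW_anti hβ vs))
  rw [lintegral_majorant] at h1
  calc a v * freqV b v ≤ (A * gaussW β v) * (B * w1 v * cK β1) := mul_le_mul' (ha v) h1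
    _ = A * B * cK β1 * (w1 v * gaussW β v) := by ring

end Vale.Agent.Lib.P140
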