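import Mathlib
import Vale.Agent.Lib.P140.Gauss

/-!
# Time integral of the moving Gaussian weight
-/

namespace Vale.Agent.Lib.P140

open MeasureTheory Set
open scoped ENNReal

private lemma lintegral_aux {β0 κ T t r : ℝ} (hκ : 0 < κ) (ht0 : 0 ≤ t) (htT : t ≤ T) (hr : 0 ≤ r) :
    ∫⁻ s in Ioc 0 t, ENNReal.ofReal (1 + r) * ENNReal.ofReal (Real.exp (-((β0 - κ * s) * r ^ 2))) ≤
      ENNReal.ofReal (2 * T + 2 / κ) * ENNReal.ofReal (Real.exp (-((β0 - κ * t) * r ^ 2))) := by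
  set G : ℝ := Real.exp (-((β0 - κ * t) * r ^ 2)) with hG
  have hG0 : 0 < G := Real.exp_pos _
  -- the primitive
  have hder : ∀ s ∈ uIcc 0 t, HasDerivAt
      (fun s => 2 * G * s + 2 / κ * Real.exp (-((β0 - κ * s) * r ^ 2)))
      (2 * G + 2 * r ^ 2 * Real.exp (-((β0 - κ * s) * r ^ 2))) s := by
    intro s _
    have h1 : HasDerivAt (fun s => -((β0 - κ * s) * r ^ 2)) (κ * r ^ 2) s := by
      have h0 := ((((hasDerivAt_id s).const_mul κ).const_sub β0).mul_const (r ^ 2)).fun_neg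
      have e0 : -(-(κ * 1) * r ^ 2) = κ * r ^ 2 := by ring
      rw [e0] at h0
      exact h0
    have h2 := (h1.exp.const_mul (2 / κ))
    have h3 := ((hasDerivAt_id s).const_mul (2 * G)).add h2
    have e : 2 * G * 1 + 2 / κ * (Real.exp (-((β0 - κ * s) * r ^ 2)) * (κ * r ^ 2))
        = 2 * G + 2 * r ^ 2 * Real.exp (-((β0 - κ * s) * r ^ 2)) := by
      field_simp
    rw [e] at h3
    exact h3
  have hcont : Continuous (fun s => 2 * G + 2 * r ^ 2 * Real.exp (-((β0 - κ * s) * r ^ 2))) := by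
    fun_prop
  have hint := intervalIntegral.integral_eq_sub_of_hasDerivAt hder (hcont.intervalIntegrable 0 t)
  rw [intervalIntegral.integral_of_le ht0] at hint
  have hpt : ∀ s ∈ Ioc 0 t,
      ENNReal.ofReal (1 + r) * ENNReal.ofReal (Real.exp (-((β0 - κ * s) * r ^ 2)))
        ≤ ENNReal.ofReal (2 * G + 2 * r ^ 2 * Real.exp (-((β0 - κ * s) * r ^ 2))) := by
    intro s hs
    rw [← ENNReal.ofReal_mul (by positivity)]
    apply ENNReal.ofReal_le_ofReal
    have hE : Real.exp (-((β0 - κ * s) * r ^ 2)) ≤ G := by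
      apply Real.exp_le_exp.mpr
      have : κ * s * r ^ 2 ≤ κ * t * r ^ 2 := by
        have := hs.2
        gcongr
      nlinarith
    have hE0 : 0 < Real.exp (-((β0 - κ * s) * r ^ 2)) := Real.exp_pos _
    generalize Real.exp (-((β0 - κ * s) * r ^ 2)) = E at hE hE0
    have h1 : 1 + r ≤ 2 + 2 * r ^ 2 := by nlinarith [sq_nonneg (r - 1)]
    calc (1 + r) * E ≤ (2 + 2 * r ^ 2) * E := by gcongr
      _ = 2 * E + 2 * r ^ 2 * E := by ring
      _ ≤ 2 * G + 2 * r ^ 2 * E := by gcongr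
  calc ∫⁻ s in Ioc 0 t, ENNReal.ofReal (1 + r) * ENNReal.ofReal (Real.exp (-((β0 - κ * s) * r ^ 2)))
      ≤ ∫⁻ s in Ioc 0 t, ENNReal.ofReal (2 * G + 2 * r ^ 2 * Real.exp (-((β0 - κ * s) * r ^ 2))) :=
        setLIntegral_mono' measurableSet_Ioc hpt
    _ = ENNReal.ofReal (∫ s in Ioc 0 t, (2 * G + 2 * r ^ 2 * Real.exp (-((β0 - κ * s) * r ^ 2)))) := by
        rw [ofReal_integral_eq_lintegral_ofReal]
        · exact (hcont.integrableOn_Icc (a := 0) (b := t)).mono_set Ioc_subset_Icc_self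
        · exact Filter.Eventually.of_forall fun s => by positivity
    _ ≤ ENNReal.ofReal ((2 * T + 2 / κ) * G) := by
        apply ENNReal.ofReal_le_ofReal
        rw [hint]
        have h0 : 0 < Real.exp (-((β0 - κ * 0) * r ^ 2)) := Real.exp_pos _
        have h1 : 0 < 2 / κ := by positivity
        have h2 : 2 * G * t ≤ 2 * G * T := by gcongr
        have h3 : 0 < 2 / κ * Real.exp (-((β0 - κ * 0) * r ^ 2)) := by positivity
        rw [← hG]
        nlinarith
    _ = _ := by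
        rw [ENNReal.ofReal_mul]
        have : 0 ≤ T := ht0.trans htT
        positivity

/-- The loss of Gaussian decay absorbs the factor `1+|v|`:
`∫_0^t (1+|v|) exp(-(β0-κs)|v|^2) ds ≤ (2T + 2/κ) exp(-(β0-κt)|v|^2)` for `0 ≤ t ≤ T`. -/
theorem lintegral_w1_gaussW_le {β0 κ T t : ℝ} (hκ : 0 < κ) (ht0 : 0 ≤ t) (htT : t ≤ T) (v : V) :
    ∫⁻ s in Ioc 0 t, w1 v * gaussW (β0 - κ * s) v ≤
      ENNReal.ofReal (2 * T + 2 / κ) * gaussW (β0 - κ * t) v :=
  lintegral_aux hκ ht0 htT (norm_nonneg v)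

end Vale.Agent.Lib.P140
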