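import Mathlib
import Vale.Agent.Lib.P140.Gauss
import Vale.Agent.Lib.P140.GaussTime
import Vale.Agent.Lib.P140.BackInt
import Vale.Agent.Lib.P140.Pointwise

/-!
# The Kaniel-Shinbrot operator in a Gaussian-weighted class with moving weight
-/

namespace Vale.Agent.Lib.P140

open MeasureTheory Set
open scoped ENNReal

/-- `Φ(a,b)(t,y) = (F0(y - t v) + ∫_0^t Q^+(a,a) - ∫_0^t Q^-(b,b))_+`, the integrals being taken
along the backward characteristic. -/
noncomputable def ksOp (F0 : Torus × V → ℝ≥0∞) (a b : ℝ × (Torus × V) → ℝ≥0∞)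
    (p : ℝ × (Torus × V)) : ℝ≥0∞ :=
  F0 (flow (-p.1) p.2) + backInt (fun q => gain (fun z => a (q.1, z)) q.2) p -
    backInt (fun q => loss (fun z => b (q.1, z)) q.2) p

/-- The time slab `[0,T]`. -/
def ksS (T : ℝ) : Set (ℝ × (Torus × V)) := {p | p.1 ∈ Icc (0 : ℝ) T}

/-- The moving Gaussian weight `exp(-(β0 - κ t)|v|^2)`. -/
noncomputable def ksW (β0 κ : ℝ) (p : ℝ × (Torus × V)) : ℝ≥0∞ := gaussW (β0 - κ * p.1) p.2.2

/-- The small factor `2T + 2/κ`. -/
noncomputable def ksθ (κ T : ℝ) : ℝ≥0∞ := ENNReal.ofReal (2 * T + 2 / κ)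

lemma measurable_ksW (β0 κ : ℝ) : Measurable (ksW β0 κ) := by
  have h : Measurable (fun p : ℝ × (Torus × V) => ((β0 - κ * p.1, p.2.2) : ℝ × V)) :=
    (measurable_const.sub (measurable_const.mul measurable_fst)).prodMk measurable_snd.snd
  exact measurable_gaussW2.comp h

variable {F0 : Torus × V → ℝ≥0∞} {a a' b b' u l : ℝ × (Torus × V) → ℝ≥0∞}

lemma measurable_gain' (ha : Measurable a) :
    Measurable (fun q : ℝ × (Torus × V) => gain (fun z => a (q.1, z)) q.2) :=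
  measurable_gain (A := fun s z => a (s, z)) ha

lemma measurable_loss' (ha : Measurable a) :
    Measurable (fun q : ℝ × (Torus × V) => loss (fun z => a (q.1, z)) q.2) :=
  measurable_loss (A := fun s z => a (s, z)) ha

theorem measurable_ksOp (hF0 : Measurable F0) (ha : Measurable a) (hb : Measurable b) :
    Measurable (ksOp F0 a b) :=
  ((measurable_comp_flow_neg hF0).add (measurable_backInt (measurable_gain' ha))).sub
    (measurable_backInt (measurable_loss' hb))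

lemma gain_mono {f g : Torus × V → ℝ≥0∞} (h : ∀ z, f z ≤ g z) (z : Torus × V) :
    gain f z ≤ gain g z := by
  unfold gain
  refine lintegral_mono fun vs => lintegral_mono fun ω => ?_
  exact mul_le_mul_right (mul_le_mul' (h _) (h _)) _

lemma loss_mono {f g : Torus × V → ℝ≥0∞} (h : ∀ z, f z ≤ g z) (z : Torus × V) :
    loss f z ≤ loss g z := by
  unfold loss
  refine lintegral_mono fun vs => lintegral_mono fun ω => ?_
  exact mul_le_mul_right (mul_le_mul' (h _) (h _)) _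

lemma mem_ksS_of_mem_Ioc {T : ℝ} {p : ℝ × (Torus × V)} (hp : p ∈ ksS T) {s : ℝ}
    (hs : s ∈ Ioc 0 p.1) (y : Torus × V) : (s, y) ∈ ksS T :=
  ⟨hs.1.le, hs.2.trans hp.2⟩

theorem ksOp_mono {T : ℝ} (h1 : ∀ p ∈ ksS T, a p ≤ a' p) (h2 : ∀ p ∈ ksS T, b' p ≤ b p) :
    ∀ p ∈ ksS T, ksOp F0 a b p ≤ ksOp F0 a' b' p := by
  intro p hp
  unfold ksOp
  refine tsub_le_tsub (add_le_add le_rfl ?_) ?_
  · exact backInt_mono fun s hs y => gain_mono (fun z => h1 _ (mem_ksS_of_mem_Ioc hp hs z)) y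
  · exact backInt_mono fun s hs y => loss_mono (fun z => h2 _ (mem_ksS_of_mem_Ioc hp hs z)) y

section Bounds

variable {β0 κ T : ℝ} {A C0 δ : ℝ≥0∞}

lemma half_le_sub (hκ : 0 < κ) (hκT : κ * T ≤ β0 / 2) {p : ℝ × (Torus × V)} (hp : p ∈ ksS T) :
    β0 / 2 ≤ β0 - κ * p.1 := by
  have h1 : κ * p.1 ≤ κ * T := mul_le_mul_of_nonneg_left hp.2 hκ.le
  linarith

/-- Pointwise bound of the gain term in the weighted class. -/
theorem gain_le_ksW (hκ : 0 < κ) (hκT : κ * T ≤ β0 / 2)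
    (ha : ∀ p ∈ ksS T, a p ≤ A * ksW β0 κ p) :
    ∀ p ∈ ksS T, gain (fun z => a (p.1, z)) p.2 ≤
      A * A * cK (β0 / 2) * (w1 p.2.2 * ksW β0 κ p) := by
  rintro ⟨t, x, v⟩ hp
  have hb : ∀ w : V, a (t, (x, w)) ≤ A * gaussW (β0 - κ * t) w := fun w =>
    ha (t, (x, w)) hp
  have h := gainV_le_gauss (half_le_sub hκ hκT hp) hb hb v
  rw [gain_eq]
  exact h

/-- Pointwise bound of the loss term in the weighted class. -/
theorem loss_le_ksW (hκ : 0 < κ) (hκT : κ * T ≤ β0 / 2) (ma : Measurable a)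
    (ha : ∀ p ∈ ksS T, a p ≤ A * ksW β0 κ p) :
    ∀ p ∈ ksS T, loss (fun z => a (p.1, z)) p.2 ≤
      A * A * cK (β0 / 2) * (w1 p.2.2 * ksW β0 κ p) := by
  rintro ⟨t, x, v⟩ hp
  have hb : ∀ w : V, a (t, (x, w)) ≤ A * gaussW (β0 - κ * t) w := fun w =>
    ha (t, (x, w)) hp
  have h := mul_freqV_le_gauss (half_le_sub hκ hκT hp) hb hb v
  have hm : Measurable (fun z : Torus × V => a (t, z)) :=
    ma.comp (measurable_const.prodMk measurable_id)
  rw [loss_eq hm]
  exact h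

/-- Time integration along the backward characteristic of a bound `M (1+|v|) W`. -/
theorem backInt_le_ksW (hκ : 0 < κ) {B : ℝ × (Torus × V) → ℝ≥0∞} {M : ℝ≥0∞}
    (hB : ∀ p ∈ ksS T, B p ≤ M * (w1 p.2.2 * ksW β0 κ p)) :
    ∀ p ∈ ksS T, backInt B p ≤ M * ksθ κ T * ksW β0 κ p := by
  rintro ⟨t, x, v⟩ hp
  have hm : Measurable (fun s : ℝ => w1 v * gaussW (β0 - κ * s) v) := by
    have h : Measurable (fun s : ℝ => ((β0 - κ * s, v) : ℝ × V)) :=
      (measurable_const.sub (measurable_const.mul measurable_id)).prodMk measurable_const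
    exact measurable_const.mul (measurable_gaussW2.comp h)
  calc backInt B (t, (x, v))
      ≤ ∫⁻ s in Ioc 0 t, M * (w1 v * gaussW (β0 - κ * s) v) := by
        unfold backInt
        refine setLIntegral_mono' measurableSet_Ioc fun s hs => ?_
        exact hB (s, flow (s - t) (x, v)) (mem_ksS_of_mem_Ioc hp hs _)
    _ = M * ∫⁻ s in Ioc 0 t, w1 v * gaussW (β0 - κ * s) v := lintegral_const_mul _ hm
    _ ≤ M * (ENNReal.ofReal (2 * T + 2 / κ) * gaussW (β0 - κ * t) v) := by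
        gcongr
        exact lintegral_w1_gaussW_le hκ hp.1 hp.2 v
    _ = M * ksθ κ T * ksW β0 κ (t, (x, v)) := by
        rw [mul_assoc]
        rfl

theorem ksOp_bound (hκ : 0 < κ) (hκT : κ * T ≤ β0 / 2)
    (hF0 : ∀ z, F0 z ≤ C0 * gaussW β0 z.2)
    (hA : C0 + A * A * cK (β0 / 2) * ksθ κ T ≤ A)
    (ha : ∀ p ∈ ksS T, a p ≤ A * ksW β0 κ p) :
    ∀ p ∈ ksS T, ksOp F0 a b p ≤ A * ksW β0 κ p := by
  intro p hp
  have h1 : F0 (flow (-p.1) p.2) ≤ C0 * ksW β0 κ p := by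
    refine (hF0 _).trans ?_
    gcongr
    have h2 : β0 - κ * p.1 ≤ β0 := by
      have := mul_nonneg hκ.le hp.1
      linarith
    exact gaussW_anti h2 p.2.2
  have h3 := backInt_le_ksW (β0 := β0) hκ (gain_le_ksW hκ hκT ha) p hp
  calc ksOp F0 a b p
      ≤ F0 (flow (-p.1) p.2) + backInt (fun q => gain (fun z => a (q.1, z)) q.2) p := tsub_le_self
    _ ≤ C0 * ksW β0 κ p + A * A * cK (β0 / 2) * ksθ κ T * ksW β0 κ p := add_le_add h1 h3
    _ = (C0 + A * A * cK (β0 / 2) * ksθ κ T) * ksW β0 κ p := by rw [add_mul]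
    _ ≤ A * ksW β0 κ p := by gcongr

end Bounds

end Vale.Agent.Lib.P140
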