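import Mathlib
import Vale.Agent.Lib.P140.Scheme

/-!
# The contraction property of the Kaniel-Shinbrot operator
-/

namespace Vale.Agent.Lib.P140

open MeasureTheory Set
open scoped ENNReal

variable {F0 : Torus × V → ℝ≥0∞} {u l : ℝ × (Torus × V) → ℝ≥0∞} {β0 κ T : ℝ} {A δ : ℝ≥0∞}

lemma measurable_vslice {a : ℝ × (Torus × V) → ℝ≥0∞} (ha : Measurable a) (s : ℝ) (x : Torus) :
    Measurable (fun v : V => a (s, (x, v))) :=
  ha.comp (measurable_const.prodMk (measurable_const.prodMk measurable_id))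

lemma measurable_tslice {a : ℝ × (Torus × V) → ℝ≥0∞} (ha : Measurable a) (s : ℝ) :
    Measurable (fun z : Torus × V => a (s, z)) :=
  ha.comp (measurable_const.prodMk measurable_id)

lemma half_le_moving (hκ : 0 < κ) (hκT : κ * T ≤ β0 / 2) {s : ℝ} (hs : s ∈ Icc (0 : ℝ) T) :
    β0 / 2 ≤ β0 - κ * s := by
  have : κ * s ≤ κ * T := mul_le_mul_of_nonneg_left hs.2 hκ.le
  linarith

/-- `Q^+(u,u) ≤ Q^+(l,l) + 2 A δ c (1+|v|) W` on the slab. -/
theorem gain_contr (hκ : 0 < κ) (hκT : κ * T ≤ β0 / 2)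
    (mu : Measurable u) (ml : Measurable l)
    (huA : ∀ p ∈ ksS T, u p ≤ A * ksW β0 κ p)
    (hδ : ∀ p ∈ ksS T, u p ≤ l p + δ * ksW β0 κ p) :
    ∀ q ∈ ksS T, gain (fun z => u (q.1, z)) q.2 ≤ gain (fun z => l (q.1, z)) q.2 +
      2 * A * δ * cK (β0 / 2) * (w1 q.2.2 * ksW β0 κ q) := by
  rintro ⟨s, x, v⟩ hq
  have hs : s ∈ Icc (0 : ℝ) T := hq
  have hβ := half_le_moving hκ hκT hs
  have hu : ∀ w : V, u (s, (x, w)) ≤ A * gaussW (β0 - κ * s) w := fun w => huA (s, (x, w)) hs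
  have hd : ∀ w : V, u (s, (x, w)) - l (s, (x, w)) ≤ δ * gaussW (β0 - κ * s) w := fun w => by
    rw [tsub_le_iff_left]
    exact hδ (s, (x, w)) hs
  have h1 := gainV_le_add (measurable_vslice ml s x) (measurable_vslice mu s x) v
  have h2 := gainV_le_gauss hβ hu hd v
  have h3 := gainV_le_gauss hβ hd hu v
  show gain (fun z => u (s, z)) (x, v) ≤ gain (fun z => l (s, z)) (x, v) +
      2 * A * δ * cK (β0 / 2) * (w1 v * gaussW (β0 - κ * s) v)
  rw [gain_eq, gain_eq]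
  calc _ ≤ _ := h1
    _ ≤ gainV (fun w => l (s, (x, w))) (fun w => l (s, (x, w))) v +
          A * δ * cK (β0 / 2) * (w1 v * gaussW (β0 - κ * s) v) +
          δ * A * cK (β0 / 2) * (w1 v * gaussW (β0 - κ * s) v) := by gcongr
    _ = _ := by ring

/-- `u L(u) ≤ l L(l) + 2 A δ c (1+|v|) W` on the slab. -/
theorem loss_contr (hκ : 0 < κ) (hκT : κ * T ≤ β0 / 2)
    (mu : Measurable u) (ml : Measurable l) (hlu : ∀ p ∈ ksS T, l p ≤ u p)
    (huA : ∀ p ∈ ksS T, u p ≤ A * ksW β0 κ p)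
    (hδ : ∀ p ∈ ksS T, u p ≤ l p + δ * ksW β0 κ p) :
    ∀ q ∈ ksS T, loss (fun z => u (q.1, z)) q.2 ≤ loss (fun z => l (q.1, z)) q.2 +
      2 * A * δ * cK (β0 / 2) * (w1 q.2.2 * ksW β0 κ q) := by
  rintro ⟨s, x, v⟩ hq
  have hs : s ∈ Icc (0 : ℝ) T := hq
  have hβ := half_le_moving hκ hκT hs
  have hu : ∀ w : V, u (s, (x, w)) ≤ A * gaussW (β0 - κ * s) w := fun w => huA (s, (x, w)) hs
  have hl : ∀ w : V, l (s, (x, w)) ≤ A * gaussW (β0 - κ * s) w := fun w =>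
    (hlu (s, (x, w)) hs).trans (hu w)
  have hd : ∀ w : V, u (s, (x, w)) - l (s, (x, w)) ≤ δ * gaussW (β0 - κ * s) w := fun w => by
    rw [tsub_le_iff_left]
    exact hδ (s, (x, w)) hs
  have h1 := freqV_le_add (measurable_vslice mu s x) (measurable_vslice ml s x) v
  have h2 := mul_freqV_le_gauss hβ hl hd v
  have h3 := mul_freqV_le_gauss hβ hd hu v
  show loss (fun z => u (s, z)) (x, v) ≤ loss (fun z => l (s, z)) (x, v) +
      2 * A * δ * cK (β0 / 2) * (w1 v * gaussW (β0 - κ * s) v)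
  rw [loss_eq (measurable_tslice mu s), loss_eq (measurable_tslice ml s)]
  have e : u (s, (x, v)) = l (s, (x, v)) + (u (s, (x, v)) - l (s, (x, v))) :=
    (add_tsub_cancel_of_le (hlu (s, (x, v)) hs)).symm
  calc u (s, (x, v)) * freqV (fun w => u (s, (x, w))) v
      = l (s, (x, v)) * freqV (fun w => u (s, (x, w))) v +
          (u (s, (x, v)) - l (s, (x, v))) * freqV (fun w => u (s, (x, w))) v := by
        rw [← add_mul, ← e]
    _ ≤ l (s, (x, v)) * (freqV (fun w => l (s, (x, w))) v +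
            freqV (fun w => u (s, (x, w)) - l (s, (x, w))) v) +
          (u (s, (x, v)) - l (s, (x, v))) * freqV (fun w => u (s, (x, w))) v := by gcongr
    _ = l (s, (x, v)) * freqV (fun w => l (s, (x, w))) v +
          l (s, (x, v)) * freqV (fun w => u (s, (x, w)) - l (s, (x, w))) v +
          (u (s, (x, v)) - l (s, (x, v))) * freqV (fun w => u (s, (x, w))) v := by rw [mul_add]
    _ ≤ l (s, (x, v)) * freqV (fun w => l (s, (x, w))) v +
          A * δ * cK (β0 / 2) * (w1 v * gaussW (β0 - κ * s) v) +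
          δ * A * cK (β0 / 2) * (w1 v * gaussW (β0 - κ * s) v) := by gcongr
    _ = _ := by ring

/-- integrated comparison: if `B ≤ B' + M (1+|v|) W` on the slab then
`∫ B ≤ ∫ B' + M θ W` along backward characteristics. -/
theorem backInt_contr (hκ : 0 < κ) {B B' : ℝ × (Torus × V) → ℝ≥0∞} {M : ℝ≥0∞}
    (mB' : Measurable B')
    (h : ∀ q ∈ ksS T, B q ≤ B' q + M * (w1 q.2.2 * ksW β0 κ q)) :
    ∀ p ∈ ksS T, backInt B p ≤ backInt B' p + M * ksθ κ T * ksW β0 κ p := by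
  intro p hp
  have hp' : p.1 ∈ Icc (0 : ℝ) T := hp
  have h1 : backInt B p ≤ backInt (fun q => B' q + M * (w1 q.2.2 * ksW β0 κ q)) p := by
    apply backInt_mono
    intro s hs y
    exact h (s, y) ⟨hs.1.le, hs.2.trans hp'.2⟩
  rw [backInt_add mB'] at h1
  have h2 := backInt_le_ksW (β0 := β0) (T := T) hκ
    (B := fun q => M * (w1 q.2.2 * ksW β0 κ q)) (M := M) (fun q _ => le_rfl) p hp
  exact h1.trans (by gcongr)

/-- elementary inequality for truncated subtraction -/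
lemma tsub_contr {c a a' b b' e1 e2 : ℝ≥0∞} (ha : a ≤ a' + e1) (hb : b' ≤ b + e2) :
    c + a - b ≤ (c + a' - b') + (e1 + e2) := by
  rw [tsub_le_iff_right]
  calc c + a ≤ c + (a' + e1) := by gcongr
    _ = (c + a') + e1 := by ring
    _ ≤ ((c + a' - b') + b') + e1 := by
        have h0 : c + a' ≤ (c + a' - b') + b' := le_tsub_add
        gcongr
    _ ≤ ((c + a' - b') + (b + e2)) + e1 := by gcongr
    _ = (c + a' - b') + (e1 + e2) + b := by ring

theorem ksOp_contr (hκ : 0 < κ) (hκT : κ * T ≤ β0 / 2)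
    (hθ : 4 * A * cK (β0 / 2) * ksθ κ T ≤ 1 / 2)
    (mu : Measurable u) (ml : Measurable l) (hlu : ∀ p ∈ ksS T, l p ≤ u p)
    (huA : ∀ p ∈ ksS T, u p ≤ A * ksW β0 κ p)
    (hδ : ∀ p ∈ ksS T, u p ≤ l p + δ * ksW β0 κ p) :
    ∀ p ∈ ksS T, ksOp F0 u l p ≤ ksOp F0 l u p + δ / 2 * ksW β0 κ p := by
  intro p hp
  have hg := backInt_contr hκ (measurable_gain' ml) (gain_contr hκ hκT mu ml huA hδ) p hp
  have hl := backInt_contr hκ (measurable_loss' ml) (loss_contr hκ hκT mu ml hlu huA hδ) p hp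
  unfold ksOp
  refine (tsub_contr hg hl).trans ?_
  gcongr
  calc 2 * A * δ * cK (β0 / 2) * ksθ κ T * ksW β0 κ p +
        2 * A * δ * cK (β0 / 2) * ksθ κ T * ksW β0 κ p
      = δ * (4 * A * cK (β0 / 2) * ksθ κ T) * ksW β0 κ p := by ring
    _ ≤ δ * (1 / 2) * ksW β0 κ p := by gcongr
    _ = δ / 2 * ksW β0 κ p := by rw [mul_one_div]

end Vale.Agent.Lib.P140
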