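import Mathlib
import Vale.Agent.Lib.P140.SchemeContr
import Vale.Agent.Lib.P140.FixedPoint

/-!
# The fixed point of the Kaniel-Shinbrot operator; choice of the parameters
-/

namespace Vale.Agent.Lib.P140

open MeasureTheory Set
open scoped ENNReal

/-- The fixed point of the Kaniel-Shinbrot operator. -/
theorem exists_ks_fixed_point {F0 : Torus × V → ℝ≥0∞} {β0 κ T : ℝ} {A C0 : ℝ≥0∞}
    (hF0m : Measurable F0) (hκ : 0 < κ) (hκT : κ * T ≤ β0 / 2) (hAtop : A ≠ ∞)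
    (hF0 : ∀ z, F0 z ≤ C0 * gaussW β0 z.2)
    (hA : C0 + A * A * cK (β0 / 2) * ksθ κ T ≤ A)
    (hθ : 4 * A * cK (β0 / 2) * ksθ κ T ≤ 1 / 2) :
    ∃ f : ℝ × (Torus × V) → ℝ≥0∞, Measurable f ∧ (∀ p ∈ ksS T, f p ≤ A * ksW β0 κ p) ∧
      ∀ p ∈ ksS T, ksOp F0 f f p = f p :=
  mixed_monotone_fixed_point (ksS T) (ksW β0 κ) (fun _ _ => gaussW_ne_top _ _) A hAtop
    (ksOp F0) Measurable measurable_const ((measurable_ksW β0 κ).const_mul A)
    (fun _ _ ha hb => measurable_ksOp hF0m ha hb)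
    (fun _ hu => Measurable.iInf hu)
    (fun _ _ _ _ _ _ _ _ h1 h2 => ksOp_mono h1 h2)
    (fun _ _ _ _ ha => ksOp_bound hκ hκT hF0 hA ha)
    (fun _ _ _ mu ml hlu huA hδ => ksOp_contr hκ hκT hθ mu ml hlu huA hδ)

/-- The third-moment density of a function in the weighted class is bounded. -/
theorem thirdMoment_le_of_ksW {β0 κ T : ℝ} {A : ℝ≥0∞} (hκ : 0 < κ) (hκT : κ * T ≤ β0 / 2)
    {f : ℝ × (Torus × V) → ℝ≥0∞} (hf : ∀ p ∈ ksS T, f p ≤ A * ksW β0 κ p) :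
    ∀ t ∈ Icc (0 : ℝ) T, ∀ x : Torus,
      thirdMoment (fun z => f (t, z)) x ≤ A * ∫⁻ v, w3 v * gaussW (β0 / 2) v := by
  intro t ht x
  have hb : β0 / 2 ≤ β0 - κ * t := by
    have : κ * t ≤ κ * T := mul_le_mul_of_nonneg_left ht.2 hκ.le
    linarith
  have hmeas : Measurable (fun v : V => w3 v * gaussW (β0 / 2) v) :=
    measurable_w3.mul (measurable_gaussW _)
  rw [← lintegral_const_mul A hmeas]
  unfold thirdMoment
  apply lintegral_mono
  intro v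
  have h1 : f (t, (x, v)) ≤ A * gaussW (β0 - κ * t) v := hf (t, (x, v)) ht
  have h2 : gaussW (β0 - κ * t) v ≤ gaussW (β0 / 2) v := gaussW_anti hb v
  calc ENNReal.ofReal ((1 + ‖v‖) ^ 3) * f (t, (x, v))
      ≤ w3 v * (A * gaussW (β0 / 2) v) := by
        unfold w3
        gcongr
        exact h1.trans (by gcongr)
    _ = A * (w3 v * gaussW (β0 / 2) v) := by ring

/-- The choice of the parameters. -/
theorem exists_ks_params {β0 C : ℝ} (hβ0 : 0 < β0) (hC : 0 ≤ C) :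
    ∃ (κ T : ℝ) (A : ℝ≥0∞), 0 < κ ∧ 0 < T ∧ κ * T ≤ β0 / 2 ∧ A ≠ ∞ ∧
      ENNReal.ofReal C + A * A * cK (β0 / 2) * ksθ κ T ≤ A ∧
      4 * A * cK (β0 / 2) * ksθ κ T ≤ 1 / 2 := by
  obtain ⟨c, hc⟩ : ∃ c, c = cK (β0 / 2) := ⟨_, rfl⟩
  rw [← hc]
  have hc_top : c ≠ ∞ := by
    rw [hc]; exact (cK_lt_top (by positivity)).ne
  obtain ⟨A, hA⟩ : ∃ A : ℝ≥0∞, A = 2 * ENNReal.ofReal C := ⟨_, rfl⟩
  have hA_top : A ≠ ∞ := by
    rw [hA]; exact ENNReal.mul_ne_top (by simp) ENNReal.ofReal_ne_top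
  obtain ⟨m, hm⟩ : ∃ m : ℝ, m = (A * c).toReal := ⟨_, rfl⟩
  have hm0 : 0 ≤ m := by rw [hm]; exact ENNReal.toReal_nonneg
  have hAc : A * c = ENNReal.ofReal m := by
    rw [hm]; exact (ENNReal.ofReal_toReal (ENNReal.mul_ne_top hA_top hc_top)).symm
  obtain ⟨θr, hθr⟩ : ∃ θr : ℝ, θr = 1 / (8 * (m + 1)) := ⟨_, rfl⟩
  have hθr0 : 0 < θr := by rw [hθr]; positivity
  obtain ⟨κ, hκdef⟩ : ∃ κ : ℝ, κ = 4 / θr := ⟨_, rfl⟩
  have hκ : 0 < κ := by rw [hκdef]; positivity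
  obtain ⟨T, hTdef⟩ : ∃ T : ℝ, T = min (θr / 4) (β0 / (2 * κ)) := ⟨_, rfl⟩
  have hT : 0 < T := by rw [hTdef]; exact lt_min (by positivity) (by positivity)
  have hκT : κ * T ≤ β0 / 2 := by
    calc κ * T ≤ κ * (β0 / (2 * κ)) := by
          apply mul_le_mul_of_nonneg_left _ hκ.le
          rw [hTdef]; exact min_le_right _ _
      _ = β0 / 2 := by field_simp
  have hθ : ksθ κ T ≤ ENNReal.ofReal θr := by
    unfold ksθ
    apply ENNReal.ofReal_le_ofReal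
    have h1 : T ≤ θr / 4 := by rw [hTdef]; exact min_le_left _ _
    have h2 : 2 / κ = θr / 2 := by rw [hκdef]; field_simp; norm_num
    linarith
  have key : A * c * ksθ κ T ≤ 1 / 8 := by
    calc A * c * ksθ κ T ≤ ENNReal.ofReal m * ENNReal.ofReal θr := by rw [hAc]; gcongr
      _ = ENNReal.ofReal (m * θr) := (ENNReal.ofReal_mul hm0).symm
      _ ≤ ENNReal.ofReal (1 / 8) := by
          apply ENNReal.ofReal_le_ofReal
          rw [hθr, mul_one_div, div_le_iff₀ (by positivity)]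
          linarith
      _ = 1 / 8 := by
          rw [ENNReal.ofReal_div_of_pos (by norm_num)]; simp
  have n1 : (4 : ℝ≥0∞) * (1 / 8) = 1 / 2 := by
    rw [← ENNReal.toReal_eq_toReal_iff' (by finiteness) (by finiteness)]
    simp
    norm_num
  have n2 : (2 : ℝ≥0∞) * (1 / 8) ≤ 1 := by
    rw [← ENNReal.toReal_le_toReal (by finiteness) (by finiteness)]
    simp
    norm_num
  refine ⟨κ, T, A, hκ, hT, hκT, hA_top, ?_, ?_⟩
  · calc ENNReal.ofReal C + A * A * c * ksθ κ T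
        = ENNReal.ofReal C + A * (A * c * ksθ κ T) := by ring
      _ ≤ ENNReal.ofReal C + A * (1 / 8) := by gcongr
      _ ≤ ENNReal.ofReal C + ENNReal.ofReal C := by
          gcongr
          rw [hA]
          calc 2 * ENNReal.ofReal C * (1 / 8) = (2 * (1 / 8)) * ENNReal.ofReal C := by ring
            _ ≤ 1 * ENNReal.ofReal C := by gcongr
            _ = ENNReal.ofReal C := one_mul _
      _ = A := by rw [hA, two_mul]
  · calc 4 * A * c * ksθ κ T = 4 * (A * c * ksθ κ T) := by ring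
      _ ≤ 4 * (1 / 8) := by gcongr
      _ = 1 / 2 := n1

end Vale.Agent.Lib.P140
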