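import Mathlib
import Vale.Agent.Lib.P140.Scheme
import Vale.Agent.Lib.P140.Exact
import Vale.Agent.Lib.P140.Core

/-!
# A fixed point of the Kaniel-Shinbrot operator is a mild solution
-/

namespace Vale.Agent.Lib.P140

open MeasureTheory Set
open scoped ENNReal

/-- The loss term vanishes where the density does. -/
lemma loss_eq_zero_of_eq_zero {g : Torus × V → ℝ≥0∞} {z : Torus × V} (h : g z = 0) :
    loss g z = 0 := by
  simp [loss, h]

/-- Finiteness of the time integral, along a characteristic, of a quantity that is bounded by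
`M (1+|v|) W` on the slab. -/
lemma lintegral_along_lt_top {β0 κ T : ℝ} (hκ : 0 < κ) {B : ℝ × (Torus × V) → ℝ≥0∞} {M : ℝ≥0∞}
    (hM : M ≠ ∞) (hB : ∀ p ∈ ksS T, B p ≤ M * (w1 p.2.2 * ksW β0 κ p)) (z : Torus × V) :
    ∫⁻ s in Ioc 0 T, B (s, flow s z) < ∞ := by
  rcases lt_or_ge T 0 with hT | hT
  · rw [Ioc_eq_empty (by linarith), Measure.restrict_empty, lintegral_zero_measure]
    exact ENNReal.zero_lt_top
  · have hmem : ((T, flow T z) : ℝ × (Torus × V)) ∈ ksS T := ⟨hT, le_refl T⟩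
    have h := backInt_le_ksW hκ hB _ hmem
    rw [backInt_flow] at h
    refine lt_of_le_of_lt h ?_
    exact ENNReal.mul_lt_top (ENNReal.mul_lt_top hM.lt_top ENNReal.ofReal_lt_top)
      (gaussW_ne_top _ _).lt_top

/-- A fixed point of the Kaniel-Shinbrot operator in the weighted class is a mild solution. -/
theorem isMildOn_of_fixed_point {F0 : Torus × V → ℝ≥0∞} {β0 κ T : ℝ} {A C0 : ℝ≥0∞}
    (hβ0 : 0 < β0) (hκ : 0 < κ) (hκT : κ * T ≤ β0 / 2) (hAtop : A ≠ ∞) (hC0 : C0 ≠ ∞)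
    (hF0 : ∀ z, F0 z ≤ C0 * gaussW β0 z.2)
    {f : ℝ × (Torus × V) → ℝ≥0∞} (mf : Measurable f)
    (hf : ∀ p ∈ ksS T, f p ≤ A * ksW β0 κ p) (hfix : ∀ p ∈ ksS T, ksOp F0 f f p = f p) :
    IsMildOn T F0 (fun t z => f (t, z)) := by
  have hM : A * A * cK (β0 / 2) ≠ ∞ :=
    ENNReal.mul_ne_top (ENNReal.mul_ne_top hAtop hAtop) (cK_lt_top (by positivity)).ne
  have fP : ∀ z : Torus × V,
      ∫⁻ s in Ioc 0 T, gain (fun y => f (s, y)) (flow s z) < ∞ := fun z =>
    lintegral_along_lt_top (B := fun q => gain (fun y => f (q.1, y)) q.2) hκ hM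
      (gain_le_ksW hκ hκT hf) z
  have fN : ∀ z : Torus × V,
      ∫⁻ s in Ioc 0 T, loss (fun y => f (s, y)) (flow s z) < ∞ := fun z =>
    lintegral_along_lt_top (B := fun q => loss (fun y => f (q.1, y)) q.2) hκ hM
      (loss_le_ksW hκ hκT mf hf) z
  refine ⟨mf, Filter.Eventually.of_forall fP, Filter.Eventually.of_forall fN,
    Filter.Eventually.of_forall fun t ht => Filter.Eventually.of_forall fun z => ?_⟩
  have hc : F0 z < ∞ :=
    lt_of_le_of_lt (hF0 z) (ENNReal.mul_lt_top hC0.lt_top (gaussW_ne_top _ _).lt_top)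
  have mP : Measurable (fun s : ℝ => gain (fun y => f (s, y)) (flow s z)) :=
    measurable_along (measurable_gain' mf) z
  have mN : Measurable (fun s : ℝ => loss (fun y => f (s, y)) (flow s z)) :=
    measurable_along (measurable_loss' mf) z
  have h : ∀ t ∈ Icc (0 : ℝ) T, f (t, flow t z) =
      F0 z + (∫⁻ s in Ioc 0 t, gain (fun y => f (s, y)) (flow s z)) -
        ∫⁻ s in Ioc 0 t, loss (fun y => f (s, y)) (flow s z) := by
    intro t ht
    have h1 := hfix (t, flow t z) ht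
    rw [← h1]
    unfold ksOp
    rw [backInt_flow, backInt_flow]
    simp only [flow_flow, neg_add_cancel, flow_zero]
  have hN : ∀ s ∈ Icc (0 : ℝ) T, f (s, flow s z) = 0 →
      loss (fun y => f (s, y)) (flow s z) = 0 := fun s _ hs =>
    loss_eq_zero_of_eq_zero (g := fun y => f (s, y)) hs
  exact tsub_exact (φ := fun t => f (t, flow t z)) hc mP mN (fP z) (fN z) h hN t ⟨ht.1.le, ht.2⟩

end Vale.Agent.Lib.P140
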