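import Mathlib
import Vale.Agent.Lib.P140.KSFix
import Vale.Agent.Lib.P140.KSMild

/-!
# Local existence of mild solutions bounded by a Gaussian (Kaniel-Shinbrot)
-/

namespace Vale.Agent.Lib.P140

open MeasureTheory Set
open scoped ENNReal

/-- **Local existence (Kaniel-Shinbrot).**  For data bounded by `C exp(-β0 |v|^2)` there is, on a
time interval depending only on `C` and `β0`, a mild solution with bounded third-moment density. -/
theorem ks_exists {β0 C : ℝ} (hβ0 : 0 < β0) (hC : 0 ≤ C) :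
    ∃ T : ℝ, 0 < T ∧ ∃ K : ℝ≥0∞, K < ∞ ∧ ∀ F0 : Torus × V → ℝ≥0∞, Measurable F0 →
      (∀ z, F0 z ≤ ENNReal.ofReal C * gaussW β0 z.2) →
      ∃ g : ℝ → Torus × V → ℝ≥0∞, IsMildOn T F0 g ∧
        ∀ t ∈ Icc (0 : ℝ) T, ∀ x : Torus, thirdMoment (g t) x ≤ K := by
  obtain ⟨κ, T, A, hκ, hT, hκT, hAtop, hA, hθ⟩ := exists_ks_params hβ0 hC
  refine ⟨T, hT, A * ∫⁻ v, w3 v * gaussW (β0 / 2) v,
    ENNReal.mul_lt_top (lt_top_iff_ne_top.2 hAtop) (lintegral_w3_gaussW_lt_top (by linarith)), ?_⟩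
  intro F0 hF0m hF0
  obtain ⟨f, mf, hf, hfix⟩ := exists_ks_fixed_point hF0m hκ hκT hAtop hF0 hA hθ
  exact ⟨fun t z => f (t, z),
    isMildOn_of_fixed_point hβ0 hκ hκT hAtop ENNReal.ofReal_ne_top hF0 mf hf hfix,
    thirdMoment_le_of_ksW hκ hκT hf⟩

end Vale.Agent.Lib.P140
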