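import Mathlib
import Vale.Agent.Lib.P140.Defs

/-!
# Distributional solutions of the free transport equation on `[0,∞) × T^3 × R^3`
-/

namespace Vale.Agent.Lib.P140

open MeasureTheory

/-- Test functions: (restrictions to `t ≥ 0` of) smooth compactly supported functions on
`R × T^3 × R^3`.  Smoothness on the torus means smoothness of the pull-back to `R^3`. -/
structure IsTest (φ : ℝ × (Torus × V) → ℝ) : Prop where
  smooth : ContDiff ℝ ((⊤ : ℕ∞) : WithTop ℕ∞)
    (fun q : ℝ × (V × V) => φ (q.1, (proj q.2.1, q.2.2)))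
  supp : ∃ R : ℝ, ∀ (t : ℝ) (z : Torus × V), (R < |t| ∨ R < ‖z.2‖) → φ (t, z) = 0

/-- `(∂_t + v · ∇_x) φ`, written as the derivative of `φ` along the characteristic through
`(t, x, v)` (the chain rule). -/
noncomputable def transportDeriv (φ : ℝ × (Torus × V) → ℝ) (t : ℝ) (z : Torus × V) : ℝ :=
  deriv (fun s : ℝ => φ (t + s, flow s z)) 0

/-- `(∂_t + v · ∇_x) u = r` in distributions on `[0,∞) × T^3 × R^3` with initial value `u0`. -/
def WeakTransport (u0 : Torus × V → ℝ) (u r : ℝ → Torus × V → ℝ) : Prop :=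
  ∀ φ : ℝ × (Torus × V) → ℝ, IsTest φ →
    (∫ t in Set.Ioi (0 : ℝ), ∫ z, u t z * transportDeriv φ t z) + (∫ z, u0 z * φ (0, z)) +
      (∫ t in Set.Ioi (0 : ℝ), ∫ z, r t z * φ (t, z)) = 0

end Vale.Agent.Lib.P140
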