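import Mathlib
import Vale.Agent.Lib.P140.Defs
import Vale.Agent.Lib.P140.TransportDefs

/-!
# P140: renormalized solutions (the parts of the problem's definition used in the uniqueness proof)
-/

namespace Vale.Agent.Lib.P140

open MeasureTheory
open scoped ENNReal

/-- The normalised Maxwellian `M(v) = (2π)^{-3/2} exp(-|v|^2/2)`. -/
noncomputable def Mx (v : V) : ℝ := (2 * Real.pi) ^ (-(3 / 2 : ℝ)) * Real.exp (-(‖v‖ ^ 2) / 2)

/-- `G = F / M`, real valued. -/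
noncomputable def Gr (f : Torus × V → ℝ≥0∞) (z : Torus × V) : ℝ := (f z).toReal / Mx z.2

/-- `Q(F,F) = Q^+ - Q^-`, real valued. -/
noncomputable def Qr (f : Torus × V → ℝ≥0∞) (z : Torus × V) : ℝ :=
  (gain f z).toReal - (loss f z).toReal

/-- Admissible renormalisations: `β ∈ C^1([0,∞))`, `β(0) = 0`, `|β'(y)| ≤ C/(1+y)`. -/
structure IsRenormalizer (β : ℝ → ℝ) : Prop where
  c1 : ContDiffOn ℝ 1 β (Set.Ici 0)
  zero : β 0 = 0
  bound : ∃ C : ℝ, ∀ y : ℝ, 0 ≤ y → |derivWithin β (Set.Ici 0) y| ≤ C / (1 + y)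

/-- The renormalized equation `(∂_t + v·∇_x)(M β(G)) = β'(G) Q(F,F)` in distributions with initial
value `M β(F0/M)`. -/
def RenormEq (β : ℝ → ℝ) (F0 : Torus × V → ℝ≥0∞) (F : ℝ → Torus × V → ℝ≥0∞) : Prop :=
  WeakTransport (fun z => Mx z.2 * β (Gr F0 z)) (fun t z => Mx z.2 * β (Gr (F t) z))
    (fun t z => derivWithin β (Set.Ici 0) (Gr (F t) z) * Qr (F t) z)

/-- Test functions on `[0,∞) × T^3`. -/
structure IsTestX (φ : ℝ × Torus → ℝ) : Prop where
  smooth : ContDiff ℝ ((⊤ : ℕ∞) : WithTop ℕ∞) (fun q : ℝ × V => φ (q.1, proj q.2))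
  supp : ∃ R : ℝ, ∀ (t : ℝ) (x : Torus), R < |t| → φ (t, x) = 0

/-- The balance `B_1`: `∂_t ∫ F dv + ∇_x · ∫ v F dv = 0` in distributions on `[0,∞) × T^3` with
initial trace `∫ F0 dv`. -/
def MassBalance (F0 : Torus × V → ℝ≥0∞) (F : ℝ → Torus × V → ℝ≥0∞) : Prop :=
  ∀ φ : ℝ × Torus → ℝ, IsTestX φ →
    (∫ t in Set.Ioi (0 : ℝ), ∫ z : Torus × V,
      (F t z).toReal * transportDeriv (fun q => φ (q.1, q.2.1)) t z) +
      (∫ z : Torus × V, (F0 z).toReal * φ (0, z.1)) = 0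

/-- `F ∈ C_w([0,∞); L^1(Ω))`, against bounded measurable tests. -/
def WeaklyContinuous (F : ℝ → Torus × V → ℝ≥0∞) : Prop :=
  ∀ ψ : Torus × V → ℝ, Measurable ψ → (∃ C : ℝ, ∀ z, |ψ z| ≤ C) →
    ContinuousOn (fun t : ℝ => ∫ z, (F t z).toReal * ψ z) (Set.Ici 0)

/-- `Q/(1+G)` integrated over `(0,T] × Ω`, for `Q = Q^+` or `Q^-`. -/
noncomputable def renormInt (Q : (Torus × V → ℝ≥0∞) → Torus × V → ℝ≥0∞)
    (F : ℝ → Torus × V → ℝ≥0∞) (T : ℝ) : ℝ≥0∞ :=
  ∫⁻ t in Set.Ioc 0 T, ∫⁻ z : Torus × V, Q (F t) z / (1 + F t z / ENNReal.ofReal (Mx z.2))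

/-- The parts of the definition of a renormalized entropy solution with datum `F0` that are used:
from (i) measurability, weak continuity and the bound of mass and energy; all of (ii); from (iii)
the balance `B_1` and the energy inequality. -/
structure IsRenormalizedSolution (F0 : Torus × V → ℝ≥0∞) (F : ℝ → Torus × V → ℝ≥0∞) : Prop where
  meas : Measurable (Function.uncurry F)
  cont : WeaklyContinuous F
  bound : ∀ T : ℝ, ∃ C : ℝ≥0∞, C < ∞ ∧ ∀ t ∈ Set.Icc (0 : ℝ) T, mass (F t) + energy (F t) ≤ C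
  gain_int : ∀ T : ℝ, renormInt gain F T < ∞
  loss_int : ∀ T : ℝ, renormInt loss F T < ∞
  renorm : ∀ β : ℝ → ℝ, IsRenormalizer β → RenormEq β F0 F
  massBalance : MassBalance F0 F
  energy_le : ∀ t : ℝ, 0 ≤ t → energy (F t) ≤ energy F0

/-- Data: measurable, finite mass and energy. -/
structure IsDatum (F0 : Torus × V → ℝ≥0∞) : Prop where
  meas : Measurable F0
  mass_fin : mass F0 < ∞
  energy_fin : energy F0 < ∞

end Vale.Agent.Lib.P140
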