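import Mathlib
import Vale.Agent.Lib.P140.RenormDefs
import Vale.Agent.Lib.P140.DuBois
import Vale.Agent.Lib.P140.Flow

/-!
# The balance `B_1` implies conservation of the total mass at almost every time
-/

namespace Vale.Agent.Lib.P140

open MeasureTheory Set
open scoped ENNReal

/-- Test `B_1` with `φ(t,x) = a(t)` and use `dubois_reymond` with `R = 0`. -/
theorem mass_conserved {F0 : Torus × V → ℝ≥0∞} {F : ℝ → Torus × V → ℝ≥0∞}
    (hF0 : Measurable F0) (h0 : mass F0 < ∞) (hF : Measurable (Function.uncurry F))
    (hb : ∀ T : ℝ, ∃ C : ℝ≥0∞, C < ∞ ∧ ∀ t ∈ Icc (0 : ℝ) T, mass (F t) ≤ C)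
    (h : MassBalance F0 F) :
    ∀ᵐ t : ℝ, 0 < t → mass (F t) = mass F0 := by
  have hfin : ∀ t : ℝ, 0 ≤ t → mass (F t) < ∞ := by
    intro t ht
    obtain ⟨C, hC, hCb⟩ := hb t
    exact lt_of_le_of_lt (hCb t ⟨ht, le_rfl⟩) hC
  have hFt : ∀ t : ℝ, Measurable (F t) := fun t =>
    hF.comp (measurable_const.prodMk measurable_id)
  have hmm : Measurable (fun t : ℝ => mass (F t)) := by
    unfold mass
    exact hF.lintegral_prod_right'
  have hint : ∀ t : ℝ, 0 ≤ t → ∫ z, (F t z).toReal = (mass (F t)).toReal := by
    intro t ht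
    exact integral_toReal (hFt t).aemeasurable (ae_lt_top (hFt t) (hfin t ht).ne)
  have hint0 : ∫ z, (F0 z).toReal = (mass F0).toReal :=
    integral_toReal hF0.aemeasurable (ae_lt_top hF0 h0.ne)
  have hU : ∀ T : ℝ, IntegrableOn (fun t : ℝ => (mass (F t)).toReal) (Ioc 0 T) := by
    intro T
    obtain ⟨C, hC, hCb⟩ := hb T
    refine Measure.integrableOn_of_bounded (M := C.toReal) (by simp)
      hmm.ennreal_toReal.aestronglyMeasurable ?_
    refine (ae_restrict_iff' measurableSet_Ioc).2 (Filter.Eventually.of_forall fun t ht => ?_)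
    rw [Real.norm_eq_abs, abs_of_nonneg ENNReal.toReal_nonneg]
    exact ENNReal.toReal_mono hC.ne (hCb t ⟨ht.1.le, ht.2⟩)
  have hR : ∀ T : ℝ, IntegrableOn (fun _ : ℝ => (0 : ℝ)) (Ioc 0 T) := fun T => integrableOn_zero
  have key := dubois_reymond (U := fun t : ℝ => (mass (F t)).toReal) (R := fun _ => 0)
    (U0 := (mass F0).toReal) hU hR (by
      intro a ha hac
      have htest : IsTestX (fun q : ℝ × Torus => a q.1) := by
        refine ⟨ha.comp contDiff_fst, ?_⟩
        obtain ⟨M, hM⟩ := hac.isCompact.isBounded.subset_closedBall (0 : ℝ)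
        refine ⟨M, fun t _ ht => ?_⟩
        refine image_eq_zero_of_notMem_tsupport fun hmem => ?_
        have := hM hmem
        rw [Metric.mem_closedBall, Real.dist_eq, sub_zero] at this
        linarith
      have hh := h _ htest
      have e1 : ∫ t in Ioi (0 : ℝ), ∫ z : Torus × V,
          (F t z).toReal * transportDeriv (fun q => (fun q : ℝ × Torus => a q.1) (q.1, q.2.1)) t z =
          ∫ t in Ioi (0 : ℝ), (mass (F t)).toReal * deriv a t := by
        refine setIntegral_congr_fun measurableSet_Ioi fun t ht => ?_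
        have ht0 : (0 : ℝ) < t := ht
        have e2 : ∀ z : Torus × V,
            transportDeriv (fun q => (fun q : ℝ × Torus => a q.1) (q.1, q.2.1)) t z = deriv a t := by
          intro z
          unfold transportDeriv
          simp only
          rw [deriv_comp_const_add, add_zero]
        simp only [e2]
        rw [integral_mul_const, hint t ht0.le]
      have e3 : ∫ z : Torus × V, (F0 z).toReal * (fun q : ℝ × Torus => a q.1) (0, z.1) =
          (mass F0).toReal * a 0 := by
        simp only
        rw [integral_mul_const, hint0]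
      rw [e1, e3] at hh
      simp only [zero_mul, integral_zero, add_zero]
      exact hh)
  filter_upwards [key] with t ht ht0
  have := ht ht0
  simp only [intervalIntegral.integral_zero, add_zero] at this
  exact (ENNReal.toReal_eq_toReal_iff' (hfin t ht0.le).ne h0.ne).1 this

end Vale.Agent.Lib.P140
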