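import Mathlib
import Vale.Agent.Lib.P140.CharLemma

/-!
# From the logarithmic renormalisation to the mild form, along one characteristic
-/

namespace Vale.Agent.Lib.P140

open MeasureTheory Set
open scoped ENNReal NNReal

lemma ac_comp_lipschitzOn {f g : ℝ → ℝ} {a b : ℝ} {K : ℝ≥0} {s : Set ℝ}
    (hg : LipschitzOnWith K g s) (hfs : ∀ x ∈ uIcc a b, f x ∈ s)
    (hf : AbsolutelyContinuousOnInterval f a b) :
    AbsolutelyContinuousOnInterval (fun x => g (f x)) a b := by
  rw [absolutelyContinuousOnInterval_iff] at hf ⊢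
  intro ε hε
  obtain ⟨δ, hδ, h⟩ := hf (ε / (K + 1)) (by positivity)
  refine ⟨δ, hδ, fun E hE hsum => ?_⟩
  have h1 := h E hE hsum
  calc ∑ i ∈ Finset.range E.1, dist (g (f (E.2 i).1)) (g (f (E.2 i).2))
      ≤ ∑ i ∈ Finset.range E.1, K * dist (f (E.2 i).1) (f (E.2 i).2) := by
        apply Finset.sum_le_sum
        intro i hi
        exact hg.dist_le_mul _ (hfs _ (hE.1 i hi).1) _ (hfs _ (hE.1 i hi).2)
    _ = K * ∑ i ∈ Finset.range E.1, dist (f (E.2 i).1) (f (E.2 i).2) :=
        (Finset.mul_sum _ _ _).symm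
    _ ≤ K * (ε / (K + 1)) := by gcongr
    _ < (K + 1) * (ε / (K + 1)) := by gcongr; linarith
    _ = ε := by field_simp

lemma ac_exp {y : ℝ → ℝ} {a b : ℝ} (hy : AbsolutelyContinuousOnInterval y a b) :
    AbsolutelyContinuousOnInterval (fun x => Real.exp (y x)) a b := by
  obtain ⟨C, hC⟩ := hy.exists_bound
  have hcd : ContDiffOn ℝ 1 Real.exp (Icc (-C) C) := Real.contDiff_exp.contDiffOn
  obtain ⟨K, hK⟩ := hcd.exists_lipschitzOnWith (by decide) (convex_Icc _ _) isCompact_Icc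
  exact ac_comp_lipschitzOn hK (fun x hx => abs_le.1 (hC x hx)) hy

lemma exp_primitive {ρ σ D : ℝ → ℝ} {D0 M t : ℝ} (hD0 : 0 < D0) (ht : 0 ≤ t)
    (hρ : IntervalIntegrable ρ volume 0 t)
    (hD : ∀ᵐ s : ℝ, s ∈ Ioc 0 t → D s = Real.exp (Real.log D0 + M⁻¹ * ∫ u in (0 : ℝ)..s, ρ u))
    (hσ : ∀ᵐ s : ℝ, s ∈ Ioc 0 t → D s * ρ s = σ s) :
    Real.exp (Real.log D0 + M⁻¹ * ∫ u in (0 : ℝ)..t, ρ u) =
      D0 + M⁻¹ * ∫ s in (0 : ℝ)..t, σ s := by
  set y : ℝ → ℝ := fun s => Real.log D0 + M⁻¹ * ∫ u in (0 : ℝ)..s, ρ u with hy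
  have hYac : AbsolutelyContinuousOnInterval (fun s => ∫ u in (0 : ℝ)..s, ρ u) 0 t :=
    hρ.absolutelyContinuousOnInterval_intervalIntegral (by simp)
  have hyac : AbsolutelyContinuousOnInterval y 0 t := by
    have h1 := hYac.const_mul M⁻¹
    have h2 : AbsolutelyContinuousOnInterval (fun _ : ℝ => Real.log D0) 0 t :=
      contDiffOn_const.absolutelyContinuousOnInterval
    exact h2.add h1
  have hEac := ac_exp hyac
  have hftc := hEac.integral_deriv_eq_sub
  have hy0 : y 0 = Real.log D0 := by simp [hy]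
  simp only [hy0, Real.exp_log hD0] at hftc
  have hderiv : ∫ x in (0 : ℝ)..t, deriv (fun x => Real.exp (y x)) x =
      ∫ x in (0 : ℝ)..t, M⁻¹ * σ x := by
    apply intervalIntegral.integral_congr_ae
    filter_upwards [hD, hσ, hρ.ae_hasDerivAt_integral] with s h1 h2 h3 hs
    rw [uIoc_of_le ht] at hs
    have hmem' : s ∈ uIcc 0 t := by rw [uIcc_of_le ht]; exact ⟨hs.1.le, hs.2⟩
    have hY : HasDerivAt (fun s => ∫ u in (0 : ℝ)..s, ρ u) (ρ s) s := h3 hmem' 0 (by simp)
    have hyd : HasDerivAt y (M⁻¹ * ρ s) s := (hY.const_mul M⁻¹).const_add _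
    have := hyd.exp
    rw [this.deriv, ← h2 hs, h1 hs]
    ring
  rw [hderiv, intervalIntegral.integral_const_mul] at hftc
  linarith

/-- Along one characteristic: `φ` is the density, `P`, `N` the gain and loss terms, `M > 0` the
(constant) value of the Maxwellian, `c` the initial value.  If `P/(1+φ/M)` and `N/(1+φ/M)` are
locally integrable and `M log(1+φ/M)` solves the renormalised equation in integrated form, then
`P` and `N` are locally integrable and `φ` solves the mild equation. -/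
theorem mild_of_log {φ P N : ℝ → ℝ≥0∞} {c : ℝ≥0∞} {M : ℝ} (hM : 0 < M) (hc : c < ∞)
    (mφ : Measurable φ) (mP : Measurable P) (mN : Measurable N)
    (hφ : ∀ᵐ t : ℝ, 0 < t → φ t < ∞)
    (hP : ∀ T : ℝ, ∫⁻ t in Ioc 0 T, P t / (1 + φ t / ENNReal.ofReal M) < ∞)
    (hN : ∀ T : ℝ, ∫⁻ t in Ioc 0 T, N t / (1 + φ t / ENNReal.ofReal M) < ∞)
    (heq : ∀ᵐ t : ℝ, 0 < t → M * Real.log (1 + (φ t).toReal / M) =
      M * Real.log (1 + c.toReal / M) +
        ∫ s in (0 : ℝ)..t, (1 + (φ s).toReal / M)⁻¹ * ((P s).toReal - (N s).toReal)) :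
    (∀ T : ℝ, ∫⁻ t in Ioc 0 T, P t < ∞) ∧ (∀ T : ℝ, ∫⁻ t in Ioc 0 T, N t < ∞) ∧
      ∀ᵐ t : ℝ, 0 < t → φ t + ∫⁻ s in Ioc 0 t, N s = c + ∫⁻ s in Ioc 0 t, P s := by
  set Den : ℝ → ℝ≥0∞ := fun t => 1 + φ t / ENNReal.ofReal M with hDen
  set D : ℝ → ℝ := fun t => 1 + (φ t).toReal / M with hDdef
  set ρ : ℝ → ℝ := fun s => (D s)⁻¹ * ((P s).toReal - (N s).toReal) with hρdef
  set D0 : ℝ := 1 + c.toReal / M with hD0def
  have hD0 : 0 < D0 := by positivity
  have hDpos : ∀ s, 0 < D s := fun s => by positivity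
  have mDen : Measurable Den := measurable_const.add (mφ.div_const _)
  have mp : Measurable (fun t => P t / Den t) := mP.div mDen
  have mn : Measurable (fun t => N t / Den t) := mN.div mDen
  have factA : ∀ s, φ s < ∞ → Den s = ENNReal.ofReal (D s) := by
    intro s hs
    simp only [hDen, hDdef]
    rw [ENNReal.ofReal_add zero_le_one (by positivity), ENNReal.ofReal_one,
      ENNReal.ofReal_div_of_pos hM, ENNReal.ofReal_toReal hs.ne]
  have hDenne : ∀ s, Den s ≠ 0 := fun s => by simp [hDen]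
  have factB : ∀ (Q : ℝ → ℝ≥0∞) s, φ s < ∞ → (Q s / Den s).toReal = (D s)⁻¹ * (Q s).toReal := by
    intro Q s hs
    rw [ENNReal.toReal_div, factA s hs, ENNReal.toReal_ofReal (hDpos s).le, div_eq_inv_mul]
  have hρint : ∀ t, 0 ≤ t → IntervalIntegrable ρ volume 0 t := by
    intro t ht
    have i1 := intervalIntegrable_toReal ht mp (hP t)
    have i2 := intervalIntegrable_toReal ht mn (hN t)
    refine (i1.sub i2).congr_ae ?_
    rw [uIoc_of_le ht, Filter.EventuallyEq, ae_restrict_iff' measurableSet_Ioc]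
    filter_upwards [hφ] with s hs hmem
    simp only [hρdef]
    rw [factB P s (hs hmem.1), factB N s (hs hmem.1)]
    ring
  have hDexp : ∀ᵐ s : ℝ, 0 < s →
      D s = Real.exp (Real.log D0 + M⁻¹ * ∫ u in (0 : ℝ)..s, ρ u) := by
    filter_upwards [heq] with s hs hpos
    have h := hs hpos
    have h' : Real.log (D s) = Real.log D0 + M⁻¹ * ∫ u in (0 : ℝ)..s, ρ u := by
      field_simp
      linarith
    rw [← h', Real.exp_log (hDpos s)]
  have hfin : ∀ (Q : ℝ → ℝ≥0∞), Measurable Q → (∀ T, ∫⁻ t in Ioc 0 T, Q t / Den t < ∞) →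
      ∀ T, ∫⁻ t in Ioc 0 T, Q t < ∞ := by
    intro Q mQ hQ T
    rcases le_or_gt T 0 with hT | hT
    · rw [Ioc_eq_empty (not_lt.2 hT)]
      simp
    · have hYac : AbsolutelyContinuousOnInterval (fun s => ∫ u in (0 : ℝ)..s, ρ u) 0 T :=
        (hρint T hT.le).absolutelyContinuousOnInterval_intervalIntegral (by simp)
      obtain ⟨C, hC⟩ := hYac.exists_bound
      set B : ℝ := Real.exp (Real.log D0 + M⁻¹ * C) with hB
      have hle : ∀ᵐ s : ℝ, s ∈ Ioc 0 T → Q s ≤ ENNReal.ofReal B * (Q s / Den s) := by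
        filter_upwards [hφ, hDexp] with s h1 h2 hs
        have hDB : D s ≤ B := by
          rw [h2 hs.1]
          apply Real.exp_le_exp.2
          have h3 := hC s (by rw [uIcc_of_le hT.le]; exact ⟨hs.1.le, hs.2⟩)
          rw [Real.norm_eq_abs] at h3
          have h4 := (abs_le.1 h3).2
          have hMi : 0 < M⁻¹ := inv_pos.2 hM
          have := mul_le_mul_of_nonneg_left h4 hMi.le
          linarith
        have hDenfin : Den s ≠ ∞ := by
          rw [factA s (h1 hs.1)]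
          exact ENNReal.ofReal_ne_top
        calc Q s = Den s * (Q s / Den s) := (ENNReal.mul_div_cancel (hDenne s) hDenfin).symm
          _ ≤ ENNReal.ofReal B * (Q s / Den s) := by
            gcongr
            rw [factA s (h1 hs.1)]
            exact ENNReal.ofReal_le_ofReal hDB
      calc ∫⁻ t in Ioc 0 T, Q t ≤ ∫⁻ t in Ioc 0 T, ENNReal.ofReal B * (Q t / Den t) := by
            apply lintegral_mono_ae
            rwa [ae_restrict_iff' measurableSet_Ioc]
        _ = ENNReal.ofReal B * ∫⁻ t in Ioc 0 T, Q t / Den t :=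
            lintegral_const_mul _ (mQ.div mDen)
        _ < ∞ := ENNReal.mul_lt_top ENNReal.ofReal_lt_top (hQ T)
  have fP := hfin P mP hP
  have fN := hfin N mN hN
  refine ⟨fP, fN, ?_⟩
  filter_upwards [hφ, hDexp] with t h1 h2 ht
  have hcore := exp_primitive (σ := fun s => (P s).toReal - (N s).toReal) (D := D) (M := M) hD0
    ht.le (hρint t ht.le)
    (by filter_upwards [hDexp] with s hs hmem using hs hmem.1)
    (by
      refine Filter.Eventually.of_forall (fun s _ => ?_)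
      simp only [hρdef]
      rw [← mul_assoc, mul_inv_cancel₀ (hDpos s).ne', one_mul])
  rw [← h2 ht] at hcore
  have iP := intervalIntegrable_toReal ht.le mP (fP t)
  have iN := intervalIntegrable_toReal ht.le mN (fN t)
  rw [intervalIntegral.integral_sub iP iN] at hcore
  have hreal : (φ t).toReal + ∫ s in (0 : ℝ)..t, (N s).toReal =
      c.toReal + ∫ s in (0 : ℝ)..t, (P s).toReal := by
    simp only [hDdef, hD0def] at hcore
    field_simp at hcore
    linarith
  have e1 : φ t = ENNReal.ofReal (φ t).toReal := (ENNReal.ofReal_toReal (h1 ht).ne).symm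
  have e2 : c = ENNReal.ofReal c.toReal := (ENNReal.ofReal_toReal hc.ne).symm
  have n1 : 0 ≤ ∫ s in (0 : ℝ)..t, (N s).toReal :=
    intervalIntegral.integral_nonneg ht.le fun _ _ => ENNReal.toReal_nonneg
  have n2 : 0 ≤ ∫ s in (0 : ℝ)..t, (P s).toReal :=
    intervalIntegral.integral_nonneg ht.le fun _ _ => ENNReal.toReal_nonneg
  calc φ t + ∫⁻ s in Ioc 0 t, N s
      = ENNReal.ofReal (φ t).toReal + ENNReal.ofReal (∫ s in (0 : ℝ)..t, (N s).toReal) := by
        rw [← e1, lint_eq_ofReal ht.le le_rfl mN (fN t)]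
    _ = ENNReal.ofReal ((φ t).toReal + ∫ s in (0 : ℝ)..t, (N s).toReal) :=
        (ENNReal.ofReal_add ENNReal.toReal_nonneg n1).symm
    _ = ENNReal.ofReal (c.toReal + ∫ s in (0 : ℝ)..t, (P s).toReal) := by rw [hreal]
    _ = ENNReal.ofReal c.toReal + ENNReal.ofReal (∫ s in (0 : ℝ)..t, (P s).toReal) :=
        ENNReal.ofReal_add ENNReal.toReal_nonneg n2
    _ = c + ∫⁻ s in Ioc 0 t, P s := by
        rw [← e2, lint_eq_ofReal ht.le le_rfl mP (fP t)]

end Vale.Agent.Lib.P140
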