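import Mathlib
import Vale.Agent.Lib.P140.RenormDefs

/-!
# The logarithmic renormalisation `β(y) = log(1+y)`
-/

namespace Vale.Agent.Lib.P140

open MeasureTheory
open scoped ENNReal

lemma Mx_pos (v : V) : 0 < Mx v := by
  unfold Mx
  have h : (0 : ℝ) < 2 * Real.pi := by positivity
  exact mul_pos (Real.rpow_pos_of_pos h _) (Real.exp_pos _)

lemma measurable_Mx : Measurable Mx := by
  have : Continuous Mx := by
    unfold Mx
    fun_prop
  exact this.measurable

lemma hasDerivAt_log_one_add {y : ℝ} (hy : 0 ≤ y) :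
    HasDerivAt (fun y : ℝ => Real.log (1 + y)) (1 + y)⁻¹ y := by
  have h1 : HasDerivAt (fun y : ℝ => 1 + y) 1 y := by
    simpa using (hasDerivAt_id y).const_add 1
  have h2 := h1.log (by positivity : (1 + y) ≠ 0)
  simpa [one_div] using h2

lemma derivWithin_log_one_add {y : ℝ} (hy : 0 ≤ y) :
    derivWithin (fun y : ℝ => Real.log (1 + y)) (Set.Ici 0) y = (1 + y)⁻¹ :=
  (hasDerivAt_log_one_add hy).hasDerivWithinAt.derivWithin (uniqueDiffOn_Ici 0 y hy)

theorem isRenormalizer_log : IsRenormalizer (fun y : ℝ => Real.log (1 + y)) where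
  c1 := by
    refine ContDiffOn.log (contDiffOn_const.add contDiffOn_id) ?_
    intro y hy
    have : (0 : ℝ) ≤ y := hy
    positivity
  zero := by simp
  bound := by
    refine ⟨1, fun y hy => ?_⟩
    rw [derivWithin_log_one_add hy, abs_of_nonneg (by positivity), one_div]

/-- `M log(1+G)`. -/
noncomputable def uLog (f : Torus × V → ℝ≥0∞) (z : Torus × V) : ℝ :=
  Mx z.2 * Real.log (1 + Gr f z)

/-- `Q/(1+G)`. -/
noncomputable def rLog (f : Torus × V → ℝ≥0∞) (z : Torus × V) : ℝ :=
  (1 + Gr f z)⁻¹ * Qr f z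

lemma Gr_nonneg (f : Torus × V → ℝ≥0∞) (z : Torus × V) : 0 ≤ Gr f z :=
  div_nonneg ENNReal.toReal_nonneg (Mx_pos _).le

/-- The renormalized equation for `β = log(1+·)` in terms of `uLog`, `rLog`. -/
theorem weakTransport_log {F0 : Torus × V → ℝ≥0∞} {F : ℝ → Torus × V → ℝ≥0∞}
    (h : RenormEq (fun y : ℝ => Real.log (1 + y)) F0 F) :
    WeakTransport (uLog F0) (fun t => uLog (F t)) (fun t => rLog (F t)) := by
  unfold RenormEq at h
  have h3 : (fun (t : ℝ) (z : Torus × V) =>
      derivWithin (fun y : ℝ => Real.log (1 + y)) (Set.Ici 0) (Gr (F t) z) * Qr (F t) z) =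
      (fun t => rLog (F t)) := by
    funext t z
    rw [derivWithin_log_one_add (Gr_nonneg _ _)]
    rfl
  rw [h3] at h
  exact h

lemma uLog_nonneg (f : Torus × V → ℝ≥0∞) (z : Torus × V) : 0 ≤ uLog f z := by
  unfold uLog
  refine mul_nonneg (Mx_pos _).le (Real.log_nonneg ?_)
  have := Gr_nonneg f z
  linarith

lemma uLog_le (f : Torus × V → ℝ≥0∞) (z : Torus × V) : uLog f z ≤ (f z).toReal := by
  unfold uLog
  have h0 := Gr_nonneg f z
  have h1 : Real.log (1 + Gr f z) ≤ Gr f z := by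
    have := Real.log_le_sub_one_of_pos (by positivity : 0 < 1 + Gr f z)
    linarith
  calc Mx z.2 * Real.log (1 + Gr f z) ≤ Mx z.2 * Gr f z :=
        mul_le_mul_of_nonneg_left h1 (Mx_pos _).le
    _ = (f z).toReal := by
        unfold Gr
        field_simp [(Mx_pos z.2).ne']

end Vale.Agent.Lib.P140
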