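import Mathlib
import Vale.Agent.Lib.P140.RenormLog
import Vale.Agent.Lib.P140.Meas

/-!
# Measurability and integrability of `M log(1+G)` and `Q/(1+G)`
-/

namespace Vale.Agent.Lib.P140

open MeasureTheory Set
open scoped ENNReal

variable {F0 : Torus × V → ℝ≥0∞} {F : ℝ → Torus × V → ℝ≥0∞}

lemma measurable_uLog0 (hF0 : Measurable F0) : Measurable (uLog F0) := by
  unfold uLog Gr
  have hM : Measurable (fun z : Torus × V => Mx z.2) := measurable_Mx.comp measurable_snd
  exact hM.mul (Real.measurable_log.comp (measurable_const.add (hF0.ennreal_toReal.div hM)))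

lemma measurable_uLog (hF : Measurable (Function.uncurry F)) :
    Measurable (Function.uncurry fun t => uLog (F t)) := by
  have hM : Measurable (fun p : ℝ × (Torus × V) => Mx p.2.2) :=
    measurable_Mx.comp (measurable_snd.comp measurable_snd)
  have e : (Function.uncurry fun t => uLog (F t)) = fun p : ℝ × (Torus × V) =>
      Mx p.2.2 * Real.log (1 + (Function.uncurry F p).toReal / Mx p.2.2) := by
    funext p
    rfl
  rw [e]
  exact hM.mul (Real.measurable_log.comp (measurable_const.add (hF.ennreal_toReal.div hM)))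

lemma measurable_rLog (hF : Measurable (Function.uncurry F)) :
    Measurable (Function.uncurry fun t => rLog (F t)) := by
  have hM : Measurable (fun p : ℝ × (Torus × V) => Mx p.2.2) :=
    measurable_Mx.comp (measurable_snd.comp measurable_snd)
  have e : (Function.uncurry fun t => rLog (F t)) = fun p : ℝ × (Torus × V) =>
      (1 + (Function.uncurry F p).toReal / Mx p.2.2)⁻¹ *
        ((gain (F p.1) p.2).toReal - (loss (F p.1) p.2).toReal) := by
    funext p
    rfl
  rw [e]
  exact (measurable_const.add (hF.ennreal_toReal.div hM)).inv.mul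
    ((measurable_gain hF).ennreal_toReal.sub (measurable_loss hF).ennreal_toReal)

lemma integrable_uLog0 (hF0 : Measurable F0) (h : mass F0 < ∞) : Integrable (uLog F0) := by
  have h1 : Integrable (fun z => (F0 z).toReal) :=
    integrable_toReal_of_lintegral_ne_top hF0.aemeasurable h.ne
  refine h1.mono' (measurable_uLog0 hF0).aestronglyMeasurable (Filter.Eventually.of_forall ?_)
  intro z
  rw [Real.norm_eq_abs, abs_of_nonneg (uLog_nonneg _ _)]
  exact uLog_le _ _

lemma lintegral_prod_uncurry {G : ℝ × (Torus × V) → ℝ≥0∞} (hG : Measurable G) (T : ℝ) :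
    ∫⁻ p, G p ∂((volume.restrict (Ioc 0 T)).prod (volume : Measure (Torus × V))) =
      ∫⁻ t in Ioc 0 T, ∫⁻ z, G (t, z) :=
  lintegral_prod _ hG.aemeasurable

lemma integrable_uLog (hF : Measurable (Function.uncurry F)) {T : ℝ}
    (h : ∫⁻ t in Ioc 0 T, mass (F t) < ∞) :
    Integrable (Function.uncurry fun t => uLog (F t))
      ((volume.restrict (Ioc 0 T)).prod volume) := by
  have h0 : ∫⁻ p, Function.uncurry F p ∂((volume.restrict (Ioc 0 T)).prod
      (volume : Measure (Torus × V))) < ∞ := by
    rw [lintegral_prod_uncurry hF]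
    exact h
  have h1 : Integrable (fun p => (Function.uncurry F p).toReal)
      ((volume.restrict (Ioc 0 T)).prod (volume : Measure (Torus × V))) :=
    integrable_toReal_of_lintegral_ne_top hF.aemeasurable h0.ne
  refine h1.mono' (measurable_uLog hF).aestronglyMeasurable (Filter.Eventually.of_forall ?_)
  intro p
  change ‖uLog (F p.1) p.2‖ ≤ (F p.1 p.2).toReal
  rw [Real.norm_eq_abs, abs_of_nonneg (uLog_nonneg _ _)]
  exact uLog_le _ _

/-- where `f z < ∞`, dividing by `1 + f/M` in `[0,∞]` is dividing by `1 + Gr` in the reals -/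
lemma toReal_div_one_add (f : Torus × V → ℝ≥0∞) (z : Torus × V) (hz : f z < ∞) (q : ℝ≥0∞) :
    (q / (1 + f z / ENNReal.ofReal (Mx z.2))).toReal = (1 + Gr f z)⁻¹ * q.toReal := by
  have hM := Mx_pos z.2
  have h1 : f z / ENNReal.ofReal (Mx z.2) = ENNReal.ofReal (Gr f z) := by
    unfold Gr
    rw [ENNReal.ofReal_div_of_pos hM, ENNReal.ofReal_toReal hz.ne]
  have h2 : (1 : ℝ≥0∞) + ENNReal.ofReal (Gr f z) = ENNReal.ofReal (1 + Gr f z) := by
    rw [ENNReal.ofReal_add zero_le_one (Gr_nonneg f z), ENNReal.ofReal_one]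
  have h3 : 0 ≤ 1 + Gr f z := by
    have := Gr_nonneg f z
    linarith
  rw [h1, h2, ENNReal.toReal_div, ENNReal.toReal_ofReal h3, div_eq_inv_mul]

/-- Here `|rLog| ≤ (gain/(1+G)).toReal + (loss/(1+G)).toReal` wherever `F < ∞`, hence a.e. -/
lemma integrable_rLog (hF : Measurable (Function.uncurry F)) {T : ℝ}
    (h : ∫⁻ t in Ioc 0 T, mass (F t) < ∞)
    (hg : renormInt gain F T < ∞) (hl : renormInt loss F T < ∞) :
    Integrable (Function.uncurry fun t => rLog (F t))
      ((volume.restrict (Ioc 0 T)).prod volume) := by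
  have hM : Measurable (fun p : ℝ × (Torus × V) => ENNReal.ofReal (Mx p.2.2)) :=
    (measurable_Mx.comp (measurable_snd.comp measurable_snd)).ennreal_ofReal
  have hden : Measurable (fun p : ℝ × (Torus × V) =>
      1 + Function.uncurry F p / ENNReal.ofReal (Mx p.2.2)) :=
    measurable_const.add (hF.div hM)
  have hGm : Measurable (fun p : ℝ × (Torus × V) =>
      gain (F p.1) p.2 / (1 + Function.uncurry F p / ENNReal.ofReal (Mx p.2.2))) :=
    (measurable_gain hF).div hden
  have hLm : Measurable (fun p : ℝ × (Torus × V) =>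
      loss (F p.1) p.2 / (1 + Function.uncurry F p / ENNReal.ofReal (Mx p.2.2))) :=
    (measurable_loss hF).div hden
  have hGi : Integrable (fun p : ℝ × (Torus × V) =>
      (gain (F p.1) p.2 / (1 + Function.uncurry F p / ENNReal.ofReal (Mx p.2.2))).toReal)
      ((volume.restrict (Ioc 0 T)).prod (volume : Measure (Torus × V))) := by
    refine integrable_toReal_of_lintegral_ne_top hGm.aemeasurable ?_
    rw [lintegral_prod_uncurry hGm]
    exact hg.ne
  have hLi : Integrable (fun p : ℝ × (Torus × V) =>
      (loss (F p.1) p.2 / (1 + Function.uncurry F p / ENNReal.ofReal (Mx p.2.2))).toReal)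
      ((volume.restrict (Ioc 0 T)).prod (volume : Measure (Torus × V))) := by
    refine integrable_toReal_of_lintegral_ne_top hLm.aemeasurable ?_
    rw [lintegral_prod_uncurry hLm]
    exact hl.ne
  have h0 : ∫⁻ p, Function.uncurry F p ∂((volume.restrict (Ioc 0 T)).prod
      (volume : Measure (Torus × V))) < ∞ := by
    rw [lintegral_prod_uncurry hF]
    exact h
  have hfin : ∀ᵐ p ∂((volume.restrict (Ioc 0 T)).prod (volume : Measure (Torus × V))),
      Function.uncurry F p < ∞ := ae_lt_top hF h0.ne
  refine (hGi.sub hLi).congr ?_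
  filter_upwards [hfin] with p hp
  have hp' : F p.1 p.2 < ∞ := hp
  have e1 := toReal_div_one_add (F p.1) p.2 hp' (gain (F p.1) p.2)
  have e2 := toReal_div_one_add (F p.1) p.2 hp' (loss (F p.1) p.2)
  change (gain (F p.1) p.2 / (1 + F p.1 p.2 / ENNReal.ofReal (Mx p.2.2))).toReal -
      (loss (F p.1) p.2 / (1 + F p.1 p.2 / ENNReal.ofReal (Mx p.2.2))).toReal =
      rLog (F p.1) p.2
  rw [e1, e2]
  unfold rLog Qr
  ring

end Vale.Agent.Lib.P140
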