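import Mathlib
import Vale.Agent.Lib.P140.TransportDefs
import Vale.Agent.Lib.P140.Flow
import Vale.Agent.Lib.P140.Emb

/-!
# A rich family of test functions transported by the flow
-/

namespace Vale.Agent.Lib.P140

open MeasureTheory

/-- The special test functions `a(t) H(emb (x - t v, v))`. -/
noncomputable def specialTest (a : ℝ → ℝ) (H : (Fin 3 → ℂ) × V → ℝ) (q : ℝ × (Torus × V)) : ℝ :=
  a q.1 * H (emb (flow (-q.1) q.2))

lemma emb_flow_proj (t : ℝ) (y v : V) :
    emb (flow (-t) (proj y, v)) =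
      (fun i => Complex.exp (((2 * Real.pi * (y i - t * v i) : ℝ) : ℂ) * Complex.I), v) := by
  unfold emb flow proj
  refine Prod.ext ?_ rfl
  funext i
  simp only [Pi.add_apply]
  rw [← AddCircle.coe_add, AddCircle.toCircle_apply_mk, Circle.coe_exp]
  congr 3
  simp
  ring

lemma exists_bound_of_hasCompactSupport {E : Type*} [NormedAddCommGroup E] {f : E → ℝ}
    (hf : HasCompactSupport f) : ∃ R : ℝ, ∀ x : E, R < ‖x‖ → f x = 0 := by
  obtain ⟨R, hR⟩ := hf.isCompact.isBounded.subset_closedBall 0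
  refine ⟨R, fun x hx => image_eq_zero_of_notMem_tsupport fun hmem => ?_⟩
  have := hR hmem
  rw [mem_closedBall_zero_iff] at this
  exact absurd this (not_le.mpr hx)

theorem isTest_specialTest {a : ℝ → ℝ} {H : (Fin 3 → ℂ) × V → ℝ}
    (ha : ContDiff ℝ ((⊤ : ℕ∞) : WithTop ℕ∞) a) (hac : HasCompactSupport a)
    (hH : ContDiff ℝ ((⊤ : ℕ∞) : WithTop ℕ∞) H) (hHc : HasCompactSupport H) :
    IsTest (specialTest a H) := by
  constructor
  · unfold specialTest
    simp only [emb_flow_proj]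
    refine (ha.comp contDiff_fst).mul (hH.comp ?_)
    refine ContDiff.prodMk ?_ (contDiff_snd.comp contDiff_snd)
    rw [contDiff_pi]
    intro i
    have hy : ContDiff ℝ ((⊤ : ℕ∞) : WithTop ℕ∞) (fun q : ℝ × (V × V) => q.2.1 i) :=
      (EuclideanSpace.proj (𝕜 := ℝ) (ι := Fin 3) i : V →L[ℝ] ℝ).contDiff.comp
        (contDiff_fst.comp contDiff_snd)
    have hv : ContDiff ℝ ((⊤ : ℕ∞) : WithTop ℕ∞) (fun q : ℝ × (V × V) => q.2.2 i) :=
      (EuclideanSpace.proj (𝕜 := ℝ) (ι := Fin 3) i : V →L[ℝ] ℝ).contDiff.comp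
        (contDiff_snd.comp contDiff_snd)
    have hr : ContDiff ℝ ((⊤ : ℕ∞) : WithTop ℕ∞)
        (fun q : ℝ × (V × V) => 2 * Real.pi * (q.2.1 i - q.1 * q.2.2 i)) :=
      contDiff_const.mul (hy.sub (contDiff_fst.mul hv))
    have hc : ContDiff ℝ ((⊤ : ℕ∞) : WithTop ℕ∞)
        (fun q : ℝ × (V × V) => ((2 * Real.pi * (q.2.1 i - q.1 * q.2.2 i) : ℝ) : ℂ)) :=
      Complex.ofRealCLM.contDiff.comp hr
    exact (hc.mul contDiff_const).cexp
  · obtain ⟨R1, h1⟩ := exists_bound_of_hasCompactSupport hac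
    obtain ⟨R2, h2⟩ := exists_bound_of_hasCompactSupport hHc
    refine ⟨max R1 R2, fun t z h => ?_⟩
    unfold specialTest
    rcases h with h | h
    · rw [h1 t (lt_of_le_of_lt (le_max_left _ _) (by simpa using h)), zero_mul]
    · rw [h2 _ ?_, mul_zero]
      refine lt_of_lt_of_le (lt_of_le_of_lt (le_max_right _ _) h) ?_
      exact norm_snd_le (emb (flow (-t) z))

theorem transportDeriv_specialTest {a : ℝ → ℝ} (H : (Fin 3 → ℂ) × V → ℝ)
    (ha : Differentiable ℝ a) (t : ℝ) (z : Torus × V) :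
    transportDeriv (specialTest a H) t z = deriv a t * H (emb (flow (-t) z)) := by
  unfold transportDeriv specialTest
  have h1 : (fun s : ℝ => a (t + s, flow s z).1 *
      H (emb (flow (-(t + s, flow s z).1) (t + s, flow s z).2))) =
      fun s : ℝ => a (t + s) * H (emb (flow (-t) z)) := by
    funext s
    simp only [flow_flow]
    congr 4
    ring
  rw [h1]
  have h2 : HasDerivAt (fun s : ℝ => a (t + s)) (deriv a t) 0 := by
    have := (ha (t + 0)).hasDerivAt.comp_const_add t 0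
    simpa using this
  exact (h2.mul_const _).deriv

end Vale.Agent.Lib.P140
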