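import Mathlib
import Vale.Agent.Lib.P140.TestFn
import Vale.Agent.Lib.P140.DuBois

/-!
# Distributional solutions of the free transport equation with integrable source are mild
-/

namespace Vale.Agent.Lib.P140

open MeasureTheory Set
open scoped ENNReal

/-- The map `(t, z) ↦ (t, flow t z)` preserves `dt dz` (restricted to any time set). -/
theorem measurePreserving_flowMap (S : Set ℝ) :
    MeasurePreserving (fun p : ℝ × (Torus × V) => (p.1, flow p.1 p.2))
      ((volume.restrict S).prod volume) ((volume.restrict S).prod volume) :=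
  MeasurePreserving.skew_product (μa := volume.restrict S) (μb := volume.restrict S)
    (μc := (volume : Measure (Torus × V))) (μd := volume) (f := id) (MeasurePreserving.id _)
    (g := flow) measurable_flow
    (Filter.Eventually.of_forall fun s => (measurePreserving_flow s).map_eq)

/-- The measure `dt dz` on the time slab `(0,T] × T^3 × R^3`. -/
noncomputable abbrev slab (T : ℝ) : Measure (ℝ × (Torus × V)) :=
  (volume.restrict (Ioc 0 T)).prod volume

/-- Pull-back along the characteristics. -/
noncomputable def pull (w : ℝ → Torus × V → ℝ) (p : ℝ × (Torus × V)) : ℝ :=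
  w p.1 (flow p.1 p.2)

lemma measurable_pull {w : ℝ → Torus × V → ℝ} (mw : Measurable (Function.uncurry w)) :
    Measurable (pull w) :=
  mw.comp (measurable_fst.prodMk measurable_flow)

lemma integrable_pull {w : ℝ → Torus × V → ℝ} (mw : Measurable (Function.uncurry w)) (T : ℝ)
    (hw : Integrable (Function.uncurry w) (slab T)) : Integrable (pull w) (slab T) :=
  ((measurePreserving_flowMap (Ioc 0 T)).integrable_comp mw.aestronglyMeasurable).2 hw

/-- The flow preserves integrals. -/
lemma integral_flow (t : ℝ) {f : Torus × V → ℝ} (hf : Measurable f) :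
    ∫ z, f (flow t z) = ∫ z, f z := by
  have h := integral_map (μ := (volume : Measure (Torus × V))) (φ := flow t)
    (measurable_flow' t).aemeasurable (f := f) hf.aestronglyMeasurable
  rw [(measurePreserving_flow t).map_eq] at h
  exact h.symm

/-- The primitive in time `∫_0^t f(s,z) ds`. -/
noncomputable def prim (f : ℝ × (Torus × V) → ℝ) (p : ℝ × (Torus × V)) : ℝ :=
  ∫ s in Ioc 0 p.1, f (s, p.2)

lemma stronglyMeasurable_prim {f : ℝ × (Torus × V) → ℝ} (mf : Measurable f) :
    StronglyMeasurable (prim f) := by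
  have h1 : Measurable (fun x : (ℝ × (Torus × V)) × ℝ =>
      ({x : (ℝ × (Torus × V)) × ℝ | 0 < x.2 ∧ x.2 ≤ x.1.1}).indicator
        (fun x => f (x.2, x.1.2)) x) := by
    apply Measurable.indicator
    · exact mf.comp (measurable_snd.prodMk (measurable_snd.comp measurable_fst))
    · exact (measurableSet_lt measurable_const measurable_snd).inter
        (measurableSet_le measurable_snd (measurable_fst.comp measurable_fst))
  have h2 := h1.stronglyMeasurable.integral_prod_right' (ν := (volume : Measure ℝ))
  have h3 : prim f = fun p : ℝ × (Torus × V) => ∫ s : ℝ,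
      ({x : (ℝ × (Torus × V)) × ℝ | 0 < x.2 ∧ x.2 ≤ x.1.1}).indicator
        (fun x => f (x.2, x.1.2)) (p, s) := by
    funext p
    rw [prim, ← integral_indicator measurableSet_Ioc]
    refine integral_congr_ae (Filter.Eventually.of_forall fun s => ?_)
    by_cases hs : s ∈ Ioc 0 p.1
    · have : (p, s) ∈ {x : (ℝ × (Torus × V)) × ℝ | 0 < x.2 ∧ x.2 ≤ x.1.1} := hs
      simp only [indicator_of_mem hs, indicator_of_mem this]
    · have : (p, s) ∉ {x : (ℝ × (Torus × V)) × ℝ | 0 < x.2 ∧ x.2 ≤ x.1.1} := hs
      simp only [indicator_of_notMem hs, indicator_of_notMem this]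
  rw [h3]
  exact h2

lemma ae_slab_mem (q : ℝ) : ∀ᵐ p ∂(slab q), p.1 ∈ Ioc 0 q :=
  Measure.quasiMeasurePreserving_fst.ae (ae_restrict_mem measurableSet_Ioc)

lemma integrable_prim {f : ℝ × (Torus × V) → ℝ} (mf : Measurable f) (q : ℝ)
    (hf : Integrable f (slab q)) : Integrable (prim f) (slab q) := by
  refine ⟨(stronglyMeasurable_prim mf).aestronglyMeasurable, ?_⟩
  have mBe : Measurable (fun z : Torus × V => ∫⁻ s in Ioc 0 q, ‖f (s, z)‖ₑ) :=
    mf.enorm.lintegral_prod_left'
  have hBe : ∫⁻ z : Torus × V, ∫⁻ s in Ioc 0 q, ‖f (s, z)‖ₑ < ∞ := by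
    have h := hf.2
    rw [HasFiniteIntegral, lintegral_prod_symm _ mf.enorm.aemeasurable] at h
    exact h
  calc ∫⁻ p, ‖prim f p‖ₑ ∂(slab q)
      ≤ ∫⁻ p, (fun p : ℝ × (Torus × V) => ∫⁻ s in Ioc 0 q, ‖f (s, p.2)‖ₑ) p ∂(slab q) := by
        apply lintegral_mono_ae
        filter_upwards [ae_slab_mem q] with p hp
        calc ‖prim f p‖ₑ ≤ ∫⁻ s in Ioc 0 p.1, ‖f (s, p.2)‖ₑ :=
              enorm_integral_le_lintegral_enorm _
          _ ≤ ∫⁻ s in Ioc 0 q, ‖f (s, p.2)‖ₑ :=
              lintegral_mono_set (Ioc_subset_Ioc_right hp.2)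
    _ = ∫⁻ _t in Ioc 0 q, ∫⁻ z : Torus × V, ∫⁻ s in Ioc 0 q, ‖f (s, z)‖ₑ :=
        lintegral_prod _ (mBe.comp measurable_snd).aemeasurable
    _ = (∫⁻ z : Torus × V, ∫⁻ s in Ioc 0 q, ‖f (s, z)‖ₑ) * volume (Ioc 0 q) := by
        rw [lintegral_const, Measure.restrict_apply MeasurableSet.univ, univ_inter]
    _ < ∞ := ENNReal.mul_lt_top hBe measure_Ioc_lt_top

lemma integral_prim_mul {f : ℝ × (Torus × V) → ℝ} {k : Torus × V → ℝ} (t : ℝ)
    (hfk : Integrable (fun p : ℝ × (Torus × V) => f p * k p.2) (slab t)) :
    ∫ z, prim f (t, z) * k z = ∫ s in Ioc 0 t, ∫ z, f (s, z) * k z := by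
  rw [← integral_prod _ hfk, integral_prod_symm _ hfk]
  refine integral_congr_ae (Filter.Eventually.of_forall fun z => ?_)
  simp only [prim]
  rw [integral_mul_const]

lemma integrable_mul_snd {f : ℝ × (Torus × V) → ℝ} {k : Torus × V → ℝ} {C : ℝ}
    (mk : Measurable k) (hk : ∀ z, ‖k z‖ ≤ C) {ν : Measure (ℝ × (Torus × V))}
    (hf : Integrable f ν) : Integrable (fun p : ℝ × (Torus × V) => f p * k p.2) ν :=
  hf.mul_bdd (mk.comp measurable_snd).aestronglyMeasurable
    (Filter.Eventually.of_forall fun p => hk p.2)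

lemma integral_mul_flow_neg {w k : Torus × V → ℝ} (mw : Measurable w) (mk : Measurable k)
    (t c : ℝ) :
    ∫ z, w z * (c * k (flow (-t) z)) = (∫ z, w (flow t z) * k z) * c := by
  have hm : Measurable (fun z : Torus × V => w z * (c * k (flow (-t) z))) :=
    mw.mul (measurable_const.mul (mk.comp (measurable_flow' (-t))))
  rw [← integral_flow t hm, ← integral_mul_const]
  refine integral_congr_ae (Filter.Eventually.of_forall fun z => ?_)
  simp only [flow_flow, neg_add_cancel, flow_zero]
  ring

lemma measurable_comp_emb {H : (Fin 3 → ℂ) × V → ℝ} (hH : Continuous H) :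
    Measurable (fun z : Torus × V => H (emb z)) :=
  (hH.comp continuous_emb).measurable

/-- The one-dimensional weak formulation obtained from the special test functions. -/
lemma weak_one_dim {u0 : Torus × V → ℝ} {u r : ℝ → Torus × V → ℝ}
    (mu : Measurable (Function.uncurry u)) (mr : Measurable (Function.uncurry r))
    (h : WeakTransport u0 u r) {H : (Fin 3 → ℂ) × V → ℝ}
    (hH : ContDiff ℝ ((⊤ : ℕ∞) : WithTop ℕ∞) H) (hHc : HasCompactSupport H) {a : ℝ → ℝ}
    (ha : ContDiff ℝ ((⊤ : ℕ∞) : WithTop ℕ∞) a) (hac : HasCompactSupport a) :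
    (∫ t in Ioi (0 : ℝ), (∫ z, pull u (t, z) * H (emb z)) * deriv a t) +
      (∫ z, u0 z * H (emb z)) * a 0 +
      (∫ t in Ioi (0 : ℝ), (∫ z, pull r (t, z) * H (emb z)) * a t) = 0 := by
  have h1 := h (specialTest a H) (isTest_specialTest ha hac hH hHc)
  have mk := measurable_comp_emb hH.continuous
  have had : Differentiable ℝ a := ha.differentiable (by simp)
  have e1 : ∀ t : ℝ, ∫ z, u t z * transportDeriv (specialTest a H) t z =
      (∫ z, pull u (t, z) * H (emb z)) * deriv a t := by
    intro t
    simp only [transportDeriv_specialTest H had]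
    exact integral_mul_flow_neg (mu.comp (measurable_const.prodMk measurable_id)) mk t _
  have e3 : ∀ t : ℝ, ∫ z, r t z * specialTest a H (t, z) =
      (∫ z, pull r (t, z) * H (emb z)) * a t := by
    intro t
    simp only [specialTest]
    exact integral_mul_flow_neg (mr.comp (measurable_const.prodMk measurable_id)) mk t _
  have e2 : ∫ z, u0 z * specialTest a H (0, z) = (∫ z, u0 z * H (emb z)) * a 0 := by
    rw [← integral_mul_const]
    refine integral_congr_ae (Filter.Eventually.of_forall fun z => ?_)
    simp only [specialTest, neg_zero, flow_zero]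
    ring
  simp only [e1, e2, e3] at h1
  exact h1

/-- The defect of the mild formulation. -/
noncomputable def defect (u0 : Torus × V → ℝ) (u r : ℝ → Torus × V → ℝ)
    (p : ℝ × (Torus × V)) : ℝ :=
  pull u p - u0 p.2 - prim (pull r) p

lemma integrable_defect {u0 : Torus × V → ℝ} {u r : ℝ → Torus × V → ℝ}
    (hu0 : Integrable u0)
    (mu : Measurable (Function.uncurry u)) (mr : Measurable (Function.uncurry r))
    (hu : ∀ T : ℝ, Integrable (Function.uncurry u) ((volume.restrict (Ioc 0 T)).prod volume))
    (hr : ∀ T : ℝ, Integrable (Function.uncurry r) ((volume.restrict (Ioc 0 T)).prod volume))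
    (T : ℝ) : Integrable (defect u0 u r) (slab T) :=
  ((integrable_pull mu T (hu T)).sub (hu0.comp_snd _)).sub
    (integrable_prim (measurable_pull mr) T (integrable_pull mr T (hr T)))

/-- The time integral of the defect is orthogonal to all `H ∘ emb`. -/
lemma integral_defect {u0 : Torus × V → ℝ} {u r : ℝ → Torus × V → ℝ}
    (hu0 : Integrable u0)
    (mu : Measurable (Function.uncurry u)) (mr : Measurable (Function.uncurry r))
    (hu : ∀ T : ℝ, Integrable (Function.uncurry u) ((volume.restrict (Ioc 0 T)).prod volume))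
    (hr : ∀ T : ℝ, Integrable (Function.uncurry r) ((volume.restrict (Ioc 0 T)).prod volume))
    (h : WeakTransport u0 u r) {H : (Fin 3 → ℂ) × V → ℝ}
    (hH : ContDiff ℝ ((⊤ : ℕ∞) : WithTop ℕ∞) H) (hHc : HasCompactSupport H) (q : ℝ) :
    ∫ z, H (emb z) * ∫ t in Ioc 0 q, defect u0 u r (t, z) = 0 := by
  obtain ⟨C, hC⟩ := hH.continuous.bounded_above_of_compact_support hHc
  have mk := measurable_comp_emb hH.continuous
  have hk : ∀ z : Torus × V, ‖H (emb z)‖ ≤ C := fun z => hC _
  have iU : ∀ T, Integrable (fun p : ℝ × (Torus × V) => pull u p * H (emb p.2)) (slab T) :=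
    fun T => integrable_mul_snd mk hk (integrable_pull mu T (hu T))
  have iR : ∀ T, Integrable (fun p : ℝ × (Torus × V) => pull r p * H (emb p.2)) (slab T) :=
    fun T => integrable_mul_snd mk hk (integrable_pull mr T (hr T))
  have iP : Integrable (fun p : ℝ × (Torus × V) => prim (pull r) p * H (emb p.2)) (slab q) :=
    integrable_mul_snd mk hk (integrable_prim (measurable_pull mr) q (integrable_pull mr q (hr q)))
  have i0 : Integrable (fun p : ℝ × (Torus × V) => u0 p.2 * H (emb p.2)) (slab q) :=
    integrable_mul_snd mk hk (hu0.comp_snd _)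
  have iD : Integrable (fun p : ℝ × (Torus × V) => defect u0 u r p * H (emb p.2)) (slab q) :=
    integrable_mul_snd mk hk (integrable_defect hu0 mu mr hu hr q)
  have dB := dubois_reymond (U := fun t => ∫ z, pull u (t, z) * H (emb z))
    (R := fun t => ∫ z, pull r (t, z) * H (emb z)) (U0 := ∫ z, u0 z * H (emb z))
    (fun T => (iU T).integral_prod_left) (fun T => (iR T).integral_prod_left)
    (fun a ha hac => weak_one_dim mu mr h hH hHc ha hac)
  have eP : ∀ t : ℝ, ∫ z, prim (pull r) (t, z) * H (emb z) =
      ∫ s in Ioc 0 t, ∫ z, pull r (s, z) * H (emb z) := fun t => integral_prim_mul t (iR t)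
  have iP' : IntegrableOn (fun t : ℝ => ∫ s in Ioc 0 t, ∫ z, pull r (s, z) * H (emb z))
      (Ioc 0 q) := by
    have := iP.integral_prod_left
    simp only [eP] at this
    exact this
  calc ∫ z, H (emb z) * ∫ t in Ioc 0 q, defect u0 u r (t, z)
      = ∫ z, ∫ t in Ioc 0 q, defect u0 u r (t, z) * H (emb z) := by
        refine integral_congr_ae (Filter.Eventually.of_forall fun z => ?_)
        simp only []
        rw [integral_mul_const, mul_comm]
    _ = ∫ p, defect u0 u r p * H (emb p.2) ∂(slab q) := (integral_prod_symm _ iD).symm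
    _ = ∫ p, (pull u p * H (emb p.2) - u0 p.2 * H (emb p.2) -
          prim (pull r) p * H (emb p.2)) ∂(slab q) := by
        refine integral_congr_ae (Filter.Eventually.of_forall fun p => ?_)
        simp only [defect]
        ring
    _ = ∫ p, pull u p * H (emb p.2) ∂(slab q) - ∫ p, u0 p.2 * H (emb p.2) ∂(slab q) -
          ∫ p, prim (pull r) p * H (emb p.2) ∂(slab q) := by
        have s1 := integral_sub ((iU q).sub i0) iP
        have s2 := integral_sub (iU q) i0
        simp only [Pi.sub_apply] at s1
        rw [s1, s2]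
    _ = (∫ t in Ioc 0 q, ∫ z, pull u (t, z) * H (emb z)) -
          (∫ _t in Ioc 0 q, ∫ z, u0 z * H (emb z)) -
          ∫ t in Ioc 0 q, ∫ s in Ioc 0 t, ∫ z, pull r (s, z) * H (emb z) := by
        rw [integral_prod _ (iU q), integral_prod _ i0, integral_prod _ iP]
        simp only [eP]
    _ = ∫ t in Ioc 0 q, ((∫ z, pull u (t, z) * H (emb z)) - (∫ z, u0 z * H (emb z)) -
          ∫ s in Ioc 0 t, ∫ z, pull r (s, z) * H (emb z)) := by
        have c0 : IntegrableOn (fun _t : ℝ => ∫ z, u0 z * H (emb z)) (Ioc 0 q) :=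
          integrableOn_const (by simp)
        have s1 := integral_sub ((iU q).integral_prod_left.sub c0) iP'
        have s2 := integral_sub (iU q).integral_prod_left c0
        simp only [Pi.sub_apply] at s1
        rw [s1, s2]
    _ = ∫ _t in Ioc 0 q, (0 : ℝ) := by
        refine integral_congr_ae ?_
        filter_upwards [ae_restrict_of_ae dB, ae_restrict_mem measurableSet_Ioc] with t ht hmem
        have := ht hmem.1
        rw [intervalIntegral.integral_of_le hmem.1.le] at this
        linarith
    _ = 0 := by simp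

/-- If `(∂_t + v·∇_x) u = r` in distributions with initial value `u0`, all three integrable
(locally in time), then along almost every characteristic
`u(t, x + t v, v) = u0(x, v) + ∫_0^t r(s, x + s v, v) ds` for almost every `t > 0`. -/
theorem mild_of_weakTransport {u0 : Torus × V → ℝ} {u r : ℝ → Torus × V → ℝ}
    (hu0 : Integrable u0)
    (mu : Measurable (Function.uncurry u)) (mr : Measurable (Function.uncurry r))
    (hu : ∀ T : ℝ, Integrable (Function.uncurry u) ((volume.restrict (Ioc 0 T)).prod volume))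
    (hr : ∀ T : ℝ, Integrable (Function.uncurry r) ((volume.restrict (Ioc 0 T)).prod volume))
    (h : WeakTransport u0 u r) :
    ∀ᵐ z : Torus × V, ∀ᵐ t : ℝ, 0 < t →
      u t (flow t z) = u0 z + ∫ s in (0 : ℝ)..t, r s (flow s z) := by
  have iD := integrable_defect hu0 mu mr hu hr
  have key : ∀ q : ℝ, ∀ᵐ z : Torus × V, ∫ t in Ioc 0 q, defect u0 u r (t, z) = 0 := fun q =>
    ae_eq_zero_of_forall_emb (iD q).integral_prod_right
      (fun H hH hHc => integral_defect hu0 mu mr hu hr h hH hHc q)
  have key' : ∀ᵐ z : Torus × V, ∀ q : ℚ, 0 < q →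
      ∫ t in (0 : ℝ)..(q : ℝ), defect u0 u r (t, z) = 0 := by
    rw [ae_all_iff]
    intro q
    filter_upwards [key q] with z hz hq
    rw [intervalIntegral.integral_of_le (by exact_mod_cast hq.le)]
    exact hz
  have loc : ∀ᵐ z : Torus × V, ∀ n : ℕ,
      IntegrableOn (fun t => defect u0 u r (t, z)) (Ioc 0 (n : ℝ)) := by
    rw [ae_all_iff]
    intro n
    exact (iD n).prod_left_ae
  filter_upwards [key', loc] with z hz hloc
  have hloc' : ∀ T : ℝ, IntegrableOn (fun t => defect u0 u r (t, z)) (Ioc 0 T) := by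
    intro T
    obtain ⟨n, hn⟩ := exists_nat_ge T
    exact (hloc n).mono_set (Ioc_subset_Ioc_right hn)
  filter_upwards [ae_eq_zero_of_forall_rat hloc' hz] with t ht h0
  have h1 := ht h0
  simp only [defect, pull, prim] at h1
  rw [intervalIntegral.integral_of_le h0.le]
  linarith

end Vale.Agent.Lib.P140
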