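import Mathlib
import Vale.Agent.Lib.P140.RenormInt
import Vale.Agent.Lib.P140.Along
import Vale.Agent.Lib.P140.TransportMild
import Vale.Agent.Lib.P140.LogLemma
import Vale.Agent.Lib.P140.Core

/-!
# Renormalized solutions (distributional form, logarithmic renormalisation) are mild solutions
-/

namespace Vale.Agent.Lib.P140

open MeasureTheory Set
open scoped ENNReal

variable {F0 : Torus × V → ℝ≥0∞} {F : ℝ → Torus × V → ℝ≥0∞}

/-- `Q/(1+G)` as a function of `(t,z)`. -/
noncomputable def renormDens (Q : (Torus × V → ℝ≥0∞) → Torus × V → ℝ≥0∞)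
    (F : ℝ → Torus × V → ℝ≥0∞) (p : ℝ × (Torus × V)) : ℝ≥0∞ :=
  Q (F p.1) p.2 / (1 + F p.1 p.2 / ENNReal.ofReal (Mx p.2.2))

lemma measurable_renormDens {Q : (Torus × V → ℝ≥0∞) → Torus × V → ℝ≥0∞}
    (hQ : Measurable (fun p : ℝ × (Torus × V) => Q (F p.1) p.2))
    (hF : Measurable (Function.uncurry F)) : Measurable (renormDens Q F) :=
  hQ.div (measurable_const.add
    (hF.div (ENNReal.measurable_ofReal.comp (measurable_Mx.comp measurable_snd.snd))))

theorem isMildAE_of_log (hF0 : Measurable F0) (h0 : mass F0 < ∞)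
    (hF : Measurable (Function.uncurry F))
    (hb : ∀ T : ℝ, ∫⁻ t in Ioc 0 T, mass (F t) < ∞)
    (hg : ∀ T : ℝ, renormInt gain F T < ∞) (hl : ∀ T : ℝ, renormInt loss F T < ∞)
    (hw : WeakTransport (uLog F0) (fun t => uLog (F t)) (fun t => rLog (F t))) :
    IsMildAE F0 F := by
  have h1 := mild_of_weakTransport (integrable_uLog0 hF0 h0) (measurable_uLog hF)
    (measurable_rLog hF) (fun T => integrable_uLog hF (hb T))
    (fun T => integrable_rLog hF (hb T) (hg T) (hl T)) hw
  have a1 := ae_along_lt_top (measurable_renormDens (measurable_gain hF) hF) hg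
  have a2 := ae_along_lt_top (measurable_renormDens (measurable_loss hF) hF) hl
  have a3 := ae_along_ae_lt_top hF hb
  have a4 : ∀ᵐ z, F0 z < ∞ := ae_lt_top hF0 h0.ne
  have key : ∀ᵐ z : Torus × V, (∀ T : ℝ, ∫⁻ t in Ioc 0 T, gain (F t) (flow t z) < ∞) ∧
      (∀ T : ℝ, ∫⁻ t in Ioc 0 T, loss (F t) (flow t z) < ∞) ∧
      ∀ᵐ t : ℝ, 0 < t → mildEq F0 F t z := by
    filter_upwards [h1, a1, a2, a3, a4] with z e1 b1 b2 b3 b4
    exact mild_of_log (φ := fun t => F t (flow t z)) (P := fun t => gain (F t) (flow t z))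
      (N := fun t => loss (F t) (flow t z)) (c := F0 z) (M := Mx z.2) (Mx_pos _) b4
      (measurable_along hF z) (measurable_along (measurable_gain hF) z)
      (measurable_along (measurable_loss hF) z) b3 b1 b2 e1
  refine ⟨hF, fun T => key.mono fun z hz => hz.1 T, fun T => key.mono fun z hz => hz.2.1 T, ?_⟩
  have h2 : ∀ᵐ z : Torus × V, ∀ᵐ t : ℝ, 0 < t → mildEq F0 F t z := key.mono fun z hz => hz.2.2
  have h3 := (Measure.ae_ae_comm (p := fun (t : ℝ) (z : Torus × V) => 0 < t → mildEq F0 F t z)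
    (measurableSet_mildEq hF0 hF)).2 h2
  filter_upwards [h3] with t ht h0t
  filter_upwards [ht] with z hz
  exact hz h0t

end Vale.Agent.Lib.P140
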