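import Mathlib
import Vale.Agent.Lib.P140.RenormDefs

/-!
# Weakly continuous families that agree at almost every time of `(0,T]` agree on `[0,T]`
-/

namespace Vale.Agent.Lib.P140

open MeasureTheory Set
open scoped ENNReal

theorem ae_eq_of_weaklyContinuous_Icc {F g : ℝ → Torus × V → ℝ≥0∞} {T : ℝ} (hT : 0 < T)
    (hF : ∀ t : ℝ, Measurable (F t)) (hg : ∀ t : ℝ, Measurable (g t))
    (hFfin : ∀ t : ℝ, 0 ≤ t → mass (F t) < ∞) (hgfin : ∀ t : ℝ, 0 ≤ t → mass (g t) < ∞)
    (cF : WeaklyContinuous F) (cg : WeaklyContinuous g)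
    (h : ∀ᵐ t : ℝ, t ∈ Ioc 0 T → F t =ᵐ[volume] g t) :
    ∀ t ∈ Icc (0 : ℝ) T, F t =ᵐ[volume] g t := by
  intro t htT
  have ht : 0 ≤ t := htT.1
  -- equality of all the tested integrals at every time
  have key : ∀ S : Set (Torus × V), MeasurableSet S →
      ∫ z, (F t z).toReal * S.indicator (fun _ => (1 : ℝ)) z =
        ∫ z, (g t z).toReal * S.indicator (fun _ => (1 : ℝ)) z := by
    intro S hS
    have hψm : Measurable (S.indicator (fun _ : Torus × V => (1 : ℝ))) :=
      measurable_const.indicator hS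
    have hψb : ∃ C : ℝ, ∀ z, |S.indicator (fun _ : Torus × V => (1 : ℝ)) z| ≤ C := by
      refine ⟨1, fun z => ?_⟩
      by_cases hz : z ∈ S
      · simp [hz]
      · simp [hz]
    have c1 := (cF _ hψm hψb).mono (Icc_subset_Ici_self : Icc (0 : ℝ) T ⊆ Ici 0)
    have c2 := (cg _ hψm hψb).mono (Icc_subset_Ici_self : Icc (0 : ℝ) T ⊆ Ici 0)
    have hae : (fun s : ℝ => ∫ z, (F s z).toReal * S.indicator (fun _ => (1 : ℝ)) z)
        =ᵐ[volume.restrict (Icc (0 : ℝ) T)]
        (fun s : ℝ => ∫ z, (g s z).toReal * S.indicator (fun _ => (1 : ℝ)) z) := by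
      rw [← Measure.restrict_congr_set (Ioc_ae_eq_Icc (a := (0 : ℝ)) (b := T) (μ := volume))]
      refine (ae_restrict_iff' measurableSet_Ioc).2 ?_
      filter_upwards [h] with s hs hs0
      refine integral_congr_ae ?_
      filter_upwards [hs hs0] with z hz
      rw [hz]
    have hU : Icc (0 : ℝ) T ⊆ closure (interior (Icc (0 : ℝ) T)) := by
      rw [interior_Icc, closure_Ioo hT.ne]
    exact Measure.eqOn_of_ae_eq hae c1 c2 hU htT
  have iF : Integrable (fun z => (F t z).toReal) :=
    integrable_toReal_of_lintegral_ne_top (hF t).aemeasurable (hFfin t ht).ne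
  have ig : Integrable (fun z => (g t z).toReal) :=
    integrable_toReal_of_lintegral_ne_top (hg t).aemeasurable (hgfin t ht).ne
  have hreal : (fun z => (F t z).toReal) =ᵐ[volume] (fun z => (g t z).toReal) := by
    refine Integrable.ae_eq_of_forall_setIntegral_eq _ _ iF ig fun S hS _ => ?_
    have := key S hS
    rw [← integral_indicator hS, ← integral_indicator hS]
    have e1 : ∀ f : Torus × V → ℝ, (fun z => f z * S.indicator (fun _ => (1 : ℝ)) z) =
        S.indicator f := by
      intro f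
      funext z
      by_cases hz : z ∈ S
      · simp [hz]
      · simp [hz]
    rw [e1, e1] at this
    exact this
  have fF : ∀ᵐ z, F t z < ∞ := ae_lt_top (hF t) (hFfin t ht).ne
  have fg : ∀ᵐ z, g t z < ∞ := ae_lt_top (hg t) (hgfin t ht).ne
  filter_upwards [hreal, fF, fg] with z h1 h2 h3
  exact (ENNReal.toReal_eq_toReal_iff' h2.ne h3.ne).1 h1

end Vale.Agent.Lib.P140
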