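import Mathlib
import Vale.Agent.Lib.P140.RenormDefs
import Vale.Agent.Lib.P140.RenormMild
import Vale.Agent.Lib.P140.RenormMass
import Vale.Agent.Lib.P140.WeakContLocal
import Vale.Agent.Lib.P140.Conserve
import Vale.Agent.Lib.P140.KSExist

/-!
# Uniqueness of renormalized solutions: comparison with a mild solution on `[0,T]`
-/

namespace Vale.Agent.Lib.P140

open MeasureTheory
open scoped ENNReal

variable {F0 : Torus × V → ℝ≥0∞} {F G g : ℝ → Torus × V → ℝ≥0∞}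

lemma IsRenormalizedSolution.mass_bound (hF : IsRenormalizedSolution F0 F) (T : ℝ) :
    ∃ C : ℝ≥0∞, C < ∞ ∧ ∀ t ∈ Set.Icc (0 : ℝ) T, mass (F t) ≤ C := by
  obtain ⟨C, hC, h⟩ := hF.bound T
  exact ⟨C, hC, fun t ht => le_trans le_self_add (h t ht)⟩

lemma IsRenormalizedSolution.mass_fin (hF : IsRenormalizedSolution F0 F) (t : ℝ) (ht : 0 ≤ t) :
    mass (F t) < ∞ := by
  obtain ⟨C, hC, h⟩ := hF.mass_bound t
  exact lt_of_le_of_lt (h t ⟨ht, le_rfl⟩) hC

lemma IsRenormalizedSolution.lintegral_mass_fin (hF : IsRenormalizedSolution F0 F) (T : ℝ) :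
    ∫⁻ t in Set.Ioc 0 T, mass (F t) < ∞ := by
  obtain ⟨C, hC, h⟩ := hF.mass_bound T
  have h1 : ∫⁻ t in Set.Ioc 0 T, mass (F t) ≤ ∫⁻ _t in Set.Ioc 0 T, C := by
    apply lintegral_mono_ae
    rw [ae_restrict_iff' measurableSet_Ioc]
    exact Filter.Eventually.of_forall fun t ht => h t ⟨ht.1.le, ht.2⟩
  refine lt_of_le_of_lt h1 ?_
  rw [lintegral_const, Measure.restrict_apply MeasurableSet.univ, Set.univ_inter, Real.volume_Ioc]
  exact ENNReal.mul_lt_top hC ENNReal.ofReal_lt_top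

/-- Renormalized solutions are mild solutions. -/
theorem IsRenormalizedSolution.isMildAE (hD : IsDatum F0) (hF : IsRenormalizedSolution F0 F) :
    IsMildAE F0 F :=
  isMildAE_of_log hD.meas hD.mass_fin hF.meas hF.lintegral_mass_fin hF.gain_int hF.loss_int
    (weakTransport_log (hF.renorm _ isRenormalizer_log))

lemma IsDatum.mInt_fin (hD : IsDatum F0) : mInt F0 < ∞ := by
  rw [mInt_eq hD.meas]
  exact ENNReal.add_lt_top.2 ⟨hD.mass_fin, hD.energy_fin⟩

/-- Uniqueness at almost every time of `(0,T]`; the strong solution is only assumed to be a mild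
solution on `(0,T]` with bounded third-moment density. -/
theorem ae_eq_mild (hD : IsDatum F0) (hF : IsRenormalizedSolution F0 F) {T : ℝ}
    (hg : IsMildOn T F0 g) {K : ℝ≥0∞} (hKfin : K < ∞)
    (hKT : ∀ᵐ t : ℝ, t ∈ Set.Ioc (0 : ℝ) T → ∀ᵐ x : Torus, thirdMoment (g t) x ≤ K) :
    ∀ᵐ t : ℝ, t ∈ Set.Ioc 0 T → F t =ᵐ[volume] g t := by
  have hFm := hF.isMildAE hD
  have hF0 : ∀ᵐ z, F0 z < ∞ := ae_lt_top hD.meas hD.mass_fin.ne
  have hmass := mass_conserved hD.meas hD.mass_fin hF.meas hF.mass_bound hF.massBalance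
  have hsub : ∀ t : ℝ, t ≤ T →
      ∀ᵐ s : ℝ, s ∈ Set.Ioc 0 t → ∀ᵐ x : Torus, thirdMoment (g s) x ≤ K := by
    intro t ht
    filter_upwards [hKT] with s hs hmem
    exact hs ⟨hmem.1, hmem.2.trans ht⟩
  have hcons : ∀ᵐ t : ℝ, t ∈ Set.Ioc 0 T → mInt (g t) = mInt F0 := by
    filter_upwards [hg.eqn] with t ht hmem
    exact mInt_conserved hD.meas hg.meas (ht hmem) hKfin (hsub t hmem.2)
  have hle : ∀ᵐ t : ℝ, t ∈ Set.Ioc 0 T → mInt (F t) ≤ mInt (g t) := by
    filter_upwards [hmass, hcons] with t h1 h2 hmem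
    rw [h2 hmem, mInt_eq (measurable_slice hF.meas t), mInt_eq hD.meas, h1 hmem.1]
    gcongr
    exact hF.energy_le t hmem.1.le
  filter_upwards [hFm.eqn, hg.eqn, hle, hcons] with t e1 e2 e3 e4 hmem
  have hle' : ∀ᵐ s : ℝ, s ∈ Set.Ioc 0 t → mInt (F s) ≤ mInt (g s) := by
    filter_upwards [hle] with s hs hs'
    exact hs ⟨hs'.1, hs'.2.trans hmem.2⟩
  refine weakStrong_core hD.meas hF0 (hFm.on t) (hg.mono hmem.2) hmem.1.le hKfin (hsub t hmem.2)
    hle' (e1 hmem.1) (e2 hmem) (e3 hmem) ?_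
  rw [e4 hmem]
  exact hD.mInt_fin

/-- Two renormalized solutions that can both be compared with the same mild solution on `(0,T]`
coincide on `[0,T]`. -/
theorem eq_on_of_mild (hD : IsDatum F0) (hF : IsRenormalizedSolution F0 F)
    (hG : IsRenormalizedSolution F0 G) {T : ℝ} (hT : 0 < T)
    (hg : IsMildOn T F0 g) {K : ℝ≥0∞} (hKfin : K < ∞)
    (hKT : ∀ᵐ t : ℝ, t ∈ Set.Ioc (0 : ℝ) T → ∀ᵐ x : Torus, thirdMoment (g t) x ≤ K) :
    ∀ t ∈ Set.Icc (0 : ℝ) T, F t =ᵐ[volume] G t := by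
  have h1 := ae_eq_mild hD hF hg hKfin hKT
  have h2 := ae_eq_mild hD hG hg hKfin hKT
  refine ae_eq_of_weaklyContinuous_Icc hT (measurable_slice hF.meas) (measurable_slice hG.meas)
    hF.mass_fin hG.mass_fin hF.cont hG.cont ?_
  filter_upwards [h1, h2] with t a1 a2 hmem
  exact (a1 hmem).trans (a2 hmem).symm

end Vale.Agent.Lib.P140
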