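import Mathlib
import Vale.Agent.Lib.P140.Final

/-!
# Data bounded by a Maxwellian: reduction to the Kaniel-Shinbrot class
-/

namespace Vale.Agent.Lib.P140

open MeasureTheory
open scoped ENNReal

variable {F0 F0' : Torus × V → ℝ≥0∞} {F G : ℝ → Torus × V → ℝ≥0∞}

/-- The notion of renormalized solution depends on the datum only up to null sets. -/
theorem IsRenormalizedSolution.congr_datum (h : F0 =ᵐ[volume] F0')
    (hF : IsRenormalizedSolution F0 F) : IsRenormalizedSolution F0' F where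
  meas := hF.meas
  cont := hF.cont
  bound := hF.bound
  gain_int := hF.gain_int
  loss_int := hF.loss_int
  renorm := by
    intro β hβ φ hφ
    have h1 := hF.renorm β hβ φ hφ
    have e : ∫ z, Mx z.2 * β (Gr F0' z) * φ (0, z) = ∫ z, Mx z.2 * β (Gr F0 z) * φ (0, z) := by
      apply integral_congr_ae
      filter_upwards [h] with z hz
      simp only [Gr, hz]
    rw [e]
    exact h1
  massBalance := by
    intro φ hφ
    have h1 := hF.massBalance φ hφ
    have e : ∫ z : Torus × V, (F0' z).toReal * φ (0, z.1) =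
        ∫ z : Torus × V, (F0 z).toReal * φ (0, z.1) := by
      apply integral_congr_ae
      filter_upwards [h] with z hz
      rw [hz]
    rw [e]
    exact h1
  energy_le := by
    intro t ht
    have e : energy F0' = energy F0 := by
      unfold energy
      apply lintegral_congr_ae
      filter_upwards [h] with z hz
      rw [hz]
    rw [e]
    exact hF.energy_le t ht

/-- A Maxwellian is bounded by a centred Gaussian. -/
lemma maxw_le_gaussW (ρ θ : ℝ) (u : V) (hρ : 0 ≤ ρ) (hθ : 0 < θ) (z : Torus × V) :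
    maxw ρ θ u z ≤ ENNReal.ofReal (ρ * Real.exp (‖u‖ ^ 2 / (2 * θ))) * gaussW (1 / (4 * θ)) z.2 := by
  unfold maxw gaussW
  rw [← ENNReal.ofReal_mul (by positivity)]
  apply ENNReal.ofReal_le_ofReal
  rw [mul_assoc, ← Real.exp_add]
  apply mul_le_mul_of_nonneg_left _ hρ
  apply Real.exp_le_exp.2
  have h1 : ‖z.2‖ ^ 2 ≤ 2 * ‖u‖ ^ 2 + 2 * ‖z.2 - u‖ ^ 2 := by
    have h2 : ‖z.2‖ ≤ ‖u‖ + ‖z.2 - u‖ := by
      calc ‖z.2‖ = ‖u + (z.2 - u)‖ := by congr 1; abel
        _ ≤ ‖u‖ + ‖z.2 - u‖ := norm_add_le _ _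
    nlinarith [norm_nonneg z.2, norm_nonneg u, norm_nonneg (z.2 - u), sq_nonneg (‖u‖ - ‖z.2 - u‖)]
  have e : ‖u‖ ^ 2 / (2 * θ) + -(1 / (4 * θ) * ‖z.2‖ ^ 2) - -‖z.2 - u‖ ^ 2 / (2 * θ) =
      (2 * ‖u‖ ^ 2 + 2 * ‖z.2 - u‖ ^ 2 - ‖z.2‖ ^ 2) / (4 * θ) := by
    field_simp
    ring
  have h3 : 0 ≤ (2 * ‖u‖ ^ 2 + 2 * ‖z.2 - u‖ ^ 2 - ‖z.2‖ ^ 2) / (4 * θ) := by
    apply div_nonneg _ (by positivity)
    linarith
  linarith

/-- Functions bounded by a Gaussian are data. -/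
lemma isDatum_of_le_gaussW {C : ℝ≥0∞} {b : ℝ} (hC : C ≠ ∞) (hb : 0 < b) (hm : Measurable F0)
    (h : ∀ z, F0 z ≤ C * gaussW b z.2) : IsDatum F0 := by
  have hK : C * ∫⁻ v, w3 v * gaussW b v < ∞ :=
    ENNReal.mul_lt_top (lt_top_iff_ne_top.2 hC) (lintegral_w3_gaussW_lt_top hb)
  have h3 : ∀ x : Torus, thirdMoment F0 x ≤ C * ∫⁻ v, w3 v * gaussW b v := by
    intro x
    have hmm : Measurable (fun v => w3 v * gaussW b v) := measurable_w3.mul (measurable_gaussW b)
    rw [thirdMoment_eq, ← lintegral_const_mul _ hmm]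
    apply lintegral_mono
    intro v
    calc w3 v * F0 (x, v) ≤ w3 v * (C * gaussW b v) := by gcongr; exact h (x, v)
      _ = C * (w3 v * gaussW b v) := by ring
  have hmu : Measurable (Function.uncurry fun _ : ℝ => F0) := hm.comp measurable_snd
  have hint : mInt F0 ≤ C * ∫⁻ v, w3 v * gaussW b v :=
    int_wm_le (g := fun _ => F0) hmu 0 (Filter.Eventually.of_forall h3)
  rw [mInt_eq hm] at hint
  exact ⟨hm, lt_of_le_of_lt (le_trans le_self_add hint) hK,
    lt_of_le_of_lt (le_trans le_add_self hint) hK⟩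

/-- **Short-time uniqueness for data bounded by a Maxwellian.** -/
theorem shortTime_unique (ρ θ : ℝ) (u : V) (hρ : 0 ≤ ρ) (hθ : 0 < θ) :
    ∃ T : ℝ, 0 < T ∧ ∀ (F0 : Torus × V → ℝ≥0∞) (F G : ℝ → Torus × V → ℝ≥0∞), Measurable F0 →
      (∀ᵐ z, F0 z ≤ maxw ρ θ u z) → IsRenormalizedSolution F0 F → IsRenormalizedSolution F0 G →
      ∀ t ∈ Set.Icc (0 : ℝ) T, F t =ᵐ[volume] G t := by
  have hb : 0 < 1 / (4 * θ) := by positivity
  have hC : 0 ≤ ρ * Real.exp (‖u‖ ^ 2 / (2 * θ)) := by positivity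
  obtain ⟨T, hT, K, hKfin, hex⟩ := ks_exists hb hC
  refine ⟨T, hT, ?_⟩
  intro F0 F G hm hle hF hG
  have hmw : Measurable (maxw ρ θ u) := by
    unfold maxw
    fun_prop
  set F0' : Torus × V → ℝ≥0∞ := fun z => min (F0 z) (maxw ρ θ u z) with hF0'
  have hm' : Measurable F0' := hm.min hmw
  have hae : F0 =ᵐ[volume] F0' := by
    filter_upwards [hle] with z hz
    simp only [hF0', min_eq_left hz]
  have hle' : ∀ z, F0' z ≤
      ENNReal.ofReal (ρ * Real.exp (‖u‖ ^ 2 / (2 * θ))) * gaussW (1 / (4 * θ)) z.2 :=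
    fun z => le_trans (min_le_right _ _) (maxw_le_gaussW ρ θ u hρ hθ z)
  obtain ⟨g, hg, hK⟩ := hex F0' hm' hle'
  have hD : IsDatum F0' := isDatum_of_le_gaussW ENNReal.ofReal_ne_top hb hm' hle'
  exact eq_on_of_mild hD (hF.congr_datum hae) (hG.congr_datum hae) hT hg hKfin
    (Filter.Eventually.of_forall fun t ht =>
      Filter.Eventually.of_forall (hK t ⟨ht.1.le, ht.2⟩))

end Vale.Agent.Lib.P140
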