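import Mathlib
import Vale.Agent.Lib.P140.Final
import Vale.Agent.Lib.P140.Core5

/-!
# Weak-strong uniqueness of renormalized solutions under the moment condition
`∫ (1+|v|^2) g dv ≤ K`, `∫ (1+|v|)^3 g dv ≤ k(t)`, `∫_0^T t k(t) dt < ∞`
-/

namespace Vale.Agent.Lib.P140

open MeasureTheory
open scoped ENNReal

variable {F0 : Torus × V → ℝ≥0∞} {F G g : ℝ → Torus × V → ℝ≥0∞}

/-- A renormalized solution does not gain mass plus energy. -/
lemma IsRenormalizedSolution.mInt_le (hD : IsDatum F0) (hF : IsRenormalizedSolution F0 F) :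
    ∀ᵐ t : ℝ, 0 < t → mInt (F t) ≤ mInt F0 := by
  have hmass := mass_conserved hD.meas hD.mass_fin hF.meas hF.mass_bound hF.massBalance
  filter_upwards [hmass] with t h1 ht
  rw [mInt_eq (measurable_slice hF.meas t), mInt_eq hD.meas, h1 ht]
  gcongr
  exact hF.energy_le t ht.le

/-- Uniqueness at almost every time of `(0,T]`. -/
theorem ae_eq_of_moments (hD : IsDatum F0) (hF : IsRenormalizedSolution F0 F)
    (hg : IsRenormalizedSolution F0 g) {T : ℝ} (hT : 0 < T) {K : ℝ≥0∞} (hKfin : K < ∞)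
    {k : ℝ → ℝ≥0∞} (hk : Measurable k)
    (hkfin : ∫⁻ s in Set.Ioc 0 T, ENNReal.ofReal s * k s < ∞)
    (hK2 : ∀ᵐ s : ℝ, s ∈ Set.Ioc 0 T → ∀ᵐ x : Torus, secondMoment (g s) x ≤ K)
    (hK3 : ∀ᵐ s : ℝ, s ∈ Set.Ioc 0 T → ∀ᵐ x : Torus, thirdMoment (g s) x ≤ k s) :
    ∀ᵐ t : ℝ, t ∈ Set.Ioc 0 T → F t =ᵐ[volume] g t := by
  have hFm := (hF.isMildAE hD).on T
  have hgm := (hg.isMildAE hD).on T
  have hF0 : ∀ᵐ z, F0 z < ∞ := ae_lt_top hD.meas hD.mass_fin.ne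
  have hmF := mass_conserved hD.meas hD.mass_fin hF.meas hF.mass_bound hF.massBalance
  have hmg := mass_conserved hD.meas hD.mass_fin hg.meas hg.mass_bound hg.massBalance
  have hmass : ∀ᵐ s : ℝ, s ∈ Set.Ioc 0 T → mass (F s) = mass (g s) := by
    filter_upwards [hmF, hmg] with s h1 h2 hs
    rw [h1 hs.1, h2 hs.1]
  have hge := mInt_ge_of_moments hD.meas hF0 hT hgm hKfin hk hkfin hK2 hK3
  have hm : ∀ᵐ s : ℝ, s ∈ Set.Ioc 0 T → mInt (F s) ≤ mInt (g s) := by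
    filter_upwards [hF.mInt_le hD, hge] with s h1 h2 hs
    exact (h1 hs.1).trans (h2 hs)
  have hcons : ∀ᵐ s : ℝ, s ∈ Set.Ioc 0 T → mInt (g s) ≤ mInt F0 := by
    filter_upwards [hg.mInt_le hD] with s h1 hs
    exact h1 hs.1
  exact weakStrong_core3 hD.meas hD.mInt_fin hT hFm hgm hKfin hk hkfin hK2 hK3 hmass hm hcons

/-- Uniqueness on `[0,T]`. -/
theorem eq_on_of_moments (hD : IsDatum F0) (hF : IsRenormalizedSolution F0 F)
    (hg : IsRenormalizedSolution F0 g) {T : ℝ} (hT : 0 < T) {K : ℝ≥0∞} (hKfin : K < ∞)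
    {k : ℝ → ℝ≥0∞} (hk : Measurable k)
    (hkfin : ∫⁻ s in Set.Ioc 0 T, ENNReal.ofReal s * k s < ∞)
    (hK2 : ∀ᵐ s : ℝ, s ∈ Set.Ioc 0 T → ∀ᵐ x : Torus, secondMoment (g s) x ≤ K)
    (hK3 : ∀ᵐ s : ℝ, s ∈ Set.Ioc 0 T → ∀ᵐ x : Torus, thirdMoment (g s) x ≤ k s) :
    ∀ t ∈ Set.Icc (0 : ℝ) T, F t =ᵐ[volume] g t :=
  ae_eq_of_weaklyContinuous_Icc hT (measurable_slice hF.meas) (measurable_slice hg.meas)
    hF.mass_fin hg.mass_fin hF.cont hg.cont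
    (ae_eq_of_moments hD hF hg hT hKfin hk hkfin hK2 hK3)

end Vale.Agent.Lib.P140
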