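import Mathlib
import Vale.Agent.Lib.P140.Duhamel

/-!
# Quantitative Gronwall lemmas in `[0,∞]`
-/

namespace Vale.Agent.Lib.P140

open MeasureTheory Set
open scoped ENNReal

/-- If `Z ≤ B < ∞` and `Z(t) ≤ A + c ∫_0^t Z` on `(0,T]` then `Z(t) ≤ 2 A e^{2ct}`. -/
theorem gronwall_quant {Z : ℝ → ℝ≥0∞} {A c B : ℝ≥0∞} (hc : c ≠ ∞) (hB : B ≠ ∞) (T : ℝ)
    (hbd : ∀ t ∈ Ioc (0 : ℝ) T, Z t ≤ B)
    (h : ∀ t ∈ Ioc (0 : ℝ) T, Z t ≤ A + c * ∫⁻ s in Ioc 0 t, Z s) :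
    ∀ t ∈ Ioc (0 : ℝ) T, Z t ≤ 2 * A * ENNReal.ofReal (Real.exp (2 * c.toReal * t)) := by
  set c' := c.toReal with hc'
  have hc0 : 0 ≤ c' := ENNReal.toReal_nonneg
  have hcc : c = ENNReal.ofReal c' := (ENNReal.ofReal_toReal hc).symm
  set E : ℝ → ℝ≥0∞ := fun t => ENNReal.ofReal (Real.exp (2 * c' * t)) with hE
  have hE0 : ∀ t, E t ≠ 0 := fun t => (ENNReal.ofReal_pos.2 (Real.exp_pos _)).ne'
  have hET : ∀ t, E t ≠ ∞ := fun t => ENNReal.ofReal_ne_top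
  have hE1 : ∀ t, 0 ≤ t → 1 ≤ E t := by
    intro t ht
    rw [hE]
    simp only
    rw [ENNReal.one_le_ofReal]
    exact Real.one_le_exp (by positivity)
  have mE : Measurable E := by
    rw [hE]
    fun_prop
  set S : ℝ≥0∞ := ⨆ t ∈ Ioc (0 : ℝ) T, Z t / E t with hS
  have hSle : ∀ t ∈ Ioc (0 : ℝ) T, Z t ≤ S * E t := by
    intro t ht
    have h1 : Z t / E t ≤ S := le_iSup₂ (f := fun t (_ : t ∈ Ioc (0 : ℝ) T) => Z t / E t) t ht
    calc Z t = Z t / E t * E t := (ENNReal.div_mul_cancel (hE0 t) (hET t)).symm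
      _ ≤ S * E t := mul_le_mul_left h1 _
  have hSB : S ≤ B := by
    apply iSup₂_le
    intro t ht
    calc Z t / E t ≤ Z t / 1 := ENNReal.div_le_div_left (hE1 t ht.1.le) _
      _ = Z t := div_one _
      _ ≤ B := hbd t ht
  have hSfin : S ≠ ∞ := ne_top_of_le_ne_top hB hSB
  have hkey : ∀ t ∈ Ioc (0 : ℝ) T, Z t ≤ A + S / 2 * E t := by
    intro t ht
    have h1 : ∫⁻ s in Ioc 0 t, Z s ≤ S * ∫⁻ s in Ioc 0 t, E s := by
      rw [← lintegral_const_mul _ mE]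
      apply setLIntegral_mono' measurableSet_Ioc
      intro s hs
      exact hSle s ⟨hs.1, hs.2.trans ht.2⟩
    have h2 := lintegral_exp_growth (l := 2 * c') (t := t) (by positivity) ht.1.le
    have h3 : 2 * c * ∫⁻ s in Ioc 0 t, E s ≤ E t := by
      have h4 : ENNReal.ofReal (2 * c') = 2 * c := by
        rw [ENNReal.ofReal_mul (by norm_num), hcc]
        norm_num
      rw [h4] at h2
      calc 2 * c * ∫⁻ s in Ioc 0 t, E s ≤ 1 + 2 * c * ∫⁻ s in Ioc 0 t, E s := le_add_self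
        _ = E t := h2
    have h5 : c * ∫⁻ s in Ioc 0 t, E s ≤ E t / 2 := by
      rw [ENNReal.le_div_iff_mul_le (Or.inl (by norm_num)) (Or.inl (by norm_num))]
      calc c * (∫⁻ s in Ioc 0 t, E s) * 2 = 2 * c * ∫⁻ s in Ioc 0 t, E s := by ring
        _ ≤ E t := h3
    calc Z t ≤ A + c * ∫⁻ s in Ioc 0 t, Z s := h t ht
      _ ≤ A + c * (S * ∫⁻ s in Ioc 0 t, E s) := by gcongr
      _ = A + S * (c * ∫⁻ s in Ioc 0 t, E s) := by ring
      _ ≤ A + S * (E t / 2) := by gcongr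
      _ = A + S / 2 * E t := by
          rw [div_eq_mul_inv, div_eq_mul_inv]; ring
  have hS2 : S ≤ A + S / 2 := by
    apply iSup₂_le
    intro t ht
    rw [ENNReal.div_le_iff (hE0 t) (hET t)]
    calc Z t ≤ A + S / 2 * E t := hkey t ht
      _ ≤ A * E t + S / 2 * E t := by
          gcongr
          calc A = A * 1 := (mul_one A).symm
            _ ≤ A * E t := by gcongr; exact hE1 t ht.1.le
      _ = (A + S / 2) * E t := by ring
  have hhalf : S / 2 ≠ ∞ := ne_top_of_le_ne_top hSfin ENNReal.half_le_self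
  have hS3 : S / 2 ≤ A := by
    have h1 : S / 2 + S / 2 ≤ A + S / 2 := by rw [ENNReal.add_halves]; exact hS2
    exact (ENNReal.add_le_add_iff_right hhalf).1 h1
  have hS4 : S ≤ 2 * A := by
    calc S = S / 2 + S / 2 := (ENNReal.add_halves S).symm
      _ ≤ A + A := add_le_add hS3 hS3
      _ = 2 * A := (two_mul A).symm
  intro t ht
  calc Z t ≤ S * E t := hSle t ht
    _ ≤ 2 * A * E t := by gcongr

/-- The system `X ≤ X0 + a ∫ D`, `D ≤ D0 + b ∫ (k X + e D)` with `s k(s) ≤ K3`, `∫_0^T k ≤ Λ`. -/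
theorem stability_gronwall {D X k : ℝ → ℝ≥0∞} {D0 X0 a b e K3 Λ B : ℝ≥0∞} (T : ℝ)
    (ha : a ≠ ∞) (hb : b ≠ ∞) (he : e ≠ ∞) (hK3 : K3 ≠ ∞) (hΛ : Λ ≠ ∞) (hB : B ≠ ∞)
    (hD0 : D0 ≠ ∞) (hX0 : X0 ≠ ∞) (mD : Measurable D) (mk : Measurable k)
    (hX : ∀ t ∈ Ioc (0 : ℝ) T, X t ≤ X0 + a * ∫⁻ s in Ioc 0 t, D s)
    (hD : ∀ t ∈ Ioc (0 : ℝ) T, D t ≤ D0 + b * ∫⁻ s in Ioc 0 t, (k s * X s + e * D s))
    (hk : ∀ s ∈ Ioc (0 : ℝ) T, ENNReal.ofReal s * k s ≤ K3)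
    (hkΛ : ∫⁻ s in Ioc 0 T, k s ≤ Λ) (hbd : ∀ t ∈ Ioc (0 : ℝ) T, D t ≤ B) :
    ∀ t ∈ Ioc (0 : ℝ) T, D t ≤ 2 * (D0 + b * Λ * X0) *
      ENNReal.ofReal (Real.exp (2 * (b * (a * K3 + e)).toReal * t)) := by
  set A : ℝ≥0∞ := D0 + b * Λ * X0 with hA
  set Φ : ℝ → ℝ≥0∞ := fun s => ∫⁻ r in Ioc 0 s, D r with hΦ
  have monoΦ : Monotone Φ := by
    intro s t hst
    exact lintegral_mono_set (Ioc_subset_Ioc_right hst)
  have mΦ : Measurable Φ := monoΦ.measurable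
  set G : ℝ → ℝ≥0∞ := fun s => a * (k s * Φ s) + e * D s with hG
  have mG : Measurable G := by
    rw [hG]
    exact ((mk.mul mΦ).const_mul a).add (mD.const_mul e)
  set Z : ℝ → ℝ≥0∞ := fun t => A + b * ∫⁻ s in Ioc 0 t, G s with hZ
  have monoZ : Monotone Z := by
    intro s t hst
    rw [hZ]
    simp only
    gcongr
  have hDZ : ∀ t ∈ Ioc (0 : ℝ) T, D t ≤ Z t := by
    intro t ht
    have h1 : ∫⁻ s in Ioc 0 t, (k s * X s + e * D s) ≤
        ∫⁻ s in Ioc 0 t, (X0 * k s + G s) := by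
      apply setLIntegral_mono' measurableSet_Ioc
      intro s hs
      have hs' : s ∈ Ioc (0 : ℝ) T := ⟨hs.1, hs.2.trans ht.2⟩
      calc k s * X s + e * D s ≤ k s * (X0 + a * Φ s) + e * D s := by
            gcongr
            exact hX s hs'
        _ = X0 * k s + G s := by rw [hG]; ring
    have h2 : ∫⁻ s in Ioc 0 t, (X0 * k s + G s) =
        X0 * (∫⁻ s in Ioc 0 t, k s) + ∫⁻ s in Ioc 0 t, G s := by
      rw [lintegral_add_left (mk.const_mul X0), lintegral_const_mul _ mk]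
    have h3 : ∫⁻ s in Ioc 0 t, k s ≤ Λ :=
      (lintegral_mono_set (Ioc_subset_Ioc_right ht.2)).trans hkΛ
    calc D t ≤ D0 + b * ∫⁻ s in Ioc 0 t, (k s * X s + e * D s) := hD t ht
      _ ≤ D0 + b * (X0 * Λ + ∫⁻ s in Ioc 0 t, G s) := by
          gcongr
          rw [h2] at h1
          exact h1.trans (by gcongr)
      _ = Z t := by rw [hZ, hA]; ring
  have volIoc : ∀ s : ℝ, volume (Ioc 0 s) = ENNReal.ofReal s := by
    intro s
    rw [Real.volume_Ioc, sub_zero]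
  have hΦZ : ∀ s ∈ Ioc (0 : ℝ) T, Φ s ≤ ENNReal.ofReal s * Z s := by
    intro s hs
    calc Φ s ≤ ∫⁻ _r in Ioc 0 s, Z s := by
          apply setLIntegral_mono' measurableSet_Ioc
          intro r hr
          exact (hDZ r ⟨hr.1, hr.2.trans hs.2⟩).trans (monoZ hr.2)
      _ = ENNReal.ofReal s * Z s := by
          rw [setLIntegral_const, volIoc, mul_comm]
  have hΦB : ∀ s ∈ Ioc (0 : ℝ) T, Φ s ≤ ENNReal.ofReal s * B := by
    intro s hs
    calc Φ s ≤ ∫⁻ _r in Ioc 0 s, B := by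
          apply setLIntegral_mono' measurableSet_Ioc
          intro r hr
          exact hbd r ⟨hr.1, hr.2.trans hs.2⟩
      _ = ENNReal.ofReal s * B := by
          rw [setLIntegral_const, volIoc, mul_comm]
  set c : ℝ≥0∞ := b * (a * K3 + e) with hcdef
  have hcfin : c ≠ ∞ := ENNReal.mul_ne_top hb (ENNReal.add_ne_top.2 ⟨ENNReal.mul_ne_top ha hK3, he⟩)
  have hAfin : A ≠ ∞ :=
    ENNReal.add_ne_top.2 ⟨hD0, ENNReal.mul_ne_top (ENNReal.mul_ne_top hb hΛ) hX0⟩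
  have hGZ : ∀ s ∈ Ioc (0 : ℝ) T, G s ≤ (a * K3 + e) * Z s := by
    intro s hs
    have h1 : k s * Φ s ≤ K3 * Z s := by
      calc k s * Φ s ≤ k s * (ENNReal.ofReal s * Z s) := by gcongr; exact hΦZ s hs
        _ = (ENNReal.ofReal s * k s) * Z s := by ring
        _ ≤ K3 * Z s := by gcongr; exact hk s hs
    calc G s = a * (k s * Φ s) + e * D s := rfl
      _ ≤ a * (K3 * Z s) + e * Z s := by
          gcongr
          exact hDZ s hs
      _ = (a * K3 + e) * Z s := by ring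
  have hGB : ∀ s ∈ Ioc (0 : ℝ) T, G s ≤ (a * K3 + e) * B := by
    intro s hs
    have h1 : k s * Φ s ≤ K3 * B := by
      calc k s * Φ s ≤ k s * (ENNReal.ofReal s * B) := by gcongr; exact hΦB s hs
        _ = (ENNReal.ofReal s * k s) * B := by ring
        _ ≤ K3 * B := by gcongr; exact hk s hs
    calc G s = a * (k s * Φ s) + e * D s := rfl
      _ ≤ a * (K3 * B) + e * B := by
          gcongr
          exact hbd s hs
      _ = (a * K3 + e) * B := by ring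
  have hZint : ∀ t ∈ Ioc (0 : ℝ) T, Z t ≤ A + c * ∫⁻ s in Ioc 0 t, Z s := by
    intro t ht
    have h1 : ∫⁻ s in Ioc 0 t, G s ≤ (a * K3 + e) * ∫⁻ s in Ioc 0 t, Z s := by
      rw [← lintegral_const_mul _ monoZ.measurable]
      apply setLIntegral_mono' measurableSet_Ioc
      intro s hs
      exact hGZ s ⟨hs.1, hs.2.trans ht.2⟩
    calc Z t = A + b * ∫⁻ s in Ioc 0 t, G s := rfl
      _ ≤ A + b * ((a * K3 + e) * ∫⁻ s in Ioc 0 t, Z s) := by gcongr
      _ = A + c * ∫⁻ s in Ioc 0 t, Z s := by rw [hcdef]; ring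
  set B' : ℝ≥0∞ := A + b * ((a * K3 + e) * B * ENNReal.ofReal T) with hB'
  have hB'fin : B' ≠ ∞ := by
    refine ENNReal.add_ne_top.2 ⟨hAfin, ENNReal.mul_ne_top hb (ENNReal.mul_ne_top
      (ENNReal.mul_ne_top (ENNReal.add_ne_top.2 ⟨ENNReal.mul_ne_top ha hK3, he⟩) hB)
      ENNReal.ofReal_ne_top)⟩
  have hZB : ∀ t ∈ Ioc (0 : ℝ) T, Z t ≤ B' := by
    intro t ht
    have h1 : ∫⁻ s in Ioc 0 t, G s ≤ (a * K3 + e) * B * ENNReal.ofReal T := by
      calc ∫⁻ s in Ioc 0 t, G s ≤ ∫⁻ _s in Ioc 0 t, (a * K3 + e) * B := by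
            apply setLIntegral_mono' measurableSet_Ioc
            intro s hs
            exact hGB s ⟨hs.1, hs.2.trans ht.2⟩
        _ = (a * K3 + e) * B * ENNReal.ofReal t := by
            rw [setLIntegral_const, volIoc]
        _ ≤ (a * K3 + e) * B * ENNReal.ofReal T := by
            gcongr
            exact ht.2
    calc Z t = A + b * ∫⁻ s in Ioc 0 t, G s := rfl
      _ ≤ B' := by rw [hB']; gcongr
  have hfinal := gronwall_quant hcfin hB'fin T hZB hZint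
  intro t ht
  exact (hDZ t ht).trans (hfinal t ht)

end Vale.Agent.Lib.P140
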