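import Mathlib
import Vale.Agent.Lib.P140.WeakId

/-!
# The spatially homogeneous equation: Arkeryd's monotone scheme (definitions)

With `N(f) = ∫ (1+|v|^2) f` and `E ≥ N(f0)` the modified equation
`∂_t f + 2 σ E (1+|v|) f = Q^+(f,f) + f (2 σ (1+|v|) N(f) - L(f))` has a right-hand side which is
monotone in `f ≥ 0`; a solution with `N(f(t)) = E` solves the Boltzmann equation.
-/

namespace Vale.Agent.Lib.P140

open MeasureTheory Set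
open scoped ENNReal

/-- `<v> = sqrt(1+|v|^2)`. -/
noncomputable def br (v : V) : ℝ := Real.sqrt (1 + ‖v‖ ^ 2)

/-- The weight `<v>^3`. -/
noncomputable def wb (v : V) : ℝ≥0∞ := ENNReal.ofReal (br v ^ 3)

/-- `σ = |S^2|`. -/
noncomputable def sig : ℝ≥0∞ := surf univ

/-- `∫_{S^2} |(v - v_*)·ω| dω`. -/
noncomputable def kerInt (v vs : V) : ℝ≥0∞ := ∫⁻ ω : Sph, ker (v, vs) ω ∂surf

/-- The nonnegative kernel `2 σ (1+|v|)(1+|v_*|^2) - ∫ |a| dω`. -/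
noncomputable def kap (v vs : V) : ℝ≥0∞ := 2 * sig * w1 v * wm vs - kerInt v vs

/-- `A(f)(v) = ∫ kap(v,v_*) f(v_*) dv_*`. -/
noncomputable def aOp (f : V → ℝ≥0∞) (v : V) : ℝ≥0∞ := ∫⁻ vs, kap v vs * f vs

/-- The monotone right-hand side `Γ(f) = Q^+(f,f) + f A(f)`. -/
noncomputable def gam (f : V → ℝ≥0∞) (v : V) : ℝ≥0∞ := gainV f f v + f v * aOp f v

/-- `N(f) = ∫ (1+|v|^2) f`. -/
noncomputable def nInt (f : V → ℝ≥0∞) : ℝ≥0∞ := ∫⁻ v, wm v * f v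

/-- The absorption rate `2 σ E (1+|v|)`. -/
noncomputable def nu (E : ℝ≥0∞) (v : V) : ℝ≥0∞ := 2 * sig * E * w1 v

/-- `exp(-ν(v) t)`. -/
noncomputable def ex (E : ℝ≥0∞) (t : ℝ) (v : V) : ℝ≥0∞ :=
  ENNReal.ofReal (Real.exp (-((nu E v).toReal * t)))

/-- The Duhamel operator of the modified equation. -/
noncomputable def arkOp (E : ℝ≥0∞) (φ : V → ℝ≥0∞) (u : ℝ × V → ℝ≥0∞) (p : ℝ × V) : ℝ≥0∞ :=
  ex E p.1 p.2 * φ p.2 + ∫⁻ s in Ioc 0 p.1, ex E (p.1 - s) p.2 * gam (fun w => u (s, w)) p.2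

/-- The datum cut off at `|v| ≤ k`. -/
noncomputable def cut (f0 : V → ℝ≥0∞) (k : ℕ) (v : V) : ℝ≥0∞ := if ‖v‖ ≤ k then f0 v else 0

/-- The monotone iteration, with the datum cut off at `|v| ≤ k` in the `k`-th step. -/
noncomputable def arkIt (E : ℝ≥0∞) (f0 : V → ℝ≥0∞) : ℕ → ℝ × V → ℝ≥0∞
  | 0 => fun _ => 0
  | k + 1 => arkOp E (cut f0 (k + 1)) (arkIt E f0 k)

/-- The limit of the monotone iteration. -/
noncomputable def arkSol (E : ℝ≥0∞) (f0 : V → ℝ≥0∞) (p : ℝ × V) : ℝ≥0∞ := ⨆ k, arkIt E f0 k p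

/-- Weights with a Povzner-type inequality (no gain of moments needed):
`|a| (W(v') + W(v_*')) ≤ |a| (W(v) + W(v_*)) + c (W(v) m(v_*) + m(v) W(v_*))`, `m = 1+|v|^2`. -/
structure PovW (W : V → ℝ≥0∞) (c : ℝ≥0∞) : Prop where
  meas : Measurable W
  growth : ∃ (j : ℕ) (C : ℝ≥0∞), C ≠ ∞ ∧ ∀ v, W v ≤ C * w1 v ^ j
  cfin : c ≠ ∞
  pov : ∀ (v vs : V) (ω : Sph), ker (v, vs) ω * (W (vPrime v vs ω) + W (vsPrime v vs ω)) ≤
    ker (v, vs) ω * (W v + W vs) + c * (W v * wm vs + wm v * W vs)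

end Vale.Agent.Lib.P140
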