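import Mathlib
import Vale.Agent.Lib.P140.HomDefs

/-!
# Spatially homogeneous mild solutions: definitions for the finite-energy theory
-/

namespace Vale.Agent.Lib.P140

open MeasureTheory Set Filter Topology
open scoped ENNReal

/-- `Q^+(u(s),u(s))(v)`. -/
noncomputable def gH (u : ℝ × V → ℝ≥0∞) (q : ℝ × V) : ℝ≥0∞ :=
  gainV (fun y => u (q.1, y)) (fun y => u (q.1, y)) q.2

/-- `Q^-(u(s),u(s))(v) = u L(u)`. -/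
noncomputable def lH (u : ℝ × V → ℝ≥0∞) (q : ℝ × V) : ℝ≥0∞ :=
  u q * freqV (fun y => u (q.1, y)) q.2

/-- Mild solutions of the spatially homogeneous equation on `[0,T]`, strong form: for almost every
`v` the equation holds for all `t`. -/
structure IsHomMild (T : ℝ) (φ : V → ℝ≥0∞) (u : ℝ × V → ℝ≥0∞) : Prop where
  meas : Measurable u
  gain_fin : ∀ᵐ v : V, ∫⁻ s in Ioc 0 T, gH u (s, v) < ∞
  loss_fin : ∀ᵐ v : V, ∫⁻ s in Ioc 0 T, lH u (s, v) < ∞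
  eqn : ∀ᵐ v : V, ∀ t ∈ Icc (0 : ℝ) T,
    u (t, v) + ∫⁻ s in Ioc 0 t, lH u (s, v) = φ v + ∫⁻ s in Ioc 0 t, gH u (s, v)

/-- Weak form: for all `t ∈ (0,T]` the equation holds for almost every `v`. -/
structure IsHomMildW (T : ℝ) (φ : V → ℝ≥0∞) (u : ℝ × V → ℝ≥0∞) : Prop where
  meas : Measurable u
  gain_fin : ∀ᵐ v : V, ∫⁻ s in Ioc 0 T, gH u (s, v) < ∞
  loss_fin : ∀ᵐ v : V, ∫⁻ s in Ioc 0 T, lH u (s, v) < ∞
  eqn : ∀ t ∈ Ioc (0 : ℝ) T, ∀ᵐ v : V,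
    u (t, v) + ∫⁻ s in Ioc 0 t, lH u (s, v) = φ v + ∫⁻ s in Ioc 0 t, gH u (s, v)

/-- The weight `|v|^k`. -/
noncomputable def pw (k : ℕ) (v : V) : ℝ≥0∞ := ENNReal.ofReal (‖v‖ ^ k)

/-- The moment `∫ W(v) u(s,v) dv`. -/
noncomputable def momW (W : V → ℝ≥0∞) (u : ℝ × V → ℝ≥0∞) (s : ℝ) : ℝ≥0∞ := ∫⁻ v, W v * u (s, v)

/-- `∫ (w-u)_+ dv`. -/
noncomputable def Xh (u w : ℝ × V → ℝ≥0∞) (s : ℝ) : ℝ≥0∞ := ∫⁻ v, (w (s, v) - u (s, v))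

/-- `∫ (1+|v|^2) (w-u)_+ dv`. -/
noncomputable def Yh (u w : ℝ × V → ℝ≥0∞) (s : ℝ) : ℝ≥0∞ := ∫⁻ v, wm v * (w (s, v) - u (s, v))

/-- `(w-u)_+ L(w)`. -/
noncomputable def ellH (u w : ℝ × V → ℝ≥0∞) (q : ℝ × V) : ℝ≥0∞ :=
  (w q - u q) * freqV (fun y => w (q.1, y)) q.2

/-- `Q^+(w,(w-u)_+) + Q^+((w-u)_+,w) + w L((u-w)_+)`. -/
noncomputable def RH (u w : ℝ × V → ℝ≥0∞) (q : ℝ × V) : ℝ≥0∞ :=
  gainV (fun y => w (q.1, y)) (fun y => w (q.1, y) - u (q.1, y)) q.2 +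
    gainV (fun y => w (q.1, y) - u (q.1, y)) (fun y => w (q.1, y)) q.2 +
    w q * freqV (fun y => u (q.1, y) - w (q.1, y)) q.2

/-- A sequence of approximate data and strong solutions, Cauchy in `L^∞(0,T; L^1_2)` with summable
increments, with uniform bounds of the energy and of `t ∫ (1+|v|)^3 u`. -/
structure HomApprox (T : ℝ) (f0 : V → ℝ≥0∞) (φ : ℕ → V → ℝ≥0∞) (a : ℕ → ℝ × V → ℝ≥0∞)
    (d : ℕ → ℝ≥0∞) (K3 : ℝ≥0∞) : Prop where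
  K3_fin : K3 < ∞
  d_sum : ∑' m, d m < ∞
  data_meas : ∀ m, Measurable (φ m)
  data_le : ∀ m v, φ m v ≤ f0 v
  data_lim : Tendsto (fun m => ∫⁻ v, (f0 v - φ m v)) atTop (𝓝 0)
  mild : ∀ m, IsHomMild T (φ m) (a m)
  energy : ∀ m, ∀ t ∈ Ioc (0 : ℝ) T, momW wm (a m) t ≤ nInt f0
  third : ∀ m, ∀ t ∈ Ioc (0 : ℝ) T, ENNReal.ofReal t * momW w3 (a m) t ≤ K3
  incr : ∀ m, ∀ t ∈ Ioc (0 : ℝ) T, Yh (a m) (a (m + 1)) t + Yh (a (m + 1)) (a m) t ≤ d m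

end Vale.Agent.Lib.P140
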