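import Mathlib
import Vale.Agent.Lib.P140.HomDefs

/-!
# Measurability of the objects of Arkeryd's scheme
-/

namespace Vale.Agent.Lib.P140

open MeasureTheory Set
open scoped ENNReal

lemma measurable_wb : Measurable wb := by
  unfold wb br
  fun_prop

lemma measurable_kerInt : Measurable (fun p : V × V => kerInt p.1 p.2) := by
  unfold kerInt
  exact measurable_ker.lintegral_prod_right' (ν := surf)

lemma measurable_kap : Measurable (fun p : V × V => kap p.1 p.2) := by
  unfold kap
  have h1 : Measurable (fun p : V × V => 2 * sig * w1 p.1 * wm p.2) :=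
    ((measurable_w1.comp measurable_fst).const_mul (2 * sig)).mul (measurable_wm.comp measurable_snd)
  exact h1.sub measurable_kerInt

lemma measurable_aOp {P : Type*} [MeasurableSpace P] {A : P × V → ℝ≥0∞} (hA : Measurable A) :
    Measurable (fun q : P × V => aOp (fun u => A (q.1, u)) q.2) := by
  unfold aOp
  have hH : Measurable (fun r : (P × V) × V => kap r.1.2 r.2 * A (r.1.1, r.2)) := by
    have hm : Measurable (fun r : (P × V) × V => ((r.1.2, r.2) : V × V)) :=
      measurable_fst.snd.prodMk measurable_snd
    have h1 : Measurable (fun r : (P × V) × V => kap r.1.2 r.2) := by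
      have := measurable_kap.comp hm
      exact this
    have hm2 : Measurable (fun r : (P × V) × V => ((r.1.1, r.2) : P × V)) :=
      measurable_fst.fst.prodMk measurable_snd
    exact h1.mul (hA.comp hm2)
  exact hH.lintegral_prod_right' (ν := (volume : Measure V))

lemma measurable_gam {P : Type*} [MeasurableSpace P] {A : P × V → ℝ≥0∞} (hA : Measurable A) :
    Measurable (fun q : P × V => gam (fun u => A (q.1, u)) q.2) := by
  unfold gam
  exact (measurable_gainV hA hA).add (hA.mul (measurable_aOp hA))

lemma measurable_aOp' {f : V → ℝ≥0∞} (hf : Measurable f) : Measurable (aOp f) := by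
  have h := measurable_aOp (P := Unit) (A := fun q => f q.2) (hf.comp measurable_snd)
  have := h.comp measurable_pair_unit
  exact this

lemma measurable_gam' {f : V → ℝ≥0∞} (hf : Measurable f) : Measurable (gam f) := by
  have h := measurable_gam (P := Unit) (A := fun q => f q.2) (hf.comp measurable_snd)
  have := h.comp measurable_pair_unit
  exact this

lemma measurable_nu (E : ℝ≥0∞) : Measurable (nu E) := by
  unfold nu
  exact measurable_w1.const_mul _

lemma measurable_ex (E : ℝ≥0∞) : Measurable (fun q : ℝ × V => ex E q.1 q.2) := by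
  unfold ex
  have h1 : Measurable (fun q : ℝ × V => (nu E q.2).toReal) :=
    ((measurable_nu E).comp measurable_snd).ennreal_toReal
  have h2 : Measurable (fun q : ℝ × V => -((nu E q.2).toReal * q.1)) :=
    (h1.mul measurable_fst).neg
  exact ENNReal.measurable_ofReal.comp (Real.measurable_exp.comp h2)

lemma measurable_arkOp {E : ℝ≥0∞} {φ : V → ℝ≥0∞} {u : ℝ × V → ℝ≥0∞} (hφ : Measurable φ)
    (hu : Measurable u) : Measurable (arkOp E φ u) := by
  have h1 : Measurable (fun p : ℝ × V => ex E p.1 p.2 * φ p.2) :=
    (measurable_ex E).mul (hφ.comp measurable_snd)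
  have hS : MeasurableSet {q : (ℝ × V) × ℝ | 0 < q.2 ∧ q.2 ≤ q.1.1} :=
    (measurableSet_lt measurable_const measurable_snd).inter
      (measurableSet_le measurable_snd measurable_fst.fst)
  have hf : Measurable (fun q : (ℝ × V) × ℝ =>
      ex E (q.1.1 - q.2) q.1.2 * gam (fun w => u (q.2, w)) q.1.2) := by
    have a1 : Measurable (fun q : (ℝ × V) × ℝ => ex E (q.1.1 - q.2) q.1.2) :=
      (measurable_ex E).comp ((measurable_fst.fst.sub measurable_snd).prodMk measurable_fst.snd)
    have a2 : Measurable (fun q : (ℝ × V) × ℝ => gam (fun w => u (q.2, w)) q.1.2) :=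
      (measurable_gam hu).comp (measurable_snd.prodMk measurable_fst.snd)
    exact a1.mul a2
  have key := (hf.indicator hS).lintegral_prod_right' (ν := (volume : Measure ℝ))
  have e : (fun p : ℝ × V =>
      ∫⁻ s in Ioc 0 p.1, ex E (p.1 - s) p.2 * gam (fun w => u (s, w)) p.2) =
      fun p => ∫⁻ s, ({q : (ℝ × V) × ℝ | 0 < q.2 ∧ q.2 ≤ q.1.1}.indicator
        (fun q : (ℝ × V) × ℝ =>
          ex E (q.1.1 - q.2) q.1.2 * gam (fun w => u (q.2, w)) q.1.2) (p, s)) := by
    funext p
    rw [← lintegral_indicator measurableSet_Ioc]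
    apply lintegral_congr
    intro s
    by_cases hs : s ∈ Ioc 0 p.1
    · rw [indicator_of_mem hs, indicator_of_mem]
      exact hs
    · rw [indicator_of_notMem hs, indicator_of_notMem]
      exact hs
  have h2 : Measurable (fun p : ℝ × V =>
      ∫⁻ s in Ioc 0 p.1, ex E (p.1 - s) p.2 * gam (fun w => u (s, w)) p.2) := by
    rw [e]
    exact key
  exact h1.add h2

lemma measurable_cut {f0 : V → ℝ≥0∞} (hf0 : Measurable f0) (k : ℕ) : Measurable (cut f0 k) := by
  unfold cut
  exact Measurable.ite (measurableSet_le measurable_norm measurable_const) hf0 measurable_const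

lemma measurable_arkIt {E : ℝ≥0∞} {f0 : V → ℝ≥0∞} (hf0 : Measurable f0) (k : ℕ) :
    Measurable (arkIt E f0 k) := by
  induction k with
  | zero => exact measurable_const
  | succ k ih => exact measurable_arkOp (measurable_cut hf0 (k + 1)) ih

lemma measurable_arkSol {E : ℝ≥0∞} {f0 : V → ℝ≥0∞} (hf0 : Measurable f0) :
    Measurable (arkSol E f0) := by
  unfold arkSol
  exact Measurable.iSup fun k => measurable_arkIt hf0 k

/-- slices in time -/
lemma measurable_sliceV {u : ℝ × V → ℝ≥0∞} (hu : Measurable u) (s : ℝ) :
    Measurable (fun w => u (s, w)) :=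
  hu.comp (measurable_const.prodMk measurable_id)

/-- `s ↦ ∫ W(v) A(s,v) dv` is measurable. -/
lemma measurable_lintegral_V {A : ℝ × V → ℝ≥0∞} (hA : Measurable A) :
    Measurable (fun s : ℝ => ∫⁻ v, A (s, v)) :=
  hA.lintegral_prod_right' (ν := (volume : Measure V))

end Vale.Agent.Lib.P140
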