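import Mathlib
import Vale.Agent.Lib.P140.HomMeas
import Vale.Agent.Lib.P140.Duhamel

/-!
# The additive (integrated) form of the Duhamel operator, pointwise and against a weight
-/

namespace Vale.Agent.Lib.P140

open MeasureTheory Set
open scoped ENNReal

variable {E : ℝ≥0∞} {φ W : V → ℝ≥0∞} {u : ℝ × V → ℝ≥0∞}

lemma nu_ne_top (hE : E ≠ ∞) (v : V) : nu E v ≠ ∞ := by
  unfold nu sig w1
  exact ENNReal.mul_ne_top (ENNReal.mul_ne_top (ENNReal.mul_ne_top (by simp)
    (measure_ne_top surf univ)) hE) ENNReal.ofReal_ne_top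

lemma ex_le_one (E : ℝ≥0∞) {t : ℝ} (ht : 0 ≤ t) (v : V) : ex E t v ≤ 1 := by
  unfold ex
  rw [← ENNReal.ofReal_one]
  apply ENNReal.ofReal_le_ofReal
  rw [Real.exp_le_one_iff]
  have : 0 ≤ (nu E v).toReal * t := mul_nonneg ENNReal.toReal_nonneg ht
  linarith

/-- `Φ(u)(t) ≤ φ + ∫_0^t Γ(u)`. -/
lemma arkOp_le (E : ℝ≥0∞) (φ : V → ℝ≥0∞) (u : ℝ × V → ℝ≥0∞) {t : ℝ} (ht : 0 ≤ t) (v : V) :
    arkOp E φ u (t, v) ≤ φ v + ∫⁻ s in Ioc 0 t, gam (fun w => u (s, w)) v := by
  unfold arkOp
  apply add_le_add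
  · calc ex E t v * φ v ≤ 1 * φ v := mul_le_mul_left (ex_le_one E ht v) _
      _ = φ v := one_mul _
  · apply setLIntegral_mono' measurableSet_Ioc
    intro s hs
    calc ex E (t - s) v * gam (fun w => u (s, w)) v
        ≤ 1 * gam (fun w => u (s, w)) v :=
          mul_le_mul_left (ex_le_one E (sub_nonneg.2 hs.2) v) _
      _ = gam (fun w => u (s, w)) v := one_mul _

/-- the map `s ↦ (s, v)` -/
lemma measurable_pairL (v : V) : Measurable (fun s : ℝ => ((s, v) : ℝ × V)) :=
  measurable_id.prodMk measurable_const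

/-- the map `v ↦ (s, v)` -/
lemma measurable_pairR (s : ℝ) : Measurable (fun v : V => ((s, v) : ℝ × V)) :=
  measurable_const.prodMk measurable_id

/-- `s ↦ Γ(u(s))(v)` is measurable. -/
lemma measurable_gam_time (hu : Measurable u) (v : V) :
    Measurable (fun s : ℝ => gam (fun w => u (s, w)) v) := by
  have h := (measurable_gam hu).comp (measurable_pairL v)
  simp only [Function.comp_def] at h
  exact h

/-- `Φ(u)(t) + ν ∫_0^t Φ(u) = φ + ∫_0^t Γ(u)`. -/
theorem arkOp_add (hE : E ≠ ∞) (hu : Measurable u) (φ : V → ℝ≥0∞) {t : ℝ} (ht : 0 ≤ t) (v : V) :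
    arkOp E φ u (t, v) + nu E v * ∫⁻ s in Ioc 0 t, arkOp E φ u (s, v) =
      φ v + ∫⁻ s in Ioc 0 t, gam (fun w => u (s, w)) v := by
  have h := duhamel_add (ν := (nu E v).toReal) ENNReal.toReal_nonneg (φ v)
    (measurable_gam_time hu v) ht
  rw [ENNReal.ofReal_toReal (nu_ne_top hE v)] at h
  unfold arkOp ex
  exact h

/-- The same identity integrated against a weight. -/
theorem lintegral_arkOp (hE : E ≠ ∞) (hφ : Measurable φ) (hu : Measurable u) (hW : Measurable W)
    {t : ℝ} (ht : 0 ≤ t) :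
    (∫⁻ v, W v * arkOp E φ u (t, v)) +
        ∫⁻ s in Ioc 0 t, ∫⁻ v, W v * (nu E v * arkOp E φ u (s, v)) =
      (∫⁻ v, W v * φ v) + ∫⁻ s in Ioc 0 t, ∫⁻ v, W v * gam (fun w => u (s, w)) v := by
  have hA : Measurable (arkOp E φ u) := measurable_arkOp hφ hu
  have hG : Measurable (fun q : ℝ × V => gam (fun w => u (q.1, w)) q.2) := measurable_gam hu
  have hν : Measurable (nu E) := measurable_nu E
  have hAt : ∀ s : ℝ, Measurable (fun v => arkOp E φ u (s, v)) := fun s =>
    hA.comp (measurable_pairR s)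
  have hAv : ∀ v : V, Measurable (fun s : ℝ => arkOp E φ u (s, v)) := fun v =>
    hA.comp (measurable_pairL v)
  have hGv : ∀ v : V, Measurable (fun s : ℝ => gam (fun w => u (s, w)) v) :=
    measurable_gam_time hu
  -- swap the two double integrals
  have h1 : ∫⁻ s in Ioc 0 t, ∫⁻ v, W v * (nu E v * arkOp E φ u (s, v)) =
      ∫⁻ v, W v * (nu E v * ∫⁻ s in Ioc 0 t, arkOp E φ u (s, v)) := by
    rw [lintegral_lintegral_swap]
    · apply lintegral_congr
      intro v
      rw [lintegral_const_mul _ ((hAv v).const_mul _), lintegral_const_mul _ (hAv v)]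
    · apply Measurable.aemeasurable
      exact (hW.comp measurable_snd).mul ((hν.comp measurable_snd).mul hA)
  have h2 : ∫⁻ s in Ioc 0 t, ∫⁻ v, W v * gam (fun w => u (s, w)) v =
      ∫⁻ v, W v * ∫⁻ s in Ioc 0 t, gam (fun w => u (s, w)) v := by
    rw [lintegral_lintegral_swap]
    · apply lintegral_congr
      intro v
      rw [lintegral_const_mul _ (hGv v)]
    · apply Measurable.aemeasurable
      exact (hW.comp measurable_snd).mul hG
  have hm1 : Measurable (fun v => W v * arkOp E φ u (t, v)) := hW.mul (hAt t)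
  have hm2 : Measurable (fun v => W v * φ v) := hW.mul hφ
  rw [h1, h2, ← lintegral_add_left hm1, ← lintegral_add_left hm2]
  apply lintegral_congr
  intro v
  rw [← mul_add, ← mul_add, arkOp_add hE hu φ ht v]

end Vale.Agent.Lib.P140
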