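import Mathlib
import Vale.Agent.Lib.P140.HomMeas

/-!
# Monotonicity and monotone continuity of Arkeryd's scheme; the fixed point
-/

namespace Vale.Agent.Lib.P140

open MeasureTheory Set
open scoped ENNReal

variable {E : ℝ≥0∞} {f0 φ ψ : V → ℝ≥0∞} {u w : ℝ × V → ℝ≥0∞}

private lemma gainV_mono {f g : V → ℝ≥0∞} (h : ∀ v, f v ≤ g v) (v : V) :
    gainV f f v ≤ gainV g g v := by
  unfold gainV
  refine lintegral_mono fun vs => lintegral_mono fun ω => ?_
  exact mul_le_mul' le_rfl (mul_le_mul' (h _) (h _))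

private lemma aOp_mono {f g : V → ℝ≥0∞} (h : ∀ v, f v ≤ g v) (v : V) :
    aOp f v ≤ aOp g v := by
  unfold aOp
  exact lintegral_mono fun vs => mul_le_mul' le_rfl (h _)

lemma gam_mono {f g : V → ℝ≥0∞} (h : ∀ v, f v ≤ g v) (v : V) : gam f v ≤ gam g v := by
  unfold gam
  exact add_le_add (gainV_mono h v) (mul_le_mul' (h v) (aOp_mono h v))

lemma arkOp_mono (h1 : ∀ v, φ v ≤ ψ v) (h2 : ∀ p, u p ≤ w p) (p : ℝ × V) :
    arkOp E φ u p ≤ arkOp E ψ w p := by
  unfold arkOp
  refine add_le_add (mul_le_mul' le_rfl (h1 _)) (lintegral_mono fun s => ?_)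
  exact mul_le_mul' le_rfl (gam_mono (fun v => h2 _) _)

lemma cut_mono (f0 : V → ℝ≥0∞) {k l : ℕ} (h : k ≤ l) (v : V) : cut f0 k v ≤ cut f0 l v := by
  unfold cut
  by_cases hk : ‖v‖ ≤ k
  · have hl : ‖v‖ ≤ l := hk.trans (by exact_mod_cast h)
    rw [if_pos hk, if_pos hl]
  · rw [if_neg hk]
    exact zero_le

lemma cut_le (f0 : V → ℝ≥0∞) (k : ℕ) (v : V) : cut f0 k v ≤ f0 v := by
  unfold cut
  split_ifs
  · exact le_rfl
  · exact zero_le

lemma iSup_cut (f0 : V → ℝ≥0∞) (v : V) : ⨆ k, cut f0 (k + 1) v = f0 v := by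
  apply le_antisymm
  · exact iSup_le fun k => cut_le f0 _ v
  · obtain ⟨n, hn⟩ := exists_nat_ge ‖v‖
    have h : cut f0 (n + 1) v = f0 v := by
      unfold cut
      rw [if_pos]
      push_cast
      linarith
    calc f0 v = cut f0 (n + 1) v := h.symm
      _ ≤ ⨆ k, cut f0 (k + 1) v := le_iSup (fun k => cut f0 (k + 1) v) n

lemma arkIt_le_succ (E : ℝ≥0∞) (f0 : V → ℝ≥0∞) (k : ℕ) (p : ℝ × V) :
    arkIt E f0 k p ≤ arkIt E f0 (k + 1) p := by
  induction k generalizing p with
  | zero => exact zero_le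
  | succ k ih =>
    show arkOp E (cut f0 (k + 1)) (arkIt E f0 k) p ≤
      arkOp E (cut f0 (k + 1 + 1)) (arkIt E f0 (k + 1)) p
    exact arkOp_mono (cut_mono f0 (Nat.le_succ _)) ih p

lemma arkIt_mono (E : ℝ≥0∞) (f0 : V → ℝ≥0∞) (p : ℝ × V) : Monotone (fun k => arkIt E f0 k p) :=
  monotone_nat_of_le_succ fun k => arkIt_le_succ E f0 k p

lemma arkIt_le_arkSol (E : ℝ≥0∞) (f0 : V → ℝ≥0∞) (k : ℕ) (p : ℝ × V) :
    arkIt E f0 k p ≤ arkSol E f0 p :=
  le_iSup (fun k => arkIt E f0 k p) k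

private lemma iSup_mul_iSup_mono {f g : ℕ → ℝ≥0∞} (hf : Monotone f) (hg : Monotone g) :
    (⨆ k, f k) * (⨆ k, g k) = ⨆ k, f k * g k := by
  apply le_antisymm
  · rw [ENNReal.iSup_mul]
    refine iSup_le fun i => ?_
    rw [ENNReal.mul_iSup]
    refine iSup_le fun j => ?_
    exact le_iSup_of_le (max i j) (mul_le_mul' (hf (le_max_left _ _)) (hg (le_max_right _ _)))
  · exact ENNReal.iSup_mul_le

private lemma gainV_iSup {f : ℕ → V → ℝ≥0∞} (hm : ∀ k, Measurable (f k))
    (hmono : ∀ v, Monotone fun k => f k v) (v : V) :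
    gainV (fun w => ⨆ k, f k w) (fun w => ⨆ k, f k w) v = ⨆ k, gainV (f k) (f k) v := by
  unfold gainV
  have hpt : ∀ (vs : V) (ω : Sph),
      ker (v, vs) ω * ((⨆ k, f k (vPrime v vs ω)) * (⨆ k, f k (vsPrime v vs ω))) =
        ⨆ k, ker (v, vs) ω * (f k (vPrime v vs ω) * f k (vsPrime v vs ω)) := by
    intro vs ω
    rw [iSup_mul_iSup_mono (hmono _) (hmono _), ENNReal.mul_iSup]
  simp_rw [hpt]
  have hmeas : ∀ k, Measurable (fun r : V × Sph =>
      ker (v, r.1) r.2 * (f k (vPrime v r.1 r.2) * f k (vsPrime v r.1 r.2))) := by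
    intro k
    have h : Measurable (fun r : V × Sph => (((v, r.1), r.2) : (V × V) × Sph)) :=
      (measurable_const.prodMk measurable_fst).prodMk measurable_snd
    have h2' := continuous_vPrime.measurable.comp h
    have h2 : Measurable (fun r : V × Sph => vPrime v r.1 r.2) := h2'
    have h3' := continuous_vsPrime.measurable.comp h
    have h3 : Measurable (fun r : V × Sph => vsPrime v r.1 r.2) := h3'
    exact (measurable_ker_right v).mul (((hm k).comp h2).mul ((hm k).comp h3))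
  have hmonoI : ∀ (vs : V) (ω : Sph), Monotone fun k =>
      ker (v, vs) ω * (f k (vPrime v vs ω) * f k (vsPrime v vs ω)) := by
    intro vs ω k l hkl
    exact mul_le_mul' le_rfl (mul_le_mul' (hmono _ hkl) (hmono _ hkl))
  have hin : ∀ vs : V, ∫⁻ ω : Sph, ⨆ k, ker (v, vs) ω *
      (f k (vPrime v vs ω) * f k (vsPrime v vs ω)) ∂surf =
      ⨆ k, ∫⁻ ω : Sph, ker (v, vs) ω * (f k (vPrime v vs ω) * f k (vsPrime v vs ω)) ∂surf := by
    intro vs
    refine lintegral_iSup (f := fun k (ω : Sph) => ker (v, vs) ω *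
      (f k (vPrime v vs ω) * f k (vsPrime v vs ω))) (fun k => ?_) ?_
    · have hpair : Measurable (fun ω : Sph => ((vs, ω) : V × Sph)) :=
        measurable_const.prodMk measurable_id
      have hc := (hmeas k).comp hpair
      exact hc
    · intro k l hkl ω
      exact hmonoI vs ω hkl
  simp_rw [hin]
  refine lintegral_iSup (f := fun k (vs : V) => ∫⁻ ω : Sph, ker (v, vs) ω *
      (f k (vPrime v vs ω) * f k (vsPrime v vs ω)) ∂surf) (fun k => ?_) ?_
  · exact (hmeas k).lintegral_prod_right' (ν := surf)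
  · intro k l hkl vs
    exact lintegral_mono fun ω => hmonoI vs ω hkl

private lemma aOp_iSup {f : ℕ → V → ℝ≥0∞} (hm : ∀ k, Measurable (f k))
    (hmono : ∀ v, Monotone fun k => f k v) (v : V) :
    aOp (fun w => ⨆ k, f k w) v = ⨆ k, aOp (f k) v := by
  unfold aOp
  simp_rw [ENNReal.mul_iSup]
  refine lintegral_iSup (f := fun k (vs : V) => kap v vs * f k vs) (fun k => ?_) ?_
  · have hpair : Measurable (fun vs : V => ((v, vs) : V × V)) :=
      measurable_const.prodMk measurable_id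
    have h := measurable_kap.comp hpair
    have h' : Measurable (fun vs : V => kap v vs) := h
    exact h'.mul (hm k)
  · intro k l hkl vs
    exact mul_le_mul' le_rfl (hmono _ hkl)

/-- Monotone continuity of `Γ`. -/
lemma gam_iSup {f : ℕ → V → ℝ≥0∞} (hm : ∀ k, Measurable (f k))
    (hmono : ∀ v, Monotone fun k => f k v) (v : V) :
    gam (fun w => ⨆ k, f k w) v = ⨆ k, gam (f k) v := by
  unfold gam
  rw [gainV_iSup hm hmono, aOp_iSup hm hmono]
  have hA : Monotone fun k => aOp (f k) v := fun k l hkl => aOp_mono (fun x => hmono x hkl) v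
  have hG : Monotone fun k => gainV (f k) (f k) v :=
    fun k l hkl => gainV_mono (fun x => hmono x hkl) v
  rw [iSup_mul_iSup_mono (hmono v) hA, ENNReal.iSup_add_iSup_of_monotone hG]
  intro k l hkl
  exact mul_le_mul' (hmono v hkl) (hA hkl)

/-- The limit of the iteration is a fixed point of the Duhamel operator with the full datum. -/
theorem arkSol_fixed (hf0 : Measurable f0) (p : ℝ × V) :
    arkOp E f0 (arkSol E f0) p = arkSol E f0 p := by
  have hgam : ∀ s : ℝ, gam (fun w => arkSol E f0 (s, w)) p.2 =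
      ⨆ k, gam (fun w => arkIt E f0 k (s, w)) p.2 := by
    intro s
    exact gam_iSup (f := fun k w => arkIt E f0 k (s, w))
      (fun k => measurable_sliceV (measurable_arkIt hf0 k) s)
      (fun v => arkIt_mono E f0 (s, v)) p.2
  have hgmono : ∀ s : ℝ, Monotone fun k => gam (fun w => arkIt E f0 k (s, w)) p.2 := by
    intro s k l hkl
    exact gam_mono (fun v => arkIt_mono E f0 (s, v) hkl) p.2
  have hint : ∫⁻ s in Ioc 0 p.1, ex E (p.1 - s) p.2 * gam (fun w => arkSol E f0 (s, w)) p.2 =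
      ⨆ k, ∫⁻ s in Ioc 0 p.1, ex E (p.1 - s) p.2 * gam (fun w => arkIt E f0 k (s, w)) p.2 := by
    simp_rw [hgam, ENNReal.mul_iSup]
    rw [lintegral_iSup]
    · intro k
      have hp1 : Measurable (fun s : ℝ => ((p.1 - s, p.2) : ℝ × V)) :=
        (measurable_const.sub measurable_id).prodMk measurable_const
      have h1' := (measurable_ex E).comp hp1
      have h1 : Measurable (fun s : ℝ => ex E (p.1 - s) p.2) := h1'
      have hp2 : Measurable (fun s : ℝ => ((s, p.2) : ℝ × V)) :=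
        measurable_id.prodMk measurable_const
      have h2' := (measurable_gam (P := ℝ) (measurable_arkIt (E := E) hf0 k)).comp hp2
      have h2 : Measurable (fun s : ℝ => gam (fun w => arkIt E f0 k (s, w)) p.2) := h2'
      exact h1.mul h2
    · intro k l hkl s
      exact mul_le_mul' le_rfl (hgmono s hkl)
  have hfirst : ex E p.1 p.2 * f0 p.2 = ⨆ k, ex E p.1 p.2 * cut f0 (k + 1) p.2 := by
    rw [← ENNReal.mul_iSup, iSup_cut]
  unfold arkOp
  rw [hint, hfirst, ENNReal.iSup_add_iSup_of_monotone]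
  · have hshift : ⨆ k, arkIt E f0 (k + 1) p = ⨆ k, arkIt E f0 k p :=
      (arkIt_mono E f0 p).iSup_nat_add 1
    exact hshift
  · intro k l hkl
    exact mul_le_mul' le_rfl (cut_mono f0 (by omega) _)
  · intro k l hkl
    exact lintegral_mono fun s => mul_le_mul' le_rfl (hgmono s hkl)

end Vale.Agent.Lib.P140
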