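import Mathlib
import Vale.Agent.Lib.P140.HomMeas

/-!
# Weak forms for the monotone right-hand side `Γ(f) = Q^+(f,f) + f A(f)`
-/

namespace Vale.Agent.Lib.P140

open MeasureTheory Set
open scoped ENNReal

variable {f W : V → ℝ≥0∞}

lemma sig_ne_top : sig ≠ ∞ := (measure_lt_top _ _).ne

lemma kerInt_le (v vs : V) : kerInt v vs ≤ 2 * sig * w1 v * wm vs := by
  unfold kerInt
  calc ∫⁻ ω : Sph, ker (v, vs) ω ∂surf ≤ ∫⁻ _ω : Sph, w1 v * w1 vs ∂surf :=
        lintegral_mono (fun ω => ker_le (v, vs) ω)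
    _ = w1 v * w1 vs * sig := by rw [lintegral_const]; rfl
    _ ≤ w1 v * (2 * wm vs) * sig := by
        gcongr
        exact w1_le_two_wm vs
    _ = 2 * sig * w1 v * wm vs := by ring

lemma freqV_eq (hf : Measurable f) (v : V) : freqV f v = ∫⁻ vs, kerInt v vs * f vs := by
  unfold freqV kerInt
  apply lintegral_congr
  intro vs
  have hm : Measurable (fun ω : Sph => ker (v, vs) ω) := by
    have h : Measurable (fun ω : Sph => (((v, vs), ω) : (V × V) × Sph)) :=
      measurable_const.prodMk measurable_id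
    have := measurable_ker.comp h
    exact this
  rw [lintegral_mul_const _ hm]

/-- `A(f) + L(f) = 2 σ (1+|v|) N(f)`. -/
lemma aOp_add_freqV (hf : Measurable f) (v : V) :
    aOp f v + freqV f v = 2 * sig * w1 v * nInt f := by
  rw [freqV_eq hf v]
  unfold aOp nInt
  have hk : Measurable (fun vs : V => kap v vs) := by
    have h : Measurable (fun vs : V => ((v, vs) : V × V)) :=
      measurable_const.prodMk measurable_id
    have := measurable_kap.comp h
    exact this
  have hkf : Measurable (fun vs : V => kap v vs * f vs) := hk.mul hf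
  have hmf : Measurable (fun vs : V => wm vs * f vs) := measurable_wm.mul hf
  rw [← lintegral_add_left hkf, ← lintegral_const_mul _ hmf]
  apply lintegral_congr
  intro vs
  rw [← add_mul]
  unfold kap
  rw [tsub_add_cancel_of_le (kerInt_le v vs)]
  ring

lemma aOp_le (hf : Measurable f) (v : V) : aOp f v ≤ 2 * sig * w1 v * nInt f :=
  le_trans le_self_add (aOp_add_freqV hf v).le

lemma lintegral_mul_gam (hW : Measurable W) (hf : Measurable f) :
    (∫⁻ v, W v * gam f v) + ∫⁻ v, W v * (f v * freqV f v) =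
      (∫⁻ v, W v * gainV f f v) + 2 * sig * nInt f * ∫⁻ v, W v * (w1 v * f v) := by
  have m1 : Measurable (fun v => W v * gam f v) := hW.mul (measurable_gam' hf)
  have m2 : Measurable (fun v => W v * (w1 v * f v)) := hW.mul (measurable_w1.mul hf)
  have m3 : Measurable (fun v => W v * gainV f f v) := hW.mul (measurable_gainV' hf hf)
  rw [← lintegral_add_left m1, ← lintegral_const_mul _ m2, ← lintegral_add_left m3]
  apply lintegral_congr
  intro v
  have h := aOp_add_freqV hf v
  unfold gam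
  calc W v * (gainV f f v + f v * aOp f v) + W v * (f v * freqV f v)
      = W v * gainV f f v + W v * f v * (aOp f v + freqV f v) := by ring
    _ = W v * gainV f f v + 2 * sig * nInt f * (W v * (w1 v * f v)) := by rw [h]; ring

private lemma gain_eq_loss' {a : V → ℝ≥0∞} (ha : Measurable a) :
    ∫⁻ v, wm v * gainV a a v = ∫⁻ v, wm v * (a v * freqV a v) := by
  have h := lintegral_wm_gain_pair ha ha
  have hm : Measurable (fun v => wm v * gainV a a v) := measurable_wm.mul (measurable_gainV' ha ha)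
  have e : ∫⁻ v, wm v * (gainV a a v + gainV a a v) =
      (∫⁻ v, wm v * gainV a a v) + ∫⁻ v, wm v * gainV a a v := by
    rw [← lintegral_add_left hm]
    apply lintegral_congr
    intro v
    rw [mul_add]
  rw [e, ← two_mul, ← two_mul] at h
  exact (ENNReal.mul_right_inj (by simp) (by simp)).1 h

/-- `∫ (1+|v|^2) Γ(f) = 2 σ N(f) ∫ (1+|v|^2)(1+|v|) f` when the third moment is finite. -/
theorem lintegral_wm_gam (hf : Measurable f) (hfin : ∫⁻ v, w3 v * f v < ∞) :
    ∫⁻ v, wm v * gam f v = 2 * sig * nInt f * ∫⁻ v, wm v * (w1 v * f v) := by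
  have h := lintegral_mul_gam measurable_wm hf
  rw [gain_eq_loss' hf, add_comm] at h
  have hX : ∫⁻ v, wm v * (f v * freqV f v) ≠ ∞ := by
    refine ne_top_of_le_ne_top ?_ (lintegral_mul_freqV_le measurable_wm hf hf)
    have h1 : ∫⁻ v, w1 v * (wm v * f v) ≤ ∫⁻ v, w3 v * f v := by
      apply lintegral_mono
      intro v
      simp only
      rw [← mul_assoc]
      exact mul_le_mul_left (wm_mul_w1_le v) _
    have h2 : ∫⁻ v, w1 v * f v ≤ ∫⁻ v, w3 v * f v := by
      apply lintegral_mono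
      intro v
      exact mul_le_mul_left (w1_le_w3 v) _
    exact ENNReal.mul_ne_top (measure_lt_top _ _).ne
      (ENNReal.mul_ne_top (lt_of_le_of_lt h1 hfin).ne (lt_of_le_of_lt h2 hfin).ne)
  exact (ENNReal.add_right_inj hX).1 h

lemma w1_vPrime_le (v vs : V) (ω : Sph) : w1 (vPrime v vs ω) ≤ w1 v * w1 vs := by
  unfold w1
  rw [← ENNReal.ofReal_mul (by positivity)]
  apply ENNReal.ofReal_le_ofReal
  have he := energy_prime v vs (sph_norm ω)
  have h1 : ‖vPrime v vs ω‖ ^ 2 ≤ (‖v‖ + ‖vs‖) ^ 2 := by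
    nlinarith [norm_nonneg v, norm_nonneg vs, sq_nonneg ‖vsPrime v vs ω‖,
      mul_nonneg (norm_nonneg v) (norm_nonneg vs)]
  have h2 : ‖vPrime v vs ω‖ ≤ ‖v‖ + ‖vs‖ :=
    (pow_le_pow_iff_left₀ (norm_nonneg _) (by positivity) (by norm_num)).1 h1
  nlinarith [norm_nonneg v, norm_nonneg vs, mul_nonneg (norm_nonneg v) (norm_nonneg vs)]

private lemma wm_le_w1_sq (v : V) : wm v ≤ w1 v ^ 2 := by
  unfold wm w1
  rw [← ENNReal.ofReal_pow (by positivity)]
  apply ENNReal.ofReal_le_ofReal
  nlinarith [norm_nonneg v]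

lemma nInt_le_pow (f : V → ℝ≥0∞) : nInt f ≤ ∫⁻ v, w1 v ^ 2 * f v := by
  unfold nInt
  apply lintegral_mono
  intro v
  exact mul_le_mul_left (wm_le_w1_sq v) _

/-- Crude bound: `Γ` loses one moment. -/
theorem lintegral_pow_gam_le (hf : Measurable f) (j : ℕ) :
    ∫⁻ v, w1 v ^ j * gam f v ≤ sig * (∫⁻ v, w1 v ^ (j + 1) * f v) ^ 2 +
      2 * sig * nInt f * ∫⁻ v, w1 v ^ (j + 1) * f v := by
  have hwj : Measurable (fun v : V => w1 v ^ j) := measurable_w1.pow_const j
  have hwj1 : Measurable (fun v : V => w1 v ^ (j + 1) * f v) :=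
    (measurable_w1.pow_const (j + 1)).mul hf
  have hsplit : ∫⁻ v, w1 v ^ j * gam f v =
      (∫⁻ v, w1 v ^ j * gainV f f v) + ∫⁻ v, w1 v ^ j * (f v * aOp f v) := by
    have m3 : Measurable (fun v => w1 v ^ j * gainV f f v) := hwj.mul (measurable_gainV' hf hf)
    rw [← lintegral_add_left m3]
    apply lintegral_congr
    intro v
    unfold gam
    rw [mul_add]
  rw [hsplit]
  apply add_le_add
  · rw [lintegral_mul_gainV hwj hf hf]
    calc ∫⁻ p : V × V, ∫⁻ ω : Sph,
          ker p ω * (w1 (vPrime p.1 p.2 ω) ^ j * (f p.1 * f p.2)) ∂surf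
        ≤ ∫⁻ p : V × V, ∫⁻ _ω : Sph,
          (w1 p.1 * w1 p.2) * ((w1 p.1 * w1 p.2) ^ j * (f p.1 * f p.2)) ∂surf := by
          apply lintegral_mono
          intro p
          apply lintegral_mono
          intro ω
          have h1 := ker_le p ω
          have h2 := w1_vPrime_le p.1 p.2 ω
          exact mul_le_mul' h1 (mul_le_mul_left (pow_le_pow_left' h2 j) _)
      _ = ∫⁻ p : V × V, sig * ((w1 p.1 ^ (j + 1) * f p.1) * (w1 p.2 ^ (j + 1) * f p.2)) := by
          apply lintegral_congr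
          intro p
          rw [lintegral_const]
          show _ * sig = _
          rw [mul_pow, pow_succ, pow_succ]
          ring
      _ = sig * (∫⁻ v, w1 v ^ (j + 1) * f v) ^ 2 := by
          have m5 : Measurable (fun p : V × V =>
              (w1 p.1 ^ (j + 1) * f p.1) * (w1 p.2 ^ (j + 1) * f p.2)) :=
            (hwj1.comp measurable_fst).mul (hwj1.comp measurable_snd)
          rw [lintegral_const_mul _ m5,
            Measure.volume_eq_prod, lintegral_prod_mul hwj1.aemeasurable hwj1.aemeasurable, sq]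
  · calc ∫⁻ v, w1 v ^ j * (f v * aOp f v)
        ≤ ∫⁻ v, 2 * sig * nInt f * (w1 v ^ (j + 1) * f v) := by
          apply lintegral_mono
          intro v
          calc w1 v ^ j * (f v * aOp f v) ≤ w1 v ^ j * (f v * (2 * sig * w1 v * nInt f)) := by
                gcongr
                exact aOp_le hf v
            _ = 2 * sig * nInt f * (w1 v ^ (j + 1) * f v) := by rw [pow_succ]; ring
      _ = 2 * sig * nInt f * ∫⁻ v, w1 v ^ (j + 1) * f v := lintegral_const_mul _ hwj1

/-- The gain term for a weight with a Povzner-type inequality. -/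
theorem lintegral_W_gainV_le {c : ℝ≥0∞} (hW : PovW W c) (hf : Measurable f) :
    ∫⁻ v, W v * gainV f f v ≤
      (∫⁻ v, W v * (f v * freqV f v)) + c * sig * nInt f * ∫⁻ v, W v * f v := by
  have hWm := hW.meas
  have hw := measurable_wm
  have hab : Measurable (fun q : (V × V) × Sph => f q.1.1 * f q.1.2) :=
    (hf.comp (measurable_fst.fst)).mul (hf.comp (measurable_fst.snd))
  have m1 : Measurable (fun q : (V × V) × Sph =>
      ker q.1 q.2 * (W (vPrime q.1.1 q.1.2 q.2) * (f q.1.1 * f q.1.2))) :=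
    measurable_ker.mul ((hWm.comp continuous_vPrime.measurable).mul hab)
  have m3 : Measurable (fun q : (V × V) × Sph =>
      ker q.1 q.2 * (W q.1.1 * (f q.1.1 * f q.1.2))) :=
    measurable_ker.mul ((hWm.comp (measurable_fst.fst)).mul hab)
  have m4 : Measurable (fun q : (V × V) × Sph =>
      ker q.1 q.2 * (W q.1.2 * (f q.1.1 * f q.1.2))) :=
    measurable_ker.mul ((hWm.comp (measurable_fst.snd)).mul hab)
  have e1 := lintegral_pair_add m1 (fun q : (V × V) × Sph =>
      ker q.1 q.2 * (W (vsPrime q.1.1 q.1.2 q.2) * (f q.1.1 * f q.1.2)))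
  have e2 := lintegral_pair_add m3 (fun q : (V × V) × Sph =>
      ker q.1 q.2 * (W q.1.2 * (f q.1.1 * f q.1.2)) +
        c * (W q.1.1 * wm q.1.2 + wm q.1.1 * W q.1.2) * (f q.1.1 * f q.1.2))
  have e3 := lintegral_pair_add m4 (fun q : (V × V) × Sph =>
        c * (W q.1.1 * wm q.1.2 + wm q.1.1 * W q.1.2) * (f q.1.1 * f q.1.2))
  simp only at e1 e2 e3
  set I := ∫⁻ v, W v * gainV f f v with hI
  set X := ∫⁻ v, W v * (f v * freqV f v) with hX
  have hI1 : I = ∫⁻ p : V × V, ∫⁻ ω : Sph,
      ker p ω * (W (vPrime p.1 p.2 ω) * (f p.1 * f p.2)) ∂surf := lintegral_mul_gainV hWm hf hf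
  have hI2 : I = ∫⁻ p : V × V, ∫⁻ ω : Sph,
      ker p ω * (W (vsPrime p.1 p.2 ω) * (f p.1 * f p.2)) ∂surf :=
    lintegral_mul_gainV_swap hWm hf hf
  have hX1 : X = ∫⁻ p : V × V, ∫⁻ ω : Sph,
      ker p ω * (W p.1 * (f p.1 * f p.2)) ∂surf := lintegral_mul_freqV hWm hf hf
  have hX2 : X = ∫⁻ p : V × V, ∫⁻ ω : Sph,
      ker p ω * (W p.2 * (f p.1 * f p.2)) ∂surf := lintegral_mul_freqV_swap hWm hf hf
  have hWf : Measurable (fun v => W v * f v) := hWm.mul hf
  have hmf : Measurable (fun v => wm v * f v) := hw.mul hf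
  have hJ : ∫⁻ p : V × V, ∫⁻ _ω : Sph,
      c * (W p.1 * wm p.2 + wm p.1 * W p.2) * (f p.1 * f p.2) ∂surf =
      2 * (c * sig * nInt f * ∫⁻ v, W v * f v) := by
    have h1 : ∀ p : V × V, ∫⁻ _ω : Sph,
        c * (W p.1 * wm p.2 + wm p.1 * W p.2) * (f p.1 * f p.2) ∂surf =
        c * sig * ((W p.1 * f p.1) * (wm p.2 * f p.2) + (wm p.1 * f p.1) * (W p.2 * f p.2)) := by
      intro p
      rw [lintegral_const]
      show _ * sig = _
      ring
    simp_rw [h1]
    have m5 : Measurable (fun p : V × V => (W p.1 * f p.1) * (wm p.2 * f p.2)) :=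
      (hWf.comp measurable_fst).mul (hmf.comp measurable_snd)
    have m6 : Measurable (fun p : V × V => (wm p.1 * f p.1) * (W p.2 * f p.2)) :=
      (hmf.comp measurable_fst).mul (hWf.comp measurable_snd)
    have m7 : Measurable (fun p : V × V => (W p.1 * f p.1) * (wm p.2 * f p.2) +
        (wm p.1 * f p.1) * (W p.2 * f p.2)) := m5.add m6
    rw [lintegral_const_mul _ m7, lintegral_add_left m5,
      Measure.volume_eq_prod, lintegral_prod_mul hWf.aemeasurable hmf.aemeasurable,
      lintegral_prod_mul hmf.aemeasurable hWf.aemeasurable]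
    unfold nInt
    ring
  have key : I + I ≤ X + (X + 2 * (c * sig * nInt f * ∫⁻ v, W v * f v)) := by
    calc I + I = ∫⁻ p : V × V, ∫⁻ ω : Sph,
          (ker p ω * (W (vPrime p.1 p.2 ω) * (f p.1 * f p.2)) +
            ker p ω * (W (vsPrime p.1 p.2 ω) * (f p.1 * f p.2))) ∂surf := by
          rw [← e1, ← hI1, ← hI2]
      _ ≤ ∫⁻ p : V × V, ∫⁻ ω : Sph, (ker p ω * (W p.1 * (f p.1 * f p.2)) +
            (ker p ω * (W p.2 * (f p.1 * f p.2)) +
              c * (W p.1 * wm p.2 + wm p.1 * W p.2) * (f p.1 * f p.2))) ∂surf := by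
          apply lintegral_mono
          intro p
          apply lintegral_mono
          intro ω
          have hp := hW.pov p.1 p.2 ω
          calc ker p ω * (W (vPrime p.1 p.2 ω) * (f p.1 * f p.2)) +
                ker p ω * (W (vsPrime p.1 p.2 ω) * (f p.1 * f p.2))
              = (ker (p.1, p.2) ω * (W (vPrime p.1 p.2 ω) + W (vsPrime p.1 p.2 ω))) *
                  (f p.1 * f p.2) := by ring
            _ ≤ (ker (p.1, p.2) ω * (W p.1 + W p.2) +
                  c * (W p.1 * wm p.2 + wm p.1 * W p.2)) * (f p.1 * f p.2) :=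
                mul_le_mul_left hp _
            _ = _ := by ring
      _ = X + (X + 2 * (c * sig * nInt f * ∫⁻ v, W v * f v)) := by
          rw [← e2, ← e3, ← hX1, ← hX2, hJ]
  have key2 : 2 * I ≤ 2 * (X + c * sig * nInt f * ∫⁻ v, W v * f v) := by
    calc 2 * I = I + I := two_mul I
      _ ≤ X + (X + 2 * (c * sig * nInt f * ∫⁻ v, W v * f v)) := key
      _ = 2 * (X + c * sig * nInt f * ∫⁻ v, W v * f v) := by ring
  exact (ENNReal.mul_le_mul_iff_right (by simp) (by simp)).1 key2

theorem lintegral_W_gam_le {c : ℝ≥0∞} (hW : PovW W c) (hf : Measurable f)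
    (hfin : ∫⁻ v, W v * (w1 v * f v) < ∞) (hN : nInt f < ∞) :
    ∫⁻ v, W v * gam f v ≤ 2 * sig * nInt f * (∫⁻ v, W v * (w1 v * f v)) +
      c * sig * nInt f * ∫⁻ v, W v * f v := by
  have h := lintegral_mul_gam hW.meas hf
  have hg := lintegral_W_gainV_le hW hf
  have hX : ∫⁻ v, W v * (f v * freqV f v) ≠ ∞ := by
    refine ne_top_of_le_ne_top ?_ (lintegral_mul_freqV_le hW.meas hf hf)
    have h1 : ∫⁻ v, w1 v * (W v * f v) = ∫⁻ v, W v * (w1 v * f v) := by
      apply lintegral_congr
      intro v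
      ring
    have h2 : ∫⁻ v, w1 v * f v ≤ 2 * nInt f := by
      unfold nInt
      have hmf : Measurable (fun vs : V => wm vs * f vs) := measurable_wm.mul hf
      rw [← lintegral_const_mul _ hmf]
      apply lintegral_mono
      intro v
      simp only
      rw [← mul_assoc]
      exact mul_le_mul_left (w1_le_two_wm v) _
    rw [h1]
    exact ENNReal.mul_ne_top (measure_lt_top _ _).ne
      (ENNReal.mul_ne_top hfin.ne (ne_top_of_le_ne_top (ENNReal.mul_ne_top (by simp) hN.ne) h2))
  have h3 : (∫⁻ v, W v * gam f v) + ∫⁻ v, W v * (f v * freqV f v) ≤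
      (2 * sig * nInt f * (∫⁻ v, W v * (w1 v * f v)) +
      c * sig * nInt f * ∫⁻ v, W v * f v) + ∫⁻ v, W v * (f v * freqV f v) := by
    rw [h]
    calc (∫⁻ v, W v * gainV f f v) + 2 * sig * nInt f * ∫⁻ v, W v * (w1 v * f v)
        ≤ ((∫⁻ v, W v * (f v * freqV f v)) + c * sig * nInt f * ∫⁻ v, W v * f v) +
          2 * sig * nInt f * ∫⁻ v, W v * (w1 v * f v) := by gcongr
      _ = _ := by ring
  exact (ENNReal.add_le_add_iff_right hX).1 h3

end Vale.Agent.Lib.P140
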