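import Mathlib
import Vale.Agent.Lib.P140.HomAdd
import Vale.Agent.Lib.P140.HomMono
import Vale.Agent.Lib.P140.HomWeak

/-!
# A priori bounds for the iterates of Arkeryd's scheme
-/

namespace Vale.Agent.Lib.P140

open MeasureTheory Set
open scoped ENNReal

variable {E : ℝ≥0∞} {f0 W : V → ℝ≥0∞}

/-- Tonelli for a weight in `v` and a time integral. -/
lemma tonelli_W (hW : Measurable W) {A : ℝ × V → ℝ≥0∞} (hA : Measurable A) (t : ℝ) :
    ∫⁻ v, W v * ∫⁻ s in Ioc 0 t, A (s, v) = ∫⁻ s in Ioc 0 t, ∫⁻ v, W v * A (s, v) := by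
  calc ∫⁻ v, W v * ∫⁻ s in Ioc 0 t, A (s, v)
      = ∫⁻ v, ∫⁻ s in Ioc 0 t, W v * A (s, v) := by
        apply lintegral_congr
        intro v
        have hm : Measurable (fun s : ℝ => A (s, v)) :=
          hA.comp (measurable_id.prodMk measurable_const)
        rw [lintegral_const_mul _ hm]
    _ = ∫⁻ s in Ioc 0 t, ∫⁻ v, W v * A (s, v) := by
        apply lintegral_lintegral_swap
        exact ((hW.comp measurable_fst).mul
          (hA.comp (measurable_snd.prodMk measurable_fst))).aemeasurable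

lemma lintegral_Ioc_le_const {t T : ℝ} (htT : t ≤ T) {h : ℝ → ℝ≥0∞} {C : ℝ≥0∞}
    (hh : ∀ s ∈ Ioc 0 t, h s ≤ C) : ∫⁻ s in Ioc 0 t, h s ≤ C * ENNReal.ofReal T := by
  calc ∫⁻ s in Ioc 0 t, h s ≤ ∫⁻ _s in Ioc 0 t, C := setLIntegral_mono' measurableSet_Ioc hh
    _ = C * ENNReal.ofReal t := by
        rw [lintegral_const, Measure.restrict_apply MeasurableSet.univ, univ_inter, Real.volume_Ioc,
          sub_zero]
    _ ≤ C * ENNReal.ofReal T := by gcongr

lemma w3_eq_pow (v : V) : w3 v = w1 v ^ 3 := by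
  unfold w3 w1
  rw [ENNReal.ofReal_pow (by positivity)]

lemma one_le_wm (v : V) : 1 ≤ wm v := by
  unfold wm
  rw [← ENNReal.ofReal_one]
  apply ENNReal.ofReal_le_ofReal
  nlinarith [sq_nonneg ‖v‖]

lemma lintegral_pow_cut_le (f0 : V → ℝ≥0∞) (k j : ℕ) :
    ∫⁻ v, w1 v ^ j * cut f0 k v ≤ ENNReal.ofReal (1 + k) ^ j * nInt f0 := by
  unfold nInt
  rw [← lintegral_const_mul' _ _ (ENNReal.pow_ne_top ENNReal.ofReal_ne_top)]
  apply lintegral_mono
  intro v
  by_cases h : ‖v‖ ≤ k
  · simp only [cut, if_pos h]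
    have h1 : w1 v ≤ ENNReal.ofReal (1 + k) := by
      unfold w1
      apply ENNReal.ofReal_le_ofReal
      linarith
    have h2 : f0 v ≤ wm v * f0 v := by
      calc f0 v = 1 * f0 v := (one_mul _).symm
        _ ≤ wm v * f0 v := by gcongr; exact one_le_wm v
    exact mul_le_mul' (pow_le_pow_left₀ zero_le h1 j) h2
  · simp only [cut, if_neg h, mul_zero]
    exact zero_le

lemma measurable_gam_arkIt (hf0 : Measurable f0) (k : ℕ) :
    Measurable (fun q : ℝ × V => gam (fun w => arkIt E f0 k (q.1, w)) q.2) :=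
  measurable_gam (measurable_arkIt hf0 k)

/-- All polynomial moments of the iterates are finite, locally uniformly in time (the bound depends
on the step `k`). -/
theorem arkIt_pow_bound (hf0 : Measurable f0) (hE : nInt f0 ≤ E) (hEfin : E ≠ ∞) (k j : ℕ) (T : ℝ) :
    ∃ B : ℝ≥0∞, B < ∞ ∧ ∀ t ∈ Icc (0 : ℝ) T, ∫⁻ v, w1 v ^ j * arkIt E f0 k (t, v) ≤ B := by
  induction k generalizing j with
  | zero =>
    refine ⟨0, ENNReal.zero_lt_top, fun t _ => ?_⟩
    simp [arkIt]
  | succ k ih =>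
    obtain ⟨B1, hB1, h1⟩ := ih (j + 1)
    obtain ⟨B2, hB2, h2⟩ := ih 2
    have hW : Measurable (fun v : V => w1 v ^ j) := measurable_w1.pow_const j
    refine ⟨ENNReal.ofReal (1 + (k + 1 : ℕ)) ^ j * E +
      (sig * B1 ^ 2 + 2 * sig * B2 * B1) * ENNReal.ofReal T, ?_, ?_⟩
    · refine ENNReal.add_lt_top.2 ⟨ENNReal.mul_lt_top
        (ENNReal.pow_lt_top ENNReal.ofReal_lt_top) (lt_top_iff_ne_top.2 hEfin), ?_⟩
      refine ENNReal.mul_lt_top (ENNReal.add_lt_top.2 ⟨?_, ?_⟩) ENNReal.ofReal_lt_top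
      · exact ENNReal.mul_lt_top (lt_top_iff_ne_top.2 sig_ne_top) (ENNReal.pow_lt_top hB1)
      · exact ENNReal.mul_lt_top (ENNReal.mul_lt_top (ENNReal.mul_lt_top (by simp)
          (lt_top_iff_ne_top.2 sig_ne_top)) hB2) hB1
    · intro t ht
      have hstep : ∀ s ∈ Ioc 0 t, ∫⁻ v, w1 v ^ j * gam (fun w => arkIt E f0 k (s, w)) v ≤
          sig * B1 ^ 2 + 2 * sig * B2 * B1 := by
        intro s hs
        have hsT : s ∈ Icc (0 : ℝ) T := ⟨hs.1.le, hs.2.trans ht.2⟩
        refine (lintegral_pow_gam_le (measurable_sliceV (measurable_arkIt hf0 k) s) j).trans ?_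
        have a1 := h1 s hsT
        have a2 : nInt (fun w => arkIt E f0 k (s, w)) ≤ B2 := (nInt_le_pow _).trans (h2 s hsT)
        gcongr
      calc ∫⁻ v, w1 v ^ j * arkIt E f0 (k + 1) (t, v)
          ≤ ∫⁻ v, w1 v ^ j * (cut f0 (k + 1) v +
              ∫⁻ s in Ioc 0 t, gam (fun w => arkIt E f0 k (s, w)) v) := by
            apply lintegral_mono
            intro v
            exact mul_le_mul_right (arkOp_le E _ _ ht.1 v) _
        _ = (∫⁻ v, w1 v ^ j * cut f0 (k + 1) v) +
              ∫⁻ s in Ioc 0 t, ∫⁻ v, w1 v ^ j * gam (fun w => arkIt E f0 k (s, w)) v := by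
            have hm : Measurable (fun v => w1 v ^ j * cut f0 (k + 1) v) :=
              hW.mul (measurable_cut hf0 (k + 1))
            simp only [mul_add]
            rw [lintegral_add_left hm, tonelli_W hW (measurable_gam_arkIt hf0 k) t]
        _ ≤ ENNReal.ofReal (1 + (k + 1 : ℕ)) ^ j * E +
              (sig * B1 ^ 2 + 2 * sig * B2 * B1) * ENNReal.ofReal T := by
            refine add_le_add ((lintegral_pow_cut_le f0 (k + 1) j).trans ?_)
              (lintegral_Ioc_le_const ht.2 hstep)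
            gcongr

/-- finiteness of the third moment of the iterates -/
lemma arkIt_w3_lt_top (hf0 : Measurable f0) (hE : nInt f0 ≤ E) (hEfin : E ≠ ∞) (k : ℕ) {s : ℝ}
    (hs : 0 ≤ s) : ∫⁻ v, w3 v * arkIt E f0 k (s, v) < ∞ := by
  obtain ⟨B, hB, h⟩ := arkIt_pow_bound hf0 hE hEfin k 3 s
  simp only [w3_eq_pow]
  exact lt_of_le_of_lt (h s ⟨hs, le_rfl⟩) hB

/-- `∫ W ν u = 2 σ E ∫ W (1+|v|) u`. -/
lemma lintegral_W_nu (hW : Measurable W) {f : V → ℝ≥0∞} (hf : Measurable f) (E : ℝ≥0∞) :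
    ∫⁻ v, W v * (nu E v * f v) = 2 * sig * E * ∫⁻ v, W v * (w1 v * f v) := by
  have hm : Measurable (fun v => W v * (w1 v * f v)) := hW.mul (measurable_w1.mul hf)
  rw [← lintegral_const_mul _ hm]
  apply lintegral_congr
  intro v
  unfold nu
  ring

/-- `N(u_k(t)) ≤ E`. -/
theorem arkIt_nInt_le (hf0 : Measurable f0) (hE : nInt f0 ≤ E) (hEfin : E ≠ ∞) (k : ℕ) {t : ℝ}
    (ht : 0 ≤ t) : nInt (fun v => arkIt E f0 k (t, v)) ≤ E := by
  induction k generalizing t with
  | zero => simp [arkIt, nInt]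
  | succ k ih =>
    have mk := measurable_arkIt (E := E) hf0 k
    have mk1 := measurable_arkIt (E := E) hf0 (k + 1)
    have key := lintegral_arkOp hEfin (measurable_cut hf0 (k + 1)) mk measurable_wm ht
    set X : ℝ≥0∞ := ∫⁻ s in Ioc 0 t, ∫⁻ v, wm v *
      (nu E v * arkOp E (cut f0 (k + 1)) (arkIt E f0 k) (s, v)) with hX
    have hXfin : X ≠ ∞ := by
      obtain ⟨B, hB, h⟩ := arkIt_pow_bound hf0 hE hEfin (k + 1) 3 t
      have : X ≤ (2 * sig * E * B) * ENNReal.ofReal t := by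
        apply lintegral_Ioc_le_const le_rfl
        intro s hs
        have e := lintegral_W_nu measurable_wm (measurable_sliceV mk1 s) E
        refine e.le.trans ?_
        gcongr
        refine le_trans (lintegral_mono fun v => ?_) (h s ⟨hs.1.le, hs.2⟩)
        rw [← mul_assoc, ← w3_eq_pow]
        gcongr
        rw [mul_comm]
        exact wm_mul_w1_le v
      refine ne_top_of_le_ne_top ?_ this
      exact ENNReal.mul_ne_top (ENNReal.mul_ne_top (ENNReal.mul_ne_top (ENNReal.mul_ne_top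
        (by simp) sig_ne_top) hEfin) hB.ne) ENNReal.ofReal_ne_top
    have h2 : ∫⁻ s in Ioc 0 t, ∫⁻ v, wm v * gam (fun w => arkIt E f0 k (s, w)) v ≤ X := by
      apply setLIntegral_mono' measurableSet_Ioc
      intro s hs
      rw [lintegral_wm_gam (measurable_sliceV mk s) (arkIt_w3_lt_top hf0 hE hEfin k hs.1.le)]
      have e := lintegral_W_nu measurable_wm (measurable_sliceV mk1 s) E
      refine le_trans ?_ e.ge
      have a1 := ih hs.1.le
      have a2 : ∫⁻ v, wm v * (w1 v * arkIt E f0 k (s, v)) ≤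
          ∫⁻ v, wm v * (w1 v * arkIt E f0 (k + 1) (s, v)) := by
        apply lintegral_mono
        intro v
        exact mul_le_mul_right (mul_le_mul_right (arkIt_le_succ E f0 k (s, v)) _) _
      gcongr
    have h3 : ∫⁻ v, wm v * cut f0 (k + 1) v ≤ E := by
      refine le_trans (lintegral_mono fun v => ?_) hE
      exact mul_le_mul_right (cut_le f0 (k + 1) v) _
    have h4 : nInt (fun v => arkIt E f0 (k + 1) (t, v)) + X ≤ E + X := by
      calc nInt (fun v => arkIt E f0 (k + 1) (t, v)) + X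
          = (∫⁻ v, wm v * cut f0 (k + 1) v) +
            ∫⁻ s in Ioc 0 t, ∫⁻ v, wm v * gam (fun w => arkIt E f0 k (s, w)) v := key
        _ ≤ E + X := add_le_add h3 h2
    exact (ENNReal.add_le_add_iff_right hXfin).1 h4

/-- Propagation of the moment `∫ W u_k(t)`, uniformly in `k`. -/
theorem arkIt_W_le (hf0 : Measurable f0) (hE : nInt f0 ≤ E) (hEfin : E ≠ ∞) {c : ℝ≥0∞}
    (hW : PovW W c) (k : ℕ) {t : ℝ} (ht : 0 ≤ t) :
    ∫⁻ v, W v * arkIt E f0 k (t, v) ≤
      (∫⁻ v, W v * f0 v) * ENNReal.ofReal (Real.exp ((c * sig * E).toReal * t)) := by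
  induction k generalizing t with
  | zero => simp [arkIt]
  | succ k ih =>
    obtain ⟨j, C, hC, hgrow⟩ := hW.growth
    have mk := measurable_arkIt (E := E) hf0 k
    have mk1 := measurable_arkIt (E := E) hf0 (k + 1)
    have hlam : c * sig * E ≠ ∞ := ENNReal.mul_ne_top (ENNReal.mul_ne_top hW.cfin sig_ne_top) hEfin
    set M : ℝ≥0∞ := ∫⁻ v, W v * f0 v with hM
    set l : ℝ := (c * sig * E).toReal with hl
    have hl0 : 0 ≤ l := ENNReal.toReal_nonneg
    have hlE : ENNReal.ofReal l = c * sig * E := ENNReal.ofReal_toReal hlam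
    have key := lintegral_arkOp hEfin (measurable_cut hf0 (k + 1)) mk hW.meas ht
    -- finiteness of `∫ W (1+|v|) u_i(s)`
    have hfinW : ∀ (i : ℕ) (T : ℝ), ∃ B : ℝ≥0∞, B < ∞ ∧ ∀ s ∈ Icc (0 : ℝ) T,
        ∫⁻ v, W v * (w1 v * arkIt E f0 i (s, v)) ≤ B := by
      intro i T
      obtain ⟨B, hB, h⟩ := arkIt_pow_bound hf0 hE hEfin i (j + 1) T
      refine ⟨C * B, ENNReal.mul_lt_top (lt_top_iff_ne_top.2 hC) hB, fun s hs => ?_⟩
      calc ∫⁻ v, W v * (w1 v * arkIt E f0 i (s, v))
          ≤ ∫⁻ v, C * (w1 v ^ (j + 1) * arkIt E f0 i (s, v)) := by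
            apply lintegral_mono
            intro v
            calc W v * (w1 v * arkIt E f0 i (s, v))
                ≤ (C * w1 v ^ j) * (w1 v * arkIt E f0 i (s, v)) := by
                  gcongr
                  exact hgrow v
              _ = C * (w1 v ^ (j + 1) * arkIt E f0 i (s, v)) := by ring
        _ = C * ∫⁻ v, w1 v ^ (j + 1) * arkIt E f0 i (s, v) := lintegral_const_mul' _ _ hC
        _ ≤ C * B := by
            gcongr
            exact h s hs
    set X : ℝ≥0∞ := ∫⁻ s in Ioc 0 t, ∫⁻ v, W v *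
      (nu E v * arkOp E (cut f0 (k + 1)) (arkIt E f0 k) (s, v)) with hX
    have hXfin : X ≠ ∞ := by
      obtain ⟨B, hB, h⟩ := hfinW (k + 1) t
      have : X ≤ (2 * sig * E * B) * ENNReal.ofReal t := by
        apply lintegral_Ioc_le_const le_rfl
        intro s hs
        have e := lintegral_W_nu hW.meas (measurable_sliceV mk1 s) E
        refine e.le.trans ?_
        gcongr
        exact h s ⟨hs.1.le, hs.2⟩
      refine ne_top_of_le_ne_top ?_ this
      exact ENNReal.mul_ne_top (ENNReal.mul_ne_top (ENNReal.mul_ne_top (ENNReal.mul_ne_top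
        (by simp) sig_ne_top) hEfin) hB.ne) ENNReal.ofReal_ne_top
    have mexp : Measurable (fun s : ℝ => ENNReal.ofReal (Real.exp (l * s))) := by fun_prop
    have mX : Measurable (fun s : ℝ => ∫⁻ v, W v *
        (nu E v * arkOp E (cut f0 (k + 1)) (arkIt E f0 k) (s, v))) := by
      apply measurable_lintegral_V (A := fun q : ℝ × V => W q.2 *
        (nu E q.2 * arkOp E (cut f0 (k + 1)) (arkIt E f0 k) q))
      exact (hW.meas.comp measurable_snd).mul (((measurable_nu E).comp measurable_snd).mul mk1)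
    have h2 : ∫⁻ s in Ioc 0 t, ∫⁻ v, W v * gam (fun w => arkIt E f0 k (s, w)) v ≤
        X + ENNReal.ofReal l * (M * ∫⁻ s in Ioc 0 t, ENNReal.ofReal (Real.exp (l * s))) := by
      rw [← lintegral_const_mul _ mexp, ← lintegral_const_mul _ (mexp.const_mul _), hX,
        ← lintegral_add_left mX]
      apply setLIntegral_mono' measurableSet_Ioc
      intro s hs
      obtain ⟨B, hB, h⟩ := hfinW k s
      have hN := arkIt_nInt_le hf0 hE hEfin k hs.1.le
      refine (lintegral_W_gam_le hW (measurable_sliceV mk s)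
        (lt_of_le_of_lt (h s ⟨hs.1.le, le_rfl⟩) hB)
        (lt_of_le_of_lt hN (lt_top_iff_ne_top.2 hEfin))).trans ?_
      have e := lintegral_W_nu hW.meas (measurable_sliceV mk1 s) E
      refine add_le_add (le_trans ?_ e.ge) ?_
      · have a2 : ∫⁻ v, W v * (w1 v * arkIt E f0 k (s, v)) ≤
            ∫⁻ v, W v * (w1 v * arkIt E f0 (k + 1) (s, v)) := by
          apply lintegral_mono
          intro v
          exact mul_le_mul_right (mul_le_mul_right (arkIt_le_succ E f0 k (s, v)) _) _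
        gcongr
      · rw [hlE]
        have a3 := ih hs.1.le
        gcongr
    have h3 : ∫⁻ v, W v * cut f0 (k + 1) v ≤ M := by
      apply lintegral_mono
      intro v
      exact mul_le_mul_right (cut_le f0 (k + 1) v) _
    have h4 : (∫⁻ v, W v * arkIt E f0 (k + 1) (t, v)) + X ≤
        M * ENNReal.ofReal (Real.exp (l * t)) + X := by
      calc (∫⁻ v, W v * arkIt E f0 (k + 1) (t, v)) + X
          = (∫⁻ v, W v * cut f0 (k + 1) v) +
            ∫⁻ s in Ioc 0 t, ∫⁻ v, W v * gam (fun w => arkIt E f0 k (s, w)) v := key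
        _ ≤ M + (X + ENNReal.ofReal l * (M * ∫⁻ s in Ioc 0 t, ENNReal.ofReal (Real.exp (l * s)))) :=
            add_le_add h3 h2
        _ = M * (1 + ENNReal.ofReal l * ∫⁻ s in Ioc 0 t, ENNReal.ofReal (Real.exp (l * s))) + X := by
            ring
        _ = M * ENNReal.ofReal (Real.exp (l * t)) + X := by rw [lintegral_exp_growth hl0 ht]
    exact (ENNReal.add_le_add_iff_right hXfin).1 h4

end Vale.Agent.Lib.P140
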