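import Mathlib
import Vale.Agent.Lib.P140.HomMeas

/-!
# The weight `<v>^3` satisfies a Povzner-type inequality
-/

namespace Vale.Agent.Lib.P140

open MeasureTheory Set
open scoped ENNReal

lemma br_sq (v : V) : br v ^ 2 = 1 + ‖v‖ ^ 2 := by
  unfold br
  exact Real.sq_sqrt (by positivity)

lemma br_nonneg (v : V) : 0 ≤ br v := Real.sqrt_nonneg _

lemma one_le_br (v : V) : 1 ≤ br v := by
  have h := br_sq v
  have h0 := br_nonneg v
  nlinarith [sq_nonneg ‖v‖]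

lemma norm_le_br (v : V) : ‖v‖ ≤ br v := by
  have h := br_sq v
  have h0 := br_nonneg v
  have h1 := norm_nonneg v
  nlinarith

/-- `<v'>^3 + <v_*'>^3 ≤ <v>^3 + <v_*>^3 + <v>^2 <v_*> + <v> <v_*>^2`. -/
lemma br_cube_prime (v vs : V) (ω : Sph) :
    br (vPrime v vs ω) ^ 3 + br (vsPrime v vs ω) ^ 3 ≤
      br v ^ 3 + br vs ^ 3 + br v ^ 2 * br vs + br v * br vs ^ 2 := by
  have he := energy_prime v vs (sph_norm ω)
  set x := br (vPrime v vs ω) with hx
  set y := br (vsPrime v vs ω) with hy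
  set a := br v with ha
  set b := br vs with hb
  have hx2 : x ^ 2 = 1 + ‖vPrime v vs ω‖ ^ 2 := br_sq _
  have hy2 : y ^ 2 = 1 + ‖vsPrime v vs ω‖ ^ 2 := br_sq _
  have ha2 : a ^ 2 = 1 + ‖v‖ ^ 2 := br_sq _
  have hb2 : b ^ 2 = 1 + ‖vs‖ ^ 2 := br_sq _
  have hsum : x ^ 2 + y ^ 2 = a ^ 2 + b ^ 2 := by rw [hx2, hy2, ha2, hb2]; linarith
  have hx0 : 0 ≤ x := br_nonneg _
  have hy0 : 0 ≤ y := br_nonneg _
  have ha0 : 0 ≤ a := br_nonneg _
  have hb0 : 0 ≤ b := br_nonneg _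
  have hxle : x ≤ a + b := by
    apply le_of_sq_le_sq _ (by positivity)
    nlinarith [sq_nonneg y, mul_nonneg ha0 hb0]
  have hyle : y ≤ a + b := by
    apply le_of_sq_le_sq _ (by positivity)
    nlinarith [sq_nonneg x, mul_nonneg ha0 hb0]
  calc x ^ 3 + y ^ 3 = x ^ 2 * x + y ^ 2 * y := by ring
    _ ≤ x ^ 2 * (a + b) + y ^ 2 * (a + b) :=
        add_le_add (mul_le_mul_of_nonneg_left hxle (sq_nonneg x))
          (mul_le_mul_of_nonneg_left hyle (sq_nonneg y))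
    _ = (x ^ 2 + y ^ 2) * (a + b) := by ring
    _ = a ^ 3 + b ^ 3 + a ^ 2 * b + a * b ^ 2 := by rw [hsum]; ring

lemma br_le_one_add (v : V) : br v ≤ 1 + ‖v‖ := by
  apply le_of_sq_le_sq _ (by positivity)
  rw [br_sq]
  nlinarith [norm_nonneg v]

lemma wb_le_w3 (v : V) : wb v ≤ w3 v := by
  unfold wb w3
  exact ENNReal.ofReal_le_ofReal (pow_le_pow_left₀ (br_nonneg v) (br_le_one_add v) 3)

lemma w3_le_wb (v : V) : w3 v ≤ 3 * wb v := by
  unfold wb w3
  have h3 : (3 : ℝ≥0∞) = ENNReal.ofReal 3 := by simp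
  rw [h3, ← ENNReal.ofReal_mul (by norm_num)]
  apply ENNReal.ofReal_le_ofReal
  have hb := br_sq v
  have hb0 := br_nonneg v
  have hr := norm_nonneg v
  apply le_of_sq_le_sq _ (by positivity)
  have h1 : (1 + ‖v‖) ^ 2 ≤ 2 * br v ^ 2 := by
    rw [hb]; nlinarith [sq_nonneg (1 - ‖v‖)]
  have h2 : ((1 + ‖v‖) ^ 2) ^ 3 ≤ (2 * br v ^ 2) ^ 3 := pow_le_pow_left₀ (by positivity) h1 3
  have h4 : 0 ≤ (br v ^ 2) ^ 3 := by positivity
  calc ((1 + ‖v‖) ^ 3) ^ 2 = ((1 + ‖v‖) ^ 2) ^ 3 := by ring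
    _ ≤ (2 * br v ^ 2) ^ 3 := h2
    _ = 8 * (br v ^ 2) ^ 3 := by ring
    _ ≤ 9 * (br v ^ 2) ^ 3 := by linarith
    _ = (3 * br v ^ 3) ^ 2 := by ring

/-- the real inequality behind `povW_wb` -/
lemma pov_real (κ x y a b : ℝ) (hκ0 : 0 ≤ κ) (hκ : κ ≤ a + b) (ha : 1 ≤ a) (hb : 1 ≤ b)
    (h : x + y ≤ a ^ 3 + b ^ 3 + a ^ 2 * b + a * b ^ 2) :
    κ * (x + y) ≤ κ * (a ^ 3 + b ^ 3) + 2 * (a ^ 3 * b ^ 2 + a ^ 2 * b ^ 3) := by
  have ha0 : 0 ≤ a := by linarith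
  have hb0 : 0 ≤ b := by linarith
  have h1 : κ * (x + y) ≤ κ * (a ^ 3 + b ^ 3 + a ^ 2 * b + a * b ^ 2) :=
    mul_le_mul_of_nonneg_left h hκ0
  have h2 : κ * (a ^ 2 * b + a * b ^ 2) ≤ (a + b) * (a ^ 2 * b + a * b ^ 2) :=
    mul_le_mul_of_nonneg_right hκ (by positivity)
  have h3 : a ^ 3 * b ≤ a ^ 3 * b ^ 2 := by
    have : b ≤ b ^ 2 := by nlinarith
    exact mul_le_mul_of_nonneg_left this (by positivity)
  have h4 : a * b ^ 3 ≤ a ^ 2 * b ^ 3 := by
    have : a ≤ a ^ 2 := by nlinarith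
    exact mul_le_mul_of_nonneg_right this (by positivity)
  have h5 : a ^ 2 * b ^ 2 ≤ a ^ 3 * b ^ 2 := by
    have : a ^ 2 ≤ a ^ 3 := by nlinarith [sq_nonneg a]
    exact mul_le_mul_of_nonneg_right this (by positivity)
  have h6 : a ^ 2 * b ^ 2 ≤ a ^ 2 * b ^ 3 := by
    have : b ^ 2 ≤ b ^ 3 := by nlinarith [sq_nonneg b]
    exact mul_le_mul_of_nonneg_left this (by positivity)
  nlinarith

theorem povW_wb : PovW wb 2 := by
  refine ⟨measurable_wb, ⟨3, 1, by simp, fun v => ?_⟩, by simp, fun v vs ω => ?_⟩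
  · rw [one_mul]
    refine le_trans (wb_le_w3 v) (le_of_eq ?_)
    unfold w3 w1
    rw [ENNReal.ofReal_pow (by positivity)]
  · have hκ0 : 0 ≤ |collA v vs ω| := abs_nonneg _
    have hκ : |collA v vs ω| ≤ br v + br vs := by
      unfold collA
      have h1 : |inner ℝ (v - vs) (ω : V)| ≤ ‖v - vs‖ * ‖(ω : V)‖ := abs_real_inner_le_norm _ _
      rw [sph_norm ω, mul_one] at h1
      exact h1.trans ((norm_sub_le _ _).trans (add_le_add (norm_le_br v) (norm_le_br vs)))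
    have hreal := pov_real |collA v vs ω| (br (vPrime v vs ω) ^ 3) (br (vsPrime v vs ω) ^ 3)
      (br v) (br vs) hκ0 hκ (one_le_br v) (one_le_br vs) (br_cube_prime v vs ω)
    have h2 : (2 : ℝ≥0∞) = ENNReal.ofReal 2 := by simp
    have hwm : ∀ u : V, wm u = ENNReal.ofReal (br u ^ 2) := fun u => by unfold wm; rw [br_sq]
    have hb0 : ∀ u : V, 0 ≤ br u := br_nonneg
    unfold ker wb
    simp only [hwm, h2]
    rw [← ENNReal.ofReal_add (by have := hb0 (vPrime v vs ω); positivity)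
        (by have := hb0 (vsPrime v vs ω); positivity),
      ← ENNReal.ofReal_mul hκ0,
      ← ENNReal.ofReal_add (by have := hb0 v; positivity) (by have := hb0 vs; positivity),
      ← ENNReal.ofReal_mul hκ0,
      ← ENNReal.ofReal_mul (by have := hb0 v; positivity),
      ← ENNReal.ofReal_mul (by have := hb0 v; positivity),
      ← ENNReal.ofReal_add (by have := hb0 v; have := hb0 vs; positivity)
        (by have := hb0 v; have := hb0 vs; positivity),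
      ← ENNReal.ofReal_mul (by norm_num),
      ← ENNReal.ofReal_add (by have := hb0 v; have := hb0 vs; positivity)
        (by have := hb0 v; have := hb0 vs; positivity)]
    exact ENNReal.ofReal_le_ofReal hreal

end Vale.Agent.Lib.P140
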