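import Mathlib
import Vale.Agent.Lib.P140.HomBounds
import Vale.Agent.Lib.P140.HomPovzner
import Vale.Agent.Lib.P140.Gronwall
import Vale.Agent.Lib.P140.Conserve

/-!
# The limit of Arkeryd's scheme solves the spatially homogeneous Boltzmann equation
-/

namespace Vale.Agent.Lib.P140

open MeasureTheory Set
open scoped ENNReal

variable {E : ℝ≥0∞} {f0 W : V → ℝ≥0∞}

lemma lintegral_W_arkSol (hf0 : Measurable f0) (hW : Measurable W) (t : ℝ) :
    ∫⁻ v, W v * arkSol E f0 (t, v) = ⨆ k, ∫⁻ v, W v * arkIt E f0 k (t, v) := by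
  unfold arkSol
  simp only [ENNReal.mul_iSup]
  rw [lintegral_iSup]
  · intro k
    exact hW.mul (measurable_sliceV (measurable_arkIt hf0 k) t)
  · intro a b hab v
    exact mul_le_mul_right (arkIt_mono E f0 (t, v) hab) _

theorem arkSol_nInt_le (hf0 : Measurable f0) (hE : nInt f0 ≤ E) (hEfin : E ≠ ∞) {t : ℝ}
    (ht : 0 ≤ t) : nInt (fun v => arkSol E f0 (t, v)) ≤ E := by
  unfold nInt
  rw [lintegral_W_arkSol hf0 measurable_wm t]
  exact iSup_le fun k => arkIt_nInt_le hf0 hE hEfin k ht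

theorem arkSol_W_le (hf0 : Measurable f0) (hE : nInt f0 ≤ E) (hEfin : E ≠ ∞) {c : ℝ≥0∞}
    (hW : PovW W c) {t : ℝ} (ht : 0 ≤ t) :
    ∫⁻ v, W v * arkSol E f0 (t, v) ≤
      (∫⁻ v, W v * f0 v) * ENNReal.ofReal (Real.exp ((c * sig * E).toReal * t)) := by
  rw [lintegral_W_arkSol hf0 hW.meas t]
  exact iSup_le fun k => arkIt_W_le hf0 hE hEfin hW k ht

/-- The third moment stays bounded on bounded time intervals. -/
theorem arkSol_w3_le (hf0 : Measurable f0) (hE : nInt f0 ≤ E) (hEfin : E ≠ ∞) {t T : ℝ}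
    (ht : 0 ≤ t) (htT : t ≤ T) :
    ∫⁻ v, w3 v * arkSol E f0 (t, v) ≤
      3 * ((∫⁻ v, w3 v * f0 v) * ENNReal.ofReal (Real.exp ((2 * sig * E).toReal * T))) := by
  have mu := measurable_sliceV (measurable_arkSol (E := E) hf0) t
  have hm : Measurable (fun v => wb v * arkSol E f0 (t, v)) := measurable_wb.mul mu
  calc ∫⁻ v, w3 v * arkSol E f0 (t, v)
      ≤ ∫⁻ v, 3 * (wb v * arkSol E f0 (t, v)) := by
        apply lintegral_mono
        intro v
        calc w3 v * arkSol E f0 (t, v) ≤ (3 * wb v) * arkSol E f0 (t, v) :=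
              mul_le_mul_left (w3_le_wb v) _
          _ = 3 * (wb v * arkSol E f0 (t, v)) := by ring
    _ = 3 * ∫⁻ v, wb v * arkSol E f0 (t, v) := lintegral_const_mul _ hm
    _ ≤ 3 * ((∫⁻ v, wb v * f0 v) * ENNReal.ofReal (Real.exp ((2 * sig * E).toReal * t))) :=
        mul_le_mul_right (arkSol_W_le hf0 hE hEfin povW_wb ht) _
    _ ≤ 3 * ((∫⁻ v, w3 v * f0 v) * ENNReal.ofReal (Real.exp ((2 * sig * E).toReal * T))) := by
        refine mul_le_mul_right (mul_le_mul' ?_ ?_) _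
        · exact lintegral_mono fun v => mul_le_mul_left (wb_le_w3 v) _
        · apply ENNReal.ofReal_le_ofReal
          apply Real.exp_le_exp.2
          exact mul_le_mul_of_nonneg_left htT ENNReal.toReal_nonneg

lemma nInt_le_w3 (f : V → ℝ≥0∞) : nInt f ≤ ∫⁻ v, w3 v * f v :=
  lintegral_mono fun v => mul_le_mul_left (wm_le_w3 v) _

lemma arkSol_fixed' (hf0 : Measurable f0) : arkOp E f0 (arkSol E f0) = arkSol E f0 :=
  funext fun p => arkSol_fixed hf0 p

/-- the constant bounding the third moment on `[0,T]` -/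
noncomputable def k3 (f0 : V → ℝ≥0∞) (T : ℝ) : ℝ≥0∞ :=
  3 * ((∫⁻ v, w3 v * f0 v) * ENNReal.ofReal (Real.exp ((2 * sig * nInt f0).toReal * T)))

lemma k3_ne_top (h3 : ∫⁻ v, w3 v * f0 v < ∞) (T : ℝ) : k3 f0 T ≠ ∞ :=
  ENNReal.mul_ne_top (by simp) (ENNReal.mul_ne_top h3.ne ENNReal.ofReal_ne_top)

/-- Conservation of `N` when the third moment of the datum is finite. -/
theorem arkSol_nInt_eq (hf0 : Measurable f0) (h3 : ∫⁻ v, w3 v * f0 v < ∞) {t : ℝ} (ht : 0 ≤ t) :
    nInt (fun v => arkSol (nInt f0) f0 (t, v)) = nInt f0 := by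
  set E : ℝ≥0∞ := nInt f0 with hEdef
  have hEfin : E ≠ ∞ := (lt_of_le_of_lt (nInt_le_w3 f0) h3).ne
  have mu := measurable_arkSol (E := E) hf0
  set N : ℝ → ℝ≥0∞ := fun s => nInt (fun v => arkSol E f0 (s, v)) with hN
  set D : ℝ → ℝ≥0∞ := fun s => ∫⁻ v, wm v * (w1 v * arkSol E f0 (s, v)) with hD
  set K : ℝ≥0∞ := k3 f0 t with hK
  have hKfin : K ≠ ∞ := k3_ne_top h3 t
  have hNle : ∀ s, 0 ≤ s → N s ≤ E := fun s hs => arkSol_nInt_le hf0 le_rfl hEfin hs
  have h3s : ∀ s, 0 ≤ s → s ≤ t → ∫⁻ v, w3 v * arkSol E f0 (s, v) ≤ K := fun s hs hst =>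
    arkSol_w3_le hf0 le_rfl hEfin hs hst
  have hDle : ∀ s, 0 ≤ s → s ≤ t → D s ≤ K := by
    intro s hs hst
    refine le_trans (lintegral_mono fun v => ?_) (h3s s hs hst)
    rw [← mul_assoc]
    refine mul_le_mul_left ?_ _
    rw [mul_comm]
    exact wm_mul_w1_le v
  have mN : Measurable N := by
    apply measurable_lintegral_V (A := fun q : ℝ × V => wm q.2 * arkSol E f0 q)
    exact (measurable_wm.comp measurable_snd).mul mu
  have mD : Measurable D := by
    apply measurable_lintegral_V (A := fun q : ℝ × V => wm q.2 * (w1 q.2 * arkSol E f0 q))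
    exact (measurable_wm.comp measurable_snd).mul ((measurable_w1.comp measurable_snd).mul mu)
  -- the integral inequality for `y = E - N`
  have claim : ∀ r, 0 ≤ r → r ≤ t → E - N r ≤ 2 * sig * K * ∫⁻ s in Ioc 0 r, (E - N s) := by
    intro r hr hrt
    have key := lintegral_arkOp hEfin hf0 mu measurable_wm hr
    rw [arkSol_fixed' hf0] at key
    have e1 : ∫⁻ s in Ioc 0 r, ∫⁻ v, wm v * (nu E v * arkSol E f0 (s, v)) =
        (∫⁻ s in Ioc 0 r, 2 * sig * (E - N s) * D s) + ∫⁻ s in Ioc 0 r, 2 * sig * N s * D s := by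
      have hm : Measurable (fun s => 2 * sig * (E - N s) * D s) :=
        (measurable_const.mul (measurable_const.sub mN)).mul mD
      rw [← lintegral_add_left hm]
      apply setLIntegral_congr_fun measurableSet_Ioc
      intro s hs
      simp only []
      rw [lintegral_W_nu measurable_wm (measurable_sliceV mu s) E, ← add_mul, ← mul_add,
        tsub_add_cancel_of_le (hNle s hs.1.le)]
    have e2 : ∫⁻ s in Ioc 0 r, ∫⁻ v, wm v * gam (fun w => arkSol E f0 (s, w)) v =
        ∫⁻ s in Ioc 0 r, 2 * sig * N s * D s := by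
      apply setLIntegral_congr_fun measurableSet_Ioc
      intro s hs
      exact lintegral_wm_gam (measurable_sliceV mu s)
        (lt_of_le_of_lt (h3s s hs.1.le (hs.2.trans hrt)) (lt_top_iff_ne_top.2 hKfin))
    have hfin : ∫⁻ s in Ioc 0 r, 2 * sig * N s * D s ≠ ∞ := by
      have : ∫⁻ s in Ioc 0 r, 2 * sig * N s * D s ≤ (2 * sig * E * K) * ENNReal.ofReal r := by
        apply lintegral_Ioc_le_const le_rfl
        intro s hs
        exact mul_le_mul' (mul_le_mul_right (hNle s hs.1.le) _) (hDle s hs.1.le (hs.2.trans hrt))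
      refine ne_top_of_le_ne_top ?_ this
      exact ENNReal.mul_ne_top (ENNReal.mul_ne_top (ENNReal.mul_ne_top (ENNReal.mul_ne_top
        (by simp) sig_ne_top) hEfin) hKfin) ENNReal.ofReal_ne_top
    rw [e1, e2, ← add_assoc] at key
    have key2 : N r + ∫⁻ s in Ioc 0 r, 2 * sig * (E - N s) * D s = E :=
      (ENNReal.add_left_inj hfin).1 key
    have h4 : E - N r ≤ ∫⁻ s in Ioc 0 r, 2 * sig * (E - N s) * D s := by
      rw [tsub_le_iff_left]
      exact key2.ge
    refine h4.trans ?_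
    rw [← lintegral_const_mul' _ _ (ENNReal.mul_ne_top (ENNReal.mul_ne_top (by simp) sig_ne_top)
      hKfin)]
    apply setLIntegral_mono' measurableSet_Ioc
    intro s hs
    calc 2 * sig * (E - N s) * D s ≤ 2 * sig * (E - N s) * K :=
          mul_le_mul_right (hDle s hs.1.le (hs.2.trans hrt)) _
      _ = 2 * sig * K * (E - N s) := by ring
  have hzero : ∫⁻ s in Ioc 0 t, (E - N s) = 0 := by
    apply gronwall_zero (c := 2 * sig * K) (E := E)
      (ENNReal.mul_ne_top (ENNReal.mul_ne_top (by simp) sig_ne_top) hKfin) hEfin t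
    · exact Filter.Eventually.of_forall fun s _ => tsub_le_self
    · exact Filter.Eventually.of_forall fun s hs => claim s hs.1.le hs.2
  have h5 := claim t ht le_rfl
  rw [hzero, mul_zero] at h5
  exact le_antisymm (hNle t ht) (tsub_eq_zero_iff_le.1 (le_antisymm h5 zero_le))

lemma tonelli_one {A : ℝ × V → ℝ≥0∞} (hA : Measurable A) (t : ℝ) :
    ∫⁻ v, ∫⁻ s in Ioc 0 t, A (s, v) = ∫⁻ s in Ioc 0 t, ∫⁻ v, A (s, v) := by
  apply lintegral_lintegral_swap
  exact (hA.comp (measurable_snd.prodMk measurable_fst)).aemeasurable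

/-- measurability of a time integral as a function of `v` -/
lemma measurable_time_lintegral {A : ℝ × V → ℝ≥0∞} (hA : Measurable A) (t : ℝ) :
    Measurable (fun v : V => ∫⁻ s in Ioc 0 t, A (s, v)) := by
  apply Measurable.lintegral_prod_right' (f := fun q : V × ℝ => A (q.2, q.1))
  exact hA.comp (measurable_snd.prodMk measurable_fst)

lemma ae_time_lt_top {A : ℝ × V → ℝ≥0∞} (hA : Measurable A) {T : ℝ} {C : ℝ≥0∞} (hC : C ≠ ∞)
    (h : ∀ s ∈ Ioc 0 T, ∫⁻ v, A (s, v) ≤ C) : ∀ᵐ v : V, ∫⁻ s in Ioc 0 T, A (s, v) < ∞ := by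
  apply ae_lt_top (measurable_time_lintegral hA T)
  rw [tonelli_one hA T]
  exact ne_top_of_le_ne_top (ENNReal.mul_ne_top hC ENNReal.ofReal_ne_top)
    (lintegral_Ioc_le_const le_rfl h)

section Mild

variable (hf0 : Measurable f0) (h3 : ∫⁻ v, w3 v * f0 v < ∞) (hE : E = nInt f0)

include hf0 in
lemma measurable_G_arkSol : Measurable (fun q : ℝ × V => gainV (fun w => arkSol E f0 (q.1, w))
    (fun w => arkSol E f0 (q.1, w)) q.2) :=
  measurable_gainV (measurable_arkSol hf0) (measurable_arkSol hf0)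

include hf0 in
lemma measurable_L_arkSol : Measurable (fun q : ℝ × V => arkSol E f0 q *
    freqV (fun w => arkSol E f0 (q.1, w)) q.2) :=
  (measurable_arkSol hf0).mul (measurable_freqV (measurable_arkSol hf0))

include hf0 in
lemma measurable_A_arkSol : Measurable (fun q : ℝ × V => arkSol E f0 q *
    aOp (fun w => arkSol E f0 (q.1, w)) q.2) :=
  (measurable_arkSol hf0).mul (measurable_aOp (measurable_arkSol hf0))

lemma measurable_fix_v {A : ℝ × V → ℝ≥0∞} (hA : Measurable A) (v : V) :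
    Measurable (fun s : ℝ => A (s, v)) :=
  hA.comp (measurable_id.prodMk measurable_const)

lemma le_wm_mul (v : V) (a : ℝ≥0∞) : a ≤ wm v * a := by
  calc a = 1 * a := (one_mul a).symm
    _ ≤ wm v * a := mul_le_mul_left (one_le_wm v) _

include hf0 h3 hE in
lemma arkSol_E_ne_top : E ≠ ∞ := by
  rw [hE]
  exact (lt_of_le_of_lt (nInt_le_w3 f0) h3).ne

include hf0 h3 hE in
lemma arkSol_w3_le_k3 {T s : ℝ} (hs : s ∈ Ioc 0 T) :
    ∫⁻ v, w3 v * arkSol E f0 (s, v) ≤ k3 f0 T := by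
  have h := arkSol_w3_le (E := E) hf0 hE.ge (arkSol_E_ne_top hf0 h3 hE) hs.1.le hs.2
  rw [hE] at h ⊢
  exact h

include hf0 h3 hE in
lemma arkSol_loss_le {T s : ℝ} (hs : s ∈ Ioc 0 T) :
    ∫⁻ v, wm v * (arkSol E f0 (s, v) * freqV (fun w => arkSol E f0 (s, w)) v) ≤
      sig * (k3 f0 T * k3 f0 T) :=
  slice_ell_le (measurable_sliceV (measurable_arkSol hf0) s)
    (measurable_sliceV (measurable_arkSol hf0) s) (fun _ => le_rfl) (arkSol_w3_le_k3 hf0 h3 hE hs)

include hf0 h3 hE in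
lemma arkSol_L_fin (T : ℝ) : ∀ᵐ v : V, ∫⁻ s in Ioc 0 T, arkSol E f0 (s, v) *
    freqV (fun w => arkSol E f0 (s, w)) v < ∞ := by
  apply ae_time_lt_top (measurable_L_arkSol hf0) (C := sig * (k3 f0 T * k3 f0 T))
    (ENNReal.mul_ne_top sig_ne_top (ENNReal.mul_ne_top (k3_ne_top h3 T) (k3_ne_top h3 T)))
  intro s hs
  exact le_trans (lintegral_mono fun v => le_wm_mul v _) (arkSol_loss_le hf0 h3 hE hs)

include hf0 h3 hE in
lemma arkSol_G_fin (T : ℝ) : ∀ᵐ v : V, ∫⁻ s in Ioc 0 T, gainV (fun w => arkSol E f0 (s, w))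
    (fun w => arkSol E f0 (s, w)) v < ∞ := by
  apply ae_time_lt_top (measurable_G_arkSol hf0) (C := sig * (k3 f0 T * k3 f0 T))
    (ENNReal.mul_ne_top sig_ne_top (ENNReal.mul_ne_top (k3_ne_top h3 T) (k3_ne_top h3 T)))
  intro s hs
  refine le_trans (lintegral_mono fun v => le_wm_mul v _) ?_
  rw [slice_gain_eq_loss (measurable_sliceV (measurable_arkSol hf0) s)]
  exact arkSol_loss_le hf0 h3 hE hs

include hf0 h3 hE in
lemma arkSol_A_fin (T : ℝ) : ∀ᵐ v : V, ∫⁻ s in Ioc 0 T, arkSol E f0 (s, v) *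
    aOp (fun w => arkSol E f0 (s, w)) v < ∞ := by
  have hEfin := arkSol_E_ne_top hf0 h3 hE
  apply ae_time_lt_top (measurable_A_arkSol hf0) (C := 2 * sig * E * k3 f0 T)
    (ENNReal.mul_ne_top (ENNReal.mul_ne_top (ENNReal.mul_ne_top (by simp) sig_ne_top) hEfin)
      (k3_ne_top h3 T))
  intro s hs
  have ms := measurable_sliceV (measurable_arkSol (E := E) hf0) s
  have hm : Measurable (fun v => w3 v * arkSol E f0 (s, v)) := measurable_w3.mul ms
  calc ∫⁻ v, arkSol E f0 (s, v) * aOp (fun w => arkSol E f0 (s, w)) v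
      ≤ ∫⁻ v, 2 * sig * E * (w3 v * arkSol E f0 (s, v)) := by
        apply lintegral_mono
        intro v
        calc arkSol E f0 (s, v) * aOp (fun w => arkSol E f0 (s, w)) v
            ≤ arkSol E f0 (s, v) * (2 * sig * w3 v * E) := by
              refine mul_le_mul_right ((aOp_le ms v).trans ?_) _
              exact mul_le_mul' (mul_le_mul_right (w1_le_w3 v) _)
                (arkSol_nInt_le hf0 hE.ge hEfin hs.1.le)
          _ = 2 * sig * E * (w3 v * arkSol E f0 (s, v)) := by ring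
    _ = 2 * sig * E * ∫⁻ v, w3 v * arkSol E f0 (s, v) := lintegral_const_mul _ hm
    _ ≤ 2 * sig * E * k3 f0 T := mul_le_mul_right (arkSol_w3_le_k3 hf0 h3 hE hs) _

include hf0 h3 hE in
lemma arkSol_nu_split {t : ℝ} (v : V) : nu E v * ∫⁻ s in Ioc 0 t, arkSol E f0 (s, v) =
    (∫⁻ s in Ioc 0 t, arkSol E f0 (s, v) * aOp (fun w => arkSol E f0 (s, w)) v) +
      ∫⁻ s in Ioc 0 t, arkSol E f0 (s, v) * freqV (fun w => arkSol E f0 (s, w)) v := by
  have mu := measurable_arkSol (E := E) hf0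
  rw [← lintegral_const_mul _ (measurable_fix_v mu v),
    ← lintegral_add_left (measurable_fix_v (measurable_A_arkSol hf0) v)]
  apply setLIntegral_congr_fun measurableSet_Ioc
  intro s hs
  have hN : nInt (fun w => arkSol E f0 (s, w)) = E := by
    have := arkSol_nInt_eq hf0 h3 hs.1.le
    rw [← hE] at this
    exact this
  simp only []
  rw [← mul_add, aOp_add_freqV (measurable_sliceV mu s) v, hN]
  unfold nu
  ring

include hf0 in
lemma arkSol_gam_split {t : ℝ} (v : V) : ∫⁻ s in Ioc 0 t, gam (fun w => arkSol E f0 (s, w)) v =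
    (∫⁻ s in Ioc 0 t, arkSol E f0 (s, v) * aOp (fun w => arkSol E f0 (s, w)) v) +
      ∫⁻ s in Ioc 0 t, gainV (fun w => arkSol E f0 (s, w)) (fun w => arkSol E f0 (s, w)) v := by
  rw [← lintegral_add_left (measurable_fix_v (measurable_A_arkSol hf0) v)]
  apply lintegral_congr
  intro s
  unfold gam
  rw [add_comm]

include hf0 h3 hE in
theorem arkSol_mild_aux (T : ℝ) :
    ∀ᵐ v : V,
      (∫⁻ s in Ioc 0 T, gainV (fun w => arkSol E f0 (s, w)) (fun w => arkSol E f0 (s, w)) v < ∞) ∧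
      (∫⁻ s in Ioc 0 T, arkSol E f0 (s, v) * freqV (fun w => arkSol E f0 (s, w)) v < ∞) ∧
      ∀ t ∈ Icc (0 : ℝ) T,
        arkSol E f0 (t, v) + ∫⁻ s in Ioc 0 t, arkSol E f0 (s, v) *
          freqV (fun w => arkSol E f0 (s, w)) v =
        f0 v + ∫⁻ s in Ioc 0 t, gainV (fun w => arkSol E f0 (s, w))
          (fun w => arkSol E f0 (s, w)) v := by
  filter_upwards [arkSol_G_fin hf0 h3 hE T, arkSol_L_fin hf0 h3 hE T, arkSol_A_fin hf0 h3 hE T]
    with v hG hL hA
  refine ⟨hG, hL, fun t ht => ?_⟩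
  have key := arkOp_add (arkSol_E_ne_top hf0 h3 hE) (measurable_arkSol (E := E) hf0) f0 ht.1 v
  rw [arkSol_fixed' hf0, arkSol_nu_split hf0 h3 hE v, arkSol_gam_split hf0 v] at key
  have hAt : ∫⁻ s in Ioc 0 t, arkSol E f0 (s, v) * aOp (fun w => arkSol E f0 (s, w)) v ≠ ∞ :=
    (lt_of_le_of_lt (lint_mono_Ioc ht.2 _) hA).ne
  generalize (∫⁻ s in Ioc 0 t, arkSol E f0 (s, v) * aOp (fun w => arkSol E f0 (s, w)) v) = X
    at key hAt
  generalize (∫⁻ s in Ioc 0 t, arkSol E f0 (s, v) * freqV (fun w => arkSol E f0 (s, w)) v) = L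
    at key ⊢
  generalize (∫⁻ s in Ioc 0 t, gainV (fun w => arkSol E f0 (s, w))
    (fun w => arkSol E f0 (s, w)) v) = G at key ⊢
  have key2 : X + (arkSol E f0 (t, v) + L) = X + (f0 v + G) := by
    calc X + (arkSol E f0 (t, v) + L) = arkSol E f0 (t, v) + (X + L) := by ring
      _ = f0 v + (X + G) := key
      _ = X + (f0 v + G) := by ring
  exact (ENNReal.add_right_inj hAt).1 key2

end Mild

/-- The limit is a mild solution of the spatially homogeneous Boltzmann equation. -/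
theorem arkSol_mild (hf0 : Measurable f0) (h3 : ∫⁻ v, w3 v * f0 v < ∞) (T : ℝ) :
    ∀ᵐ v : V,
      (∫⁻ s in Ioc 0 T, gainV (fun w => arkSol (nInt f0) f0 (s, w))
        (fun w => arkSol (nInt f0) f0 (s, w)) v < ∞) ∧
      (∫⁻ s in Ioc 0 T, arkSol (nInt f0) f0 (s, v) *
        freqV (fun w => arkSol (nInt f0) f0 (s, w)) v < ∞) ∧
      ∀ t ∈ Icc (0 : ℝ) T,
        arkSol (nInt f0) f0 (t, v) + ∫⁻ s in Ioc 0 t, arkSol (nInt f0) f0 (s, v) *
          freqV (fun w => arkSol (nInt f0) f0 (s, w)) v =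
        f0 v + ∫⁻ s in Ioc 0 t, gainV (fun w => arkSol (nInt f0) f0 (s, w))
          (fun w => arkSol (nInt f0) f0 (s, w)) v :=
  arkSol_mild_aux hf0 h3 rfl T

end Vale.Agent.Lib.P140
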