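import Mathlib
import Vale.Agent.Lib.P140.WeakForm

/-!
# The Povzner inequality for `|v|^4`, pointwise in `ω` (real inequalities)
-/

namespace Vale.Agent.Lib.P140

open scoped RealInnerProductSpace

lemma pov4_norm_omega (ω : Sph) : ‖(ω : V)‖ = 1 := by
  have := ω.2
  rwa [Metric.mem_sphere, dist_zero_right] at this

lemma pov4_collA (v vs : V) (ω : Sph) :
    collA v vs ω = ⟪v, (ω : V)⟫ - ⟪vs, (ω : V)⟫ := by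
  unfold collA
  rw [inner_sub_left]

/-- `|v'|^2 = |v|^2 - (α-β)(α+β)`, `α = v·ω`, `β = v_*·ω`. -/
lemma norm_vPrime_sq (v vs : V) (ω : Sph) : ‖vPrime v vs ω‖ ^ 2 =
    ‖v‖ ^ 2 - (⟪v, (ω : V)⟫ - ⟪vs, (ω : V)⟫) * (⟪v, (ω : V)⟫ + ⟪vs, (ω : V)⟫) := by
  unfold vPrime
  rw [norm_sub_sq_real, inner_smul_right, norm_smul, pov4_norm_omega, pov4_collA,
    Real.norm_eq_abs, mul_one, sq_abs]
  ring

lemma norm_vsPrime_sq (v vs : V) (ω : Sph) : ‖vsPrime v vs ω‖ ^ 2 =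
    ‖vs‖ ^ 2 + (⟪v, (ω : V)⟫ - ⟪vs, (ω : V)⟫) * (⟪v, (ω : V)⟫ + ⟪vs, (ω : V)⟫) := by
  unfold vsPrime
  rw [norm_add_sq_real, inner_smul_right, norm_smul, pov4_norm_omega, pov4_collA,
    Real.norm_eq_abs, mul_one, sq_abs]
  ring

/-- The scalar inequality behind `pov4_real`: `x = |v|`, `y = |v_*|`, `|α| ≤ x`, `|β| ≤ y`. -/
lemma pov4_scalar {x y α β : ℝ} (hx : |α| ≤ x) (hy : |β| ≤ y) :
    |α - β| * ((x ^ 2 - (α - β) * (α + β)) ^ 2 + (y ^ 2 + (α - β) * (α + β)) ^ 2) +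
        2 * |α| ^ 3 * (x ^ 2 - α ^ 2) + 2 * |β| ^ 3 * (y ^ 2 - β ^ 2) ≤
      |α - β| * (x ^ 4 + y ^ 4) + 6 * (x ^ 4 * y + x * y ^ 4) := by
  have hp0 : 0 ≤ |α| := abs_nonneg α
  have hq0 : 0 ≤ |β| := abs_nonneg β
  have hx0 : 0 ≤ x := hp0.trans hx
  have hy0 : 0 ≤ y := hq0.trans hy
  have hc0 : 0 ≤ |α - β| := abs_nonneg _
  have hα2 : α ^ 2 = |α| ^ 2 := (sq_abs α).symm
  have hβ2 : β ^ 2 = |β| ^ 2 := (sq_abs β).symm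
  -- bounds on `c = |α - β|`
  have hc1 : |α| - |β| ≤ |α - β| := abs_sub_abs_le_abs_sub α β
  have hc2 : |β| - |α| ≤ |α - β| := by
    rw [abs_sub_comm α β]; exact abs_sub_abs_le_abs_sub β α
  have hc3 : |α - β| ≤ |α| + |β| := abs_sub α β
  generalize |α - β| = c at *
  have hexp : (x ^ 2 - (α - β) * (α + β)) ^ 2 + (y ^ 2 + (α - β) * (α + β)) ^ 2 =
      x ^ 4 + y ^ 4 - 2 * α ^ 2 * (x ^ 2 - α ^ 2) - 2 * β ^ 2 * (y ^ 2 - β ^ 2)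
        + 2 * α ^ 2 * (y ^ 2 - β ^ 2) + 2 * β ^ 2 * (x ^ 2 - α ^ 2) := by ring
  rw [hexp, hα2, hβ2]
  generalize |α| = p at *
  generalize |β| = q at *
  have hA : 0 ≤ x ^ 2 - p ^ 2 := by nlinarith
  have hB : 0 ≤ y ^ 2 - q ^ 2 := by nlinarith
  have hp2 : p ^ 2 ≤ x ^ 2 := by nlinarith
  have hq2 : q ^ 2 ≤ y ^ 2 := by nlinarith
  have hAx : x ^ 2 - p ^ 2 ≤ x ^ 2 := by nlinarith
  have hBy : y ^ 2 - q ^ 2 ≤ y ^ 2 := by nlinarith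
  set A := x ^ 2 - p ^ 2 with hAdef
  set B := y ^ 2 - q ^ 2 with hBdef
  -- first piece
  have h1 : p ^ 3 * A ≤ c * (p ^ 2 * A) + y * x ^ 4 := by
    have hpa : 0 ≤ p ^ 2 * A := mul_nonneg (sq_nonneg p) hA
    have hle : p ^ 2 * A ≤ x ^ 4 := by
      calc p ^ 2 * A ≤ x ^ 2 * x ^ 2 := mul_le_mul hp2 hAx hA (sq_nonneg x)
        _ = x ^ 4 := by ring
    have h' : (p - y) * (p ^ 2 * A) ≤ c * (p ^ 2 * A) :=
      mul_le_mul_of_nonneg_right (by linarith) hpa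
    have h'' : y * (p ^ 2 * A) ≤ y * x ^ 4 := mul_le_mul_of_nonneg_left hle hy0
    nlinarith
  have h2 : q ^ 3 * B ≤ c * (q ^ 2 * B) + x * y ^ 4 := by
    have hpa : 0 ≤ q ^ 2 * B := mul_nonneg (sq_nonneg q) hB
    have hle : q ^ 2 * B ≤ y ^ 4 := by
      calc q ^ 2 * B ≤ y ^ 2 * y ^ 2 := mul_le_mul hq2 hBy hB (sq_nonneg y)
        _ = y ^ 4 := by ring
    have h' : (q - x) * (q ^ 2 * B) ≤ c * (q ^ 2 * B) :=
      mul_le_mul_of_nonneg_right (by linarith) hpa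
    have h'' : x * (q ^ 2 * B) ≤ x * y ^ 4 := mul_le_mul_of_nonneg_left hle hx0
    nlinarith
  have h3 : c * (p ^ 2 * B + q ^ 2 * A) ≤ 2 * (x ^ 4 * y + x * y ^ 4) := by
    have hs : p ^ 2 * B + q ^ 2 * A ≤ 2 * (x ^ 2 * y ^ 2) := by
      have e1 : p ^ 2 * B ≤ x ^ 2 * y ^ 2 := mul_le_mul hp2 hBy hB (sq_nonneg x)
      have e2 : q ^ 2 * A ≤ y ^ 2 * x ^ 2 := mul_le_mul hq2 hAx hA (sq_nonneg y)
      nlinarith
    have hs0 : 0 ≤ p ^ 2 * B + q ^ 2 * A :=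
      add_nonneg (mul_nonneg (sq_nonneg p) hB) (mul_nonneg (sq_nonneg q) hA)
    have hcxy : c ≤ x + y := by linarith
    have e3 : c * (p ^ 2 * B + q ^ 2 * A) ≤ (x + y) * (2 * (x ^ 2 * y ^ 2)) :=
      mul_le_mul hcxy hs hs0 (by linarith)
    have e4 : 0 ≤ x * y * ((x + y) * (x - y) ^ 2) :=
      mul_nonneg (mul_nonneg hx0 hy0) (mul_nonneg (by linarith) (sq_nonneg _))
    nlinarith
  nlinarith

theorem pov4_real (v vs : V) (ω : Sph) :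
    |collA v vs ω| * (‖vPrime v vs ω‖ ^ 4 + ‖vsPrime v vs ω‖ ^ 4) +
        2 * |⟪v, (ω : V)⟫| ^ 3 * (‖v‖ ^ 2 - ⟪v, (ω : V)⟫ ^ 2) +
        2 * |⟪vs, (ω : V)⟫| ^ 3 * (‖vs‖ ^ 2 - ⟪vs, (ω : V)⟫ ^ 2) ≤
      |collA v vs ω| * (‖v‖ ^ 4 + ‖vs‖ ^ 4) + 6 * (‖v‖ ^ 4 * ‖vs‖ + ‖v‖ * ‖vs‖ ^ 4) := by
  have h1 : |⟪v, (ω : V)⟫| ≤ ‖v‖ := by
    have := abs_real_inner_le_norm v (ω : V)
    rwa [pov4_norm_omega, mul_one] at this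
  have h2 : |⟪vs, (ω : V)⟫| ≤ ‖vs‖ := by
    have := abs_real_inner_le_norm vs (ω : V)
    rwa [pov4_norm_omega, mul_one] at this
  have e1 : ‖vPrime v vs ω‖ ^ 4 = (‖vPrime v vs ω‖ ^ 2) ^ 2 := by ring
  have e2 : ‖vsPrime v vs ω‖ ^ 4 = (‖vsPrime v vs ω‖ ^ 2) ^ 2 := by ring
  rw [e1, e2, norm_vPrime_sq, norm_vsPrime_sq, pov4_collA]
  exact pov4_scalar h1 h2

end Vale.Agent.Lib.P140
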