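import Mathlib
import Vale.Agent.Lib.P140.WeakForm

/-!
# A uniform lower bound for `∫_{S^2} |v·ω|^3 (|v|^2 - (v·ω)^2) dω`
-/

namespace Vale.Agent.Lib.P140

open MeasureTheory Set
open scoped ENNReal RealInnerProductSpace

/-- A unit vector orthogonal to a given unit vector. -/
lemma sph5_exists_orth (e : V) (he : ‖e‖ = 1) : ∃ e' : V, ‖e'‖ = 1 ∧ ⟪e, e'⟫ = 0 := by
  have hne : e ≠ 0 := by
    intro h
    rw [h, norm_zero] at he
    exact zero_ne_one he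
  have : Fact (Module.finrank ℝ V = 2 + 1) := ⟨by simp [V]⟩
  have hfin : Module.finrank ℝ (ℝ ∙ e)ᗮ = 2 := Submodule.finrank_orthogonal_span_singleton hne
  have hpos : 0 < Module.finrank ℝ (ℝ ∙ e)ᗮ := by rw [hfin]; norm_num
  obtain ⟨w, hw⟩ := Module.finrank_pos_iff_exists_ne_zero.mp hpos
  have hw' : (w : V) ≠ 0 := fun h => hw (Subtype.ext h)
  have hn : ‖(w : V)‖ ≠ 0 := norm_ne_zero_iff.mpr hw'
  have horth : ⟪e, (w : V)⟫ = 0 := Submodule.mem_orthogonal_singleton_iff_inner_right.mp w.2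
  refine ⟨(‖(w : V)‖)⁻¹ • (w : V), ?_, ?_⟩
  · rw [norm_smul, norm_inv, norm_norm, inv_mul_cancel₀ hn]
  · rw [inner_smul_right, horth, mul_zero]

/-- There is a unit vector at angle `π/4` from a given unit vector. -/
lemma exists_sph_inner (e : V) (he : ‖e‖ = 1) :
    ∃ x : Sph, ⟪e, (x : V)⟫ = Real.sqrt 2 / 2 := by
  obtain ⟨e', he', horth⟩ := sph5_exists_orth e he
  have h2 : Real.sqrt 2 * Real.sqrt 2 = 2 := Real.mul_self_sqrt (by norm_num)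
  have hs0 : 0 ≤ Real.sqrt 2 / 2 := by positivity
  have hsum : ‖e + e'‖ ^ 2 = 2 := by
    rw [norm_add_sq_real, he, he', horth]; norm_num
  have hnorm : ‖(Real.sqrt 2 / 2) • (e + e')‖ = 1 := by
    have h1 : ‖(Real.sqrt 2 / 2) • (e + e')‖ ^ 2 = 1 := by
      rw [norm_smul, mul_pow, hsum, Real.norm_eq_abs, sq_abs]
      nlinarith [h2]
    have h0 : 0 ≤ ‖(Real.sqrt 2 / 2) • (e + e')‖ := norm_nonneg _
    nlinarith [h1, h0]
  refine ⟨⟨(Real.sqrt 2 / 2) • (e + e'), by simpa using hnorm⟩, ?_⟩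
  show ⟪e, (Real.sqrt 2 / 2) • (e + e')⟫ = Real.sqrt 2 / 2
  rw [inner_smul_right, inner_add_right, horth, real_inner_self_eq_norm_sq, he]
  ring

/-- The scalar estimate. -/
lemma sph5_scalar {s r : ℝ} (hr : r = Real.sqrt 2 / 2) (hs : |s - r| < 1 / 10) :
    7 / 100 ≤ |s| ^ 3 * (1 - s ^ 2) := by
  have h2 : Real.sqrt 2 * Real.sqrt 2 = 2 := Real.mul_self_sqrt (by norm_num)
  have h0 : 0 ≤ Real.sqrt 2 := Real.sqrt_nonneg 2
  have hr1 : 7 / 10 < r := by rw [hr]; nlinarith [h2, h0]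
  have hr2 : r < 71 / 100 := by rw [hr]; nlinarith [h2, h0]
  obtain ⟨ha, hb⟩ := abs_lt.mp hs
  have hs1 : 6 / 10 ≤ s := by linarith
  have hs2 : s ≤ 81 / 100 := by linarith
  rw [abs_of_nonneg (by linarith)]
  have h3 : (6 / 10 : ℝ) ^ 3 ≤ s ^ 3 := pow_le_pow_left₀ (by norm_num) hs1 3
  have h4 : s ^ 2 ≤ (81 / 100 : ℝ) ^ 2 := pow_le_pow_left₀ (by linarith) hs2 2
  have h5 : (6 / 10 : ℝ) ^ 3 * (1 - (81 / 100 : ℝ) ^ 2) ≤ s ^ 3 * (1 - s ^ 2) :=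
    mul_le_mul h3 (by linarith) (by norm_num) (by positivity)
  refine le_trans (by norm_num) h5

/-- `∫_{S^2} |v·ω|^3 (|v|^2 - (v·ω)^2) dω ≥ c |v|^5` with `c > 0` independent of `v`. -/
theorem sphere_const : ∃ c : ℝ, 0 < c ∧ ∀ v : V, ENNReal.ofReal (c * ‖v‖ ^ 5) ≤
    ∫⁻ ω : Sph, ENNReal.ofReal (|⟪v, (ω : V)⟫| ^ 3 * (‖v‖ ^ 2 - ⟪v, (ω : V)⟫ ^ 2)) ∂surf := by
  set κ : ℝ≥0∞ := (Measure.toSphereBallBound (Module.finrank ℝ V) (1 / 10) : ℝ≥0∞)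
    * (volume : Measure V) (Metric.ball 0 1) with hκ
  have hκ0 : κ ≠ 0 := by
    rw [hκ]
    refine mul_ne_zero ?_ ?_
    · exact_mod_cast (Measure.toSphereBallBound_pos _ _).ne'
    · exact (Metric.measure_ball_pos volume (0 : V) one_pos).ne'
  have hκt : κ ≠ ∞ := by
    rw [hκ]
    exact ENNReal.mul_ne_top ENNReal.coe_ne_top measure_ball_lt_top.ne
  refine ⟨7 / 100 * κ.toReal, mul_pos (by norm_num) (ENNReal.toReal_pos hκ0 hκt), fun v => ?_⟩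
  rcases eq_or_ne v 0 with rfl | hv
  · simp
  have hvn : 0 < ‖v‖ := norm_pos_iff.mpr hv
  set e : V := (‖v‖)⁻¹ • v with he
  have hen : ‖e‖ = 1 := by
    rw [he, norm_smul, norm_inv, norm_norm, inv_mul_cancel₀ hvn.ne']
  have hve : v = ‖v‖ • e := by
    rw [he, smul_smul, mul_inv_cancel₀ hvn.ne', one_smul]
  obtain ⟨x, hx⟩ := exists_sph_inner e hen
  have hball : κ ≤ surf (Metric.ball x (1 / 10)) :=
    Measure.toSphereBallBound_mul_measure_unitBall_le_toSphere_ball (volume : Measure V)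
      (by norm_num) x
  have hpt : ∀ ω ∈ Metric.ball x (1 / 10), ENNReal.ofReal (7 / 100 * ‖v‖ ^ 5) ≤
      ENNReal.ofReal (|⟪v, (ω : V)⟫| ^ 3 * (‖v‖ ^ 2 - ⟪v, (ω : V)⟫ ^ 2)) := by
    intro ω hω
    apply ENNReal.ofReal_le_ofReal
    have hd : ‖(ω : V) - (x : V)‖ < 1 / 10 := by
      have := Metric.mem_ball.mp hω
      rwa [Subtype.dist_eq, dist_eq_norm] at this
    have hs : |⟪e, (ω : V)⟫ - Real.sqrt 2 / 2| < 1 / 10 := by
      rw [← hx, ← inner_sub_right]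
      calc |⟪e, (ω : V) - (x : V)⟫| ≤ ‖e‖ * ‖(ω : V) - (x : V)‖ := abs_real_inner_le_norm _ _
        _ = ‖(ω : V) - (x : V)‖ := by rw [hen, one_mul]
        _ < 1 / 10 := hd
    have hsc := sph5_scalar rfl hs
    have hin : ⟪v, (ω : V)⟫ = ‖v‖ * ⟪e, (ω : V)⟫ := by
      conv_lhs => rw [hve]
      rw [real_inner_smul_left]
    rw [hin, abs_mul, abs_of_pos hvn]
    have h5 : 0 ≤ ‖v‖ ^ 5 := by positivity
    have := mul_le_mul_of_nonneg_left hsc h5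
    calc 7 / 100 * ‖v‖ ^ 5 = ‖v‖ ^ 5 * (7 / 100) := by ring
      _ ≤ ‖v‖ ^ 5 * (|⟪e, (ω : V)⟫| ^ 3 * (1 - ⟪e, (ω : V)⟫ ^ 2)) := this
      _ = _ := by ring
  calc ENNReal.ofReal (7 / 100 * κ.toReal * ‖v‖ ^ 5)
      = ENNReal.ofReal (7 / 100 * ‖v‖ ^ 5) * κ := by
        rw [show 7 / 100 * κ.toReal * ‖v‖ ^ 5 = (7 / 100 * ‖v‖ ^ 5) * κ.toReal by ring,
          ENNReal.ofReal_mul (by positivity), ENNReal.ofReal_toReal hκt]
    _ ≤ ENNReal.ofReal (7 / 100 * ‖v‖ ^ 5) * surf (Metric.ball x (1 / 10)) := by gcongr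
    _ = ∫⁻ _ω in Metric.ball x (1 / 10), ENNReal.ofReal (7 / 100 * ‖v‖ ^ 5) ∂surf := by
        rw [setLIntegral_const]
    _ ≤ ∫⁻ ω in Metric.ball x (1 / 10),
          ENNReal.ofReal (|⟪v, (ω : V)⟫| ^ 3 * (‖v‖ ^ 2 - ⟪v, (ω : V)⟫ ^ 2)) ∂surf :=
        setLIntegral_mono' Metric.isOpen_ball.measurableSet hpt
    _ ≤ _ := setLIntegral_le_lintegral _ _

end Vale.Agent.Lib.P140
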