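import Mathlib
import Vale.Agent.Lib.P140.Hom2Defs
import Vale.Agent.Lib.P140.Sphere5
import Vale.Agent.Lib.P140.Pov4Real
import Vale.Agent.Lib.P140.HomWeak

/-!
# The integrated Povzner inequality for `|v|^4` with its negative term
-/

namespace Vale.Agent.Lib.P140

open MeasureTheory Set
open scoped ENNReal RealInnerProductSpace

lemma measurable_pw (k : ℕ) : Measurable (pw k) := by
  unfold pw
  exact ENNReal.measurable_ofReal.comp (measurable_norm.pow_const k)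

/-- The angular density of the negative term. -/
noncomputable def pov4S (v : V) (ω : Sph) : ℝ≥0∞ :=
  ENNReal.ofReal (|⟪v, (ω : V)⟫| ^ 3 * (‖v‖ ^ 2 - ⟪v, (ω : V)⟫ ^ 2))

lemma pov4_measurable_S : Measurable (fun q : V × Sph => pov4S q.1 q.2) := by
  unfold pov4S
  apply ENNReal.measurable_ofReal.comp
  apply Continuous.measurable
  fun_prop

lemma pov4_enn_aux {κ X Y s t x4 y4 x1 y1 : ℝ} (hκ : 0 ≤ κ) (hX : 0 ≤ X) (hY : 0 ≤ Y)
    (hs : 0 ≤ s) (ht : 0 ≤ t) (hx4 : 0 ≤ x4) (hy4 : 0 ≤ y4) (hx1 : 0 ≤ x1) (hy1 : 0 ≤ y1)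
    (h : κ * (X + Y) + (2 * s + 2 * t) ≤ κ * (x4 + y4) + 6 * (x4 * y1 + x1 * y4)) :
    ENNReal.ofReal κ * (ENNReal.ofReal X + ENNReal.ofReal Y) +
        (2 * ENNReal.ofReal s + 2 * ENNReal.ofReal t) ≤
      ENNReal.ofReal κ * (ENNReal.ofReal x4 + ENNReal.ofReal y4) +
        6 * (ENNReal.ofReal x4 * ENNReal.ofReal y1 + ENNReal.ofReal x1 * ENNReal.ofReal y4) := by
  have h2 : (2 : ℝ≥0∞) = ENNReal.ofReal 2 := by simp
  have h6 : (6 : ℝ≥0∞) = ENNReal.ofReal 6 := by simp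
  rw [h2, h6, ← ENNReal.ofReal_add hX hY, ← ENNReal.ofReal_mul hκ,
    ← ENNReal.ofReal_mul (by norm_num), ← ENNReal.ofReal_mul (by norm_num),
    ← ENNReal.ofReal_add (by positivity) (by positivity),
    ← ENNReal.ofReal_add (by positivity) (by positivity),
    ← ENNReal.ofReal_add hx4 hy4, ← ENNReal.ofReal_mul hκ,
    ← ENNReal.ofReal_mul hx4, ← ENNReal.ofReal_mul hx1,
    ← ENNReal.ofReal_add (by positivity) (by positivity),
    ← ENNReal.ofReal_mul (by norm_num),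
    ← ENNReal.ofReal_add (by positivity) (by positivity)]
  exact ENNReal.ofReal_le_ofReal h

lemma pov4_defect_nonneg (v : V) (ω : Sph) : 0 ≤ ‖v‖ ^ 2 - ⟪v, (ω : V)⟫ ^ 2 := by
  have h1 : |⟪v, (ω : V)⟫| ≤ ‖v‖ * ‖(ω : V)‖ := abs_real_inner_le_norm _ _
  rw [sph_norm ω, mul_one] at h1
  have h2 : ⟪v, (ω : V)⟫ ^ 2 ≤ ‖v‖ ^ 2 := sq_le_sq' (by linarith [(abs_le.1 h1).1]) (abs_le.1 h1).2
  linarith

lemma pov4_enn (v vs : V) (ω : Sph) :
    ker (v, vs) ω * (pw 4 (vPrime v vs ω) + pw 4 (vsPrime v vs ω)) +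
        (2 * pov4S v ω + 2 * pov4S vs ω) ≤
      ker (v, vs) ω * (pw 4 v + pw 4 vs) + 6 * (pw 4 v * pw 1 vs + pw 1 v * pw 4 vs) := by
  have h := pov4_real v vs ω
  unfold ker pw pov4S
  apply pov4_enn_aux (abs_nonneg _) (by positivity) (by positivity)
    (mul_nonneg (by positivity) (pov4_defect_nonneg v ω))
    (mul_nonneg (by positivity) (pov4_defect_nonneg vs ω))
    (by positivity) (by positivity) (by positivity) (by positivity)
  simp only [pow_one]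
  linarith

lemma pov4_lint_aux {a b : Sph → ℝ≥0∞} (ha : Measurable a) (hb : Measurable b) (k : ℝ≥0∞) :
    ∫⁻ ω : Sph, (2 * a ω + 2 * b ω) * k ∂surf =
      (2 * (∫⁻ ω : Sph, a ω ∂surf) + 2 * ∫⁻ ω : Sph, b ω ∂surf) * k := by
  have h1 : Measurable (fun ω : Sph => 2 * a ω) := ha.const_mul 2
  have h2 : Measurable (fun ω : Sph => 2 * b ω) := hb.const_mul 2
  have h3 : Measurable (fun ω : Sph => 2 * a ω + 2 * b ω) := h1.add h2
  rw [lintegral_mul_const _ h3, lintegral_add_left h1, lintegral_const_mul _ ha,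
    lintegral_const_mul _ hb]

lemma pov4_prod_aux {a b a' b' : V → ℝ≥0∞} (ha : Measurable a) (hb : Measurable b)
    (ha' : Measurable a') (hb' : Measurable b') (k : ℝ≥0∞) :
    ∫⁻ p : V × V, k * (a p.1 * b p.2 + a' p.1 * b' p.2) =
      k * ((∫⁻ v, a v) * (∫⁻ v, b v) + (∫⁻ v, a' v) * ∫⁻ v, b' v) := by
  have m5 : Measurable (fun p : V × V => a p.1 * b p.2) :=
    (ha.comp measurable_fst).mul (hb.comp measurable_snd)
  have m6 : Measurable (fun p : V × V => a' p.1 * b' p.2) :=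
    (ha'.comp measurable_fst).mul (hb'.comp measurable_snd)
  have m7 : Measurable (fun p : V × V => a p.1 * b p.2 + a' p.1 * b' p.2) := m5.add m6
  rw [lintegral_const_mul _ m7, lintegral_add_left m5,
    Measure.volume_eq_prod, lintegral_prod_mul ha.aemeasurable hb.aemeasurable,
    lintegral_prod_mul ha'.aemeasurable hb'.aemeasurable]

lemma pov4_J {f : V → ℝ≥0∞} (hf : Measurable f) :
    ∫⁻ p : V × V, ∫⁻ _ω : Sph,
      6 * (pw 4 p.1 * pw 1 p.2 + pw 1 p.1 * pw 4 p.2) * (f p.1 * f p.2) ∂surf =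
      2 * (6 * sig * ((∫⁻ v, pw 4 v * f v) * ∫⁻ v, pw 1 v * f v)) := by
  have h4f : Measurable (fun v => pw 4 v * f v) := (measurable_pw 4).mul hf
  have h1f : Measurable (fun v => pw 1 v * f v) := (measurable_pw 1).mul hf
  have h1 : ∀ p : V × V, ∫⁻ _ω : Sph,
      6 * (pw 4 p.1 * pw 1 p.2 + pw 1 p.1 * pw 4 p.2) * (f p.1 * f p.2) ∂surf =
      6 * sig * ((pw 4 p.1 * f p.1) * (pw 1 p.2 * f p.2) +
        (pw 1 p.1 * f p.1) * (pw 4 p.2 * f p.2)) := by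
    intro p
    rw [lintegral_const]
    show _ * sig = _
    ring
  simp_rw [h1]
  rw [pov4_prod_aux h4f h1f h1f h4f]
  ring

lemma pov4_K {c0 : ℝ≥0∞} (hSle : ∀ v : V, c0 * pw 5 v ≤ ∫⁻ ω : Sph, pov4S v ω ∂surf)
    {f : V → ℝ≥0∞} (hf : Measurable f) :
    2 * (2 * (c0 * ((∫⁻ v, f v) * ∫⁻ v, pw 5 v * f v))) ≤ ∫⁻ p : V × V, ∫⁻ ω : Sph,
      (2 * pov4S p.1 ω + 2 * pov4S p.2 ω) * (f p.1 * f p.2) ∂surf := by
  have h5f : Measurable (fun v => pw 5 v * f v) := (measurable_pw 5).mul hf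
  have hSm : ∀ v : V, Measurable (fun ω : Sph => pov4S v ω) := by
    intro v
    have h : Measurable (fun ω : Sph => ((v, ω) : V × Sph)) :=
      measurable_const.prodMk measurable_id
    have := pov4_measurable_S.comp h
    exact this
  have h1 : ∀ p : V × V, 2 * c0 * ((pw 5 p.1 * f p.1) * f p.2 + f p.1 * (pw 5 p.2 * f p.2)) ≤
      ∫⁻ ω : Sph, (2 * pov4S p.1 ω + 2 * pov4S p.2 ω) * (f p.1 * f p.2) ∂surf := by
    intro p
    rw [pov4_lint_aux (hSm p.1) (hSm p.2)]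
    calc 2 * c0 * ((pw 5 p.1 * f p.1) * f p.2 + f p.1 * (pw 5 p.2 * f p.2))
        = (2 * (c0 * pw 5 p.1) + 2 * (c0 * pw 5 p.2)) * (f p.1 * f p.2) := by ring
      _ ≤ _ := by
        gcongr
        · exact hSle p.1
        · exact hSle p.2
  calc 2 * (2 * (c0 * ((∫⁻ v, f v) * ∫⁻ v, pw 5 v * f v)))
      = ∫⁻ p : V × V, 2 * c0 * ((pw 5 p.1 * f p.1) * f p.2 + f p.1 * (pw 5 p.2 * f p.2)) := by
        rw [pov4_prod_aux h5f hf hf h5f]
        ring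
    _ ≤ _ := lintegral_mono h1

lemma pov4_key {c0 : ℝ≥0∞} (hSle : ∀ v : V, c0 * pw 5 v ≤ ∫⁻ ω : Sph, pov4S v ω ∂surf)
    {f : V → ℝ≥0∞} (hf : Measurable f) :
    (∫⁻ v, pw 4 v * gainV f f v) + ((∫⁻ v, pw 4 v * gainV f f v) +
        2 * (2 * (c0 * ((∫⁻ v, f v) * ∫⁻ v, pw 5 v * f v)))) ≤
      (∫⁻ v, pw 4 v * (f v * freqV f v)) + ((∫⁻ v, pw 4 v * (f v * freqV f v)) +
        2 * (6 * sig * ((∫⁻ v, pw 4 v * f v) * ∫⁻ v, pw 1 v * f v))) := by
  have hWm : Measurable (pw 4) := measurable_pw 4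
  have hab : Measurable (fun q : (V × V) × Sph => f q.1.1 * f q.1.2) :=
    (hf.comp (measurable_fst.fst)).mul (hf.comp (measurable_fst.snd))
  have m1 : Measurable (fun q : (V × V) × Sph =>
      ker q.1 q.2 * (pw 4 (vPrime q.1.1 q.1.2 q.2) * (f q.1.1 * f q.1.2))) :=
    measurable_ker.mul ((hWm.comp continuous_vPrime.measurable).mul hab)
  have m2 : Measurable (fun q : (V × V) × Sph =>
      ker q.1 q.2 * (pw 4 (vsPrime q.1.1 q.1.2 q.2) * (f q.1.1 * f q.1.2))) :=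
    measurable_ker.mul ((hWm.comp continuous_vsPrime.measurable).mul hab)
  have m3 : Measurable (fun q : (V × V) × Sph =>
      ker q.1 q.2 * (pw 4 q.1.1 * (f q.1.1 * f q.1.2))) :=
    measurable_ker.mul ((hWm.comp (measurable_fst.fst)).mul hab)
  have m4 : Measurable (fun q : (V × V) × Sph =>
      ker q.1 q.2 * (pw 4 q.1.2 * (f q.1.1 * f q.1.2))) :=
    measurable_ker.mul ((hWm.comp (measurable_fst.snd)).mul hab)
  have e1 := lintegral_pair_add m1 (fun q : (V × V) × Sph =>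
      ker q.1 q.2 * (pw 4 (vsPrime q.1.1 q.1.2 q.2) * (f q.1.1 * f q.1.2)) +
        (2 * pov4S q.1.1 q.2 + 2 * pov4S q.1.2 q.2) * (f q.1.1 * f q.1.2))
  have e1' := lintegral_pair_add m2 (fun q : (V × V) × Sph =>
        (2 * pov4S q.1.1 q.2 + 2 * pov4S q.1.2 q.2) * (f q.1.1 * f q.1.2))
  have e2 := lintegral_pair_add m3 (fun q : (V × V) × Sph =>
      ker q.1 q.2 * (pw 4 q.1.2 * (f q.1.1 * f q.1.2)) +
        6 * (pw 4 q.1.1 * pw 1 q.1.2 + pw 1 q.1.1 * pw 4 q.1.2) * (f q.1.1 * f q.1.2))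
  have e3 := lintegral_pair_add m4 (fun q : (V × V) × Sph =>
        6 * (pw 4 q.1.1 * pw 1 q.1.2 + pw 1 q.1.1 * pw 4 q.1.2) * (f q.1.1 * f q.1.2))
  simp only at e1 e1' e2 e3
  have hJ := pov4_J hf
  have hK := pov4_K hSle hf
  set I := ∫⁻ v, pw 4 v * gainV f f v with hI
  set X := ∫⁻ v, pw 4 v * (f v * freqV f v) with hX
  have hI1 : I = ∫⁻ p : V × V, ∫⁻ ω : Sph,
      ker p ω * (pw 4 (vPrime p.1 p.2 ω) * (f p.1 * f p.2)) ∂surf := lintegral_mul_gainV hWm hf hf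
  have hI2 : I = ∫⁻ p : V × V, ∫⁻ ω : Sph,
      ker p ω * (pw 4 (vsPrime p.1 p.2 ω) * (f p.1 * f p.2)) ∂surf :=
    lintegral_mul_gainV_swap hWm hf hf
  have hX1 : X = ∫⁻ p : V × V, ∫⁻ ω : Sph,
      ker p ω * (pw 4 p.1 * (f p.1 * f p.2)) ∂surf := lintegral_mul_freqV hWm hf hf
  have hX2 : X = ∫⁻ p : V × V, ∫⁻ ω : Sph,
      ker p ω * (pw 4 p.2 * (f p.1 * f p.2)) ∂surf := lintegral_mul_freqV_swap hWm hf hf
  calc I + (I + 2 * (2 * (c0 * ((∫⁻ v, f v) * ∫⁻ v, pw 5 v * f v))))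
      ≤ I + (I + ∫⁻ p : V × V, ∫⁻ ω : Sph,
          (2 * pov4S p.1 ω + 2 * pov4S p.2 ω) * (f p.1 * f p.2) ∂surf) :=
        add_le_add le_rfl (add_le_add le_rfl hK)
    _ = ∫⁻ p : V × V, ∫⁻ ω : Sph,
        (ker p ω * (pw 4 (vPrime p.1 p.2 ω) * (f p.1 * f p.2)) +
          (ker p ω * (pw 4 (vsPrime p.1 p.2 ω) * (f p.1 * f p.2)) +
            (2 * pov4S p.1 ω + 2 * pov4S p.2 ω) * (f p.1 * f p.2))) ∂surf := by
        rw [← e1, ← e1', ← hI1, ← hI2]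
    _ ≤ ∫⁻ p : V × V, ∫⁻ ω : Sph, (ker p ω * (pw 4 p.1 * (f p.1 * f p.2)) +
          (ker p ω * (pw 4 p.2 * (f p.1 * f p.2)) +
            6 * (pw 4 p.1 * pw 1 p.2 + pw 1 p.1 * pw 4 p.2) * (f p.1 * f p.2))) ∂surf := by
        apply lintegral_mono
        intro p
        apply lintegral_mono
        intro ω
        have hp := pov4_enn p.1 p.2 ω
        calc ker p ω * (pw 4 (vPrime p.1 p.2 ω) * (f p.1 * f p.2)) +
              (ker p ω * (pw 4 (vsPrime p.1 p.2 ω) * (f p.1 * f p.2)) +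
                (2 * pov4S p.1 ω + 2 * pov4S p.2 ω) * (f p.1 * f p.2))
            = (ker (p.1, p.2) ω * (pw 4 (vPrime p.1 p.2 ω) + pw 4 (vsPrime p.1 p.2 ω)) +
                (2 * pov4S p.1 ω + 2 * pov4S p.2 ω)) * (f p.1 * f p.2) := by ring
          _ ≤ (ker (p.1, p.2) ω * (pw 4 p.1 + pw 4 p.2) +
                6 * (pw 4 p.1 * pw 1 p.2 + pw 1 p.1 * pw 4 p.2)) * (f p.1 * f p.2) :=
              mul_le_mul_left hp _
          _ = _ := by ring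
    _ = X + (X + 2 * (6 * sig * ((∫⁻ v, pw 4 v * f v) * ∫⁻ v, pw 1 v * f v))) := by
        rw [← e2, ← e3, ← hX1, ← hX2, hJ]

/-- `∫ |v|^4 Q^+(f,f) + c0 (∫ f)(∫ |v|^5 f) ≤ ∫ |v|^4 f L(f) + 6 σ (∫ |v|^4 f)(∫ |v| f)`. -/
theorem povzner4 : ∃ c0 : ℝ≥0∞, c0 ≠ 0 ∧ c0 ≠ ∞ ∧ ∀ f : V → ℝ≥0∞, Measurable f →
    (∫⁻ v, pw 4 v * gainV f f v) + c0 * ((∫⁻ v, f v) * ∫⁻ v, pw 5 v * f v) ≤
      (∫⁻ v, pw 4 v * (f v * freqV f v)) +
        6 * sig * ((∫⁻ v, pw 4 v * f v) * ∫⁻ v, pw 1 v * f v) := by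
  obtain ⟨c, hc, hS⟩ := sphere_const
  refine ⟨ENNReal.ofReal c, by simp [hc], ENNReal.ofReal_ne_top, fun f hf => ?_⟩
  have hSle : ∀ v : V, ENNReal.ofReal c * pw 5 v ≤ ∫⁻ ω : Sph, pov4S v ω ∂surf := by
    intro v
    have := hS v
    rw [ENNReal.ofReal_mul hc.le] at this
    exact this
  have key := pov4_key hSle hf
  generalize ENNReal.ofReal c = c0 at key ⊢
  generalize (∫⁻ v, pw 4 v * gainV f f v) = I at key ⊢
  generalize (∫⁻ v, pw 4 v * (f v * freqV f v)) = X at key ⊢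
  generalize (∫⁻ v, f v) * (∫⁻ v, pw 5 v * f v) = A at key ⊢
  generalize (∫⁻ v, pw 4 v * f v) * (∫⁻ v, pw 1 v * f v) = B at key ⊢
  have key2 : 2 * (I + c0 * A) ≤ 2 * (X + 6 * sig * B) := by
    calc 2 * (I + c0 * A) = I + (I + 2 * (c0 * A)) := by ring
      _ ≤ I + (I + 2 * (2 * (c0 * A))) := by
          have h12 : c0 * A ≤ 2 * (c0 * A) := by
            calc c0 * A = 1 * (c0 * A) := (one_mul _).symm
              _ ≤ 2 * (c0 * A) := mul_le_mul_left (by norm_num) _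
          exact add_le_add le_rfl (add_le_add le_rfl (mul_le_mul_right h12 _))
      _ ≤ X + (X + 2 * (6 * sig * B)) := key
      _ = 2 * (X + 6 * sig * B) := by ring
  exact (ENNReal.mul_le_mul_iff_right (by simp) (by simp)).1 key2

end Vale.Agent.Lib.P140
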