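import Mathlib

/-!
# Multiplying an integrated scalar equation by `t^3`
-/

namespace Vale.Agent.Lib.P140

open MeasureTheory Set
open scoped ENNReal

lemma tw_lintegral_sq {r t : ℝ} (hrt : r ≤ t) :
    ∫⁻ s in Icc r t, ENNReal.ofReal (3 * s ^ 2) = ENNReal.ofReal (t ^ 3 - r ^ 3) := by
  rw [← ofReal_integral_eq_lintegral_ofReal]
  · congr 1
    rw [integral_Icc_eq_integral_Ioc, ← intervalIntegral.integral_of_le hrt]
    simp [integral_pow]
    ring
  · exact (Continuous.integrableOn_Icc (by fun_prop))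
  · exact Filter.Eventually.of_forall (fun s => by positivity)

/-- `∫_0^t 3 s^2 (∫_0^s P) ds = ∫_0^t (t^3 - r^3) P(r) dr`. -/
lemma lintegral_weight_primitive {t : ℝ} (ht : 0 ≤ t) {P : ℝ → ℝ≥0∞} (mP : Measurable P) :
    ∫⁻ s in Ioc 0 t, ENNReal.ofReal (3 * s ^ 2) * ∫⁻ r in Ioc 0 s, P r =
      ∫⁻ r in Ioc 0 t, ENNReal.ofReal (t ^ 3 - r ^ 3) * P r := by
  set A : Set (ℝ × ℝ) := {p | 0 < p.1 ∧ p.1 ≤ t ∧ 0 < p.2 ∧ p.2 ≤ p.1} with hA
  have mA : MeasurableSet A :=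
    (measurableSet_lt measurable_const measurable_fst).inter
      ((measurableSet_le measurable_fst measurable_const).inter
        ((measurableSet_lt measurable_const measurable_snd).inter
          (measurableSet_le measurable_snd measurable_fst)))
  set F : ℝ × ℝ → ℝ≥0∞ := A.indicator (fun p => ENNReal.ofReal (3 * p.1 ^ 2) * P p.2) with hF
  have mF : Measurable F :=
    (by fun_prop : Measurable fun p : ℝ × ℝ => ENNReal.ofReal (3 * p.1 ^ 2) * P p.2).indicator mA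
  have h1 : ∫⁻ s in Ioc 0 t, ENNReal.ofReal (3 * s ^ 2) * ∫⁻ r in Ioc 0 s, P r =
      ∫⁻ s, ∫⁻ r, F (s, r) := by
    rw [← lintegral_indicator measurableSet_Ioc]
    apply lintegral_congr
    intro s
    by_cases hs : s ∈ Ioc 0 t
    · rw [indicator_of_mem hs, ← lintegral_const_mul _ mP, ← lintegral_indicator measurableSet_Ioc]
      apply lintegral_congr
      intro r
      by_cases hr : r ∈ Ioc 0 s
      · rw [indicator_of_mem hr, hF, indicator_of_mem]
        exact ⟨hs.1, hs.2, hr.1, hr.2⟩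
      · rw [indicator_of_notMem hr, hF, indicator_of_notMem]
        intro h
        exact hr ⟨h.2.2.1, h.2.2.2⟩
    · rw [indicator_of_notMem hs]
      have : ∀ r, F (s, r) = 0 := by
        intro r
        rw [hF, indicator_of_notMem]
        intro h
        exact hs ⟨h.1, h.2.1⟩
      simp [this]
  have h3 : ∫⁻ r in Ioc 0 t, ENNReal.ofReal (t ^ 3 - r ^ 3) * P r = ∫⁻ r, ∫⁻ s, F (s, r) := by
    rw [← lintegral_indicator measurableSet_Ioc]
    apply lintegral_congr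
    intro r
    by_cases hr : r ∈ Ioc 0 t
    · rw [indicator_of_mem hr, ← tw_lintegral_sq hr.2,
        ← lintegral_mul_const _ (by fun_prop), ← lintegral_indicator measurableSet_Icc]
      apply lintegral_congr
      intro s
      by_cases hs : s ∈ Icc r t
      · rw [indicator_of_mem hs, hF, indicator_of_mem]
        exact ⟨lt_of_lt_of_le hr.1 hs.1, hs.2, hr.1, hs.1⟩
      · rw [indicator_of_notMem hs, hF, indicator_of_notMem]
        intro h
        exact hs ⟨h.2.2.2, h.2.1⟩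
    · rw [indicator_of_notMem hr]
      have : ∀ s, F (s, r) = 0 := by
        intro s
        rw [hF, indicator_of_notMem]
        intro h
        exact hr ⟨h.2.2.1, h.2.2.2.trans h.2.1⟩
      simp [this]
  rw [h1, h3]
  exact lintegral_lintegral_swap mF.aemeasurable

lemma tw_measurable_primitive (N : ℝ → ℝ≥0∞) :
    Measurable fun s : ℝ => ∫⁻ r in Ioc 0 s, N r := by
  apply Monotone.measurable
  intro a b hab
  exact lintegral_mono_set (Ioc_subset_Ioc_right hab)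

lemma tw_split {t : ℝ} {N : ℝ → ℝ≥0∞} (mN : Measurable N) :
    ENNReal.ofReal (t ^ 3) * ∫⁻ r in Ioc 0 t, N r =
      (∫⁻ r in Ioc 0 t, ENNReal.ofReal (t ^ 3 - r ^ 3) * N r) +
        ∫⁻ r in Ioc 0 t, ENNReal.ofReal (r ^ 3) * N r := by
  rw [← lintegral_const_mul _ mN, ← lintegral_add_left (by fun_prop)]
  apply setLIntegral_congr_fun measurableSet_Ioc
  intro r hr
  simp only
  rw [← add_mul, ← ENNReal.ofReal_add]
  · congr 2
    ring
  · have : r ^ 3 ≤ t ^ 3 := pow_le_pow_left₀ hr.1.le hr.2 3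
    linarith
  · exact pow_nonneg hr.1.le 3

/-- If `φ(s) + ∫_0^s N = c + ∫_0^s P` on `[0,t]` then
`t^3 φ(t) + ∫_0^t s^3 N = ∫_0^t 3 s^2 φ + ∫_0^t s^3 P`. -/
theorem time_weight3 {t : ℝ} (ht : 0 ≤ t) {φ P N : ℝ → ℝ≥0∞} {c : ℝ≥0∞} (hc : c ≠ ∞)
    (mP : Measurable P) (mN : Measurable N)
    (fP : ∫⁻ s in Ioc 0 t, P s < ∞) (fN : ∫⁻ s in Ioc 0 t, N s < ∞)
    (h : ∀ s ∈ Icc (0 : ℝ) t, φ s + ∫⁻ r in Ioc 0 s, N r = c + ∫⁻ r in Ioc 0 s, P r) :
    ENNReal.ofReal (t ^ 3) * φ t + ∫⁻ s in Ioc 0 t, ENNReal.ofReal (s ^ 3) * N s =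
      (∫⁻ s in Ioc 0 t, ENNReal.ofReal (3 * s ^ 2) * φ s) +
        ∫⁻ s in Ioc 0 t, ENNReal.ofReal (s ^ 3) * P s := by
  -- (I)
  have hI : (∫⁻ s in Ioc 0 t, ENNReal.ofReal (3 * s ^ 2) * φ s) +
      ∫⁻ r in Ioc 0 t, ENNReal.ofReal (t ^ 3 - r ^ 3) * N r =
      ENNReal.ofReal (t ^ 3) * c + ∫⁻ r in Ioc 0 t, ENNReal.ofReal (t ^ 3 - r ^ 3) * P r := by
    rw [← lintegral_weight_primitive ht mN, ← lintegral_weight_primitive ht mP]
    have hc3 : ENNReal.ofReal (t ^ 3) * c = ∫⁻ s in Ioc 0 t, ENNReal.ofReal (3 * s ^ 2) * c := by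
      rw [lintegral_mul_const _ (by fun_prop), restrict_Ioc_eq_restrict_Icc, tw_lintegral_sq ht]
      simp
    have mN' : Measurable fun s : ℝ => ENNReal.ofReal (3 * s ^ 2) * ∫⁻ r in Ioc 0 s, N r :=
      (by fun_prop : Measurable fun s : ℝ => ENNReal.ofReal (3 * s ^ 2)).mul
        (tw_measurable_primitive N)
    have mP' : Measurable fun s : ℝ => ENNReal.ofReal (3 * s ^ 2) * ∫⁻ r in Ioc 0 s, P r :=
      (by fun_prop : Measurable fun s : ℝ => ENNReal.ofReal (3 * s ^ 2)).mul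
        (tw_measurable_primitive P)
    rw [hc3, ← lintegral_add_right _ mN', ← lintegral_add_right _ mP']
    apply setLIntegral_congr_fun measurableSet_Ioc
    intro s hs
    simp only
    rw [← mul_add, ← mul_add, h s ⟨hs.1.le, hs.2⟩]
  -- (II)
  have hII : ENNReal.ofReal (t ^ 3) * φ t +
      ((∫⁻ r in Ioc 0 t, ENNReal.ofReal (t ^ 3 - r ^ 3) * N r) +
        ∫⁻ r in Ioc 0 t, ENNReal.ofReal (r ^ 3) * N r) =
      ENNReal.ofReal (t ^ 3) * c + ((∫⁻ r in Ioc 0 t, ENNReal.ofReal (t ^ 3 - r ^ 3) * P r) +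
        ∫⁻ r in Ioc 0 t, ENNReal.ofReal (r ^ 3) * P r) := by
    rw [← tw_split mN, ← tw_split mP, ← mul_add, ← mul_add, h t ⟨ht, le_refl t⟩]
  have fa : ∫⁻ r in Ioc 0 t, ENNReal.ofReal (t ^ 3 - r ^ 3) * N r ≠ ∞ := by
    apply ne_top_of_le_ne_top _ (le_self_add.trans (tw_split mN).ge)
    exact ENNReal.mul_ne_top ENNReal.ofReal_ne_top fN.ne
  rw [← ENNReal.add_right_inj fa]
  calc _ = ENNReal.ofReal (t ^ 3) * φ t +
      ((∫⁻ r in Ioc 0 t, ENNReal.ofReal (t ^ 3 - r ^ 3) * N r) +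
        ∫⁻ r in Ioc 0 t, ENNReal.ofReal (r ^ 3) * N r) := by ring
    _ = _ := hII
    _ = (ENNReal.ofReal (t ^ 3) * c + ∫⁻ r in Ioc 0 t, ENNReal.ofReal (t ^ 3 - r ^ 3) * P r) +
        ∫⁻ r in Ioc 0 t, ENNReal.ofReal (r ^ 3) * P r := by ring
    _ = _ := by rw [← hI]; ring

end Vale.Agent.Lib.P140
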