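import Mathlib
import Vale.Agent.Lib.P140.Hom2Defs
import Vale.Agent.Lib.P140.HomLimit
import Vale.Agent.Lib.P140.TimeWeight
import Vale.Agent.Lib.P140.Pov4
import Vale.Agent.Lib.P140.Slice2

/-!
# Basic facts on spatially homogeneous mild solutions
-/

namespace Vale.Agent.Lib.P140

open MeasureTheory Set
open scoped ENNReal

variable {T : ℝ} {φ W : V → ℝ≥0∞} {u : ℝ × V → ℝ≥0∞}

lemma measurable_gH (hu : Measurable u) : Measurable (gH u) :=
  measurable_gainV hu hu

lemma measurable_lH (hu : Measurable u) : Measurable (lH u) :=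
  hu.mul (measurable_freqV hu)

lemma measurable_momW (hW : Measurable W) (hu : Measurable u) : Measurable (momW W u) := by
  unfold momW
  exact measurable_lintegral_V (A := fun q => W q.2 * u q) ((hW.comp measurable_snd).mul hu)

lemma IsHomMild.weak (h : IsHomMild T φ u) : IsHomMildW T φ u where
  meas := h.meas
  gain_fin := h.gain_fin
  loss_fin := h.loss_fin
  eqn := by
    intro t ht
    filter_upwards [h.eqn] with v hv
    exact hv t ⟨ht.1.le, ht.2⟩

/-- The solution constructed by Arkeryd's scheme is a mild solution in the strong form. -/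
theorem isHomMild_arkSol {f0 : V → ℝ≥0∞} (hf0 : Measurable f0) (h3 : ∫⁻ v, w3 v * f0 v < ∞)
    (T : ℝ) : IsHomMild T f0 (arkSol (nInt f0) f0) where
  meas := measurable_arkSol hf0
  gain_fin := by
    filter_upwards [arkSol_mild hf0 h3 T] with v hv
    exact hv.1
  loss_fin := by
    filter_upwards [arkSol_mild hf0 h3 T] with v hv
    exact hv.2.1
  eqn := by
    filter_upwards [arkSol_mild hf0 h3 T] with v hv
    exact hv.2.2

/-- `∫ Q^+ = ∫ Q^- ≤ 4 σ K^2` when `∫ (1+|v|^2) u ≤ K`. -/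
lemma lintegral_gH_eq (hu : Measurable u) (s : ℝ) : ∫⁻ v, gH u (s, v) = ∫⁻ v, lH u (s, v) := by
  have ha := measurable_sliceV hu s
  have h := lintegral_gain_pair ha ha
  rw [lintegral_add_left (measurable_gainV' ha ha), ← two_mul, ← two_mul] at h
  exact (ENNReal.mul_right_inj two_ne_zero ENNReal.ofNat_ne_top).1 h

lemma lintegral_lH_le (hu : Measurable u) {s : ℝ} {K : ℝ≥0∞} (hK : momW wm u s ≤ K) :
    ∫⁻ v, lH u (s, v) ≤ 4 * (sig * (K * K)) := by
  have ha := measurable_sliceV hu s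
  exact slice1_ell_le ha ha (fun _ => le_rfl) hK

/-- Conservation of mass for mild solutions (weak form) with bounded energy. -/
theorem IsHomMildW.mass_eq (hφ : Measurable φ) (h : IsHomMildW T φ u) {K : ℝ≥0∞} (hK : K ≠ ∞)
    (hN : ∀ s ∈ Ioc (0 : ℝ) T, momW wm u s ≤ K) :
    ∀ t ∈ Ioc (0 : ℝ) T, ∫⁻ v, u (t, v) = ∫⁻ v, φ v := by
  intro t ht
  have hu := h.meas
  have mg := measurable_gH hu
  have ml := measurable_lH hu
  have hint := lintegral_congr_ae (h.eqn t ht)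
  rw [lintegral_add_left (measurable_sliceV hu t), lintegral_add_left hφ, tonelli_one ml t,
    tonelli_one mg t] at hint
  have hsame : ∫⁻ s in Ioc 0 t, ∫⁻ v, gH u (s, v) = ∫⁻ s in Ioc 0 t, ∫⁻ v, lH u (s, v) := by
    apply lintegral_congr
    intro s
    exact lintegral_gH_eq hu s
  rw [hsame] at hint
  have hσ : sig ≠ ∞ := (measure_lt_top surf univ).ne
  have hfin : ∫⁻ s in Ioc 0 t, ∫⁻ v, lH u (s, v) ≠ ∞ := by
    refine ne_top_of_le_ne_top ?_ (lintegral_Ioc_le_const (C := 4 * (sig * (K * K))) ht.2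
      (fun s hs => lintegral_lH_le hu (hN s ⟨hs.1, hs.2.trans ht.2⟩)))
    exact ENNReal.mul_ne_top (ENNReal.mul_ne_top ENNReal.ofNat_ne_top
      (ENNReal.mul_ne_top hσ (ENNReal.mul_ne_top hK hK))) ENNReal.ofReal_ne_top
  exact (ENNReal.add_left_inj hfin).1 hint

/-- Pulling a constant out of a weighted velocity integral. -/
lemma homMild_pull_const (hW : Measurable W) {A : ℝ × V → ℝ≥0∞} (hA : Measurable A) (c : ℝ≥0∞)
    (s : ℝ) : ∫⁻ v, W v * (c * A (s, v)) = c * ∫⁻ v, W v * A (s, v) := by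
  have hm : Measurable (fun v => W v * A (s, v)) := hW.mul (measurable_sliceV hA s)
  rw [← lintegral_const_mul c hm]
  apply lintegral_congr
  intro v
  ring

/-- The equation multiplied by `t^3 |v|^4` and integrated. -/
theorem IsHomMild.weighted4 (hφ : ∀ᵐ v, φ v < ∞) (h : IsHomMild T φ u) :
    ∀ t ∈ Icc (0 : ℝ) T,
      ENNReal.ofReal (t ^ 3) * momW (pw 4) u t +
          ∫⁻ s in Ioc 0 t, ENNReal.ofReal (s ^ 3) * ∫⁻ v, pw 4 v * lH u (s, v) =
        (∫⁻ s in Ioc 0 t, ENNReal.ofReal (3 * s ^ 2) * momW (pw 4) u s) +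
          ∫⁻ s in Ioc 0 t, ENNReal.ofReal (s ^ 3) * ∫⁻ v, pw 4 v * gH u (s, v) := by
  intro t ht
  have hu := h.meas
  have mg := measurable_gH hu
  have ml := measurable_lH hu
  have mp := measurable_pw 4
  have mc3 : Measurable (fun q : ℝ × V => ENNReal.ofReal (q.1 ^ 3)) :=
    (measurable_fst.pow_const 3).ennreal_ofReal
  have mc2 : Measurable (fun q : ℝ × V => ENNReal.ofReal (3 * q.1 ^ 2)) :=
    ((measurable_fst.pow_const 2).const_mul 3).ennreal_ofReal
  have mA1 : Measurable (fun q : ℝ × V => ENNReal.ofReal (q.1 ^ 3) * lH u q) := mc3.mul ml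
  have mA2 : Measurable (fun q : ℝ × V => ENNReal.ofReal (3 * q.1 ^ 2) * u q) := mc2.mul hu
  have mA3 : Measurable (fun q : ℝ × V => ENNReal.ofReal (q.1 ^ 3) * gH u q) := mc3.mul mg
  have key : ∀ᵐ v : V,
      pw 4 v * (ENNReal.ofReal (t ^ 3) * u (t, v)) +
          pw 4 v * ∫⁻ s in Ioc 0 t, ENNReal.ofReal (s ^ 3) * lH u (s, v) =
        pw 4 v * (∫⁻ s in Ioc 0 t, ENNReal.ofReal (3 * s ^ 2) * u (s, v)) +
          pw 4 v * ∫⁻ s in Ioc 0 t, ENNReal.ofReal (s ^ 3) * gH u (s, v) := by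
    filter_upwards [hφ, h.gain_fin, h.loss_fin, h.eqn] with v h1 h2 h3 h4
    have hsub : Ioc (0 : ℝ) t ⊆ Ioc 0 T := Ioc_subset_Ioc_right ht.2
    have hw := time_weight3 ht.1 (φ := fun s => u (s, v)) (P := fun s => gH u (s, v))
      (N := fun s => lH u (s, v)) h1.ne (measurable_fix_v mg v) (measurable_fix_v ml v)
      (lt_of_le_of_lt (lintegral_mono_set hsub) h2) (lt_of_le_of_lt (lintegral_mono_set hsub) h3)
      (fun s hs => h4 s ⟨hs.1, hs.2.trans ht.2⟩)
    rw [← mul_add, ← mul_add, hw]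
  have hint := lintegral_congr_ae key
  have m1 : Measurable (fun v => pw 4 v * (ENNReal.ofReal (t ^ 3) * u (t, v))) :=
    mp.mul ((measurable_sliceV hu t).const_mul _)
  have m2 : Measurable (fun v => pw 4 v * ∫⁻ s in Ioc 0 t, ENNReal.ofReal (3 * s ^ 2) * u (s, v)) :=
    mp.mul (measurable_time_lintegral mA2 t)
  rw [lintegral_add_left m1, lintegral_add_left m2,
    tonelli_W mp mA1 t, tonelli_W mp mA2 t, tonelli_W mp mA3 t,
    homMild_pull_const mp hu _ t] at hint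
  have e1 : ∫⁻ s in Ioc 0 t, ∫⁻ v, pw 4 v * (ENNReal.ofReal (s ^ 3) * lH u (s, v)) =
      ∫⁻ s in Ioc 0 t, ENNReal.ofReal (s ^ 3) * ∫⁻ v, pw 4 v * lH u (s, v) :=
    lintegral_congr fun s => homMild_pull_const mp ml _ s
  have e2 : ∫⁻ s in Ioc 0 t, ∫⁻ v, pw 4 v * (ENNReal.ofReal (3 * s ^ 2) * u (s, v)) =
      ∫⁻ s in Ioc 0 t, ENNReal.ofReal (3 * s ^ 2) * momW (pw 4) u s :=
    lintegral_congr fun s => homMild_pull_const mp hu _ s
  have e3 : ∫⁻ s in Ioc 0 t, ∫⁻ v, pw 4 v * (ENNReal.ofReal (s ^ 3) * gH u (s, v)) =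
      ∫⁻ s in Ioc 0 t, ENNReal.ofReal (s ^ 3) * ∫⁻ v, pw 4 v * gH u (s, v) :=
    lintegral_congr fun s => homMild_pull_const mp mg _ s
  rw [e1, e2, e3] at hint
  exact hint

end Vale.Agent.Lib.P140
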