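import Mathlib
import Vale.Agent.Lib.P140.HomMild
import Vale.Agent.Lib.P140.CharLemma2
import Vale.Agent.Lib.P140.Core4

/-!
# Stability inequalities for two spatially homogeneous mild solutions with different data
-/

namespace Vale.Agent.Lib.P140

open MeasureTheory Set
open scoped ENNReal

variable {T : ℝ} {φ ψ : V → ℝ≥0∞} {u w : ℝ × V → ℝ≥0∞}

lemma measurable_ellH (hu : Measurable u) (hw : Measurable w) : Measurable (ellH u w) := by
  unfold ellH
  exact (hw.sub hu).mul (measurable_freqV hw)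

lemma measurable_RH (hu : Measurable u) (hw : Measurable w) : Measurable (RH u w) := by
  unfold RH
  have hd : Measurable (fun q : ℝ × V => w q - u q) := hw.sub hu
  have hd' : Measurable (fun q : ℝ × V => u q - w q) := hu.sub hw
  exact ((measurable_gainV hw hd).add (measurable_gainV hd hw)).add
    (hw.mul (measurable_freqV hd'))

lemma measurable_Xh (hu : Measurable u) (hw : Measurable w) : Measurable (Xh u w) := by
  unfold Xh
  exact Measurable.lintegral_prod_right' (f := fun q : ℝ × V => w q - u q) (hw.sub hu)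

lemma measurable_Yh (hu : Measurable u) (hw : Measurable w) : Measurable (Yh u w) := by
  unfold Yh
  exact Measurable.lintegral_prod_right' (f := fun q : ℝ × V => wm q.2 * (w q - u q))
    ((measurable_wm.comp measurable_snd).mul (hw.sub hu))

lemma homStab_slice (hu : Measurable u) (s : ℝ) : Measurable (fun y : V => u (s, y)) :=
  hu.comp (measurable_const.prodMk measurable_id)

lemma homStab_time (hu : Measurable u) (v : V) : Measurable (fun s : ℝ => u (s, v)) :=
  hu.comp (measurable_id.prodMk measurable_const)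

/-- The pointwise inequality between the collision terms where `u ≤ w`. -/
lemma hom_pointwise_le (hu : Measurable u) (hw : Measurable w) (q : ℝ × V) (h : u q ≤ w q) :
    gH w q + lH u q + ellH u w q ≤ gH u q + lH w q + RH u w q := by
  obtain ⟨s, v⟩ := q
  have mF := homStab_slice hu s
  have mg := homStab_slice hw s
  have p1 := gainV_le_add mF mg v
  have p2 := loss_le_add mF mg v h
  simp only [gH, lH, ellH, RH]
  calc gainV (fun y => w (s, y)) (fun y => w (s, y)) v +
        u (s, v) * freqV (fun y => u (s, y)) v +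
        (w (s, v) - u (s, v)) * freqV (fun y => w (s, y)) v
      = gainV (fun y => w (s, y)) (fun y => w (s, y)) v +
        (u (s, v) * freqV (fun y => u (s, y)) v +
        (w (s, v) - u (s, v)) * freqV (fun y => w (s, y)) v) := by
          rw [add_assoc]
    _ ≤ (gainV (fun y => u (s, y)) (fun y => u (s, y)) v +
          gainV (fun y => w (s, y)) (fun y => w (s, y) - u (s, y)) v +
          gainV (fun y => w (s, y) - u (s, y)) (fun y => w (s, y)) v) +
        (w (s, v) * freqV (fun y => w (s, y)) v +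
          w (s, v) * freqV (fun y => u (s, y) - w (s, y)) v) := add_le_add p1 p2
    _ = gainV (fun y => u (s, y)) (fun y => u (s, y)) v +
        w (s, v) * freqV (fun y => w (s, y)) v +
        (gainV (fun y => w (s, y)) (fun y => w (s, y) - u (s, y)) v +
          gainV (fun y => w (s, y) - u (s, y)) (fun y => w (s, y)) v +
          w (s, v) * freqV (fun y => u (s, y) - w (s, y)) v) := by
          ring

/-- The comparison for almost every velocity. -/
lemma hom_char (hφ : ∀ᵐ v, φ v < ∞) (hψ : ∀ᵐ v, ψ v < ∞) (hu : IsHomMild T φ u)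
    (hw : IsHomMild T ψ w) :
    ∀ᵐ v : V, ∀ t ∈ Icc (0 : ℝ) T, (w (t, v) - u (t, v)) + ∫⁻ s in Ioc 0 t, ellH u w (s, v) ≤
      (ψ v - φ v) + ∫⁻ s in Ioc 0 t, RH u w (s, v) := by
  filter_upwards [hφ, hψ, hu.gain_fin, hu.loss_fin, hw.gain_fin, hw.loss_fin, hu.eqn, hw.eqn]
    with v h0 h0' f1 f2 f3 f4 e1 e2
  intro t ht
  refine char_ineq_from (PF := fun s => gH u (s, v)) (NF := fun s => lH u (s, v))
    (Pg := fun s => gH w (s, v)) (Ng := fun s => lH w (s, v))
    (ℓ := fun s => ellH u w (s, v)) (R := fun s => RH u w (s, v))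
    (φ := fun s => u (s, v)) (γ := fun s => w (s, v))
    (cφ := φ v) (cγ := ψ v) ht.1 h0 h0'
    (homStab_time (measurable_gH hu.meas) v) (homStab_time (measurable_lH hu.meas) v)
    (homStab_time (measurable_gH hw.meas) v) (homStab_time (measurable_lH hw.meas) v)
    (homStab_time (measurable_ellH hu.meas hw.meas) v)
    (homStab_time (measurable_RH hu.meas hw.meas) v)
    (lt_of_le_of_lt (lint_mono_Ioc ht.2 _) f1) (lt_of_le_of_lt (lint_mono_Ioc ht.2 _) f2)
    (lt_of_le_of_lt (lint_mono_Ioc ht.2 _) f3) (lt_of_le_of_lt (lint_mono_Ioc ht.2 _) f4)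
    ?_ ?_ ?_ ?_ ?_ ?_
  · exact Filter.Eventually.of_forall fun s hs => e1 s ⟨hs.1.le, hs.2.trans ht.2⟩
  · exact e1 t ht
  · exact Filter.Eventually.of_forall fun s hs => e2 s ⟨hs.1.le, hs.2.trans ht.2⟩
  · exact e2 t ht
  · refine Filter.Eventually.of_forall fun s _ hlt => ?_
    exact hom_pointwise_le hu.meas hw.meas (s, v) hlt.le
  · refine Filter.Eventually.of_forall fun s _ hge => ?_
    have : w (s, v) - u (s, v) = 0 := tsub_eq_zero_of_le hge
    simp only [ellH, this, zero_mul]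

theorem homX_le (hφm : Measurable φ) (hψm : Measurable ψ) (hφ : ∀ᵐ v, φ v < ∞)
    (hψ : ∀ᵐ v, ψ v < ∞) (hu : IsHomMild T φ u) (hw : IsHomMild T ψ w) {K : ℝ≥0∞} (hK : K ≠ ∞)
    (hN : ∀ s ∈ Ioc (0 : ℝ) T, momW wm w s ≤ K) :
    ∀ t ∈ Icc (0 : ℝ) T, Xh u w t ≤ (∫⁻ v, (ψ v - φ v)) +
      4 * (sig * K) * ∫⁻ s in Ioc 0 t, (Yh u w s + Yh w u s) := by
  intro t ht
  have mE := measurable_ellH hu.meas hw.meas
  have mR := measurable_RH hu.meas hw.meas
  have md : Measurable (fun q : ℝ × V => w q - u q) := hw.meas.sub hu.meas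
  have md' : Measurable (fun q : ℝ × V => u q - w q) := hu.meas.sub hw.meas
  have hC : 4 * (sig * K) ≠ ∞ := ENNReal.mul_ne_top (by simp) (ENNReal.mul_ne_top sig_ne_top hK)
  have hmem : ∀ᵐ s : ℝ ∂(volume.restrict (Ioc 0 t)), s ∈ Ioc 0 t :=
    ae_restrict_mem measurableSet_Ioc
  have hN' : ∀ s ∈ Ioc (0 : ℝ) t, ∫⁻ v, wm v * w (s, v) ≤ K := fun s hs =>
    hN s ⟨hs.1, hs.2.trans ht.2⟩
  set L : ℝ≥0∞ := ∫⁻ s in Ioc 0 t, ∫⁻ v, ellH u w (s, v) with hL
  have hLfin : L ≠ ∞ := by
    have : L ≤ ∫⁻ _s in Ioc 0 t, 4 * (sig * (K * K)) := by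
      apply lintegral_mono_ae
      filter_upwards [hmem] with s hs
      exact slice1_ell_le (homStab_slice hw.meas s) (homStab_slice md s)
        (fun v => tsub_le_self) (hN' s hs)
    refine ne_top_of_le_ne_top ?_ this
    rw [lintegral_const, Measure.restrict_apply MeasurableSet.univ, univ_inter, Real.volume_Ioc]
    exact ENNReal.mul_ne_top (ENNReal.mul_ne_top (by simp)
      (ENNReal.mul_ne_top sig_ne_top (ENNReal.mul_ne_top hK hK))) ENNReal.ofReal_ne_top
  have h1 := hom_char hφ hψ hu hw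
  have h2 : ∫⁻ v, ((w (t, v) - u (t, v)) + ∫⁻ s in Ioc 0 t, ellH u w (s, v)) ≤
      ∫⁻ v, ((ψ v - φ v) + ∫⁻ s in Ioc 0 t, RH u w (s, v)) := by
    apply lintegral_mono_ae
    filter_upwards [h1] with v hv
    exact hv t ht
  have mψφ : Measurable (fun v => ψ v - φ v) := hψm.sub hφm
  rw [lintegral_add_left (homStab_slice md t), lintegral_add_left mψφ,
    tonelli_one mE t, tonelli_one mR t] at h2
  have mint : Measurable (fun s : ℝ => ∫⁻ v, ellH u w (s, v)) :=
    Measurable.lintegral_prod_right' (f := fun q : ℝ × V => ellH u w q) mE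
  have h4 : ∫⁻ s in Ioc 0 t, ∫⁻ v, RH u w (s, v) ≤
      L + 4 * (sig * K) * ∫⁻ s in Ioc 0 t, (Yh u w s + Yh w u s) := by
    rw [← lintegral_const_mul' _ _ hC, hL, ← lintegral_add_left mint]
    apply lintegral_mono_ae
    filter_upwards [hmem] with s hs
    exact slice1_R_le (homStab_slice hw.meas s) (homStab_slice md s) (homStab_slice md' s)
      (hN' s hs)
  set J : ℝ≥0∞ := ∫⁻ s in Ioc 0 t, (Yh u w s + Yh w u s) with hJ
  have h5 : Xh u w t + L ≤ ((∫⁻ v, (ψ v - φ v)) + 4 * (sig * K) * J) + L := by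
    refine h2.trans ?_
    calc (∫⁻ v, (ψ v - φ v)) + ∫⁻ s in Ioc 0 t, ∫⁻ v, RH u w (s, v)
        ≤ (∫⁻ v, (ψ v - φ v)) + (L + 4 * (sig * K) * J) := by gcongr
      _ = ((∫⁻ v, (ψ v - φ v)) + 4 * (sig * K) * J) + L := by ring
  exact (ENNReal.add_le_add_iff_right hLfin).1 h5

theorem homY_le (hφm : Measurable φ) (hψm : Measurable ψ) (hφ : ∀ᵐ v, φ v < ∞)
    (hψ : ∀ᵐ v, ψ v < ∞) (hu : IsHomMild T φ u) (hw : IsHomMild T ψ w) {K : ℝ≥0∞} (hK : K ≠ ∞)
    (hN : ∀ s ∈ Ioc (0 : ℝ) T, momW wm w s ≤ K)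
    (h3 : ∫⁻ s in Ioc 0 T, momW w3 w s < ∞) :
    ∀ t ∈ Icc (0 : ℝ) T, Yh u w t ≤ (∫⁻ v, wm v * (ψ v - φ v)) +
      sig * ∫⁻ s in Ioc 0 t, (momW w3 w s * (Xh u w s + Xh w u s) +
        K * (Yh u w s + Yh w u s)) := by
  intro t ht
  have mE := measurable_ellH hu.meas hw.meas
  have mR := measurable_RH hu.meas hw.meas
  have md : Measurable (fun q : ℝ × V => w q - u q) := hw.meas.sub hu.meas
  have md' : Measurable (fun q : ℝ × V => u q - w q) := hu.meas.sub hw.meas
  have hmem : ∀ᵐ s : ℝ ∂(volume.restrict (Ioc 0 t)), s ∈ Ioc 0 t :=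
    ae_restrict_mem measurableSet_Ioc
  have hN' : ∀ s ∈ Ioc (0 : ℝ) t, ∫⁻ v, wm v * w (s, v) ≤ K := fun s hs =>
    hN s ⟨hs.1, hs.2.trans ht.2⟩
  have h3' : ∫⁻ s in Ioc 0 t, momW w3 w s < ∞ := lt_of_le_of_lt (lint_mono_Ioc ht.2 _) h3
  set L : ℝ≥0∞ := ∫⁻ s in Ioc 0 t, ∫⁻ v, wm v * ellH u w (s, v) with hL
  have hLfin : L ≠ ∞ := by
    have : L ≤ ∫⁻ s in Ioc 0 t, surf univ * (momW w3 w s * K + K * K) := by
      apply lintegral_mono_ae
      filter_upwards [hmem] with s hs
      exact slice2_ell_le (homStab_slice hw.meas s) (homStab_slice md s)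
        (fun v => tsub_le_self) (hN' s hs) le_rfl
    exact ne_top_of_le_ne_top (lintegral_bound_ne_top (lt_top_iff_ne_top.2 hK)
      (measurable_momW measurable_w3 hw.meas) h3') this
  have h1 := hom_char hφ hψ hu hw
  have h2 : ∫⁻ v, wm v * ((w (t, v) - u (t, v)) + ∫⁻ s in Ioc 0 t, ellH u w (s, v)) ≤
      ∫⁻ v, wm v * ((ψ v - φ v) + ∫⁻ s in Ioc 0 t, RH u w (s, v)) := by
    apply lintegral_mono_ae
    filter_upwards [h1] with v hv
    exact mul_le_mul_right (hv t ht) _
  simp only [mul_add] at h2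
  have mwd : Measurable (fun v => wm v * (w (t, v) - u (t, v))) :=
    measurable_wm.mul (homStab_slice md t)
  have mψφ : Measurable (fun v => wm v * (ψ v - φ v)) := measurable_wm.mul (hψm.sub hφm)
  rw [lintegral_add_left mwd, lintegral_add_left mψφ,
    tonelli_W measurable_wm mE t, tonelli_W measurable_wm mR t] at h2
  have mint : Measurable (fun s : ℝ => ∫⁻ v, wm v * ellH u w (s, v)) :=
    Measurable.lintegral_prod_right' (f := fun q : ℝ × V => wm q.2 * ellH u w q)
      ((measurable_wm.comp measurable_snd).mul mE)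
  have h4 : ∫⁻ s in Ioc 0 t, ∫⁻ v, wm v * RH u w (s, v) ≤
      L + sig * ∫⁻ s in Ioc 0 t, (momW w3 w s * (Xh u w s + Xh w u s) +
        K * (Yh u w s + Yh w u s)) := by
    rw [← lintegral_const_mul' _ _ sig_ne_top, hL, ← lintegral_add_left mint]
    apply lintegral_mono_ae
    filter_upwards [hmem] with s hs
    exact slice2_R_le (homStab_slice hw.meas s) (homStab_slice md s) (homStab_slice md' s)
      (hN' s hs) le_rfl
  set J : ℝ≥0∞ := ∫⁻ s in Ioc 0 t, (momW w3 w s * (Xh u w s + Xh w u s) +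
        K * (Yh u w s + Yh w u s)) with hJ
  have h5 : Yh u w t + L ≤ ((∫⁻ v, wm v * (ψ v - φ v)) + sig * J) + L := by
    refine h2.trans ?_
    calc (∫⁻ v, wm v * (ψ v - φ v)) + ∫⁻ s in Ioc 0 t, ∫⁻ v, wm v * RH u w (s, v)
        ≤ (∫⁻ v, wm v * (ψ v - φ v)) + (L + sig * J) := by gcongr
      _ = ((∫⁻ v, wm v * (ψ v - φ v)) + sig * J) + L := by ring
  exact (ENNReal.add_le_add_iff_right hLfin).1 h5

end Vale.Agent.Lib.P140
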