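import Mathlib
import Vale.Agent.Lib.P140.Hom2Defs
import Vale.Agent.Lib.P140.HomMeas
import Vale.Agent.Lib.P140.Slice2

/-!
# The weight `(1+|v|^2)^3`: Povzner-type inequality and comparison with `|v|^k`
-/

namespace Vale.Agent.Lib.P140

open MeasureTheory Set
open scoped ENNReal

lemma povW6_real (κ X Y a b : ℝ) (hκ0 : 0 ≤ κ) (hκ : κ ≤ a + b) (hX : 0 ≤ X) (hY : 0 ≤ Y)
    (ha : 0 ≤ a) (hb : 0 ≤ b) (h : X + Y = a + b) :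
    κ * (X ^ 3 + Y ^ 3) ≤ κ * (a ^ 3 + b ^ 3) + 6 * (a ^ 3 * b + a * b ^ 3) := by
  have h1 : X ^ 3 + Y ^ 3 ≤ (a + b) ^ 3 := by
    rw [← h]
    have : 0 ≤ 3 * (X * Y) * (X + Y) := by positivity
    nlinarith
  have h2 : κ * (X ^ 3 + Y ^ 3) ≤ κ * (a + b) ^ 3 := mul_le_mul_of_nonneg_left h1 hκ0
  have h3 : κ * (3 * (a * b) * (a + b)) ≤ (a + b) * (3 * (a * b) * (a + b)) :=
    mul_le_mul_of_nonneg_right hκ (by positivity)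
  have h4 : 0 ≤ a * b * (a - b) ^ 2 := by positivity
  nlinarith

lemma povW6_wm_cube (u : V) : wm u ^ 3 = ENNReal.ofReal ((1 + ‖u‖ ^ 2) ^ 3) := by
  unfold wm
  rw [ENNReal.ofReal_pow (by positivity)]

theorem povW_wm3 : PovW (fun v => wm v ^ 3) 6 := by
  refine ⟨measurable_wm.pow_const 3, ⟨6, 1, by simp, fun v => ?_⟩, by simp, fun v vs ω => ?_⟩
  · rw [one_mul, povW6_wm_cube]
    unfold w1
    rw [← ENNReal.ofReal_pow (by positivity)]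
    apply ENNReal.ofReal_le_ofReal
    have h0 : 0 ≤ ‖v‖ := norm_nonneg v
    have h1 : 1 + ‖v‖ ^ 2 ≤ (1 + ‖v‖) ^ 2 := by nlinarith
    calc (1 + ‖v‖ ^ 2) ^ 3 ≤ ((1 + ‖v‖) ^ 2) ^ 3 := pow_le_pow_left₀ (by positivity) h1 3
      _ = (1 + ‖v‖) ^ 6 := by ring
  · have hκ0 : 0 ≤ |collA v vs ω| := abs_nonneg _
    have hκ : |collA v vs ω| ≤ (1 + ‖v‖ ^ 2) + (1 + ‖vs‖ ^ 2) := by
      unfold collA
      have h1 : |inner ℝ (v - vs) (ω : V)| ≤ ‖v - vs‖ * ‖(ω : V)‖ := abs_real_inner_le_norm _ _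
      rw [sph_norm ω, mul_one] at h1
      have h2 := norm_sub_le v vs
      nlinarith [sq_nonneg (‖v‖ - 1), sq_nonneg (‖vs‖ - 1)]
    have he : (1 + ‖vPrime v vs ω‖ ^ 2) + (1 + ‖vsPrime v vs ω‖ ^ 2)
        = (1 + ‖v‖ ^ 2) + (1 + ‖vs‖ ^ 2) := by
      have := energy_prime v vs (sph_norm ω)
      linarith
    have hreal := povW6_real |collA v vs ω| (1 + ‖vPrime v vs ω‖ ^ 2) (1 + ‖vsPrime v vs ω‖ ^ 2)
      (1 + ‖v‖ ^ 2) (1 + ‖vs‖ ^ 2) hκ0 hκ (by positivity) (by positivity) (by positivity)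
      (by positivity) he
    have h6 : (6 : ℝ≥0∞) = ENNReal.ofReal 6 := by simp
    simp only [povW6_wm_cube, h6]
    unfold ker wm
    rw [← ENNReal.ofReal_add (by positivity) (by positivity),
      ← ENNReal.ofReal_mul hκ0,
      ← ENNReal.ofReal_add (by positivity) (by positivity),
      ← ENNReal.ofReal_mul hκ0,
      ← ENNReal.ofReal_mul (by positivity),
      ← ENNReal.ofReal_mul (by positivity),
      ← ENNReal.ofReal_add (by positivity) (by positivity),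
      ← ENNReal.ofReal_mul (by norm_num),
      ← ENNReal.ofReal_add (by positivity) (by positivity)]
    exact ENNReal.ofReal_le_ofReal hreal

lemma pw5_le_wm3 (v : V) : pw 5 v ≤ wm v ^ 3 := by
  rw [povW6_wm_cube]
  unfold pw
  apply ENNReal.ofReal_le_ofReal
  have h0 : 0 ≤ ‖v‖ := norm_nonneg v
  have h1 : 0 ≤ ‖v‖ ^ 4 * (‖v‖ - 1) ^ 2 := by positivity
  have h2 : 0 ≤ ‖v‖ ^ 4 := by positivity
  have h3 : 0 ≤ ‖v‖ ^ 2 := by positivity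
  have h4 : 0 ≤ ‖v‖ ^ 6 := by positivity
  nlinarith

lemma pw4_le_wm3 (v : V) : pw 4 v ≤ wm v ^ 3 := by
  rw [povW6_wm_cube]
  unfold pw
  apply ENNReal.ofReal_le_ofReal
  have h2 : 0 ≤ ‖v‖ ^ 4 := by positivity
  have h3 : 0 ≤ ‖v‖ ^ 2 := by positivity
  have h4 : 0 ≤ ‖v‖ ^ 6 := by positivity
  nlinarith

lemma w1_mul_pw4_le_wm3 (v : V) : w1 v * pw 4 v ≤ wm v ^ 3 := by
  rw [povW6_wm_cube]
  unfold pw w1
  rw [← ENNReal.ofReal_mul (by positivity)]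
  apply ENNReal.ofReal_le_ofReal
  have h0 : 0 ≤ ‖v‖ := norm_nonneg v
  have h1 : 0 ≤ ‖v‖ ^ 4 * (‖v‖ - 1) ^ 2 := by positivity
  have h2 : 0 ≤ ‖v‖ ^ 4 := by positivity
  have h3 : 0 ≤ ‖v‖ ^ 2 := by positivity
  have h4 : 0 ≤ ‖v‖ ^ 6 := by positivity
  nlinarith

lemma pw1_le_wm (v : V) : pw 1 v ≤ wm v := by
  unfold pw
  rw [pow_one]
  exact ofReal_norm_le_wm v

/-- On `|v| ≤ n`: `(1+|v|^2)^3 ≤ (1+n^2)^2 (1+|v|^2)`. -/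
lemma lintegral_wm3_cut_le (f0 : V → ℝ≥0∞) (n : ℕ) :
    ∫⁻ v, wm v ^ 3 * cut f0 n v ≤ ENNReal.ofReal ((1 + (n : ℝ) ^ 2) ^ 2) * nInt f0 := by
  unfold nInt
  rw [← lintegral_const_mul' _ _ ENNReal.ofReal_ne_top]
  apply lintegral_mono
  intro v
  show wm v ^ 3 * cut f0 n v ≤ ENNReal.ofReal ((1 + (n : ℝ) ^ 2) ^ 2) * (wm v * f0 v)
  unfold cut
  split_ifs with h
  · rw [← mul_assoc]
    apply mul_le_mul_left
    rw [povW6_wm_cube]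
    unfold wm
    rw [← ENNReal.ofReal_mul (by positivity)]
    apply ENNReal.ofReal_le_ofReal
    have h0 : 0 ≤ ‖v‖ := norm_nonneg v
    have h1 : 1 + ‖v‖ ^ 2 ≤ 1 + (n : ℝ) ^ 2 := by nlinarith
    have h2 : (1 + ‖v‖ ^ 2) ^ 2 ≤ (1 + (n : ℝ) ^ 2) ^ 2 := pow_le_pow_left₀ (by positivity) h1 2
    calc (1 + ‖v‖ ^ 2) ^ 3 = (1 + ‖v‖ ^ 2) ^ 2 * (1 + ‖v‖ ^ 2) := by ring
      _ ≤ (1 + (n : ℝ) ^ 2) ^ 2 * (1 + ‖v‖ ^ 2) := mul_le_mul_of_nonneg_right h2 (by positivity)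
  · simp

/-- On `|v| ≤ n`: `(1+|v|)^3 ≤ 2 (1+n) (1+|v|^2)`. -/
lemma lintegral_w3_cut_le (f0 : V → ℝ≥0∞) (n : ℕ) :
    ∫⁻ v, w3 v * cut f0 n v ≤ ENNReal.ofReal (2 * (1 + (n : ℝ))) * nInt f0 := by
  unfold nInt
  rw [← lintegral_const_mul' _ _ ENNReal.ofReal_ne_top]
  apply lintegral_mono
  intro v
  show w3 v * cut f0 n v ≤ ENNReal.ofReal (2 * (1 + (n : ℝ))) * (wm v * f0 v)
  unfold cut
  split_ifs with h
  · rw [← mul_assoc]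
    apply mul_le_mul_left
    unfold wm w3
    rw [← ENNReal.ofReal_mul (by positivity)]
    apply ENNReal.ofReal_le_ofReal
    have h0 : 0 ≤ ‖v‖ := norm_nonneg v
    have h1 : (1 + ‖v‖) ^ 2 ≤ 2 * (1 + ‖v‖ ^ 2) := by nlinarith [sq_nonneg (‖v‖ - 1)]
    calc (1 + ‖v‖) ^ 3 = (1 + ‖v‖) * (1 + ‖v‖) ^ 2 := by ring
      _ ≤ (1 + (n : ℝ)) * (2 * (1 + ‖v‖ ^ 2)) :=
          mul_le_mul (by linarith) h1 (by positivity) (by positivity)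
      _ = 2 * (1 + (n : ℝ)) * (1 + ‖v‖ ^ 2) := by ring
  · simp

lemma povW6_w3_real {t T r : ℝ} (ht : 0 ≤ t) (htT : t ≤ T) (hr : 0 ≤ r) :
    t * (1 + r) ^ 3 ≤ (4 * T + 2) * (1 + r ^ 2) + 2 * (t ^ 2 * r ^ 4) := by
  have h1 : (1 + r) ^ 3 ≤ 4 * (1 + r ^ 3) := by
    have : 0 ≤ (1 + r) * (r - 1) ^ 2 := by positivity
    nlinarith
  have h2 : t * (1 + r) ^ 3 ≤ t * (4 * (1 + r ^ 3)) := mul_le_mul_of_nonneg_left h1 ht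
  have h3 : 0 ≤ (t * r ^ 2 - r) ^ 2 := sq_nonneg _
  have h4 : 0 ≤ T * r ^ 2 := by
    have : 0 ≤ T := le_trans ht htT
    positivity
  nlinarith

lemma povW6_w3_enn {t T r : ℝ} (ht : 0 ≤ t) (htT : t ≤ T) (hr : 0 ≤ r) :
    ENNReal.ofReal t * ENNReal.ofReal ((1 + r) ^ 3) ≤
      ENNReal.ofReal (4 * T + 2) * ENNReal.ofReal (1 + r ^ 2) +
      2 * (ENNReal.ofReal (t ^ 2) * ENNReal.ofReal (r ^ 4)) := by
  have hT : 0 ≤ T := le_trans ht htT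
  have h2 : (2 : ℝ≥0∞) = ENNReal.ofReal 2 := by simp
  rw [h2, ← ENNReal.ofReal_mul ht, ← ENNReal.ofReal_mul (by positivity),
    ← ENNReal.ofReal_mul (by positivity), ← ENNReal.ofReal_mul (by norm_num),
    ← ENNReal.ofReal_add (by positivity) (by positivity)]
  exact ENNReal.ofReal_le_ofReal (povW6_w3_real ht htT hr)

/-- `t (1+r)^3 ≤ (4T+2)(1+r^2) + 2 t^2 r^4` for `0 ≤ t ≤ T`. -/
lemma ofReal_mul_w3_le {t T : ℝ} (ht : 0 ≤ t) (htT : t ≤ T) (v : V) :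
    ENNReal.ofReal t * w3 v ≤ ENNReal.ofReal (4 * T + 2) * wm v +
      2 * (ENNReal.ofReal (t ^ 2) * pw 4 v) := by
  unfold w3 wm pw
  exact povW6_w3_enn ht htT (norm_nonneg v)

lemma povW6_young1 {δ X : ℝ} (hδ : 0 < δ) (hX : 0 ≤ X) :
    3 * X ^ 2 ≤ δ / 2 * X ^ 3 + 108 / δ ^ 2 := by
  by_cases h : 6 / δ ≤ X
  · have h1 : 6 ≤ δ * X := by
      rw [div_le_iff₀ hδ] at h
      linarith
    have h2 : 0 ≤ X ^ 2 * (δ * X - 6) := mul_nonneg (by positivity) (by linarith)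
    have h3 : 0 ≤ 108 / δ ^ 2 := by positivity
    nlinarith
  · have h := (not_le.1 h).le
    have h1 : X ^ 2 ≤ (6 / δ) ^ 2 := pow_le_pow_left₀ hX h 2
    have h2 : (6 / δ) ^ 2 = 36 / δ ^ 2 := by rw [div_pow]; norm_num
    have h3 : 0 ≤ δ / 2 * X ^ 3 := by positivity
    have h4 : 108 / δ ^ 2 = 3 * (36 / δ ^ 2) := by ring
    rw [h4, ← h2]
    linarith

lemma povW6_young2 {δ B r : ℝ} (hδ : 0 < δ) (hB : 0 ≤ B) (hr : 0 ≤ r) :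
    B * r ^ 4 ≤ δ / 2 * r ^ 5 + 4 * B ^ 3 / δ ^ 2 * r ^ 2 := by
  by_cases h : 2 * B / δ ≤ r
  · have h1 : 2 * B ≤ δ * r := by
      rw [div_le_iff₀ hδ] at h
      linarith
    have h2 : 0 ≤ r ^ 4 * (δ * r - 2 * B) := mul_nonneg (by positivity) (by linarith)
    have h3 : 0 ≤ 4 * B ^ 3 / δ ^ 2 * r ^ 2 := by positivity
    nlinarith
  · have h := (not_le.1 h).le
    have h1 : r ^ 2 ≤ (2 * B / δ) ^ 2 := pow_le_pow_left₀ hr h 2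
    have h2 : B * (2 * B / δ) ^ 2 = 4 * B ^ 3 / δ ^ 2 := by rw [div_pow]; ring
    have h3 : 0 ≤ δ / 2 * r ^ 5 := by positivity
    have h4 : B * r ^ 4 = B * r ^ 2 * r ^ 2 := by ring
    have h5 : B * r ^ 2 ≤ B * (2 * B / δ) ^ 2 := mul_le_mul_of_nonneg_left h1 hB
    have h6 : B * r ^ 2 * r ^ 2 ≤ B * (2 * B / δ) ^ 2 * r ^ 2 :=
      mul_le_mul_of_nonneg_right h5 (by positivity)
    rw [h4, ← h2]
    linarith

/-- Young's inequality used to absorb the lower-order terms. -/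
lemma young_absorb {δ B T : ℝ} (hδ : 0 < δ) (hB : 0 ≤ B) (hT : 0 ≤ T) :
    ∃ C : ℝ, 0 ≤ C ∧ ∀ s ∈ Icc (0 : ℝ) T, ∀ r : ℝ, 0 ≤ r →
      (3 * s ^ 2 + B * s ^ 3) * r ^ 4 ≤ δ * s ^ 3 * r ^ 5 + C * (1 + r ^ 2) := by
  refine ⟨108 / δ ^ 2 + T ^ 3 * (4 * B ^ 3 / δ ^ 2), by positivity, ?_⟩
  intro s hs r hr
  obtain ⟨hs0, hsT⟩ := hs
  have h1 := povW6_young1 hδ (mul_nonneg hs0 hr)
  have h2 := povW6_young2 hδ hB hr
  have h3 : 3 * (s * r) ^ 2 * r ^ 2 ≤ (δ / 2 * (s * r) ^ 3 + 108 / δ ^ 2) * r ^ 2 :=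
    mul_le_mul_of_nonneg_right h1 (by positivity)
  have h4 : s ^ 3 * (B * r ^ 4) ≤ s ^ 3 * (δ / 2 * r ^ 5 + 4 * B ^ 3 / δ ^ 2 * r ^ 2) :=
    mul_le_mul_of_nonneg_left h2 (by positivity)
  have h5 : s ^ 3 ≤ T ^ 3 := pow_le_pow_left₀ hs0 hsT 3
  have h6 : s ^ 3 * (4 * B ^ 3 / δ ^ 2 * r ^ 2) ≤ T ^ 3 * (4 * B ^ 3 / δ ^ 2 * r ^ 2) :=
    mul_le_mul_of_nonneg_right h5 (by positivity)
  have h7 : 0 ≤ 108 / δ ^ 2 + T ^ 3 * (4 * B ^ 3 / δ ^ 2) := by positivity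
  have e1 : (3 * s ^ 2 + B * s ^ 3) * r ^ 4 = 3 * (s * r) ^ 2 * r ^ 2 + s ^ 3 * (B * r ^ 4) := by
    ring
  have e2 : (δ / 2 * (s * r) ^ 3 + 108 / δ ^ 2) * r ^ 2 +
      (s ^ 3 * (δ / 2 * r ^ 5) + T ^ 3 * (4 * B ^ 3 / δ ^ 2 * r ^ 2)) =
      δ * s ^ 3 * r ^ 5 + (108 / δ ^ 2 + T ^ 3 * (4 * B ^ 3 / δ ^ 2)) * r ^ 2 := by ring
  have e3 : s ^ 3 * (δ / 2 * r ^ 5 + 4 * B ^ 3 / δ ^ 2 * r ^ 2) =
      s ^ 3 * (δ / 2 * r ^ 5) + s ^ 3 * (4 * B ^ 3 / δ ^ 2 * r ^ 2) := by ring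
  rw [e1]
  have e4 : (108 / δ ^ 2 + T ^ 3 * (4 * B ^ 3 / δ ^ 2)) * (1 + r ^ 2) =
      (108 / δ ^ 2 + T ^ 3 * (4 * B ^ 3 / δ ^ 2)) +
      (108 / δ ^ 2 + T ^ 3 * (4 * B ^ 3 / δ ^ 2)) * r ^ 2 := by ring
  rw [e4]
  linarith

end Vale.Agent.Lib.P140
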