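import Mathlib
import Vale.Agent.Lib.P140.HomMild
import Vale.Agent.Lib.P140.PovW6

/-!
# Production of moments: `t ∫ (1+|v|)^3 u(t) ≤ K` with `K` depending only on `T`, an upper bound of
the energy and a lower bound of the mass
-/

namespace Vale.Agent.Lib.P140

open MeasureTheory Set
open scoped ENNReal

/-- Povzner's inequality at a fixed time, with the bounds of mass and energy inserted. -/
lemma mp_pov {u : ℝ × V → ℝ≥0∞} (hu : Measurable u) {c0 E μ : ℝ≥0∞}
    (hpov : ∀ f : V → ℝ≥0∞, Measurable f →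
      (∫⁻ v, pw 4 v * gainV f f v) + c0 * ((∫⁻ v, f v) * ∫⁻ v, pw 5 v * f v) ≤
        (∫⁻ v, pw 4 v * (f v * freqV f v)) +
          6 * sig * ((∫⁻ v, pw 4 v * f v) * ∫⁻ v, pw 1 v * f v))
    {s : ℝ} (hE : momW wm u s ≤ E) (hμ : μ ≤ ∫⁻ v, u (s, v)) :
    (∫⁻ v, pw 4 v * gH u (s, v)) + c0 * min μ 1 * momW (pw 5) u s ≤
      (∫⁻ v, pw 4 v * lH u (s, v)) + 6 * sig * E * momW (pw 4) u s := by
  have h := hpov (fun y => u (s, y)) (measurable_sliceV hu s)
  have h1 : ∫⁻ v, pw 1 v * u (s, v) ≤ E := by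
    refine le_trans (lintegral_mono fun v => ?_) hE
    exact mul_le_mul_left (pw1_le_wm v) _
  have h2 : min μ 1 ≤ ∫⁻ v, u (s, v) := le_trans (min_le_left _ _) hμ
  calc (∫⁻ v, pw 4 v * gH u (s, v)) + c0 * min μ 1 * momW (pw 5) u s
      ≤ (∫⁻ v, pw 4 v * gainV (fun y => u (s, y)) (fun y => u (s, y)) v) +
          c0 * ((∫⁻ v, u (s, v)) * ∫⁻ v, pw 5 v * u (s, v)) := by
        rw [mul_assoc]
        unfold momW
        gcongr
        exact le_rfl
    _ ≤ _ := h
    _ ≤ (∫⁻ v, pw 4 v * lH u (s, v)) + 6 * sig * E * momW (pw 4) u s := by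
        unfold momW
        have e : 6 * sig * E * ∫⁻ v, pw 4 v * u (s, v) =
            6 * sig * ((∫⁻ v, pw 4 v * u (s, v)) * E) := by ring
        rw [e]
        gcongr
        exact le_rfl

/-- Young's inequality, pointwise in `v`, in extended nonnegative reals. -/
lemma mp_young_pt {d b C s : ℝ} (hd : 0 ≤ d) (hb : 0 ≤ b) (hs : 0 ≤ s) (hC0 : 0 ≤ C)
    (h : ∀ r : ℝ, 0 ≤ r →
      (3 * s ^ 2 + b * s ^ 3) * r ^ 4 ≤ d * s ^ 3 * r ^ 5 + C * (1 + r ^ 2)) (v : V) :
    ENNReal.ofReal (3 * s ^ 2) * pw 4 v + ENNReal.ofReal b * (ENNReal.ofReal (s ^ 3) * pw 4 v) ≤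
      ENNReal.ofReal d * (ENNReal.ofReal (s ^ 3) * pw 5 v) + ENNReal.ofReal C * wm v := by
  have h1 := h ‖v‖ (norm_nonneg v)
  have hn := norm_nonneg v
  have e1 : ENNReal.ofReal (3 * s ^ 2) * pw 4 v +
      ENNReal.ofReal b * (ENNReal.ofReal (s ^ 3) * pw 4 v) =
      ENNReal.ofReal ((3 * s ^ 2 + b * s ^ 3) * ‖v‖ ^ 4) := by
    unfold pw
    rw [← ENNReal.ofReal_mul (by positivity), ← ENNReal.ofReal_mul (by positivity),
      ← ENNReal.ofReal_mul hb, ← ENNReal.ofReal_add (by positivity) (by positivity)]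
    congr 1
    ring
  have e2 : ENNReal.ofReal d * (ENNReal.ofReal (s ^ 3) * pw 5 v) + ENNReal.ofReal C * wm v =
      ENNReal.ofReal (d * s ^ 3 * ‖v‖ ^ 5 + C * (1 + ‖v‖ ^ 2)) := by
    unfold pw wm
    rw [← ENNReal.ofReal_mul (by positivity), ← ENNReal.ofReal_mul hd,
      ← ENNReal.ofReal_mul hC0, ← ENNReal.ofReal_add (by positivity) (by positivity)]
    congr 1
    ring
  rw [e1, e2]
  exact ENNReal.ofReal_le_ofReal h1

/-- Young's inequality integrated in `v`. -/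
lemma mp_young_int {u : ℝ × V → ℝ≥0∞} (hu : Measurable u) {d b C s : ℝ} (hd : 0 ≤ d) (hb : 0 ≤ b)
    (hs : 0 ≤ s) (hC0 : 0 ≤ C)
    (h : ∀ r : ℝ, 0 ≤ r →
      (3 * s ^ 2 + b * s ^ 3) * r ^ 4 ≤ d * s ^ 3 * r ^ 5 + C * (1 + r ^ 2)) :
    ENNReal.ofReal (3 * s ^ 2) * momW (pw 4) u s +
        ENNReal.ofReal b * (ENNReal.ofReal (s ^ 3) * momW (pw 4) u s) ≤
      ENNReal.ofReal d * (ENNReal.ofReal (s ^ 3) * momW (pw 5) u s) +
        ENNReal.ofReal C * momW wm u s := by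
  have hus := measurable_sliceV hu s
  have m4 : Measurable (fun v => pw 4 v * u (s, v)) := (measurable_pw 4).mul hus
  have m5 : Measurable (fun v => pw 5 v * u (s, v)) := (measurable_pw 5).mul hus
  have mm : Measurable (fun v => wm v * u (s, v)) := measurable_wm.mul hus
  unfold momW
  rw [← lintegral_const_mul _ m4, ← lintegral_const_mul _ m4, ← lintegral_const_mul _ (m4.const_mul _),
    ← lintegral_const_mul _ m5, ← lintegral_const_mul _ (m5.const_mul _),
    ← lintegral_const_mul _ mm, ← lintegral_add_left (m4.const_mul _),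
    ← lintegral_add_left ((m5.const_mul _).const_mul _)]
  apply lintegral_mono
  intro v
  have := mul_le_mul_left (mp_young_pt hd hb hs hC0 h v) (u (s, v))
  calc _ = (ENNReal.ofReal (3 * s ^ 2) * pw 4 v +
        ENNReal.ofReal b * (ENNReal.ofReal (s ^ 3) * pw 4 v)) * u (s, v) := by ring
    _ ≤ _ := this
    _ = _ := by ring

/-- Linearity of the time integral. -/
lemma mp_int_add {t : ℝ} {a f g : ℝ → ℝ≥0∞} (ha : Measurable a) (hf : Measurable f)
    (hg : Measurable g) (c : ℝ≥0∞) :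
    ∫⁻ s in Ioc 0 t, a s * (f s + c * g s) =
      (∫⁻ s in Ioc 0 t, a s * f s) + c * ∫⁻ s in Ioc 0 t, a s * g s := by
  have m1 : Measurable (fun s => a s * g s) := ha.mul hg
  have m2 : Measurable (fun s => a s * f s) := ha.mul hf
  rw [← lintegral_const_mul c m1, ← lintegral_add_left m2]
  apply lintegral_congr
  intro s
  ring

theorem hom_moment_production {T : ℝ} (hT : 0 < T) {E μ : ℝ≥0∞} (hE : E ≠ ∞) (hμ : μ ≠ 0) :
    ∃ K : ℝ≥0∞, K < ∞ ∧ ∀ (φ : V → ℝ≥0∞) (u : ℝ × V → ℝ≥0∞), (∀ᵐ v, φ v < ∞) →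
      IsHomMild T φ u → (∀ t ∈ Ioc (0 : ℝ) T, momW wm u t ≤ E) →
      (∀ t ∈ Ioc (0 : ℝ) T, μ ≤ ∫⁻ v, u (t, v)) →
      (∃ B : ℝ≥0∞, B < ∞ ∧ ∀ t ∈ Ioc (0 : ℝ) T, momW (fun v => wm v ^ 3) u t ≤ B) →
      ∀ t ∈ Ioc (0 : ℝ) T, ENNReal.ofReal t * momW w3 u t ≤ K := by
  obtain ⟨c0, hc0, hc0', hpov⟩ := povzner4
  have hmin0 : min μ 1 ≠ 0 := by
    intro h0
    rcases min_eq_iff.1 h0 with h | h
    · exact hμ h.1
    · exact one_ne_zero h.1
  have hδ0 : c0 * min μ 1 ≠ 0 := mul_ne_zero hc0 hmin0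
  have hδt : c0 * min μ 1 ≠ ∞ :=
    ENNReal.mul_ne_top hc0' (ne_top_of_le_ne_top ENNReal.one_ne_top (min_le_right _ _))
  have hBt : 6 * sig * E ≠ ∞ :=
    ENNReal.mul_ne_top (ENNReal.mul_ne_top (by norm_num) sig_ne_top) hE
  obtain ⟨C, hC0, hC⟩ := young_absorb (δ := (c0 * min μ 1).toReal) (B := (6 * sig * E).toReal)
    (T := T) (ENNReal.toReal_pos hδ0 hδt) ENNReal.toReal_nonneg hT.le
  refine ⟨ENNReal.ofReal (4 * T + 2) * E + 2 * (ENNReal.ofReal C * E), ?_, ?_⟩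
  · exact (ENNReal.add_ne_top.2 ⟨ENNReal.mul_ne_top ENNReal.ofReal_ne_top hE,
      ENNReal.mul_ne_top (by norm_num) (ENNReal.mul_ne_top ENNReal.ofReal_ne_top hE)⟩).lt_top
  intro φ u hφ hm hEn hmass hB3 t ht
  obtain ⟨B, hB, hB3⟩ := hB3
  have hu := hm.meas
  have hsub : ∀ s ∈ Ioc (0 : ℝ) t, s ∈ Ioc (0 : ℝ) T := fun s hs => ⟨hs.1, hs.2.trans ht.2⟩
  -- measurability
  have mc3 : Measurable (fun s : ℝ => ENNReal.ofReal (s ^ 3)) := by fun_prop
  have mc2 : Measurable (fun s : ℝ => ENNReal.ofReal (3 * s ^ 2)) := by fun_prop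
  have mm4 : Measurable (momW (pw 4) u) := measurable_momW (measurable_pw 4) hu
  have mm5 : Measurable (momW (pw 5) u) := measurable_momW (measurable_pw 5) hu
  have mG : Measurable (fun s : ℝ => ∫⁻ v, pw 4 v * gH u (s, v)) :=
    measurable_lintegral_V (A := fun q : ℝ × V => pw 4 q.2 * gH u q)
      (((measurable_pw 4).comp measurable_snd).mul (measurable_gH hu))
  have mL : Measurable (fun s : ℝ => ∫⁻ v, pw 4 v * lH u (s, v)) :=
    measurable_lintegral_V (A := fun q : ℝ × V => pw 4 q.2 * lH u q)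
      (((measurable_pw 4).comp measurable_snd).mul (measurable_lH hu))
  -- the weighted equation
  have hw := hm.weighted4 hφ t ⟨ht.1.le, ht.2⟩
  -- Povzner integrated in time
  have hp : (∫⁻ s in Ioc 0 t, ENNReal.ofReal (s ^ 3) * ∫⁻ v, pw 4 v * gH u (s, v)) +
      c0 * min μ 1 * ∫⁻ s in Ioc 0 t, ENNReal.ofReal (s ^ 3) * momW (pw 5) u s ≤
      (∫⁻ s in Ioc 0 t, ENNReal.ofReal (s ^ 3) * ∫⁻ v, pw 4 v * lH u (s, v)) +
      6 * sig * E * ∫⁻ s in Ioc 0 t, ENNReal.ofReal (s ^ 3) * momW (pw 4) u s := by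
    rw [← mp_int_add mc3 mG mm5, ← mp_int_add mc3 mL mm4]
    apply setLIntegral_mono' measurableSet_Ioc
    intro s hs
    exact mul_le_mul_right (mp_pov hu hpov (hEn s (hsub s hs)) (hmass s (hsub s hs))) _
  -- Young integrated in time
  have hy : (∫⁻ s in Ioc 0 t, ENNReal.ofReal (3 * s ^ 2) * momW (pw 4) u s) +
      6 * sig * E * ∫⁻ s in Ioc 0 t, ENNReal.ofReal (s ^ 3) * momW (pw 4) u s ≤
      c0 * min μ 1 * (∫⁻ s in Ioc 0 t, ENNReal.ofReal (s ^ 3) * momW (pw 5) u s) +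
      ENNReal.ofReal C * E * ENNReal.ofReal t := by
    have n1 : Measurable (fun s => ENNReal.ofReal (3 * s ^ 2) * momW (pw 4) u s) := mc2.mul mm4
    have n2 : Measurable (fun s => ENNReal.ofReal (s ^ 3) * momW (pw 4) u s) := mc3.mul mm4
    have n3 : Measurable (fun s => ENNReal.ofReal (s ^ 3) * momW (pw 5) u s) := mc3.mul mm5
    have ec : ENNReal.ofReal C * E * ENNReal.ofReal t =
        ∫⁻ _s in Ioc 0 t, ENNReal.ofReal C * E := by
      rw [lintegral_const, Measure.restrict_apply MeasurableSet.univ, univ_inter, Real.volume_Ioc,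
        sub_zero]
    rw [ec, ← lintegral_const_mul _ n2, ← lintegral_const_mul _ n3, ← lintegral_add_left n1,
      ← lintegral_add_left (n3.const_mul _)]
    apply setLIntegral_mono' measurableSet_Ioc
    intro s hs
    have hsT := hsub s hs
    have h1 := mp_young_int hu (d := (c0 * min μ 1).toReal) (b := (6 * sig * E).toReal) (C := C)
      (s := s) ENNReal.toReal_nonneg ENNReal.toReal_nonneg hs.1.le hC0
      (hC s ⟨hsT.1.le, hsT.2⟩)
    rw [ENNReal.ofReal_toReal hδt, ENNReal.ofReal_toReal hBt] at h1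
    refine h1.trans ?_
    gcongr
    exact hEn s hsT
  -- finiteness
  have fL : (∫⁻ s in Ioc 0 t, ENNReal.ofReal (s ^ 3) * ∫⁻ v, pw 4 v * lH u (s, v)) ≠ ∞ := by
    have hb : ∀ s ∈ Ioc (0 : ℝ) t, ENNReal.ofReal (s ^ 3) * ∫⁻ v, pw 4 v * lH u (s, v) ≤
        ENNReal.ofReal (T ^ 3) * (sig * (B * (2 * E))) := by
      intro s hs
      have hsT := hsub s hs
      have hus := measurable_sliceV hu s
      have h1 := lintegral_mul_freqV_le (measurable_pw 4) hus hus
      have h2 : ∫⁻ v, w1 v * (pw 4 v * u (s, v)) ≤ B := by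
        refine le_trans (lintegral_mono fun v => ?_) (hB3 s hsT)
        rw [← mul_assoc]
        exact mul_le_mul_left (w1_mul_pw4_le_wm3 v) _
      have h3 : ∫⁻ v, w1 v * u (s, v) ≤ 2 * E :=
        (lintegral_w1_le_two hus).trans (by gcongr; exact hEn s hsT)
      have h4 : ENNReal.ofReal (s ^ 3) ≤ ENNReal.ofReal (T ^ 3) :=
        ENNReal.ofReal_le_ofReal (pow_le_pow_left₀ hs.1.le hsT.2 3)
      have h5 : ∫⁻ v, pw 4 v * lH u (s, v) ≤ sig * (B * (2 * E)) := by
        refine le_trans h1 ?_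
        unfold sig
        gcongr
      gcongr
    refine ne_top_of_le_ne_top ?_ (lintegral_Ioc_le_const ht.2 hb)
    exact ENNReal.mul_ne_top (ENNReal.mul_ne_top ENNReal.ofReal_ne_top
      (ENNReal.mul_ne_top sig_ne_top (ENNReal.mul_ne_top hB.ne
        (ENNReal.mul_ne_top (by norm_num) hE)))) ENNReal.ofReal_ne_top
  have f5 : c0 * min μ 1 * (∫⁻ s in Ioc 0 t, ENNReal.ofReal (s ^ 3) * momW (pw 5) u s) ≠ ∞ := by
    have hb : ∀ s ∈ Ioc (0 : ℝ) t, ENNReal.ofReal (s ^ 3) * momW (pw 5) u s ≤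
        ENNReal.ofReal (T ^ 3) * B := by
      intro s hs
      have hsT := hsub s hs
      have h4 : ENNReal.ofReal (s ^ 3) ≤ ENNReal.ofReal (T ^ 3) :=
        ENNReal.ofReal_le_ofReal (pow_le_pow_left₀ hs.1.le hsT.2 3)
      have h5 : momW (pw 5) u s ≤ B := by
        refine le_trans (lintegral_mono fun v => ?_) (hB3 s hsT)
        exact mul_le_mul_left (pw5_le_wm3 v) _
      gcongr
    refine ENNReal.mul_ne_top hδt (ne_top_of_le_ne_top ?_ (lintegral_Ioc_le_const ht.2 hb))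
    exact ENNReal.mul_ne_top (ENNReal.mul_ne_top ENNReal.ofReal_ne_top hB.ne) ENNReal.ofReal_ne_top
  -- combination
  have key3 : ENNReal.ofReal (t ^ 3) * momW (pw 4) u t ≤ ENNReal.ofReal C * E * ENNReal.ofReal t := by
    generalize (∫⁻ s in Ioc 0 t, ENNReal.ofReal (s ^ 3) * ∫⁻ v, pw 4 v * lH u (s, v)) = L
      at hw hp fL
    generalize (∫⁻ s in Ioc 0 t, ENNReal.ofReal (s ^ 3) * ∫⁻ v, pw 4 v * gH u (s, v)) = G
      at hw hp
    generalize c0 * min μ 1 * (∫⁻ s in Ioc 0 t, ENNReal.ofReal (s ^ 3) * momW (pw 5) u s) = M5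
      at hp hy f5
    generalize 6 * sig * E * (∫⁻ s in Ioc 0 t, ENNReal.ofReal (s ^ 3) * momW (pw 4) u s) = A4
      at hp hy
    generalize (∫⁻ s in Ioc 0 t, ENNReal.ofReal (3 * s ^ 2) * momW (pw 4) u s) = A3 at hw hy
    have h1 : ENNReal.ofReal (t ^ 3) * momW (pw 4) u t + (L + M5) ≤
        ENNReal.ofReal C * E * ENNReal.ofReal t + (L + M5) := by
      calc ENNReal.ofReal (t ^ 3) * momW (pw 4) u t + (L + M5)
          = (ENNReal.ofReal (t ^ 3) * momW (pw 4) u t + L) + M5 := by ring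
        _ = A3 + (G + M5) := by rw [hw]; ring
        _ ≤ A3 + (L + A4) := by gcongr
        _ = (A3 + A4) + L := by ring
        _ ≤ (M5 + ENNReal.ofReal C * E * ENNReal.ofReal t) + L := by gcongr
        _ = _ := by ring
    exact (ENNReal.add_le_add_iff_right (ENNReal.add_ne_top.2 ⟨fL, f5⟩)).1 h1
  have key2 : ENNReal.ofReal (t ^ 2) * momW (pw 4) u t ≤ ENNReal.ofReal C * E := by
    have e3 : ENNReal.ofReal (t ^ 3) = ENNReal.ofReal t * ENNReal.ofReal (t ^ 2) := by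
      rw [← ENNReal.ofReal_mul ht.1.le]
      congr 1
      ring
    rw [e3, mul_assoc, mul_comm (ENNReal.ofReal C * E)] at key3
    exact (ENNReal.mul_le_mul_iff_right (ENNReal.ofReal_pos.2 ht.1).ne' ENNReal.ofReal_ne_top).1 key3
  -- conclusion
  have hus := measurable_sliceV hu t
  have n1 : Measurable (fun v => wm v * u (t, v)) := measurable_wm.mul hus
  have n2 : Measurable (fun v => pw 4 v * u (t, v)) := (measurable_pw 4).mul hus
  have n3 : Measurable (fun v => w3 v * u (t, v)) := measurable_w3.mul hus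
  calc ENNReal.ofReal t * momW w3 u t
      = ∫⁻ v, ENNReal.ofReal t * (w3 v * u (t, v)) := by
        unfold momW
        rw [lintegral_const_mul _ n3]
    _ ≤ ∫⁻ v, (ENNReal.ofReal (4 * T + 2) * (wm v * u (t, v)) +
          2 * (ENNReal.ofReal (t ^ 2) * (pw 4 v * u (t, v)))) := by
        apply lintegral_mono
        intro v
        have := mul_le_mul_left (ofReal_mul_w3_le ht.1.le ht.2 v) (u (t, v))
        calc _ = ENNReal.ofReal t * w3 v * u (t, v) := by ring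
          _ ≤ _ := this
          _ = _ := by ring
    _ = ENNReal.ofReal (4 * T + 2) * momW wm u t +
          2 * (ENNReal.ofReal (t ^ 2) * momW (pw 4) u t) := by
        unfold momW
        rw [lintegral_add_left (n1.const_mul _), lintegral_const_mul _ n1,
          lintegral_const_mul _ (n2.const_mul _), lintegral_const_mul _ n2]
    _ ≤ _ := by
        gcongr
        exact hEn t ht

end Vale.Agent.Lib.P140
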