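import Mathlib
import Vale.Agent.Lib.P140.MomProd
import Vale.Agent.Lib.P140.HomStab
import Vale.Agent.Lib.P140.GronwallQ

/-!
# The solutions with truncated data form a Cauchy sequence with summable increments
-/

namespace Vale.Agent.Lib.P140

open MeasureTheory Set Filter Topology
open scoped ENNReal

variable {f0 : V → ℝ≥0∞}

/-- The solution with datum `f0 1_{|v| ≤ n}`. -/
noncomputable def un (f0 : V → ℝ≥0∞) (n : ℕ) : ℝ × V → ℝ≥0∞ :=
  arkSol (nInt (cut f0 n)) (cut f0 n)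

/-- The energy of `f0` in the shell `n < |v| ≤ n+1`. -/
noncomputable def en (f0 : V → ℝ≥0∞) (n : ℕ) : ℝ≥0∞ :=
  ∫⁻ v, wm v * (cut f0 (n + 1) v - cut f0 n v)

lemma nInt_cut_le (f0 : V → ℝ≥0∞) (n : ℕ) : nInt (cut f0 n) ≤ nInt f0 :=
  lintegral_mono fun v => mul_le_mul_right (cut_le f0 n v) _

lemma en_add (hf0 : Measurable f0) (n : ℕ) : en f0 n + nInt (cut f0 n) = nInt (cut f0 (n + 1)) := by
  unfold en nInt
  have hm : Measurable (fun v => wm v * cut f0 n v) := measurable_wm.mul (measurable_cut hf0 n)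
  rw [← lintegral_add_right _ hm]
  apply lintegral_congr
  intro v
  rw [← mul_add, tsub_add_cancel_of_le (cut_mono f0 (Nat.le_succ n) v)]

lemma tsum_en_le (hf0 : Measurable f0) (hE : nInt f0 < ∞) : ∑' n, en f0 n ≤ nInt f0 := by
  apply ENNReal.tsum_le_of_sum_range_le
  intro N
  have key : ∀ N : ℕ, (∑ i ∈ Finset.range N, en f0 i) + nInt (cut f0 0) = nInt (cut f0 N) := by
    intro N
    induction N with
    | zero => simp
    | succ N ih =>
      rw [Finset.sum_range_succ, add_assoc, add_comm (en f0 N), ← add_assoc, ih, add_comm]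
      exact en_add hf0 N
  exact le_trans (le_trans le_self_add (key N).le) (nInt_cut_le f0 N)

/-- `(n+2) ∫ (f0 1_{n<|v|≤n+1}) ≤ 2 e_n`. -/
lemma shell_mass_le (f0 : V → ℝ≥0∞) (n : ℕ) :
    ENNReal.ofReal ((n : ℝ) + 2) * ∫⁻ v, (cut f0 (n + 1) v - cut f0 n v) ≤ 2 * en f0 n := by
  unfold en
  rw [← lintegral_const_mul' _ _ ENNReal.ofReal_ne_top, ← lintegral_const_mul' _ _ (by simp)]
  apply lintegral_mono
  intro v
  by_cases h : ‖v‖ ≤ n
  · have h' : ‖v‖ ≤ ((n + 1 : ℕ) : ℝ) := by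
      push_cast
      linarith
    simp only [cut, if_pos h, if_pos h', tsub_self, mul_zero, le_refl]
  · simp only []
    rw [← mul_assoc]
    refine mul_le_mul_left ?_ _
    unfold wm
    have e2 : (2 : ℝ≥0∞) * ENNReal.ofReal (1 + ‖v‖ ^ 2) = ENNReal.ofReal (2 * (1 + ‖v‖ ^ 2)) := by
      rw [ENNReal.ofReal_mul (by norm_num)]
      simp
    rw [e2]
    apply ENNReal.ofReal_le_ofReal
    push Not at h
    have hn : (0 : ℝ) ≤ n := Nat.cast_nonneg n
    have h1 : (n : ℝ) ≤ (n : ℝ) ^ 2 := by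
      rcases Nat.eq_zero_or_pos n with h0 | h0
      · simp [h0]
      · have : (1 : ℝ) ≤ n := by exact_mod_cast h0
        nlinarith
    nlinarith

lemma tendsto_lintegral_cut (hf0 : Measurable f0) :
    Tendsto (fun n => ∫⁻ v, cut f0 n v) atTop (𝓝 (∫⁻ v, f0 v)) := by
  apply lintegral_tendsto_of_tendsto_of_monotone
  · intro n
    exact (measurable_cut hf0 n).aemeasurable
  · exact Eventually.of_forall fun v => fun a b hab => cut_mono f0 hab v
  · refine Eventually.of_forall fun v => ?_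
    obtain ⟨N, hN⟩ := exists_nat_ge ‖v‖
    apply tendsto_atTop_of_eventually_const (i₀ := N)
    intro n hn
    have : ‖v‖ ≤ (n : ℝ) := hN.trans (by exact_mod_cast hn)
    simp only [cut, if_pos this]

lemma lintegral_le_nInt (f : V → ℝ≥0∞) : ∫⁻ v, f v ≤ nInt f :=
  lintegral_mono fun v => le_wm_mul v _

lemma tendsto_lintegral_sub_cut (hf0 : Measurable f0) (hE : nInt f0 < ∞) :
    Tendsto (fun n => ∫⁻ v, (f0 v - cut f0 n v)) atTop (𝓝 0) := by
  have hfin : ∫⁻ v, f0 v ≠ ∞ := (lt_of_le_of_lt (lintegral_le_nInt f0) hE).ne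
  have e : ∀ n, ∫⁻ v, (f0 v - cut f0 n v) = (∫⁻ v, f0 v) - ∫⁻ v, cut f0 n v := by
    intro n
    apply lintegral_sub (measurable_cut hf0 n)
    · exact ne_top_of_le_ne_top hfin (lintegral_mono (cut_le f0 n))
    · exact Eventually.of_forall (cut_le f0 n)
  simp only [e]
  have := ENNReal.Tendsto.sub (tendsto_const_nhds (x := ∫⁻ v, f0 v)) (tendsto_lintegral_cut hf0)
    (Or.inl hfin)
  rwa [tsub_self] at this

/-- If `f0` has positive mass, so has a truncation. -/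
lemma exists_cut_mass_pos (hf0 : Measurable f0) (hpos : ∫⁻ v, f0 v ≠ 0) :
    ∃ n0 : ℕ, ∫⁻ v, cut f0 n0 v ≠ 0 := by
  by_contra hcon
  push Not at hcon
  have h := tendsto_lintegral_cut hf0
  simp only [hcon] at h
  exact hpos (tendsto_nhds_unique h tendsto_const_nhds)

lemma measurable_un (hf0 : Measurable f0) (n : ℕ) : Measurable (un f0 n) :=
  measurable_arkSol (measurable_cut hf0 n)

/-- Properties of the solutions with truncated data. -/
theorem un_props (hf0 : Measurable f0) (hE : nInt f0 < ∞) (T : ℝ) (n : ℕ) :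
    IsHomMild T (cut f0 n) (un f0 n) ∧
    (∀ t : ℝ, 0 ≤ t → momW wm (un f0 n) t = nInt (cut f0 n)) ∧
    (∀ t ∈ Ioc (0 : ℝ) T, ∫⁻ v, un f0 n (t, v) = ∫⁻ v, cut f0 n v) ∧
    (∃ B : ℝ≥0∞, B < ∞ ∧ ∀ t ∈ Ioc (0 : ℝ) T, momW (fun v => wm v ^ 3) (un f0 n) t ≤ B) ∧
    (∀ t ∈ Ioc (0 : ℝ) T, momW w3 (un f0 n) t ≤ 3 * (ENNReal.ofReal (2 * (1 + (n : ℝ))) * nInt f0 *
      ENNReal.ofReal (Real.exp ((2 * sig * nInt f0).toReal * T)))) := by
  have hc := measurable_cut hf0 n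
  have h3 : ∫⁻ v, w3 v * cut f0 n v < ∞ :=
    lt_of_le_of_lt (lintegral_w3_cut_le f0 n) (ENNReal.mul_lt_top ENNReal.ofReal_lt_top hE)
  have hEn : nInt (cut f0 n) ≠ ∞ := (lt_of_le_of_lt (nInt_cut_le f0 n) hE).ne
  have hmild : IsHomMild T (cut f0 n) (un f0 n) := isHomMild_arkSol hc h3 T
  have hN : ∀ t : ℝ, 0 ≤ t → momW wm (un f0 n) t = nInt (cut f0 n) := fun t ht =>
    arkSol_nInt_eq hc h3 ht
  refine ⟨hmild, hN, hmild.weak.mass_eq hc hEn (fun s hs => (hN s hs.1.le).le), ?_, ?_⟩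
  · refine ⟨(∫⁻ v, wm v ^ 3 * cut f0 n v) *
      ENNReal.ofReal (Real.exp ((6 * sig * nInt (cut f0 n)).toReal * T)), ?_, ?_⟩
    · refine ENNReal.mul_lt_top ?_ ENNReal.ofReal_lt_top
      exact lt_of_le_of_lt (lintegral_wm3_cut_le f0 n) (ENNReal.mul_lt_top ENNReal.ofReal_lt_top hE)
    · intro t ht
      refine (arkSol_W_le hc le_rfl hEn povW_wm3 ht.1.le).trans ?_
      refine mul_le_mul_right ?_ _
      apply ENNReal.ofReal_le_ofReal
      apply Real.exp_le_exp.2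
      exact mul_le_mul_of_nonneg_left ht.2 ENNReal.toReal_nonneg
  · intro t ht
    refine (arkSol_w3_le hc le_rfl hEn ht.1.le ht.2).trans ?_
    refine mul_le_mul_right (mul_le_mul' (lintegral_w3_cut_le f0 n) ?_) _
    apply ENNReal.ofReal_le_ofReal
    apply Real.exp_le_exp.2
    refine mul_le_mul_of_nonneg_right ?_ (ht.1.le.trans ht.2)
    apply ENNReal.toReal_mono
    · exact ENNReal.mul_ne_top (ENNReal.mul_ne_top (by simp) sig_ne_top) hE.ne
    · exact mul_le_mul_right (nInt_cut_le f0 n) _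

lemma Yh_le_momW (u w : ℝ × V → ℝ≥0∞) (t : ℝ) : Yh u w t ≤ momW wm w t :=
  lintegral_mono fun _ => mul_le_mul_right tsub_le_self _

lemma ae_cut_lt_top (hf0 : Measurable f0) (hE : nInt f0 < ∞) (n : ℕ) :
    ∀ᵐ v, cut f0 n v < ∞ := by
  have hfin : ∫⁻ v, f0 v ≠ ∞ := (lt_of_le_of_lt (lintegral_le_nInt f0) hE).ne
  filter_upwards [ae_lt_top hf0 hfin] with v hv
  exact lt_of_le_of_lt (cut_le f0 n v) hv

/-- the bound of the third moments of two consecutive solutions -/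
lemma un_third_sum_le (hf0 : Measurable f0) (hE : nInt f0 < ∞) (T : ℝ) (n : ℕ) :
    ∀ s ∈ Ioc (0 : ℝ) T, momW w3 (un f0 n) s + momW w3 (un f0 (n + 1)) s ≤
      12 * nInt f0 * ENNReal.ofReal (Real.exp ((2 * sig * nInt f0).toReal * T)) *
        ENNReal.ofReal ((n : ℝ) + 2) := by
  intro s hs
  obtain ⟨-, -, -, -, Mu⟩ := un_props hf0 hE T n
  obtain ⟨-, -, -, -, Mw⟩ := un_props hf0 hE T (n + 1)
  have hn : (0 : ℝ) ≤ n := Nat.cast_nonneg n
  have e1 : ENNReal.ofReal (2 * (1 + (n : ℝ))) ≤ 2 * ENNReal.ofReal ((n : ℝ) + 2) := by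
    rw [show (2 : ℝ≥0∞) = ENNReal.ofReal 2 by simp, ← ENNReal.ofReal_mul (by norm_num)]
    apply ENNReal.ofReal_le_ofReal
    linarith
  have e2 : ENNReal.ofReal (2 * (1 + ((n + 1 : ℕ) : ℝ))) ≤ 2 * ENNReal.ofReal ((n : ℝ) + 2) := by
    rw [show (2 : ℝ≥0∞) = ENNReal.ofReal 2 by simp, ← ENNReal.ofReal_mul (by norm_num)]
    apply ENNReal.ofReal_le_ofReal
    push_cast
    linarith
  set E := nInt f0
  set cE := ENNReal.ofReal (Real.exp ((2 * sig * E).toReal * T))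
  set r := ENNReal.ofReal ((n : ℝ) + 2)
  calc momW w3 (un f0 n) s + momW w3 (un f0 (n + 1)) s
      ≤ 3 * (2 * r * E * cE) + 3 * (2 * r * E * cE) := by
        refine add_le_add ((Mu s hs).trans ?_) ((Mw s hs).trans ?_)
        · exact mul_le_mul_right (mul_le_mul_left (mul_le_mul_left e1 _) _) _
        · exact mul_le_mul_right (mul_le_mul_left (mul_le_mul_left e2 _) _) _
    _ = 12 * E * cE * r := by ring

/-- The distance of two consecutive solutions is controlled by the energy in the shell. -/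
theorem un_incr_le (hf0 : Measurable f0) (hE : nInt f0 < ∞) {T : ℝ} (hT : 0 < T) {K3 : ℝ≥0∞}
    (hK3 : K3 < ∞) {n0 : ℕ}
    (h3 : ∀ n, n0 ≤ n → ∀ t ∈ Ioc (0 : ℝ) T, ENNReal.ofReal t * momW w3 (un f0 n) t ≤ K3) :
    ∃ C : ℝ≥0∞, C < ∞ ∧ ∀ n, n0 ≤ n → ∀ t ∈ Ioc (0 : ℝ) T,
      Yh (un f0 n) (un f0 (n + 1)) t + Yh (un f0 (n + 1)) (un f0 n) t ≤ C * en f0 n := by
  set E := nInt f0 with hEdef
  set cE : ℝ≥0∞ := ENNReal.ofReal (Real.exp ((2 * sig * E).toReal * T)) with hcE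
  set CL : ℝ≥0∞ := 12 * E * cE * ENNReal.ofReal T with hCL
  set c : ℝ≥0∞ := sig * (8 * (sig * E) * (2 * K3) + 2 * E) with hc
  set eT : ℝ≥0∞ := ENNReal.ofReal (Real.exp (2 * c.toReal * T)) with heT
  have hCLfin : CL ≠ ∞ := ENNReal.mul_ne_top (ENNReal.mul_ne_top (ENNReal.mul_ne_top (by simp)
    hE.ne) ENNReal.ofReal_ne_top) ENNReal.ofReal_ne_top
  refine ⟨2 * (1 + 2 * (sig * CL)) * eT, ?_, ?_⟩
  · refine ENNReal.mul_lt_top (ENNReal.mul_lt_top (by simp) (ENNReal.add_lt_top.2 ⟨by simp, ?_⟩))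
      ENNReal.ofReal_lt_top
    exact ENNReal.mul_lt_top (by simp) (ENNReal.mul_lt_top (lt_top_iff_ne_top.2 sig_ne_top)
      (lt_top_iff_ne_top.2 hCLfin))
  intro n hn t ht
  obtain ⟨mu, Nu, -, -, -⟩ := un_props hf0 hE T n
  obtain ⟨mw, Nw, -, -, -⟩ := un_props hf0 hE T (n + 1)
  have hφm := measurable_cut hf0 n
  have hψm := measurable_cut hf0 (n + 1)
  have hφ := ae_cut_lt_top hf0 hE n
  have hψ := ae_cut_lt_top hf0 hE (n + 1)
  have Nu' : ∀ s ∈ Ioc (0 : ℝ) T, momW wm (un f0 n) s ≤ E := fun s hs =>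
    (Nu s hs.1.le).le.trans (nInt_cut_le f0 n)
  have Nw' : ∀ s ∈ Ioc (0 : ℝ) T, momW wm (un f0 (n + 1)) s ≤ E := fun s hs =>
    (Nw s hs.1.le).le.trans (nInt_cut_le f0 (n + 1))
  have hzero : ∀ v, cut f0 n v - cut f0 (n + 1) v = 0 := fun v =>
    tsub_eq_zero_of_le (cut_mono f0 (Nat.le_succ n) v)
  have m3u := measurable_momW measurable_w3 mu.meas
  have m3w := measurable_momW measurable_w3 mw.meas
  have mXuw := measurable_Xh mu.meas mw.meas
  have mXwu := measurable_Xh mw.meas mu.meas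
  have mYuw := measurable_Yh mu.meas mw.meas
  have mYwu := measurable_Yh mw.meas mu.meas
  have hsum := un_third_sum_le hf0 hE T n
  set r : ℝ≥0∞ := ENNReal.ofReal ((n : ℝ) + 2) with hr
  have hkΛ : ∫⁻ s in Ioc 0 T, (momW w3 (un f0 n) s + momW w3 (un f0 (n + 1)) s) ≤ CL * r := by
    refine (lintegral_Ioc_le_const le_rfl hsum).trans (le_of_eq ?_)
    rw [hCL]
    ring
  have hΛfin : CL * r ≠ ∞ := ENNReal.mul_ne_top hCLfin ENNReal.ofReal_ne_top
  have f3u : ∫⁻ s in Ioc 0 T, momW w3 (un f0 n) s < ∞ :=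
    lt_of_le_of_lt (le_trans (lintegral_mono fun s => le_self_add) hkΛ) (lt_top_iff_ne_top.2 hΛfin)
  have f3w : ∫⁻ s in Ioc 0 T, momW w3 (un f0 (n + 1)) s < ∞ :=
    lt_of_le_of_lt (le_trans (lintegral_mono fun s => le_add_self) hkΛ) (lt_top_iff_ne_top.2 hΛfin)
  have hX0fin : ∫⁻ v, (cut f0 (n + 1) v - cut f0 n v) ≠ ∞ := by
    refine ne_top_of_le_ne_top hE.ne (le_trans (lintegral_mono fun v => ?_) (lintegral_le_nInt f0))
    exact tsub_le_self.trans (cut_le f0 (n + 1) v)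
  have hD0fin : en f0 n ≠ ∞ := by
    refine ne_top_of_le_ne_top hE.ne (lintegral_mono fun v => mul_le_mul_right ?_ _)
    exact tsub_le_self.trans (cut_le f0 (n + 1) v)
  have key := stability_gronwall
    (D := fun t => Yh (un f0 n) (un f0 (n + 1)) t + Yh (un f0 (n + 1)) (un f0 n) t)
    (X := fun t => Xh (un f0 n) (un f0 (n + 1)) t + Xh (un f0 (n + 1)) (un f0 n) t)
    (k := fun s => momW w3 (un f0 n) s + momW w3 (un f0 (n + 1)) s)
    (D0 := en f0 n) (X0 := ∫⁻ v, (cut f0 (n + 1) v - cut f0 n v))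
    (a := 8 * (sig * E)) (b := sig) (e := 2 * E) (K3 := 2 * K3) (Λ := CL * r) (B := 2 * E) T
    (ENNReal.mul_ne_top (by simp) (ENNReal.mul_ne_top sig_ne_top hE.ne)) sig_ne_top
    (ENNReal.mul_ne_top (by simp) hE.ne) (ENNReal.mul_ne_top (by simp) hK3.ne) hΛfin
    (ENNReal.mul_ne_top (by simp) hE.ne) hD0fin hX0fin (mYuw.add mYwu) (m3u.add m3w)
    ?_ ?_ ?_ hkΛ ?_ t ht
  · -- conclusion
    refine key.trans ?_
    have h1 : en f0 n + sig * (CL * r) * ∫⁻ v, (cut f0 (n + 1) v - cut f0 n v) ≤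
        (1 + 2 * (sig * CL)) * en f0 n := by
      calc en f0 n + sig * (CL * r) * ∫⁻ v, (cut f0 (n + 1) v - cut f0 n v)
          = en f0 n + sig * CL * (r * ∫⁻ v, (cut f0 (n + 1) v - cut f0 n v)) := by ring
        _ ≤ en f0 n + sig * CL * (2 * en f0 n) :=
            add_le_add le_rfl (mul_le_mul_right (shell_mass_le f0 n) _)
        _ = (1 + 2 * (sig * CL)) * en f0 n := by ring
    have h2 : ENNReal.ofReal (Real.exp (2 * c.toReal * t)) ≤ eT := by
      apply ENNReal.ofReal_le_ofReal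
      apply Real.exp_le_exp.2
      exact mul_le_mul_of_nonneg_left ht.2 (mul_nonneg (by norm_num) ENNReal.toReal_nonneg)
    calc 2 * (en f0 n + sig * (CL * r) * ∫⁻ v, (cut f0 (n + 1) v - cut f0 n v)) *
          ENNReal.ofReal (Real.exp (2 * c.toReal * t))
        ≤ 2 * ((1 + 2 * (sig * CL)) * en f0 n) * eT :=
          mul_le_mul' (mul_le_mul_right h1 _) h2
      _ = 2 * (1 + 2 * (sig * CL)) * eT * en f0 n := by ring
  · -- the inequality for X
    intro t ht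
    have a1 := homX_le hφm hψm hφ hψ mu mw hE.ne Nw' t ⟨ht.1.le, ht.2⟩
    have a2 := homX_le hψm hφm hψ hφ mw mu hE.ne Nu' t ⟨ht.1.le, ht.2⟩
    simp only [hzero, lintegral_zero, zero_add] at a2
    have e : (fun s => Yh (un f0 (n + 1)) (un f0 n) s + Yh (un f0 n) (un f0 (n + 1)) s) =
        fun s => Yh (un f0 n) (un f0 (n + 1)) s + Yh (un f0 (n + 1)) (un f0 n) s :=
      funext fun s => add_comm _ _
    rw [e] at a2
    refine (add_le_add a1 a2).trans (le_of_eq ?_)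
    ring
  · -- the inequality for D
    intro t ht
    have a1 := homY_le hφm hψm hφ hψ mu mw hE.ne Nw' f3w t ⟨ht.1.le, ht.2⟩
    have a2 := homY_le hψm hφm hψ hφ mw mu hE.ne Nu' f3u t ⟨ht.1.le, ht.2⟩
    simp only [hzero, mul_zero, lintegral_zero, zero_add] at a2
    have mJ : Measurable (fun s => momW w3 (un f0 (n + 1)) s *
        (Xh (un f0 n) (un f0 (n + 1)) s + Xh (un f0 (n + 1)) (un f0 n) s) +
        E * (Yh (un f0 n) (un f0 (n + 1)) s + Yh (un f0 (n + 1)) (un f0 n) s)) :=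
      (m3w.mul (mXuw.add mXwu)).add (measurable_const.mul (mYuw.add mYwu))
    refine (add_le_add a1 a2).trans (le_of_eq ?_)
    rw [add_assoc, ← mul_add, ← lintegral_add_left mJ]
    congr 2
    apply lintegral_congr
    intro s
    ring
  · -- s k(s) ≤ 2 K3
    intro s hs
    rw [mul_add, two_mul]
    exact add_le_add (h3 n hn s hs) (h3 (n + 1) (hn.trans (Nat.le_succ n)) s hs)
  · -- D ≤ 2 E
    intro s hs
    rw [two_mul]
    exact add_le_add ((Yh_le_momW _ _ s).trans (Nw' s hs)) ((Yh_le_momW _ _ s).trans (Nu' s hs))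

/-- The approximating sequence. -/
theorem exists_homApprox (hf0 : Measurable f0) (hE : nInt f0 < ∞) (hpos : ∫⁻ v, f0 v ≠ 0) {T : ℝ}
    (hT : 0 < T) :
    ∃ (φ : ℕ → V → ℝ≥0∞) (a : ℕ → ℝ × V → ℝ≥0∞) (d : ℕ → ℝ≥0∞) (K3 : ℝ≥0∞),
      HomApprox T f0 φ a d K3 := by
  obtain ⟨n0, hn0⟩ := exists_cut_mass_pos hf0 hpos
  obtain ⟨K3, hK3, hprod⟩ := hom_moment_production hT (E := nInt f0) (μ := ∫⁻ v, cut f0 n0 v)
    hE.ne hn0
  have h3 : ∀ n, n0 ≤ n → ∀ t ∈ Ioc (0 : ℝ) T, ENNReal.ofReal t * momW w3 (un f0 n) t ≤ K3 := by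
    intro n hn
    obtain ⟨mu, Nu, Mu, Bu, -⟩ := un_props hf0 hE T n
    apply hprod (cut f0 n) (un f0 n) (ae_cut_lt_top hf0 hE n) mu
    · exact fun s hs => (Nu s hs.1.le).le.trans (nInt_cut_le f0 n)
    · intro s hs
      rw [Mu s hs]
      exact lintegral_mono (cut_mono f0 hn)
    · exact Bu
  obtain ⟨C, hC, hincr⟩ := un_incr_le hf0 hE hT hK3 h3
  refine ⟨fun m => cut f0 (n0 + m), fun m => un f0 (n0 + m), fun m => C * en f0 (n0 + m), K3, ?_⟩
  refine ⟨hK3, ?_, fun m => measurable_cut hf0 _, fun m v => cut_le f0 _ v, ?_,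
    fun m => (un_props hf0 hE T _).1, ?_, fun m => h3 _ (Nat.le_add_right _ _),
    fun m => hincr _ (Nat.le_add_right _ _)⟩
  · rw [ENNReal.tsum_mul_left]
    refine ENNReal.mul_lt_top hC (lt_of_le_of_lt ?_ hE)
    refine le_trans ?_ (tsum_en_le hf0 hE)
    have hinj : Function.Injective (fun m : ℕ => n0 + m) := fun a b h => Nat.add_left_cancel h
    exact ENNReal.tsum_comp_le_tsum_of_injective hinj (en f0)
  · have := (tendsto_lintegral_sub_cut hf0 hE).comp (tendsto_add_atTop_nat n0)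
    refine this.congr fun m => ?_
    simp only [Function.comp, add_comm m n0]
  · intro m s hs
    exact ((un_props hf0 hE T _).2.1 s hs.1.le).le.trans (nInt_cut_le f0 _)

end Vale.Agent.Lib.P140
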