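import Mathlib
import Vale.Agent.Lib.P140.HomMild
import Vale.Agent.Lib.P140.Pointwise

/-!
# Continuity of the gain and loss terms in `L^1` (truncated differences)
-/

namespace Vale.Agent.Lib.P140

open MeasureTheory Set
open scoped ENNReal

variable {f h : V → ℝ≥0∞}

theorem lintegral_gain_sub_le (hf : Measurable f) (hh : Measurable h) :
    ∫⁻ v, (gainV f f v - gainV h h v) ≤
      2 * sig * (∫⁻ v, w1 v * f v) * ∫⁻ v, w1 v * (f v - h v) := by
  have hd : Measurable (fun u => f u - h u) := hf.sub hh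
  have h1 : ∀ v, gainV f f v - gainV h h v ≤
      gainV f (fun u => f u - h u) v + gainV (fun u => f u - h u) f v := by
    intro v
    rw [tsub_le_iff_left, ← add_assoc]
    exact gainV_le_add hh hf v
  calc ∫⁻ v, (gainV f f v - gainV h h v)
      ≤ ∫⁻ v, (gainV f (fun u => f u - h u) v + gainV (fun u => f u - h u) f v) :=
        lintegral_mono h1
    _ = (∫⁻ v, f v * freqV (fun u => f u - h u) v) + ∫⁻ v, (f v - h v) * freqV f v :=
        lintegral_gain_pair hf hd
    _ ≤ sig * ((∫⁻ v, w1 v * f v) * ∫⁻ v, w1 v * (f v - h v)) +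
          sig * ((∫⁻ v, w1 v * (f v - h v)) * ∫⁻ v, w1 v * f v) :=
        add_le_add (lintegral_freqV_le hf hd) (lintegral_freqV_le hd hf)
    _ = 2 * sig * (∫⁻ v, w1 v * f v) * ∫⁻ v, w1 v * (f v - h v) := by ring

theorem lintegral_loss_sub_le (hf : Measurable f) (hh : Measurable h) :
    ∫⁻ v, (f v * freqV f v - h v * freqV h v) ≤
      sig * ((∫⁻ v, w1 v * f v) + ∫⁻ v, w1 v * h v) * ∫⁻ v, w1 v * (f v - h v) := by
  have hd : Measurable (fun u => f u - h u) := hf.sub hh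
  have h1 : ∀ v, f v * freqV f v - h v * freqV h v ≤
      h v * freqV (fun u => f u - h u) v + (f v - h v) * freqV f v := by
    intro v
    rw [tsub_le_iff_left]
    calc f v * freqV f v ≤ (h v + (f v - h v)) * freqV f v := by
          gcongr
          exact le_add_tsub
      _ = h v * freqV f v + (f v - h v) * freqV f v := add_mul _ _ _
      _ ≤ h v * (freqV h v + freqV (fun u => f u - h u) v) + (f v - h v) * freqV f v := by
          gcongr
          exact freqV_le_add hf hh v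
      _ = h v * freqV h v + (h v * freqV (fun u => f u - h u) v + (f v - h v) * freqV f v) := by
          ring
  have hm : Measurable (fun v => h v * freqV (fun u => f u - h u) v) :=
    hh.mul (measurable_freqV' hd)
  calc ∫⁻ v, (f v * freqV f v - h v * freqV h v)
      ≤ ∫⁻ v, (h v * freqV (fun u => f u - h u) v + (f v - h v) * freqV f v) :=
        lintegral_mono h1
    _ = (∫⁻ v, h v * freqV (fun u => f u - h u) v) + ∫⁻ v, (f v - h v) * freqV f v :=
        lintegral_add_left hm _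
    _ ≤ sig * ((∫⁻ v, w1 v * h v) * ∫⁻ v, w1 v * (f v - h v)) +
          sig * ((∫⁻ v, w1 v * (f v - h v)) * ∫⁻ v, w1 v * f v) :=
        add_le_add (lintegral_freqV_le hh hd) (lintegral_freqV_le hd hf)
    _ = sig * ((∫⁻ v, w1 v * f v) + ∫⁻ v, w1 v * h v) * ∫⁻ v, w1 v * (f v - h v) := by ring

/-- `(∫_0^t A - ∫_0^t B)_+ ≤ ∫_0^t (A-B)_+`. -/
lemma lintegral_sub_le_lintegral_sub {A B : ℝ → ℝ≥0∞} (mA : Measurable A) (mB : Measurable B)
    (t : ℝ) : (∫⁻ s in Ioc 0 t, A s) - ∫⁻ s in Ioc 0 t, B s ≤ ∫⁻ s in Ioc 0 t, (A s - B s) := by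
  have hm : Measurable (fun s => A s - B s) := mA.sub mB
  rw [tsub_le_iff_right, ← lintegral_add_left hm]
  exact lintegral_mono fun s => le_tsub_add

variable {u w : ℝ × V → ℝ≥0∞}

lemma homCont_slice (hu : Measurable u) (s : ℝ) : Measurable (fun y : V => u (s, y)) :=
  hu.comp (measurable_const.prodMk measurable_id)

lemma homCont_time_slice {G : ℝ × V → ℝ≥0∞} (hG : Measurable G) (v : V) :
    Measurable (fun s : ℝ => G (s, v)) :=
  hG.comp (measurable_id.prodMk measurable_const)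

/-- Tonelli and the constant bound in time. -/
lemma homCont_time_le {G H : ℝ × V → ℝ≥0∞} (hG : Measurable G) (hH : Measurable H) {t : ℝ}
    {c : ℝ≥0∞} (hc : ∀ s ∈ Ioc (0 : ℝ) t, ∫⁻ v, (G (s, v) - H (s, v)) ≤ c) :
    ∫⁻ v, ((∫⁻ s in Ioc 0 t, G (s, v)) - ∫⁻ s in Ioc 0 t, H (s, v)) ≤ c * ENNReal.ofReal t := by
  have hD : Measurable (fun q : ℝ × V => G q - H q) := hG.sub hH
  calc ∫⁻ v, ((∫⁻ s in Ioc 0 t, G (s, v)) - ∫⁻ s in Ioc 0 t, H (s, v))
      ≤ ∫⁻ v, ∫⁻ s in Ioc 0 t, (G (s, v) - H (s, v)) :=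
        lintegral_mono fun v =>
          lintegral_sub_le_lintegral_sub (homCont_time_slice hG v) (homCont_time_slice hH v) t
    _ = ∫⁻ s in Ioc 0 t, ∫⁻ v, (G (s, v) - H (s, v)) := by
        rw [lintegral_lintegral_swap]
        exact (hD.comp measurable_swap).aemeasurable
    _ ≤ ∫⁻ _s in Ioc 0 t, c := by
        apply setLIntegral_mono measurable_const
        intro s hs
        exact hc s hs
    _ = c * ENNReal.ofReal t := by
        rw [setLIntegral_const, Real.volume_Ioc, sub_zero]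

/-- Time-integrated version for two time-dependent densities with energy at most `E`. -/
theorem lintegral_time_gain_sub_le (hu : Measurable u) (hw : Measurable w) {t : ℝ} {E r : ℝ≥0∞}
    (hE : ∀ s ∈ Ioc (0 : ℝ) t, momW wm u s ≤ E)
    (hr : ∀ s ∈ Ioc (0 : ℝ) t, Yh w u s ≤ r) :
    ∫⁻ v, ((∫⁻ s in Ioc 0 t, gH u (s, v)) - ∫⁻ s in Ioc 0 t, gH w (s, v)) ≤
      8 * sig * E * r * ENNReal.ofReal t := by
  apply homCont_time_le (measurable_gH hu) (measurable_gH hw)
  intro s hs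
  have hus := homCont_slice hu s
  have hws := homCont_slice hw s
  have h1 := lintegral_gain_sub_le hus hws
  have h2 : ∫⁻ v, w1 v * u (s, v) ≤ 2 * E :=
    (lintegral_w1_le_two hus).trans (by gcongr; exact hE s hs)
  have h3 : ∫⁻ v, w1 v * (u (s, v) - w (s, v)) ≤ 2 * r :=
    (lintegral_w1_le_two (hus.sub hws)).trans (by gcongr; exact hr s hs)
  calc ∫⁻ v, (gH u (s, v) - gH w (s, v))
      ≤ 2 * sig * (∫⁻ v, w1 v * u (s, v)) * ∫⁻ v, w1 v * (u (s, v) - w (s, v)) := h1
    _ ≤ 2 * sig * (2 * E) * (2 * r) := by gcongr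
    _ = 8 * sig * E * r := by ring

theorem lintegral_time_loss_sub_le (hu : Measurable u) (hw : Measurable w) {t : ℝ} {E r : ℝ≥0∞}
    (hE : ∀ s ∈ Ioc (0 : ℝ) t, momW wm u s ≤ E) (hE' : ∀ s ∈ Ioc (0 : ℝ) t, momW wm w s ≤ E)
    (hr : ∀ s ∈ Ioc (0 : ℝ) t, Yh w u s ≤ r) :
    ∫⁻ v, ((∫⁻ s in Ioc 0 t, lH u (s, v)) - ∫⁻ s in Ioc 0 t, lH w (s, v)) ≤
      8 * sig * E * r * ENNReal.ofReal t := by
  apply homCont_time_le (measurable_lH hu) (measurable_lH hw)
  intro s hs
  have hus := homCont_slice hu s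
  have hws := homCont_slice hw s
  have h1 := lintegral_loss_sub_le hus hws
  have h2 : ∫⁻ v, w1 v * u (s, v) ≤ 2 * E :=
    (lintegral_w1_le_two hus).trans (by gcongr; exact hE s hs)
  have h2' : ∫⁻ v, w1 v * w (s, v) ≤ 2 * E :=
    (lintegral_w1_le_two hws).trans (by gcongr; exact hE' s hs)
  have h3 : ∫⁻ v, w1 v * (u (s, v) - w (s, v)) ≤ 2 * r :=
    (lintegral_w1_le_two (hus.sub hws)).trans (by gcongr; exact hr s hs)
  calc ∫⁻ v, (lH u (s, v) - lH w (s, v))
      ≤ sig * ((∫⁻ v, w1 v * u (s, v)) + ∫⁻ v, w1 v * w (s, v)) *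
          ∫⁻ v, w1 v * (u (s, v) - w (s, v)) := h1
    _ ≤ sig * (2 * E + 2 * E) * (2 * r) := by gcongr
    _ = 8 * sig * E * r := by ring

end Vale.Agent.Lib.P140
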