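import Mathlib
import Vale.Agent.Lib.P140.HomLimit
import Vale.Agent.Lib.P140.Final

/-!
# Spatially homogeneous data with finite third moment: global existence of a mild solution with
bounded third moment, and uniqueness of renormalized solutions
-/

namespace Vale.Agent.Lib.P140

open MeasureTheory Set
open scoped ENNReal

variable {f0 : V → ℝ≥0∞}

/-- A property of almost every velocity holds almost everywhere on `T^3 × R^3`. -/
lemma ae_of_ae_snd {p : V → Prop} (h : ∀ᵐ v : V, p v) : ∀ᵐ z : Torus × V, p z.2 :=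
  (Measure.quasiMeasurePreserving_snd (μ := (volume : Measure Torus))
    (ν := (volume : Measure V))).ae h

/-- The lift of the homogeneous solution to the torus. -/
noncomputable def homLift (f0 : V → ℝ≥0∞) (t : ℝ) (z : Torus × V) : ℝ≥0∞ :=
  arkSol (nInt f0) f0 (t, z.2)

lemma measurable_homLift (hf0 : Measurable f0) : Measurable (Function.uncurry (homLift f0)) :=
  (measurable_arkSol hf0).comp (measurable_fst.prodMk measurable_snd.snd)

lemma gain_homLift (f0 : V → ℝ≥0∞) (s : ℝ) (z : Torus × V) :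
    gain (homLift f0 s) (flow s z) = gainV (fun w => arkSol (nInt f0) f0 (s, w))
      (fun w => arkSol (nInt f0) f0 (s, w)) z.2 :=
  gain_eq (homLift f0 s) (flow s z).1 z.2

lemma loss_homLift (hf0 : Measurable f0) (s : ℝ) (z : Torus × V) :
    loss (homLift f0 s) (flow s z) = arkSol (nInt f0) f0 (s, z.2) *
      freqV (fun w => arkSol (nInt f0) f0 (s, w)) z.2 :=
  loss_eq (measurable_slice (measurable_homLift hf0) s) (flow s z).1 z.2

/-- Global existence for spatially homogeneous data with finite third moment. -/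
theorem hom_exists (hf0 : Measurable f0) (h3 : ∫⁻ v, w3 v * f0 v < ∞) (T : ℝ) :
    ∃ g : ℝ → Torus × V → ℝ≥0∞, IsMildOn T (fun z => f0 z.2) g ∧
      ∃ K : ℝ≥0∞, K < ∞ ∧ ∀ t ∈ Icc (0 : ℝ) T, ∀ x : Torus, thirdMoment (g t) x ≤ K := by
  have hE : nInt f0 ≠ ∞ := (lt_of_le_of_lt (nInt_le_w3 f0) h3).ne
  have hmild := ae_of_ae_snd (arkSol_mild hf0 h3 T)
  refine ⟨homLift f0, ⟨measurable_homLift hf0, ?_, ?_, ?_⟩,
    3 * ((∫⁻ v, w3 v * f0 v) * ENNReal.ofReal (Real.exp ((2 * sig * nInt f0).toReal * T))),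
    ?_, ?_⟩
  · filter_upwards [hmild] with z hz
    simp only [gain_homLift]
    exact hz.1
  · filter_upwards [hmild] with z hz
    simp only [loss_homLift hf0]
    exact hz.2.1
  · refine Filter.Eventually.of_forall fun t ht => ?_
    filter_upwards [hmild] with z hz
    unfold mildEq
    simp only [gain_homLift, loss_homLift hf0]
    exact hz.2.2 t ⟨ht.1.le, ht.2⟩
  · exact ENNReal.mul_lt_top (by norm_num) (ENNReal.mul_lt_top h3 ENNReal.ofReal_lt_top)
  · intro t ht x
    rw [thirdMoment_eq]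
    exact arkSol_w3_le hf0 le_rfl hE ht.1 ht.2

lemma isDatum_hom (hf0 : Measurable f0) (h3 : ∫⁻ v, w3 v * f0 v < ∞) :
    IsDatum (fun z : Torus × V => f0 z.2) := by
  have hm : Measurable (fun z : Torus × V => f0 z.2) := hf0.comp measurable_snd
  have hmu : Measurable (Function.uncurry fun _ : ℝ => fun z : Torus × V => f0 z.2) :=
    hm.comp measurable_snd
  have hint : mInt (fun z : Torus × V => f0 z.2) ≤ ∫⁻ v, w3 v * f0 v :=
    int_wm_le (g := fun _ => fun z : Torus × V => f0 z.2) hmu 0
      (Filter.Eventually.of_forall fun x => le_of_eq (thirdMoment_eq _ x))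
  rw [mInt_eq hm] at hint
  exact ⟨hm, lt_of_le_of_lt (le_trans le_self_add hint) h3,
    lt_of_le_of_lt (le_trans le_add_self hint) h3⟩

/-- **Global uniqueness for spatially homogeneous data with finite third moment.** -/
theorem hom_unique (hf0 : Measurable f0) (h3 : ∫⁻ v, w3 v * f0 v < ∞)
    {F G : ℝ → Torus × V → ℝ≥0∞} (hF : IsRenormalizedSolution (fun z => f0 z.2) F)
    (hG : IsRenormalizedSolution (fun z => f0 z.2) G) :
    ∀ t : ℝ, 0 ≤ t → F t =ᵐ[volume] G t := by
  intro t ht
  obtain ⟨g, hg, K, hKfin, hK⟩ := hom_exists hf0 h3 (t + 1)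
  exact eq_on_of_mild (isDatum_hom hf0 h3) hF hG (by linarith) hg hKfin
    (Filter.Eventually.of_forall fun s hs =>
      Filter.Eventually.of_forall (hK s ⟨hs.1.le, hs.2⟩)) t ⟨ht, by linarith⟩

end Vale.Agent.Lib.P140
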