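import Mathlib

/-!
# Abstract lemmas: sequences with summable `L^1` increments, limits of equations in `L^1`
-/

namespace Vale.Agent.Lib.P140

open MeasureTheory Set Filter Topology
open scoped ENNReal

variable {α : Type*} [MeasurableSpace α] {μ : Measure α}

/-- telescoping upper bound -/
lemma limInf_le_add_sum (x : ℕ → ℝ≥0∞) (n k : ℕ) :
    x (n + k) ≤ x n + ∑ j ∈ Finset.range k, (x (n + j + 1) - x (n + j)) := by
  induction k with
  | zero => simp
  | succ k ih =>
    calc x (n + (k + 1)) ≤ x (n + k) + (x (n + k + 1) - x (n + k)) := by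
          rw [← add_assoc]; exact le_add_tsub
      _ ≤ (x n + ∑ j ∈ Finset.range k, (x (n + j + 1) - x (n + j)))
            + (x (n + k + 1) - x (n + k)) := add_le_add_left ih _
      _ = _ := by rw [Finset.sum_range_succ, add_assoc]

/-- telescoping lower bound -/
lemma limInf_le_add_sum' (x : ℕ → ℝ≥0∞) (n k : ℕ) :
    x n ≤ x (n + k) + ∑ j ∈ Finset.range k, (x (n + j) - x (n + j + 1)) := by
  induction k with
  | zero => simp
  | succ k ih =>
    calc x n ≤ x (n + k) + ∑ j ∈ Finset.range k, (x (n + j) - x (n + j + 1)) := ih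
      _ ≤ (x (n + k + 1) + (x (n + k) - x (n + k + 1)))
            + ∑ j ∈ Finset.range k, (x (n + j) - x (n + j + 1)) :=
          add_le_add_left le_add_tsub _
      _ = _ := by
          rw [Finset.sum_range_succ, ← add_assoc n k 1]
          ring

/-- Pointwise: `liminf f - f_n ≤ ∑_{j} (f_{n+j+1} - f_{n+j})_+`. -/
lemma liminf_sub_le (x : ℕ → ℝ≥0∞) (n : ℕ) :
    liminf x atTop - x n ≤ ∑' j, (x (n + j + 1) - x (n + j)) := by
  rw [tsub_le_iff_left]
  apply liminf_le_of_frequently_le'
  apply Eventually.frequently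
  filter_upwards [eventually_ge_atTop n] with m hm
  obtain ⟨k, rfl⟩ := Nat.exists_eq_add_of_le hm
  refine (limInf_le_add_sum x n k).trans ?_
  gcongr
  exact ENNReal.sum_le_tsum _

/-- Pointwise: `f_n - liminf f ≤ ∑_{j} (f_{n+j} - f_{n+j+1})_+`. -/
lemma sub_liminf_le (x : ℕ → ℝ≥0∞) (n : ℕ) :
    x n - liminf x atTop ≤ ∑' j, (x (n + j) - x (n + j + 1)) := by
  rw [tsub_le_iff_left, ← tsub_le_iff_right]
  apply le_liminf_of_le (by isBoundedDefault)
  filter_upwards [eventually_ge_atTop n] with m hm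
  obtain ⟨k, rfl⟩ := Nat.exists_eq_add_of_le hm
  rw [tsub_le_iff_right]
  refine (limInf_le_add_sum' x n k).trans ?_
  gcongr
  exact ENNReal.sum_le_tsum _

/-- The weighted `L^1` distance of `f_n` to the lower limit is bounded by the tail of the series of
the increments. -/
theorem lintegral_dist_liminf_le {f : ℕ → α → ℝ≥0∞} (hf : ∀ n, Measurable (f n)) {W : α → ℝ≥0∞}
    (hW : Measurable W) {d : ℕ → ℝ≥0∞}
    (hd : ∀ n, (∫⁻ a, W a * (f (n + 1) a - f n a) ∂μ) + ∫⁻ a, W a * (f n a - f (n + 1) a) ∂μ ≤ d n)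
    (n : ℕ) :
    (∫⁻ a, W a * (liminf (fun m => f m a) atTop - f n a) ∂μ) +
      ∫⁻ a, W a * (f n a - liminf (fun m => f m a) atTop) ∂μ ≤ ∑' j, d (n + j) := by
  have h1 : (∫⁻ a, W a * (liminf (fun m => f m a) atTop - f n a) ∂μ)
      ≤ ∑' j, ∫⁻ a, W a * (f (n + j + 1) a - f (n + j) a) ∂μ := by
    have hm : ∀ j, AEMeasurable (fun a => W a * (f (n + j + 1) a - f (n + j) a)) μ :=
      fun j => (hW.mul ((hf _).sub (hf _))).aemeasurable
    rw [← lintegral_tsum hm]
    apply lintegral_mono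
    intro a
    dsimp only
    rw [ENNReal.tsum_mul_left]
    gcongr
    exact liminf_sub_le (fun m => f m a) n
  have h2 : (∫⁻ a, W a * (f n a - liminf (fun m => f m a) atTop) ∂μ)
      ≤ ∑' j, ∫⁻ a, W a * (f (n + j) a - f (n + j + 1) a) ∂μ := by
    have hm : ∀ j, AEMeasurable (fun a => W a * (f (n + j) a - f (n + j + 1) a)) μ :=
      fun j => (hW.mul ((hf _).sub (hf _))).aemeasurable
    rw [← lintegral_tsum hm]
    apply lintegral_mono
    intro a
    dsimp only
    rw [ENNReal.tsum_mul_left]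
    gcongr
    exact sub_liminf_le (fun m => f m a) n
  calc _ ≤ (∑' j, ∫⁻ a, W a * (f (n + j + 1) a - f (n + j) a) ∂μ)
        + ∑' j, ∫⁻ a, W a * (f (n + j) a - f (n + j + 1) a) ∂μ := add_le_add h1 h2
    _ = ∑' j, ((∫⁻ a, W a * (f (n + j + 1) a - f (n + j) a) ∂μ)
        + ∫⁻ a, W a * (f (n + j) a - f (n + j + 1) a) ∂μ) := ENNReal.tsum_add.symm
    _ ≤ ∑' j, d (n + j) := ENNReal.tsum_le_tsum fun j => hd (n + j)

/-- The tails of a convergent series tend to zero. -/
lemma tendsto_tsum_tail {d : ℕ → ℝ≥0∞} (hd : ∑' m, d m < ∞) :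
    Tendsto (fun n => ∑' j, d (n + j)) atTop (𝓝 0) := by
  have := ENNReal.tendsto_sum_nat_add d hd.ne
  simpa only [add_comm] using this

/-- Passing to the limit in `a_n + b_n = c_n + e_n` when all four sequences converge in `L^1`. -/
theorem ae_eq_of_lintegral_tendsto {a b c e : α → ℝ≥0∞} {an bn cn en : ℕ → α → ℝ≥0∞}
    {η : ℕ → α → ℝ≥0∞} (hη : ∀ n, Measurable (η n))
    (hlim : Tendsto (fun n => ∫⁻ x, η n x ∂μ) atTop (𝓝 0))
    (heq : ∀ n, ∀ᵐ x ∂μ, an n x + bn n x = cn n x + en n x)
    (h1 : ∀ n, ∀ᵐ x ∂μ, (a x - an n x) + (b x - bn n x) + (cn n x - c x) + (en n x - e x) ≤ η n x)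
    (h2 : ∀ n, ∀ᵐ x ∂μ, (an n x - a x) + (bn n x - b x) + (c x - cn n x) + (e x - en n x) ≤ η n x) :
    ∀ᵐ x ∂μ, a x + b x = c x + e x := by
  have hfatou : ∫⁻ x, liminf (fun n => η n x) atTop ∂μ ≤ 0 := by
    refine (lintegral_liminf_le hη).trans ?_
    rw [hlim.liminf_eq]
  have hzero : ∀ᵐ x ∂μ, liminf (fun n => η n x) atTop = 0 := by
    have hm : Measurable fun x => liminf (fun n => η n x) atTop := Measurable.liminf hη
    have := (lintegral_eq_zero_iff hm).1 (le_antisymm hfatou zero_le)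
    exact this
  filter_upwards [hzero, ae_all_iff.2 heq, ae_all_iff.2 h1, ae_all_iff.2 h2] with x hx0 hxe hx1 hx2
  apply le_antisymm
  · rw [← tsub_eq_zero_iff_le, ← nonpos_iff_eq_zero, ← hx0]
    apply le_liminf_of_le (by isBoundedDefault)
    refine Eventually.of_forall fun n => ?_
    rw [tsub_le_iff_left]
    calc a x + b x ≤ (an n x + (a x - an n x)) + (bn n x + (b x - bn n x)) :=
          add_le_add le_add_tsub le_add_tsub
      _ = (an n x + bn n x) + ((a x - an n x) + (b x - bn n x)) := by ring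
      _ = (cn n x + en n x) + ((a x - an n x) + (b x - bn n x)) := by rw [hxe n]
      _ ≤ ((c x + (cn n x - c x)) + (e x + (en n x - e x)))
            + ((a x - an n x) + (b x - bn n x)) := by
          gcongr <;> exact le_add_tsub
      _ = c x + e x + ((a x - an n x) + (b x - bn n x) + (cn n x - c x) + (en n x - e x)) := by
          ring
      _ ≤ c x + e x + η n x := by gcongr; exact hx1 n
  · rw [← tsub_eq_zero_iff_le, ← nonpos_iff_eq_zero, ← hx0]
    apply le_liminf_of_le (by isBoundedDefault)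
    refine Eventually.of_forall fun n => ?_
    rw [tsub_le_iff_left]
    calc c x + e x ≤ (cn n x + (c x - cn n x)) + (en n x + (e x - en n x)) :=
          add_le_add le_add_tsub le_add_tsub
      _ = (cn n x + en n x) + ((c x - cn n x) + (e x - en n x)) := by ring
      _ = (an n x + bn n x) + ((c x - cn n x) + (e x - en n x)) := by rw [hxe n]
      _ ≤ ((a x + (an n x - a x)) + (b x + (bn n x - b x)))
            + ((c x - cn n x) + (e x - en n x)) := by
          gcongr <;> exact le_add_tsub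
      _ = a x + b x + ((an n x - a x) + (bn n x - b x) + (c x - cn n x) + (e x - en n x)) := by
          ring
      _ ≤ a x + b x + η n x := by gcongr; exact hx2 n

end Vale.Agent.Lib.P140
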