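import Mathlib
import Vale.Agent.Lib.P140.HomCont
import Vale.Agent.Lib.P140.LimInf

/-!
# The limit of an approximating sequence is a mild solution with finite energy and
`t ∫ (1+|v|)^3 g(t) ≤ K3`
-/

namespace Vale.Agent.Lib.P140

open MeasureTheory Set Filter Topology
open scoped ENNReal

variable {T : ℝ} {f0 : V → ℝ≥0∞} {φ : ℕ → V → ℝ≥0∞} {a : ℕ → ℝ × V → ℝ≥0∞} {d : ℕ → ℝ≥0∞}
  {K3 : ℝ≥0∞}

/-- The lower limit of the approximating sequence. -/
noncomputable def limSol (a : ℕ → ℝ × V → ℝ≥0∞) (p : ℝ × V) : ℝ≥0∞ :=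
  liminf (fun m => a m p) atTop

lemma measurable_limSol (h : ∀ m, Measurable (a m)) : Measurable (limSol a) :=
  Measurable.liminf h

/-- `c * liminf x ≤ liminf (c * x)`. -/
lemma limSol_mul_liminf_le (c : ℝ≥0∞) (x : ℕ → ℝ≥0∞) :
    c * liminf x atTop ≤ liminf (fun m => c * x m) atTop := by
  rw [liminf_eq_iSup_iInf_of_nat, liminf_eq_iSup_iInf_of_nat, ENNReal.mul_iSup]
  exact iSup_mono fun n => le_iInf₂ fun i hi => mul_le_mul_right (iInf₂_le i hi) c

/-- Fatou for moments. -/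
lemma momW_limSol_le (h : ∀ m, Measurable (a m)) {W : V → ℝ≥0∞} (hW : Measurable W) {t : ℝ}
    {C : ℝ≥0∞} (hC : ∀ m, momW W (a m) t ≤ C) : momW W (limSol a) t ≤ C := by
  unfold momW at hC ⊢
  calc ∫⁻ v, W v * limSol a (t, v)
      ≤ ∫⁻ v, liminf (fun m => W v * a m (t, v)) atTop :=
        lintegral_mono fun v => limSol_mul_liminf_le _ _
    _ ≤ liminf (fun m => ∫⁻ v, W v * a m (t, v)) atTop :=
        lintegral_liminf_le fun m => hW.mul (measurable_sliceV (h m) t)
    _ ≤ C := liminf_le_of_frequently_le' (Frequently.of_forall hC)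

/-- Convergence in `L^1_2`, uniformly in time. -/
lemma dist_limSol_le (h : HomApprox T f0 φ a d K3) (m : ℕ) {t : ℝ} (ht : t ∈ Ioc (0 : ℝ) T) :
    Yh (a m) (limSol a) t + Yh (limSol a) (a m) t ≤ ∑' j, d (m + j) :=
  lintegral_dist_liminf_le (f := fun n v => a n (t, v))
    (fun n => measurable_sliceV (h.mild n).meas t) measurable_wm (fun n => h.incr n t ht) m

theorem limSol_energy (h : HomApprox T f0 φ a d K3) :
    ∀ t ∈ Ioc (0 : ℝ) T, momW wm (limSol a) t ≤ nInt f0 := fun t ht =>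
  momW_limSol_le (fun m => (h.mild m).meas) measurable_wm fun m => h.energy m t ht

theorem limSol_third (h : HomApprox T f0 φ a d K3) :
    ∀ t ∈ Ioc (0 : ℝ) T, ENNReal.ofReal t * momW w3 (limSol a) t ≤ K3 := by
  intro t ht
  have h0 : ENNReal.ofReal t ≠ 0 := by
    simpa using ht.1
  have h1 : ENNReal.ofReal t ≠ ∞ := ENNReal.ofReal_ne_top
  have h2 : momW w3 (limSol a) t ≤ K3 / ENNReal.ofReal t := by
    refine momW_limSol_le (fun m => (h.mild m).meas) measurable_w3 fun m => ?_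
    rw [ENNReal.le_div_iff_mul_le (Or.inl h0) (Or.inl h1), mul_comm]
    exact h.third m t ht
  rw [ENNReal.le_div_iff_mul_le (Or.inl h0) (Or.inl h1), mul_comm] at h2
  exact h2

/-- Bound of the integral of a sum of eight measurable functions. -/
lemma limSol_lintegral_eight_le {f1 f2 f3 f4 f5 f6 f7 f8 : V → ℝ≥0∞}
    (m2 : Measurable f2) (m3 : Measurable f3) (m4 : Measurable f4)
    (m5 : Measurable f5) (m6 : Measurable f6) (m7 : Measurable f7) (m8 : Measurable f8)
    {c1 c2 c3 c4 c5 c6 c7 c8 : ℝ≥0∞}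
    (h1 : ∫⁻ v, f1 v ≤ c1) (h2 : ∫⁻ v, f2 v ≤ c2) (h3 : ∫⁻ v, f3 v ≤ c3) (h4 : ∫⁻ v, f4 v ≤ c4)
    (h5 : ∫⁻ v, f5 v ≤ c5) (h6 : ∫⁻ v, f6 v ≤ c6) (h7 : ∫⁻ v, f7 v ≤ c7) (h8 : ∫⁻ v, f8 v ≤ c8) :
    ∫⁻ v, ((f1 v + f2 v + f3 v + f4 v) + (f5 v + f6 v + f7 v + f8 v)) ≤
      (c1 + c2 + c3 + c4) + (c5 + c6 + c7 + c8) := by
  have m58 : Measurable fun v => f5 v + f6 v + f7 v + f8 v := ((m5.add m6).add m7).add m8
  rw [lintegral_add_right _ m58, lintegral_add_right _ m4,
    lintegral_add_right _ m3, lintegral_add_right _ m2, lintegral_add_right _ m8,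
    lintegral_add_right _ m7, lintegral_add_right _ m6]
  gcongr

/-- The limit is a mild solution (weak form) with datum `f0`. -/
theorem limSol_mild (hf0 : Measurable f0) (hE : nInt f0 < ∞) (h : HomApprox T f0 φ a d K3) :
    IsHomMildW T f0 (limSol a) := by
  have ma : ∀ m, Measurable (a m) := fun m => (h.mild m).meas
  have mg : Measurable (limSol a) := measurable_limSol ma
  have hC : 4 * (sig * (nInt f0 * nInt f0)) ≠ ∞ :=
    ENNReal.mul_ne_top (by simp) (ENNReal.mul_ne_top sig_ne_top (ENNReal.mul_ne_top hE.ne hE.ne))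
  refine ⟨mg, ?_, ?_, ?_⟩
  · refine ae_time_lt_top (measurable_gH mg) hC fun s hs => ?_
    rw [lintegral_gH_eq mg s]
    exact lintegral_lH_le mg (limSol_energy h s hs)
  · exact ae_time_lt_top (measurable_lH mg) hC fun s hs =>
      lintegral_lH_le mg (limSol_energy h s hs)
  · intro t ht
    have hsub : ∀ s ∈ Ioc (0 : ℝ) t, s ∈ Ioc (0 : ℝ) T := fun s hs => ⟨hs.1, hs.2.trans ht.2⟩
    -- the tails of the series
    let r : ℕ → ℝ≥0∞ := fun m => ∑' j, d (m + j)
    have hr0 : Tendsto r atTop (𝓝 0) := tendsto_tsum_tail h.d_sum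
    have hY1 : ∀ m, ∀ s ∈ Ioc (0 : ℝ) T, Yh (a m) (limSol a) s ≤ r m := fun m s hs =>
      le_trans le_self_add (dist_limSol_le h m hs)
    have hY2 : ∀ m, ∀ s ∈ Ioc (0 : ℝ) T, Yh (limSol a) (a m) s ≤ r m := fun m s hs =>
      le_trans le_add_self (dist_limSol_le h m hs)
    have hEg : ∀ s ∈ Ioc (0 : ℝ) t, momW wm (limSol a) s ≤ nInt f0 := fun s hs =>
      limSol_energy h s (hsub s hs)
    have hEa : ∀ m, ∀ s ∈ Ioc (0 : ℝ) t, momW wm (a m) s ≤ nInt f0 := fun m s hs =>
      h.energy m s (hsub s hs)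
    -- the functions
    let A : V → ℝ≥0∞ := fun v => limSol a (t, v)
    let B : V → ℝ≥0∞ := fun v => ∫⁻ s in Ioc 0 t, lH (limSol a) (s, v)
    let G : V → ℝ≥0∞ := fun v => ∫⁻ s in Ioc 0 t, gH (limSol a) (s, v)
    let An : ℕ → V → ℝ≥0∞ := fun m v => a m (t, v)
    let Bn : ℕ → V → ℝ≥0∞ := fun m v => ∫⁻ s in Ioc 0 t, lH (a m) (s, v)
    let Gn : ℕ → V → ℝ≥0∞ := fun m v => ∫⁻ s in Ioc 0 t, gH (a m) (s, v)
    have mA : Measurable A := measurable_sliceV mg t
    have mB : Measurable B := measurable_time_lintegral (measurable_lH mg) t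
    have mG : Measurable G := measurable_time_lintegral (measurable_gH mg) t
    have mAn : ∀ m, Measurable (An m) := fun m => measurable_sliceV (ma m) t
    have mBn : ∀ m, Measurable (Bn m) := fun m =>
      measurable_time_lintegral (measurable_lH (ma m)) t
    have mGn : ∀ m, Measurable (Gn m) := fun m =>
      measurable_time_lintegral (measurable_gH (ma m)) t
    let η : ℕ → V → ℝ≥0∞ := fun m v =>
      ((A v - An m v) + (B v - Bn m v) + (φ m v - f0 v) + (Gn m v - G v)) +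
        ((An m v - A v) + (Bn m v - B v) + (f0 v - φ m v) + (G v - Gn m v))
    have mη : ∀ m, Measurable (η m) := fun m =>
      ((((mA.sub (mAn m)).add (mB.sub (mBn m))).add ((h.data_meas m).sub hf0)).add
        ((mGn m).sub mG)).add
      (((((mAn m).sub mA).add ((mBn m).sub mB)).add (hf0.sub (h.data_meas m))).add
        (mG.sub (mGn m)))
    -- the bound of the integral of `η`
    let c : ℕ → ℝ≥0∞ := fun m => 8 * sig * nInt f0 * r m * ENNReal.ofReal t
    let β : ℕ → ℝ≥0∞ := fun m =>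
      (r m + c m + 0 + c m) + (r m + c m + (∫⁻ v, (f0 v - φ m v)) + c m)
    have hηβ : ∀ m, ∫⁻ v, η m v ≤ β m := by
      intro m
      refine limSol_lintegral_eight_le (mB.sub (mBn m)) ((h.data_meas m).sub hf0)
        ((mGn m).sub mG) ((mAn m).sub mA) ((mBn m).sub mB) (hf0.sub (h.data_meas m))
        (mG.sub (mGn m)) ?_ ?_ ?_ ?_ ?_ ?_ le_rfl ?_
      · exact le_trans (lintegral_mono fun v => le_wm_mul v _) (hY1 m t ht)
      · exact lintegral_time_loss_sub_le mg (ma m) hEg (hEa m) fun s hs => hY1 m s (hsub s hs)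
      · refine le_of_eq ?_
        have : ∀ v, φ m v - f0 v = 0 := fun v => tsub_eq_zero_of_le (h.data_le m v)
        simp [this]
      · exact lintegral_time_gain_sub_le (ma m) mg (hEa m) fun s hs => hY2 m s (hsub s hs)
      · exact le_trans (lintegral_mono fun v => le_wm_mul v _) (hY2 m t ht)
      · exact lintegral_time_loss_sub_le (ma m) mg (hEa m) hEg fun s hs => hY2 m s (hsub s hs)
      · exact lintegral_time_gain_sub_le mg (ma m) hEg fun s hs => hY1 m s (hsub s hs)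
    have hc0 : Tendsto c atTop (𝓝 0) := by
      have h8 : 8 * sig * nInt f0 ≠ ∞ :=
        ENNReal.mul_ne_top (ENNReal.mul_ne_top (by simp) sig_ne_top) hE.ne
      have h1 := ENNReal.Tendsto.mul_const (ENNReal.Tendsto.const_mul hr0 (Or.inr h8))
        (Or.inr (ENNReal.ofReal_ne_top (r := t)))
      simpa using h1
    have hβ0 : Tendsto β atTop (𝓝 0) := by
      have h1 := (((hr0.add hc0).add (tendsto_const_nhds (x := (0 : ℝ≥0∞)))).add hc0).add
        (((hr0.add hc0).add h.data_lim).add hc0)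
      have e0 : ((0 : ℝ≥0∞) + 0 + 0 + 0) + (0 + 0 + 0 + 0) = 0 := by simp
      rw [e0] at h1
      exact h1
    have hlim : Tendsto (fun m => ∫⁻ v, η m v) atTop (𝓝 0) :=
      tendsto_of_tendsto_of_tendsto_of_le_of_le tendsto_const_nhds hβ0 (fun _ => zero_le) hηβ
    have heq : ∀ m, ∀ᵐ v : V, An m v + Bn m v = φ m v + Gn m v := by
      intro m
      filter_upwards [(h.mild m).eqn] with v hv
      exact hv t ⟨ht.1.le, ht.2⟩
    exact ae_eq_of_lintegral_tendsto (a := A) (b := B) (c := f0) (e := G) (an := An) (bn := Bn)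
      (cn := φ) (en := Gn) mη hlim heq (fun m => ae_of_all _ fun v => le_self_add)
      (fun m => ae_of_all _ fun v => le_add_self)

end Vale.Agent.Lib.P140
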