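import Mathlib
import Vale.Agent.Lib.P140.HomLimit2
import Vale.Agent.Lib.P140.HomCauchy
import Vale.Agent.Lib.P140.HomLift
import Vale.Agent.Lib.P140.Final3

/-!
# Global uniqueness of renormalized solutions for all spatially homogeneous data with finite mass
and energy
-/

namespace Vale.Agent.Lib.P140

open MeasureTheory Set
open scoped ENNReal

variable {F0 : Torus × V → ℝ≥0∞} {F G g : ℝ → Torus × V → ℝ≥0∞} {f0 : V → ℝ≥0∞}

/-- Comparison of a renormalized solution with a mild solution satisfying the moment condition,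
conserving mass and not gaining energy. -/
theorem ae_eq_mild_of_moments (hD : IsDatum F0) (hF : IsRenormalizedSolution F0 F) {T : ℝ}
    (hT : 0 < T) (hg : IsMildOn T F0 g) {K : ℝ≥0∞} (hKfin : K < ∞)
    {k : ℝ → ℝ≥0∞} (hk : Measurable k)
    (hkfin : ∫⁻ s in Ioc 0 T, ENNReal.ofReal s * k s < ∞)
    (hK2 : ∀ᵐ s : ℝ, s ∈ Ioc 0 T → ∀ᵐ x : Torus, secondMoment (g s) x ≤ K)
    (hK3 : ∀ᵐ s : ℝ, s ∈ Ioc 0 T → ∀ᵐ x : Torus, thirdMoment (g s) x ≤ k s)
    (hmass : ∀ᵐ s : ℝ, s ∈ Ioc 0 T → mass (g s) = mass F0)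
    (hcons : ∀ᵐ s : ℝ, s ∈ Ioc 0 T → mInt (g s) ≤ mInt F0) :
    ∀ᵐ t : ℝ, t ∈ Ioc 0 T → F t =ᵐ[volume] g t := by
  have hFm := (hF.isMildAE hD).on T
  have hF0 : ∀ᵐ z, F0 z < ∞ := ae_lt_top hD.meas hD.mass_fin.ne
  have hmF := mass_conserved hD.meas hD.mass_fin hF.meas hF.mass_bound hF.massBalance
  have hmass' : ∀ᵐ s : ℝ, s ∈ Set.Ioc 0 T → mass (F s) = mass (g s) := by
    filter_upwards [hmF, hmass] with s h1 h2 hs
    rw [h1 hs.1, h2 hs]
  have hge := mInt_ge_of_moments hD.meas hF0 hT hg hKfin hk hkfin hK2 hK3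
  have hm : ∀ᵐ s : ℝ, s ∈ Set.Ioc 0 T → mInt (F s) ≤ mInt (g s) := by
    filter_upwards [hF.mInt_le hD, hge] with s h1 h2 hs
    exact (h1 hs.1).trans (h2 hs)
  exact weakStrong_core3 hD.meas hD.mInt_fin hT hFm hg hKfin hk hkfin hK2 hK3 hmass' hm hcons

/-- Integrals of functions of the velocity only. -/
lemma lintegral_snd_torus {h : V → ℝ≥0∞} (hh : Measurable h) :
    ∫⁻ z : Torus × V, h z.2 = ∫⁻ v, h v := by
  have hm : Measurable (fun z : Torus × V => h z.2) := hh.comp measurable_snd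
  rw [lintegral_torus_prod hm]
  simp only [lintegral_const, volume_torus_univ, mul_one]

/-- A homogeneous mild solution (weak form) is a mild solution on the torus. -/
theorem IsHomMildW.lift {T : ℝ} {u : ℝ × V → ℝ≥0∞} (h : IsHomMildW T f0 u) :
    IsMildOn T (fun z => f0 z.2) (fun t z => u (t, z.2)) := by
  have hm : Measurable (Function.uncurry (fun (t : ℝ) (z : Torus × V) => u (t, z.2))) :=
    h.meas.comp (measurable_fst.prodMk measurable_snd.snd)
  have hgain : ∀ (s : ℝ) (z : Torus × V),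
      gain (fun z : Torus × V => u (s, z.2)) (flow s z) = gH u (s, z.2) := fun s z =>
    gain_eq (fun z : Torus × V => u (s, z.2)) (flow s z).1 z.2
  have hloss : ∀ (s : ℝ) (z : Torus × V),
      loss (fun z : Torus × V => u (s, z.2)) (flow s z) = lH u (s, z.2) := fun s z =>
    loss_eq (measurable_slice hm s) (flow s z).1 z.2
  refine ⟨hm, ?_, ?_, ?_⟩
  · filter_upwards [ae_of_ae_snd h.gain_fin] with z hz
    simp only [hgain]
    exact hz
  · filter_upwards [ae_of_ae_snd h.loss_fin] with z hz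
    simp only [hloss]
    exact hz
  · refine Filter.Eventually.of_forall fun t ht => ?_
    filter_upwards [ae_of_ae_snd (h.eqn t ht)] with z hz
    unfold mildEq
    simp only [hgain, hloss]
    exact hz

/-- Existence of a good homogeneous solution for data with finite mass and energy. -/
theorem hom_exists2 (hf0 : Measurable f0) (hE : nInt f0 < ∞) (hpos : ∫⁻ v, f0 v ≠ 0) {T : ℝ}
    (hT : 0 < T) :
    ∃ (u : ℝ × V → ℝ≥0∞) (K3 : ℝ≥0∞), K3 < ∞ ∧ IsHomMildW T f0 u ∧
      (∀ t ∈ Ioc (0 : ℝ) T, momW wm u t ≤ nInt f0) ∧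
      (∀ t ∈ Ioc (0 : ℝ) T, ENNReal.ofReal t * momW w3 u t ≤ K3) := by
  obtain ⟨φ, a, d, K3, h⟩ := exists_homApprox hf0 hE hpos hT
  exact ⟨limSol a, K3, h.K3_fin, limSol_mild hf0 hE h, limSol_energy h, limSol_third h⟩

/-- The mass plus energy of a function of the velocity only. -/
lemma mInt_snd_torus {h : V → ℝ≥0∞} (hh : Measurable h) :
    mInt (fun z : Torus × V => h z.2) = nInt h :=
  lintegral_snd_torus (h := fun v => wm v * h v) (measurable_wm.mul hh)

lemma isDatum_hom2 (hf0 : Measurable f0) (hE : nInt f0 < ∞) :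
    IsDatum (fun z : Torus × V => f0 z.2) := by
  have hm : Measurable (fun z : Torus × V => f0 z.2) := hf0.comp measurable_snd
  have hint : mInt (fun z : Torus × V => f0 z.2) = nInt f0 := mInt_snd_torus hf0
  rw [mInt_eq hm] at hint
  exact ⟨hm, lt_of_le_of_lt (le_trans le_self_add hint.le) hE,
    lt_of_le_of_lt (le_trans le_add_self hint.le) hE⟩

/-- **Global uniqueness for all spatially homogeneous data with finite mass and energy.** -/
theorem hom_unique2 (hf0 : Measurable f0) (hE : nInt f0 < ∞)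
    (hF : IsRenormalizedSolution (fun z => f0 z.2) F)
    (hG : IsRenormalizedSolution (fun z => f0 z.2) G) :
    ∀ t : ℝ, 0 ≤ t → F t =ᵐ[volume] G t := by
  by_cases hpos : ∫⁻ v, f0 v = 0
  · have h0 : f0 =ᵐ[volume] 0 := (lintegral_eq_zero_iff hf0).mp hpos
    have h3 : ∫⁻ v, w3 v * f0 v = 0 := by
      have hm : Measurable (fun v => w3 v * f0 v) := measurable_w3.mul hf0
      rw [lintegral_eq_zero_iff hm]
      filter_upwards [h0] with v hv
      simp [hv]
    exact hom_unique hf0 (by rw [h3]; exact ENNReal.zero_lt_top) hF hG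
  intro t ht
  have hT : 0 < t + 1 := by linarith
  have hD := isDatum_hom2 hf0 hE
  obtain ⟨u, K3, hK3fin, hu, hen, hth⟩ := hom_exists2 hf0 hE hpos hT
  have hmild := hu.lift
  have hslice : ∀ s : ℝ, Measurable (fun v : V => u (s, v)) := fun s =>
    hu.meas.comp (measurable_const.prodMk measurable_id)
  have hk : Measurable (fun s : ℝ => K3 / ENNReal.ofReal s) :=
    measurable_const.div ENNReal.measurable_ofReal
  have hkfin : ∫⁻ s in Ioc 0 (t + 1), ENNReal.ofReal s * (K3 / ENNReal.ofReal s) < ∞ := by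
    calc ∫⁻ s in Ioc 0 (t + 1), ENNReal.ofReal s * (K3 / ENNReal.ofReal s)
        ≤ ∫⁻ _s in Ioc 0 (t + 1), K3 := by
          apply lintegral_mono
          intro s
          exact ENNReal.mul_div_le
      _ = K3 * volume (Ioc 0 (t + 1)) := setLIntegral_const _ _
      _ < ∞ := ENNReal.mul_lt_top hK3fin (by simp)
  have hK2 : ∀ᵐ s : ℝ, s ∈ Ioc 0 (t + 1) →
      ∀ᵐ x : Torus, secondMoment ((fun (t : ℝ) (z : Torus × V) => u (t, z.2)) s) x ≤ nInt f0 :=
    Filter.Eventually.of_forall fun s hs => Filter.Eventually.of_forall fun x => by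
      rw [secondMoment_eq]
      exact hen s hs
  have hK3 : ∀ᵐ s : ℝ, s ∈ Ioc 0 (t + 1) →
      ∀ᵐ x : Torus, thirdMoment ((fun (t : ℝ) (z : Torus × V) => u (t, z.2)) s) x
        ≤ K3 / ENNReal.ofReal s :=
    Filter.Eventually.of_forall fun s hs => Filter.Eventually.of_forall fun x => by
      rw [thirdMoment_eq]
      have hs0 : ENNReal.ofReal s ≠ 0 := (ENNReal.ofReal_pos.mpr hs.1).ne'
      rw [ENNReal.le_div_iff_mul_le (Or.inl hs0) (Or.inl ENNReal.ofReal_ne_top), mul_comm]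
      exact hth s hs
  have hmass : ∀ᵐ s : ℝ, s ∈ Ioc 0 (t + 1) →
      mass ((fun (t : ℝ) (z : Torus × V) => u (t, z.2)) s) = mass (fun z : Torus × V => f0 z.2) :=
    Filter.Eventually.of_forall fun s hs => by
      unfold mass
      rw [lintegral_snd_torus hf0, lintegral_snd_torus (h := fun v => u (s, v)) (hslice s)]
      exact hu.mass_eq hf0 hE.ne hen s hs
  have hcons : ∀ᵐ s : ℝ, s ∈ Ioc 0 (t + 1) →
      mInt ((fun (t : ℝ) (z : Torus × V) => u (t, z.2)) s) ≤ mInt (fun z : Torus × V => f0 z.2) :=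
    Filter.Eventually.of_forall fun s hs => by
      rw [mInt_snd_torus hf0, mInt_snd_torus (h := fun v => u (s, v)) (hslice s)]
      exact hen s hs
  have hFg := ae_eq_mild_of_moments hD hF hT hmild hE hk hkfin hK2 hK3 hmass hcons
  have hGg := ae_eq_mild_of_moments hD hG hT hmild hE hk hkfin hK2 hK3 hmass hcons
  have hFG : ∀ᵐ s : ℝ, s ∈ Ioc 0 (t + 1) → F s =ᵐ[volume] G s := by
    filter_upwards [hFg, hGg] with s h1 h2 hs
    exact (h1 hs).trans (h2 hs).symm
  exact ae_eq_of_weaklyContinuous_Icc hT (measurable_slice hF.meas) (measurable_slice hG.meas)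
    hF.mass_fin hG.mass_fin hF.cont hG.cont hFG t ⟨ht, by linarith⟩

end Vale.Agent.Lib.P140
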