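import Mathlib
import Vale.Agent.Lib.P140.TransportDefs
import Vale.Agent.Lib.P140.TransportMild

/-!
# Functions of the velocity alone are stationary distributional solutions of free transport
-/

namespace Vale.Agent.Lib.P140

open MeasureTheory Set Filter Topology

/-- the dominating function in time. -/
lemma integrable_indicator_Icc (R K : ℝ) :
    Integrable (fun t : ℝ => (Icc (-R) R).indicator (fun _ => K) t) :=
  (integrableOn_const (by simp) (by simp)).integrable_indicator measurableSet_Icc

lemma abs_le_indicator {R K x t : ℝ} (hb : |x| ≤ K) (h0 : R < |t| → x = 0) :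
    ‖x‖ ≤ (Icc (-R) R).indicator (fun _ => K) t := by
  by_cases ht : t ∈ Icc (-R) R
  · rw [indicator_of_mem ht]; exact hb
  · rw [indicator_of_notMem ht]
    have : R < |t| := by
      by_contra hcon
      push Not at hcon
      exact ht (abs_le.1 hcon)
    rw [h0 this]; simp

/-- the derivative of `φ` along a characteristic. -/
lemma hasDerivAt_char {φ : ℝ × (Torus × V) → ℝ}
    (hder : ∀ (t : ℝ) (z : Torus × V),
      HasDerivAt (fun s : ℝ => φ (t + s, flow s z)) (transportDeriv φ t z) 0)
    (z : Torus × V) (t : ℝ) :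
    HasDerivAt (fun s : ℝ => φ (s, flow s z)) (transportDeriv φ t (flow t z)) t := by
  have h := hder t (flow t z)
  have h2 : HasDerivAt (fun s : ℝ => φ (t + s, flow s (flow t z)))
      (transportDeriv φ t (flow t z)) (t - t) := by rwa [sub_self]
  have h3 := h2.comp_sub_const t t
  refine h3.congr_of_eventuallyEq (Eventually.of_forall fun s => ?_)
  simp only [flow_flow]
  rw [add_sub_cancel, sub_add_cancel]

/-- the fundamental theorem of calculus along a characteristic. -/
lemma integral_along {φ : ℝ × (Torus × V) → ℝ}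
    (hder : ∀ (t : ℝ) (z : Torus × V),
      HasDerivAt (fun s : ℝ => φ (t + s, flow s z)) (transportDeriv φ t z) 0)
    (hTm : Measurable (Function.uncurry (transportDeriv φ)))
    {R C : ℝ} (hsupp : ∀ (t : ℝ) (z : Torus × V), R < |t| → φ (t, z) = 0)
    (hTsupp : ∀ (t : ℝ) (z : Torus × V), R < |t| → transportDeriv φ t z = 0)
    (hTb : ∀ (t : ℝ) (z : Torus × V), |transportDeriv φ t z| ≤ C * (1 + ‖z.2‖))
    (z : Torus × V) :
    ∫ t in Ioi (0 : ℝ), transportDeriv φ t (flow t z) = -φ (0, z) := by
  have hd := hasDerivAt_char hder z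
  have hm : Measurable (fun t : ℝ => transportDeriv φ t (flow t z)) :=
    hTm.comp (measurable_id.prodMk (measurable_flow.comp (measurable_id.prodMk measurable_const)))
  have hint : Integrable (fun t : ℝ => transportDeriv φ t (flow t z)) :=
    (integrable_indicator_Icc R (C * (1 + ‖z.2‖))).mono' hm.aestronglyMeasurable
      (Eventually.of_forall fun t => abs_le_indicator (hTb t (flow t z)) (hTsupp t (flow t z)))
  have hlim : Tendsto (fun s : ℝ => φ (s, flow s z)) atTop (𝓝 0) := by
    refine tendsto_const_nhds.congr' ?_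
    filter_upwards [eventually_gt_atTop R] with s hs
    exact (hsupp s _ (lt_of_lt_of_le hs (le_abs_self s))).symm
  have h := integral_Ioi_of_hasDerivAt_of_tendsto (a := (0 : ℝ))
    (hd 0).continuousAt.continuousWithinAt (fun x _ => hd x) hint.integrableOn hlim
  rw [h, flow_zero, zero_sub]

/-- `∫_0^∞ ∫ w(v) (∂_t + v·∇_x) φ dz dt + ∫ w(v) φ(0,z) dz = 0`. -/
theorem stationary_weak {w : V → ℝ} (hw : Measurable w) {φ : ℝ × (Torus × V) → ℝ}
    (hφm : Measurable φ)
    (hder : ∀ (t : ℝ) (z : Torus × V),
      HasDerivAt (fun s : ℝ => φ (t + s, flow s z)) (transportDeriv φ t z) 0)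
    (hTm : Measurable (Function.uncurry (transportDeriv φ)))
    {R C : ℝ} (hsupp : ∀ (t : ℝ) (z : Torus × V), R < |t| → φ (t, z) = 0)
    (hTsupp : ∀ (t : ℝ) (z : Torus × V), R < |t| → transportDeriv φ t z = 0)
    (hTb : ∀ (t : ℝ) (z : Torus × V), |transportDeriv φ t z| ≤ C * (1 + ‖z.2‖))
    (hwint : Integrable (fun v : V => (1 + ‖v‖) * w v)) :
    (∫ t in Ioi (0 : ℝ), ∫ z : Torus × V, w z.2 * transportDeriv φ t z) +
      (∫ z : Torus × V, w z.2 * φ (0, z)) = 0 := by
  have hwz : Measurable (fun z : Torus × V => w z.2) := hw.comp measurable_snd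
  -- step 1: move along the flow
  have h1 : ∀ t : ℝ, ∫ z : Torus × V, w z.2 * transportDeriv φ t z =
      ∫ z : Torus × V, w z.2 * transportDeriv φ t (flow t z) := by
    intro t
    have hm : Measurable (fun z : Torus × V => w z.2 * transportDeriv φ t z) :=
      hwz.mul (hTm.comp (measurable_const.prodMk measurable_id))
    exact (integral_flow t hm).symm
  simp_rw [h1]
  -- step 2: Fubini
  have hmeas : Measurable (fun p : ℝ × (Torus × V) =>
      w p.2.2 * transportDeriv φ p.1 (flow p.1 p.2)) :=
    (hwz.comp measurable_snd).mul (hTm.comp (measurable_fst.prodMk measurable_flow))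
  have hdomz : Integrable (fun z : Torus × V => (1 + ‖z.2‖) * w z.2) :=
    hwint.comp_snd _
  have hdom : Integrable (fun p : ℝ × (Torus × V) =>
      (Icc (-R) R).indicator (fun _ => C) p.1 * ‖(1 + ‖p.2.2‖) * w p.2.2‖)
      ((volume.restrict (Ioi (0 : ℝ))).prod volume) :=
    ((integrable_indicator_Icc R C).restrict (s := Ioi 0)).mul_prod hdomz.norm
  have hint : Integrable (Function.uncurry fun (t : ℝ) (z : Torus × V) =>
      w z.2 * transportDeriv φ t (flow t z)) ((volume.restrict (Ioi (0 : ℝ))).prod volume) := by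
    refine hdom.mono' hmeas.aestronglyMeasurable (Eventually.of_forall fun p => ?_)
    obtain ⟨t, z⟩ := p
    simp only [Function.uncurry]
    have hpos : 0 < 1 + ‖z.2‖ := by positivity
    by_cases ht : t ∈ Icc (-R) R
    · rw [indicator_of_mem ht, norm_mul, norm_mul, Real.norm_eq_abs, Real.norm_eq_abs,
        Real.norm_eq_abs, abs_of_pos hpos]
      have := hTb t (flow t z)
      have e : (flow t z).2 = z.2 := rfl
      rw [e] at this
      calc |w z.2| * |transportDeriv φ t (flow t z)| ≤ |w z.2| * (C * (1 + ‖z.2‖)) :=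
            mul_le_mul_of_nonneg_left this (abs_nonneg _)
        _ = C * ((1 + ‖z.2‖) * |w z.2|) := by ring
    · rw [indicator_of_notMem ht]
      have : R < |t| := by
        by_contra hcon
        push Not at hcon
        exact ht (abs_le.1 hcon)
      rw [hTsupp t _ this]; simp
  rw [integral_integral_swap hint]
  -- step 3: the fundamental theorem of calculus along characteristics
  have h3 : ∀ z : Torus × V, ∫ t in Ioi (0 : ℝ), w z.2 * transportDeriv φ t (flow t z) =
      -(w z.2 * φ (0, z)) := by
    intro z
    rw [integral_const_mul, integral_along hder hTm hsupp hTsupp hTb z]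
    ring
  simp_rw [h3]
  rw [integral_neg]
  ring

end Vale.Agent.Lib.P140
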