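import Mathlib
import Vale.Agent.Lib.P140.RenormDefs
import Vale.Agent.Lib.P140.Flow

/-!
# Regularity, measurability and bounds of test functions and of their transport derivatives
-/

namespace Vale.Agent.Lib.P140

open MeasureTheory Set

/-- The pull-back of a function on `R × T^3 × R^3` to `R × R^3 × R^3`. -/
def pullback (φ : ℝ × (Torus × V) → ℝ) (q : ℝ × (V × V)) : ℝ := φ (q.1, (proj q.2.1, q.2.2))

/-- A measurable right inverse of `proj`, with values in the unit cube. -/
noncomputable def lift (x : Torus) : V :=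
  WithLp.toLp 2 (fun i => ((AddCircle.equivIco (1 : ℝ) 0 (x i) : Set.Ico (0 : ℝ) (0 + 1)) : ℝ))

lemma proj_lift (x : Torus) : proj (lift x) = x := by
  funext i
  simp only [proj, lift]
  exact AddCircle.coe_equivIco

lemma measurable_lift : Measurable lift := by
  unfold lift
  refine (WithLp.measurable_toLp 2 (Fin 3 → ℝ)).comp ?_
  refine measurable_pi_lambda _ fun i => ?_
  exact measurable_subtype_coe.comp
    ((AddCircle.measurableEquivIco (1 : ℝ) 0).measurable.comp (measurable_pi_apply i))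

lemma norm_lift_le (x : Torus) : ‖lift x‖ ≤ 2 := by
  rw [EuclideanSpace.norm_eq]
  have h : ∀ i : Fin 3, ‖(lift x) i‖ ^ 2 ≤ 1 := by
    intro i
    have hm := (AddCircle.equivIco (1 : ℝ) 0 (x i)).2
    have h0 : 0 ≤ ((AddCircle.equivIco (1 : ℝ) 0 (x i) : Set.Ico (0 : ℝ) (0 + 1)) : ℝ) := hm.1
    have h1 : ((AddCircle.equivIco (1 : ℝ) 0 (x i) : Set.Ico (0 : ℝ) (0 + 1)) : ℝ) < 0 + 1 := hm.2
    simp only [lift]
    rw [Real.norm_eq_abs, sq_abs]
    nlinarith
  have hs : ∑ i : Fin 3, ‖(lift x) i‖ ^ 2 ≤ 3 := by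
    calc ∑ i : Fin 3, ‖(lift x) i‖ ^ 2 ≤ ∑ _i : Fin 3, (1 : ℝ) := Finset.sum_le_sum fun i _ => h i
      _ = 3 := by simp
  calc Real.sqrt (∑ i : Fin 3, ‖(lift x) i‖ ^ 2) ≤ Real.sqrt 4 :=
        Real.sqrt_le_sqrt (by linarith)
    _ = 2 := by
        rw [show (4 : ℝ) = 2 ^ 2 by norm_num]
        exact Real.sqrt_sq (by norm_num)

section Smooth

variable {φ : ℝ × (Torus × V) → ℝ}

lemma eq_pullback_lift (φ : ℝ × (Torus × V) → ℝ) (q : ℝ × (Torus × V)) :
    φ q = pullback φ (q.1, (lift q.2.1, q.2.2)) := by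
  simp only [pullback, proj_lift]

lemma measurable_liftMap :
    Measurable (fun q : ℝ × (Torus × V) => ((q.1, (lift q.2.1, q.2.2)) : ℝ × (V × V))) :=
  measurable_fst.prodMk
    ((measurable_lift.comp (measurable_fst.comp measurable_snd)).prodMk
      (measurable_snd.comp measurable_snd))

lemma measurable_of_pullback (hs : Continuous (pullback φ)) : Measurable φ := by
  have h : φ = (pullback φ) ∘ (fun q : ℝ × (Torus × V) => (q.1, (lift q.2.1, q.2.2))) := by
    funext q
    exact eq_pullback_lift φ q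
  rw [h]
  exact hs.measurable.comp measurable_liftMap

lemma along_eq (φ : ℝ × (Torus × V) → ℝ) (t : ℝ) (y v : V) :
    (fun s : ℝ => φ (t + s, flow s (proj y, v))) =
      fun s : ℝ => pullback φ (t + s, (y + s • v, v)) := by
  funext s
  simp only [pullback, flow, proj_add]

lemma hasDerivAt_line (t : ℝ) (y v : V) :
    HasDerivAt (fun s : ℝ => ((t + s, (y + s • v, v)) : ℝ × (V × V))) (1, (v, 0)) 0 := by
  have h1 : HasDerivAt (fun s : ℝ => t + s) 1 0 := by
    simpa using (hasDerivAt_id (0 : ℝ)).const_add t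
  have h2 : HasDerivAt (fun s : ℝ => y + s • v) v 0 := by
    have := ((hasDerivAt_id (0 : ℝ)).smul_const v).const_add y
    simpa using this
  have h3 : HasDerivAt (fun _ : ℝ => v) 0 0 := hasDerivAt_const _ _
  exact h1.prodMk (h2.prodMk h3)

lemma hasDerivAt_along' (hs : ContDiff ℝ ((⊤ : ℕ∞) : WithTop ℕ∞) (pullback φ))
    (t : ℝ) (y v : V) :
    HasDerivAt (fun s : ℝ => φ (t + s, flow s (proj y, v)))
      (fderiv ℝ (pullback φ) (t, (y, v)) (1, (v, 0))) 0 := by
  rw [along_eq]
  have hd : DifferentiableAt ℝ (pullback φ) (t, (y, v)) :=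
    (hs.differentiable (by simp)).differentiableAt
  have hf : HasFDerivAt (pullback φ) (fderiv ℝ (pullback φ) (t, (y, v)))
      ((fun s : ℝ => ((t + s, (y + s • v, v)) : ℝ × (V × V))) 0) := by
    simpa using hd.hasFDerivAt
  exact hf.comp_hasDerivAt 0 (hasDerivAt_line t y v)

lemma transportDeriv_eq_fderiv (hs : ContDiff ℝ ((⊤ : ℕ∞) : WithTop ℕ∞) (pullback φ))
    (t : ℝ) (y v : V) :
    transportDeriv φ t (proj y, v) = fderiv ℝ (pullback φ) (t, (y, v)) (1, (v, 0)) :=
  (hasDerivAt_along' hs t y v).deriv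

lemma hasDerivAt_along (hs : ContDiff ℝ ((⊤ : ℕ∞) : WithTop ℕ∞) (pullback φ))
    (t : ℝ) (z : Torus × V) :
    HasDerivAt (fun s : ℝ => φ (t + s, flow s z)) (transportDeriv φ t z) 0 := by
  obtain ⟨x, v⟩ := z
  have h := hasDerivAt_along' hs t (lift x) v
  rw [proj_lift] at h
  have h2 := h.deriv
  unfold transportDeriv
  rw [h2]
  exact h

lemma transportDeriv_eq_lift (hs : ContDiff ℝ ((⊤ : ℕ∞) : WithTop ℕ∞) (pullback φ))
    (t : ℝ) (z : Torus × V) :
    transportDeriv φ t z = fderiv ℝ (pullback φ) (t, (lift z.1, z.2)) (1, (z.2, 0)) := by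
  obtain ⟨x, v⟩ := z
  have h := transportDeriv_eq_fderiv hs t (lift x) v
  rw [proj_lift] at h
  exact h

lemma measurable_transportDeriv (hs : ContDiff ℝ ((⊤ : ℕ∞) : WithTop ℕ∞) (pullback φ)) :
    Measurable (Function.uncurry (transportDeriv φ)) := by
  have hc : Continuous fun p : (ℝ × (V × V)) × (ℝ × (V × V)) =>
      (fderiv ℝ (pullback φ) p.1 : ℝ × (V × V) → ℝ) p.2 :=
    hs.continuous_fderiv_apply (by simp)
  have h : Function.uncurry (transportDeriv φ) =
      (fun p : (ℝ × (V × V)) × (ℝ × (V × V)) =>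
        (fderiv ℝ (pullback φ) p.1 : ℝ × (V × V) → ℝ) p.2) ∘
      (fun q : ℝ × (Torus × V) =>
        (((q.1, (lift q.2.1, q.2.2)) : ℝ × (V × V)), (((1 : ℝ), (q.2.2, (0 : V))) : ℝ × (V × V)))) := by
    funext q
    exact transportDeriv_eq_lift hs q.1 q.2
  rw [h]
  refine hc.measurable.comp (measurable_liftMap.prodMk ?_)
  exact measurable_const.prodMk ((measurable_snd.comp measurable_snd).prodMk measurable_const)

lemma transportDeriv_eq_zero_of_supp {R : ℝ} (h : ∀ (t : ℝ) (z : Torus × V), R < |t| → φ (t, z) = 0)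
    (t : ℝ) (z : Torus × V) (ht : R < |t|) : transportDeriv φ t z = 0 := by
  unfold transportDeriv
  have hc : ContinuousAt (fun s : ℝ => |t + s|) 0 := by fun_prop
  have hev : ∀ᶠ s in nhds (0 : ℝ), R < |t + s| := by
    refine hc.eventually (lt_mem_nhds ?_)
    simpa using ht
  have he : (fun s : ℝ => φ (t + s, flow s z)) =ᶠ[nhds 0] fun _ => (0 : ℝ) := by
    filter_upwards [hev] with s hs
    exact h _ _ hs
  rw [he.deriv_eq]
  simp

end Smooth

/-- Test functions on `R × T^3 × R^3` have bounded transport derivative. -/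
theorem IsTest.bound_transportDeriv {φ : ℝ × (Torus × V) → ℝ} (h : IsTest φ) :
    ∃ C : ℝ, ∀ (t : ℝ) (z : Torus × V), |transportDeriv φ t z| ≤ C := by
  have hs : ContDiff ℝ ((⊤ : ℕ∞) : WithTop ℕ∞) (pullback φ) := h.smooth
  obtain ⟨R, hR⟩ := h.supp
  have hc : Continuous fun p : (ℝ × (V × V)) × (ℝ × (V × V)) =>
      (fderiv ℝ (pullback φ) p.1 : ℝ × (V × V) → ℝ) p.2 :=
    hs.continuous_fderiv_apply (by simp)
  have hc2 : Continuous fun q : ℝ × (V × V) =>
      (fderiv ℝ (pullback φ) q : ℝ × (V × V) → ℝ) (1, (q.2.2, 0)) := by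
    have hm : Continuous fun q : ℝ × (V × V) =>
        ((q, ((1 : ℝ), (q.2.2, (0 : V)))) : (ℝ × (V × V)) × (ℝ × (V × V))) := by fun_prop
    exact hc.comp hm
  have hK : IsCompact ((Set.Icc (-R) R) ×ˢ
      ((Metric.closedBall (0 : V) 2) ×ˢ (Metric.closedBall (0 : V) R))) :=
    isCompact_Icc.prod ((isCompact_closedBall _ _).prod (isCompact_closedBall _ _))
  obtain ⟨C, hC⟩ := hK.exists_bound_of_continuousOn hc2.continuousOn
  refine ⟨max C 0, fun t z => ?_⟩
  by_cases ht : R < |t|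
  · rw [transportDeriv_eq_zero_of_supp (fun t z h' => hR t z (Or.inl h')) t z ht]
    simp
  by_cases hv : R < ‖z.2‖
  · have he : (fun s : ℝ => φ (t + s, flow s z)) = fun _ => (0 : ℝ) := by
      funext s
      exact hR _ _ (Or.inr hv)
    unfold transportDeriv
    rw [he]
    simp
  · rw [transportDeriv_eq_lift hs]
    refine le_trans ?_ (le_max_left _ _)
    rw [← Real.norm_eq_abs]
    refine hC (t, (lift z.1, z.2)) ⟨?_, ?_, ?_⟩
    · exact abs_le.mp (not_lt.mp ht)
    · simpa using norm_lift_le z.1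
    · simpa using not_lt.mp hv

/-- The extension of a function of `(t,x)` to a function of `(t,x,v)`. -/
def extX (φ : ℝ × Torus → ℝ) (q : ℝ × (Torus × V)) : ℝ := φ (q.1, q.2.1)

lemma IsTestX.smooth_pullback {φ : ℝ × Torus → ℝ} (h : IsTestX φ) :
    ContDiff ℝ ((⊤ : ℕ∞) : WithTop ℕ∞) (pullback (extX φ)) := by
  have he : pullback (extX φ) = (fun q : ℝ × V => φ (q.1, proj q.2)) ∘
      (fun q : ℝ × (V × V) => ((q.1, q.2.1) : ℝ × V)) := by
    funext q
    rfl
  rw [he]
  exact h.smooth.comp (contDiff_fst.prodMk (contDiff_fst.comp contDiff_snd))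

/-- Test functions of `(t,x)` have a transport derivative bounded by `C (1 + |v|)`. -/
theorem IsTestX.bound_transportDeriv {φ : ℝ × Torus → ℝ} (h : IsTestX φ) :
    ∃ C : ℝ, ∀ (t : ℝ) (z : Torus × V), |transportDeriv (extX φ) t z| ≤ C * (1 + ‖z.2‖) := by
  have hs := h.smooth_pullback
  obtain ⟨R, hR⟩ := h.supp
  have hg : ContDiff ℝ ((⊤ : ℕ∞) : WithTop ℕ∞) (fun q : ℝ × V => φ (q.1, proj q.2)) := h.smooth
  have hc : Continuous fun q : ℝ × V => fderiv ℝ (fun q : ℝ × V => φ (q.1, proj q.2)) q :=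
    hg.continuous_fderiv (by simp)
  have hK : IsCompact ((Set.Icc (-R) R) ×ˢ (Metric.closedBall (0 : V) 2)) :=
    isCompact_Icc.prod (isCompact_closedBall _ _)
  obtain ⟨C, hC⟩ := hK.exists_bound_of_continuousOn hc.continuousOn
  refine ⟨max C 0, fun t z => ?_⟩
  have hpos : 0 ≤ max C 0 * (1 + ‖z.2‖) :=
    mul_nonneg (le_max_right _ _) (by positivity)
  by_cases ht : R < |t|
  · rw [transportDeriv_eq_zero_of_supp (φ := extX φ) (R := R)
      (fun t z h' => hR t z.1 h') t z ht]
    simpa using hpos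
  · obtain ⟨x, v⟩ := z
    have hline : HasDerivAt (fun s : ℝ => ((t + s, lift x + s • v) : ℝ × V)) (1, v) 0 := by
      have h1 : HasDerivAt (fun s : ℝ => t + s) 1 0 := by
        simpa using (hasDerivAt_id (0 : ℝ)).const_add t
      have h2 : HasDerivAt (fun s : ℝ => lift x + s • v) v 0 := by
        have := ((hasDerivAt_id (0 : ℝ)).smul_const v).const_add (lift x)
        simpa using this
      exact h1.prodMk h2
    have hd : DifferentiableAt ℝ (fun q : ℝ × V => φ (q.1, proj q.2)) (t, lift x) :=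
      (hg.differentiable (by simp)).differentiableAt
    have hf : HasFDerivAt (fun q : ℝ × V => φ (q.1, proj q.2))
        (fderiv ℝ (fun q : ℝ × V => φ (q.1, proj q.2)) (t, lift x))
        ((fun s : ℝ => ((t + s, lift x + s • v) : ℝ × V)) 0) := by
      simpa using hd.hasFDerivAt
    have hcomp := hf.comp_hasDerivAt 0 hline
    have he : (fun s : ℝ => extX φ (t + s, flow s (x, v))) =
        (fun q : ℝ × V => φ (q.1, proj q.2)) ∘ (fun s : ℝ => ((t + s, lift x + s • v) : ℝ × V)) := by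
      funext s
      simp only [extX, flow, Function.comp, proj_add, proj_lift]
    have hval : transportDeriv (extX φ) t (x, v) =
        fderiv ℝ (fun q : ℝ × V => φ (q.1, proj q.2)) (t, lift x) (1, v) := by
      unfold transportDeriv
      rw [he]
      exact hcomp.deriv
    rw [hval, ← Real.norm_eq_abs]
    have hb : ‖fderiv ℝ (fun q : ℝ × V => φ (q.1, proj q.2)) (t, lift x)‖ ≤ C := by
      refine hC (t, lift x) ⟨?_, ?_⟩
      · exact abs_le.mp (not_lt.mp ht)
      · simpa using norm_lift_le x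
    have hn : ‖((1 : ℝ), v)‖ ≤ 1 + ‖v‖ := by
      rw [Prod.norm_def]
      simp only [norm_one]
      exact max_le (by linarith [norm_nonneg v]) (by linarith)
    calc ‖fderiv ℝ (fun q : ℝ × V => φ (q.1, proj q.2)) (t, lift x) (1, v)‖
        ≤ ‖fderiv ℝ (fun q : ℝ × V => φ (q.1, proj q.2)) (t, lift x)‖ * ‖((1 : ℝ), v)‖ :=
          ContinuousLinearMap.le_opNorm _ _
      _ ≤ max C 0 * (1 + ‖v‖) :=
          mul_le_mul (hb.trans (le_max_left _ _)) hn (norm_nonneg _) (le_max_right _ _)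

end Vale.Agent.Lib.P140
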