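import Mathlib
import Vale.Agent.Lib.P140.RenormLog
import Vale.Agent.Lib.P140.TestBound
import Vale.Agent.Lib.P140.Stationary
import Vale.Agent.Lib.P140.Maxwellian
import Vale.Agent.Lib.P140.Conserve

/-!
# Global Maxwellians are renormalized solutions (non-vacuity of the definition)
-/

namespace Vale.Agent.Lib.P140

open MeasureTheory Set
open scoped ENNReal

/-- The real valued Maxwellian, as a function of the velocity. -/
noncomputable def maxwR (ρ θ : ℝ) (u : V) (v : V) : ℝ :=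
  ρ * Real.exp (-(‖v - u‖ ^ 2) / (2 * θ))

lemma maxwR_nonneg {ρ : ℝ} (θ : ℝ) (u : V) (hρ : 0 ≤ ρ) (v : V) : 0 ≤ maxwR ρ θ u v :=
  mul_nonneg hρ (Real.exp_pos _).le

lemma maxw_toReal {ρ : ℝ} (θ : ℝ) (u : V) (hρ : 0 ≤ ρ) (z : Torus × V) :
    (maxw ρ θ u z).toReal = maxwR ρ θ u z.2 :=
  ENNReal.toReal_ofReal (maxwR_nonneg θ u hρ z.2)

lemma measurable_maxwR (ρ θ : ℝ) (u : V) : Measurable (maxwR ρ θ u) := by
  have : Continuous (maxwR ρ θ u) := by
    unfold maxwR
    fun_prop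
  exact this.measurable

lemma integrable_maxwR_one (ρ θ : ℝ) (u : V) (hρ : 0 ≤ ρ) (hθ : 0 < θ) :
    Integrable (fun v : V => (1 + ‖v‖) * maxwR ρ θ u v) := by
  refine (integrable_moment ρ θ u hρ hθ).mono'
    (((measurable_const.add measurable_norm).mul (measurable_maxwR ρ θ u)).aestronglyMeasurable)
    (Filter.Eventually.of_forall fun v => ?_)
  have h0 := maxwR_nonneg θ u hρ v
  have h1 : (1 : ℝ) ≤ 1 + ‖v‖ := by
    have := norm_nonneg v
    linarith
  rw [Real.norm_eq_abs, abs_of_nonneg (by positivity)]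
  refine mul_le_mul_of_nonneg_right ?_ h0
  calc 1 + ‖v‖ = (1 + ‖v‖) ^ 1 := (pow_one _).symm
    _ ≤ (1 + ‖v‖) ^ 3 := pow_le_pow_right₀ h1 (by norm_num)

/-- A renormaliser grows at most linearly. -/
lemma IsRenormalizer.abs_le {β : ℝ → ℝ} (hβ : IsRenormalizer β) :
    ∃ C : ℝ, 0 ≤ C ∧ ∀ y : ℝ, 0 ≤ y → |β y| ≤ C * y := by
  obtain ⟨C, hC⟩ := hβ.bound
  have hC0 : 0 ≤ C := by
    have := hC 0 le_rfl
    have h2 := (abs_nonneg _).trans this
    simpa using h2
  refine ⟨C, hC0, fun y hy => ?_⟩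
  have hd : DifferentiableOn ℝ β (Ici 0) := hβ.c1.differentiableOn (by norm_num)
  have hb : ∀ x ∈ Ici (0 : ℝ), ‖derivWithin β (Ici 0) x‖ ≤ C := by
    intro x hx
    have hx0 : (0 : ℝ) ≤ x := hx
    refine (hC x hx0).trans ?_
    exact div_le_self hC0 (by linarith)
  have h := Convex.norm_image_sub_le_of_norm_derivWithin_le hd hb (convex_Ici 0)
    (mem_Ici.2 le_rfl) (mem_Ici.2 hy)
  rw [hβ.zero, sub_zero, sub_zero, Real.norm_eq_abs, Real.norm_eq_abs, abs_of_nonneg hy] at h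
  exact h

/-- `M β(F/M)` for a Maxwellian `F`, as a function of the velocity. -/
noncomputable def renW (β : ℝ → ℝ) (ρ θ : ℝ) (u : V) (v : V) : ℝ :=
  Mx v * β (maxwR ρ θ u v / Mx v)

lemma measurable_renW {β : ℝ → ℝ} (hβ : IsRenormalizer β) (ρ θ : ℝ) (u : V) (hρ : 0 ≤ ρ) :
    Measurable (renW β ρ θ u) := by
  have hc : Continuous (fun y : ℝ => β (max y 0)) :=
    hβ.c1.continuousOn.comp_continuous (by fun_prop) (fun y => mem_Ici.2 (le_max_right _ _))
  have e : renW β ρ θ u = fun v => Mx v * (fun y : ℝ => β (max y 0)) (maxwR ρ θ u v / Mx v) := by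
    funext v
    unfold renW
    simp only
    rw [max_eq_left (div_nonneg (maxwR_nonneg θ u hρ v) (Mx_pos v).le)]
  rw [e]
  exact measurable_Mx.mul (hc.measurable.comp ((measurable_maxwR ρ θ u).div measurable_Mx))

lemma integrable_renW {β : ℝ → ℝ} (hβ : IsRenormalizer β) (ρ θ : ℝ) (u : V) (hρ : 0 ≤ ρ)
    (hθ : 0 < θ) : Integrable (fun v : V => (1 + ‖v‖) * renW β ρ θ u v) := by
  obtain ⟨C, hC0, hC⟩ := hβ.abs_le
  refine ((integrable_maxwR_one ρ θ u hρ hθ).const_mul C).mono'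
    (((measurable_const.add measurable_norm).mul
      (measurable_renW hβ ρ θ u hρ)).aestronglyMeasurable)
    (Filter.Eventually.of_forall fun v => ?_)
  have h0 := maxwR_nonneg θ u hρ v
  have hM := Mx_pos v
  have h1 : (0 : ℝ) ≤ 1 + ‖v‖ := by positivity
  have h2 := hC (maxwR ρ θ u v / Mx v) (div_nonneg h0 hM.le)
  have h3 : |renW β ρ θ u v| ≤ C * maxwR ρ θ u v := by
    unfold renW
    rw [abs_mul, abs_of_pos hM]
    calc Mx v * |β (maxwR ρ θ u v / Mx v)| ≤ Mx v * (C * (maxwR ρ θ u v / Mx v)) :=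
          mul_le_mul_of_nonneg_left h2 hM.le
      _ = C * maxwR ρ θ u v := by
          field_simp
  rw [Real.norm_eq_abs, abs_mul, abs_of_nonneg h1]
  calc (1 + ‖v‖) * |renW β ρ θ u v| ≤ (1 + ‖v‖) * (C * maxwR ρ θ u v) :=
        mul_le_mul_of_nonneg_left h3 h1
    _ = C * ((1 + ‖v‖) * maxwR ρ θ u v) := by ring

lemma Qr_maxw (ρ θ : ℝ) (u : V) (hρ : 0 ≤ ρ) (z : Torus × V) : Qr (maxw ρ θ u) z = 0 := by
  unfold Qr
  rw [gain_maxw ρ θ u hρ, sub_self]

lemma one_le_wm (v : V) : 1 ≤ wm v := by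
  unfold wm
  rw [← ENNReal.ofReal_one]
  apply ENNReal.ofReal_le_ofReal
  have : 0 ≤ ‖v‖ ^ 2 := by positivity
  linarith

lemma renormInt_loss_maxw (ρ θ : ℝ) (u : V) (hρ : 0 ≤ ρ) (hθ : 0 < θ) (T : ℝ) :
    renormInt loss (fun _ => maxw ρ θ u) T < ∞ := by
  obtain ⟨K, hKfin, hK⟩ := maxw_thirdMoment ρ θ u hρ hθ
  have hm : Measurable (Function.uncurry (fun _ : ℝ => maxw ρ θ u)) :=
    (measurable_maxw ρ θ u).comp measurable_snd
  have hσ : surf univ < ∞ := measure_lt_top _ _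
  have h1 : ∀ t : ℝ, ∫⁻ z : Torus × V, loss (maxw ρ θ u) z /
      (1 + maxw ρ θ u z / ENNReal.ofReal (Mx z.2)) ≤ surf univ * (K * K) := by
    intro t
    refine le_trans (lintegral_mono fun z => ?_)
      (int_loss_le hm t (Filter.Eventually.of_forall hK))
    calc loss (maxw ρ θ u) z / (1 + maxw ρ θ u z / ENNReal.ofReal (Mx z.2))
        ≤ loss (maxw ρ θ u) z / 1 := ENNReal.div_le_div_left le_self_add _
      _ = 1 * loss (maxw ρ θ u) z := by rw [div_one, one_mul]
      _ ≤ wm z.2 * loss (maxw ρ θ u) z := mul_le_mul_left (one_le_wm z.2) _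
  unfold renormInt
  calc ∫⁻ t in Ioc 0 T, ∫⁻ z : Torus × V, loss (maxw ρ θ u) z /
        (1 + maxw ρ θ u z / ENNReal.ofReal (Mx z.2))
      ≤ ∫⁻ _t in Ioc 0 T, surf univ * (K * K) := lintegral_mono fun t => h1 t
    _ = surf univ * (K * K) * volume (Ioc 0 T) := setLIntegral_const _ _
    _ < ∞ := ENNReal.mul_lt_top (ENNReal.mul_lt_top hσ (ENNReal.mul_lt_top hKfin hKfin))
        (by simp)

theorem maxw_isRenormalizedSolution (ρ θ : ℝ) (u : V) (hρ : 0 ≤ ρ) (hθ : 0 < θ) :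
    IsRenormalizedSolution (maxw ρ θ u) (fun _ => maxw ρ θ u) where
  meas := (measurable_maxw ρ θ u).comp measurable_snd
  cont := fun ψ _ _ => continuousOn_const
  bound := by
    intro T
    obtain ⟨K, hKfin, hK⟩ := maxw_thirdMoment ρ θ u hρ hθ
    have hm : Measurable (Function.uncurry (fun _ : ℝ => maxw ρ θ u)) :=
      (measurable_maxw ρ θ u).comp measurable_snd
    refine ⟨K, hKfin, fun t _ => ?_⟩
    rw [← mInt_eq (measurable_maxw ρ θ u)]
    exact int_wm_le hm t (Filter.Eventually.of_forall hK)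
  gain_int := by
    intro T
    have h := renormInt_loss_maxw ρ θ u hρ hθ T
    unfold renormInt at h ⊢
    simp only [gain_maxw ρ θ u hρ]
    exact h
  loss_int := renormInt_loss_maxw ρ θ u hρ hθ
  renorm := by
    intro β hβ φ hφ
    obtain ⟨R, hR⟩ := hφ.supp
    obtain ⟨C, hC⟩ := hφ.bound_transportDeriv
    have hs : ContDiff ℝ ((⊤ : ℕ∞) : WithTop ℕ∞) (pullback φ) := hφ.smooth
    have hsupp : ∀ (t : ℝ) (z : Torus × V), R < |t| → φ (t, z) = 0 :=
      fun t z ht => hR t z (Or.inl ht)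
    have hC0 : 0 ≤ C := (abs_nonneg _).trans (hC 0 (0, 0))
    have hTb : ∀ (t : ℝ) (z : Torus × V), |transportDeriv φ t z| ≤ C * (1 + ‖z.2‖) := by
      intro t z
      refine (hC t z).trans ?_
      have : 0 ≤ C * ‖z.2‖ := by positivity
      linarith
    have key := stationary_weak (measurable_renW hβ ρ θ u hρ)
      (measurable_of_pullback hs.continuous) (hasDerivAt_along hs) (measurable_transportDeriv hs)
      hsupp (transportDeriv_eq_zero_of_supp hsupp) hTb (integrable_renW hβ ρ θ u hρ hθ)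
    have e : ∀ z : Torus × V, Mx z.2 * β (Gr (maxw ρ θ u) z) = renW β ρ θ u z.2 := by
      intro z
      unfold Gr renW
      rw [maxw_toReal θ u hρ]
    simp only [e, Qr_maxw ρ θ u hρ, mul_zero, zero_mul, integral_zero, add_zero]
    exact key
  massBalance := by
    intro φ hφ
    obtain ⟨R, hR⟩ := hφ.supp
    obtain ⟨C, hC⟩ := hφ.bound_transportDeriv
    have hs := hφ.smooth_pullback
    have hsupp : ∀ (t : ℝ) (z : Torus × V), R < |t| → extX φ (t, z) = 0 :=
      fun t z ht => hR t z.1 ht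
    have key := stationary_weak (measurable_maxwR ρ θ u)
      (measurable_of_pullback hs.continuous) (hasDerivAt_along hs) (measurable_transportDeriv hs)
      hsupp (transportDeriv_eq_zero_of_supp hsupp) hC (integrable_maxwR_one ρ θ u hρ hθ)
    simp only [maxw_toReal θ u hρ]
    exact key
  energy_le := fun _ _ => le_rfl

end Vale.Agent.Lib.P140
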